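import Vale.Agent.Lib.P310.M.RawFold

/-!
Unary arithmetic on right spines and a clipped fold: the fold of two computed functions, where all
partial results are cut off at a polynomial in the size of the parameter. The cut-off makes the
size bound of `PTraw.fold` hold on all trees, not only on encodings.
-/

namespace Vale.Agent.Lib.P310.M

/-- The length of the right spine. -/
def spine : T → ℕ
  | T.leaf => 0
  | T.node _ r => spine r + 1

lemma spine_le_sz (x : T) : spine x ≤ sz x := by
  induction x with
  | leaf => simp [spine, sz_leaf]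
  | node l r _ ihr =>
    rw [sz_node]
    simp only [spine]
    omega

lemma sz_cdr_le (x : T) : sz (cdr x) ≤ sz x := by
  cases x with
  | leaf => exact le_rfl
  | node l r =>
    rw [sz_node]
    simp only [cdr]
    omega

lemma spine_cdr (x : T) : spine (cdr x) = spine x - 1 := by
  cases x with
  | leaf => rfl
  | node l r => simp [cdr, spine]

lemma spine_bitsT (l : List Bool) : spine (bitsT l) = l.length := by
  induction l with
  | nil => rfl
  | cons a l ih => simp [bitsT, spine, ih]

/-- Concatenation along the right spine of `l`, ending in `a`. -/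
def appS (a l : T) : T :=
  foldT (fun a => a) (fun z => T.node (car (cdr z)) (cdr (cdr z))) a l

@[simp] lemma appS_leaf (a : T) : appS a T.leaf = a := rfl

@[simp] lemma appS_node (a y r : T) : appS a (T.node y r) = T.node y (appS a r) := rfl

lemma spine_appS (a l : T) : spine (appS a l) = spine a + spine l := by
  induction l with
  | leaf => simp [spine]
  | node y r _ ihr =>
    simp only [appS_node, spine, ihr]
    omega

lemma sz_appS (a l : T) : sz (appS a l) + 1 = sz a + sz l := by
  induction l with
  | leaf => simp [sz_leaf]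
  | node y r _ ihr =>
    simp only [appS_node, sz_node]
    omega

theorem ptAppS : PTraw (fun x => appS (car x) (cdr x)) := by
  refine PTraw.fold (b := fun a => a) (s := fun z => T.node (car (cdr z)) (cdr (cdr z)))
    PTraw.id (PTraw.pair (PTraw.comp PTraw.car PTraw.cdr) (PTraw.comp PTraw.cdr PTraw.cdr))
    ⟨1, 1, ?_⟩
  intro a l
  have h := sz_appS a l
  have h' : foldT (fun a => a) (fun z => T.node (car (cdr z)) (cdr (cdr z))) a l = appS a l := rfl
  rw [h', one_mul, pow_one]
  omega

/-- Multiplication of spine lengths. -/
def mulS (a l : T) : T :=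
  foldT (fun _ => T.leaf) (fun z => appS (car z) (cdr (cdr z))) a l

@[simp] lemma mulS_leaf (a : T) : mulS a T.leaf = T.leaf := rfl

@[simp] lemma mulS_node (a y r : T) : mulS a (T.node y r) = appS a (mulS a r) := rfl

lemma spine_mulS (a l : T) : spine (mulS a l) = spine a * spine l := by
  induction l with
  | leaf => simp [spine]
  | node y r _ ihr =>
    simp only [mulS_node, spine_appS, ihr, spine]
    ring

lemma sz_mulS_le (a l : T) : sz (mulS a l) ≤ spine l * sz a + 1 := by
  induction l with
  | leaf => simp [spine, sz_leaf]
  | node y r _ ihr =>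
    have h := sz_appS a (mulS a r)
    simp only [mulS_node, spine]
    have e : (spine r + 1) * sz a = spine r * sz a + sz a := by ring
    omega

theorem ptMulS : PTraw (fun x => mulS (car x) (cdr x)) := by
  refine PTraw.fold (b := fun _ => T.leaf) (s := fun z => appS (car z) (cdr (cdr z)))
    (PTraw.const T.leaf)
    (PTraw.comp ptAppS (PTraw.pair PTraw.car (PTraw.comp PTraw.cdr PTraw.cdr)))
    ⟨1, 2, ?_⟩
  intro a l
  have h' : foldT (fun _ => T.leaf) (fun z => appS (car z) (cdr (cdr z))) a l = mulS a l := rfl
  rw [h', one_mul]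
  have h1 := sz_mulS_le a l
  have h2 : spine l * sz a + 1 ≤ (sz a + sz l + 1) ^ 2 := by
    have h3 := spine_le_sz l
    have h4 : spine l * sz a ≤ sz l * sz a := Nat.mul_le_mul_right _ h3
    nlinarith
  omega

/-- Cut-off subtraction of spine lengths: drop from `b` one spine node per spine node of `p`. -/
def minusS (b p : T) : T :=
  foldT (fun a => a) (fun z => cdr (cdr (cdr z))) b p

@[simp] lemma minusS_leaf (a : T) : minusS a T.leaf = a := rfl

@[simp] lemma minusS_node (a y r : T) : minusS a (T.node y r) = cdr (minusS a r) := rfl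

lemma spine_minusS (b p : T) : spine (minusS b p) = spine b - spine p := by
  induction p with
  | leaf => simp [spine]
  | node y r _ ihr =>
    simp only [minusS_node, spine_cdr, ihr, spine]
    omega

lemma sz_minusS_le (b p : T) : sz (minusS b p) ≤ sz b := by
  induction p with
  | leaf => simp
  | node y r _ ihr =>
    simp only [minusS_node]
    exact (sz_cdr_le _).trans ihr

theorem ptMinusS : PTraw (fun x => minusS (car x) (cdr x)) := by
  refine PTraw.fold (b := fun a => a) (s := fun z => cdr (cdr (cdr z)))
    PTraw.id (PTraw.comp PTraw.cdr (PTraw.comp PTraw.cdr PTraw.cdr))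
    ⟨1, 1, ?_⟩
  intro a l
  have h' : foldT (fun a => a) (fun z => cdr (cdr (cdr z))) a l = minusS a l := rfl
  rw [h', one_mul, pow_one]
  have := sz_minusS_le a l
  omega

lemma eq_leaf_iff_spine (x : T) (hx : x = T.leaf ∨ spine x ≠ 0) : x = T.leaf ↔ spine x = 0 := by
  rcases hx with rfl | h
  · simp [spine]
  · constructor
    · rintro rfl
      simp [spine]
    · intro h0
      exact absurd h0 h

lemma eq_leaf_of_spine {x : T} (h : spine x = 0) : x = T.leaf := by
  cases x with
  | leaf => rfl
  | node l r => simp [spine] at h

/-- The unary tree of a number. -/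
def unaryT : ℕ → T
  | 0 => T.leaf
  | n + 1 => T.node T.leaf (unaryT n)

lemma spine_unaryT (n : ℕ) : spine (unaryT n) = n := by
  induction n with
  | zero => rfl
  | succ n ih => simp [unaryT, spine, ih]

/-- A tree of spine length `sz x`. -/
def sizeT (x : T) : T := bitsT (ser x)

lemma spine_sizeT (x : T) : spine (sizeT x) = sz x := by
  simp [sizeT, spine_bitsT, sz]

theorem ptSizeT : PTraw sizeT := PTraw.serT

/-- A tree of spine length `c * (sz x) ^ d`. -/
def polT (c : ℕ) : ℕ → T → T
  | 0, _ => unaryT c
  | d + 1, x => mulS (polT c d x) (sizeT x)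

lemma spine_polT (c d : ℕ) (x : T) : spine (polT c d x) = c * sz x ^ d := by
  induction d with
  | zero => simp [polT, spine_unaryT]
  | succ d ih =>
    simp only [polT, spine_mulS, ih, spine_sizeT]
    ring

theorem ptPolT (c d : ℕ) : PTraw (polT c d) := by
  induction d with
  | zero => exact PTraw.const (unaryT c)
  | succ d ih =>
    have h := PTraw.comp ptMulS (PTraw.pair ih ptSizeT)
    exact h

/-- The cut-off: keep `r` when its size is at most `c * (sz A) ^ d`. -/
def clipT (c d : ℕ) (A r : T) : T :=
  if minusS (sizeT r) (polT c d A) = T.leaf then r else T.leaf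

lemma clipT_of_le {c d : ℕ} {A r : T} (h : sz r ≤ c * sz A ^ d) : clipT c d A r = r := by
  have h0 : minusS (sizeT r) (polT c d A) = T.leaf := by
    apply eq_leaf_of_spine
    rw [spine_minusS, spine_sizeT, spine_polT]
    omega
  simp [clipT, h0]

lemma sz_clipT_le (c d : ℕ) (A r : T) : sz (clipT c d A r) ≤ c * sz A ^ d + 1 := by
  unfold clipT
  split_ifs with h0
  · have h1 : spine (minusS (sizeT r) (polT c d A)) = 0 := by rw [h0]; rfl
    rw [spine_minusS, spine_sizeT, spine_polT] at h1
    omega
  · simp [sz_leaf]

theorem ptClipT (c d : ℕ) : PTraw (fun z => clipT c d (car z) (cdr z)) := by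
  have h1 : PTraw (fun z => minusS (sizeT (cdr z)) (polT c d (car z))) :=
    PTraw.comp ptMinusS
      (PTraw.pair (PTraw.comp ptSizeT PTraw.cdr) (PTraw.comp (ptPolT c d) PTraw.car))
  exact PTraw.ifLeaf h1 PTraw.cdr (PTraw.const T.leaf)

/-- The clipped fold. `B` and `S` agree with `b` and `s` as long as the values stay below the bound,
where the parameter is a pair of the original parameter and an extra tree. -/
theorem ptFoldClip {b s : T → T} (hb : PTraw b) (hs : PTraw s) (c d : ℕ) :
    ∃ B S : T → T, PTraw (fun x => foldT B S (car x) (cdr x)) ∧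
      (∀ a L, sz (b a) ≤ c * sz (T.node a L) ^ d → B (T.node a L) = b a) ∧
      (∀ a L y acc, sz (s (T.node a (T.node y acc))) ≤ c * sz (T.node a L) ^ d →
        S (T.node (T.node a L) (T.node y acc)) = s (T.node a (T.node y acc))) := by
  refine ⟨fun A => clipT c d A (b (car A)),
    fun z => clipT c d (car z) (s (T.node (car (car z)) (cdr z))), ?_, ?_, ?_⟩
  · refine PTraw.fold ?_ ?_ ⟨c + 1, d, ?_⟩
    · exact PTraw.comp (ptClipT c d) (PTraw.pair PTraw.id (PTraw.comp hb PTraw.car))
    · exact PTraw.comp (ptClipT c d)
        (PTraw.pair PTraw.car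
          (PTraw.comp hs (PTraw.pair (PTraw.comp PTraw.car PTraw.car) PTraw.cdr)))
    · intro A l
      have key : c * sz A ^ d + 1 ≤ (c + 1) * (sz A + sz l + 1) ^ d := by
        have h1 : sz A ^ d ≤ (sz A + sz l + 1) ^ d := Nat.pow_le_pow_left (by omega) d
        have h2 : 1 ≤ (sz A + sz l + 1) ^ d := Nat.one_le_pow _ _ (by omega)
        calc c * sz A ^ d + 1 ≤ c * (sz A + sz l + 1) ^ d + (sz A + sz l + 1) ^ d :=
              Nat.add_le_add (Nat.mul_le_mul_left _ h1) h2
          _ = (c + 1) * (sz A + sz l + 1) ^ d := by ring
      cases l with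
      | leaf => exact (sz_clipT_le _ _ _ _).trans key
      | node y r =>
        have h3 := sz_clipT_le c d A
          (s (T.node (car A) (T.node y
            (foldT (fun A => clipT c d A (b (car A)))
              (fun z => clipT c d (car z) (s (T.node (car (car z)) (cdr z)))) A r))))
        exact h3.trans key
  · intro a L h
    exact clipT_of_le h
  · intro a L y acc h
    exact clipT_of_le h

end Vale.Agent.Lib.P310.M
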