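import Vale.Agent.Lib.P310.M.Tree

/-!
Structured programs on seven stacks, with a big-step semantics counting machine steps.
-/

namespace Vale.Agent.Lib.P310.M

/-- The stacks. -/
abbrev Stk := Fin 7

/-- Names of the stacks: main, two storage stacks, a temporary, a counter, input, output. -/
abbrev sA : Stk := 0
abbrev sE : Stk := 1
abbrev sF : Stk := 2
abbrev sW : Stk := 3
abbrev sD : Stk := 4
abbrev sI : Stk := 5
abbrev sO : Stk := 6

/-- The machine store: the head of a list is the top of the stack. -/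
abbrev St := Stk → List Sym

/-- Structured programs. `case s c0 c1 c2 c3` pops the top of `s` and branches on it (`c3` if the
stack is empty); `loop s c0 c1` repeatedly pops from `s`, runs `c0` on `b0` and `c1` on `b1`, and
stops on `hash` (popped) or on the empty stack. -/
inductive Cmd
  | skip
  | push (s : Stk) (a : Sym)
  | seq (c d : Cmd)
  | case (s : Stk) (c0 c1 c2 c3 : Cmd)
  | loop (s : Stk) (c0 c1 : Cmd)

/-- The store with stack `s` replaced. -/
def St.set (σ : St) (s : Stk) (l : List Sym) : St := Function.update σ s l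

/-- Big-step semantics; the last argument is the exact number of steps of the flat code. -/
inductive Eval : Cmd → St → St → ℕ → Prop
  | skip (σ : St) : Eval Cmd.skip σ σ 0
  | push (σ : St) (s : Stk) (a : Sym) : Eval (Cmd.push s a) σ (St.set σ s (a :: σ s)) 1
  | seq {c d : Cmd} {σ σ1 σ2 : St} {t1 t2 : ℕ} (h1 : Eval c σ σ1 t1) (h2 : Eval d σ1 σ2 t2) :
      Eval (Cmd.seq c d) σ σ2 (t1 + t2)
  | case0 {s : Stk} {c0 c1 c2 c3 : Cmd} {σ σ' : St} {l : List Sym} {t : ℕ}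
      (hs : σ s = Sym.b0 :: l) (h : Eval c0 (St.set σ s l) σ' t) :
      Eval (Cmd.case s c0 c1 c2 c3) σ σ' (t + 2)
  | case1 {s : Stk} {c0 c1 c2 c3 : Cmd} {σ σ' : St} {l : List Sym} {t : ℕ}
      (hs : σ s = Sym.b1 :: l) (h : Eval c1 (St.set σ s l) σ' t) :
      Eval (Cmd.case s c0 c1 c2 c3) σ σ' (t + 2)
  | case2 {s : Stk} {c0 c1 c2 c3 : Cmd} {σ σ' : St} {l : List Sym} {t : ℕ}
      (hs : σ s = Sym.hash :: l) (h : Eval c2 (St.set σ s l) σ' t) :
      Eval (Cmd.case s c0 c1 c2 c3) σ σ' (t + 2)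
  | case3 {s : Stk} {c0 c1 c2 c3 : Cmd} {σ σ' : St} {t : ℕ}
      (hs : σ s = []) (h : Eval c3 σ σ' t) :
      Eval (Cmd.case s c0 c1 c2 c3) σ σ' (t + 1)
  | loop0 {s : Stk} {c0 c1 : Cmd} {σ σ1 σ2 : St} {l : List Sym} {t1 t2 : ℕ}
      (hs : σ s = Sym.b0 :: l) (h1 : Eval c0 (St.set σ s l) σ1 t1)
      (h2 : Eval (Cmd.loop s c0 c1) σ1 σ2 t2) :
      Eval (Cmd.loop s c0 c1) σ σ2 (t1 + t2 + 2)
  | loop1 {s : Stk} {c0 c1 : Cmd} {σ σ1 σ2 : St} {l : List Sym} {t1 t2 : ℕ}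
      (hs : σ s = Sym.b1 :: l) (h1 : Eval c1 (St.set σ s l) σ1 t1)
      (h2 : Eval (Cmd.loop s c0 c1) σ1 σ2 t2) :
      Eval (Cmd.loop s c0 c1) σ σ2 (t1 + t2 + 2)
  | loopH {s : Stk} {c0 c1 : Cmd} {σ : St} {l : List Sym}
      (hs : σ s = Sym.hash :: l) : Eval (Cmd.loop s c0 c1) σ (St.set σ s l) 1
  | loopE {s : Stk} {c0 c1 : Cmd} {σ : St}
      (hs : σ s = []) : Eval (Cmd.loop s c0 c1) σ σ 1

/-- The total height of all stacks. -/
def height (σ : St) : ℕ := ∑ s, (σ s).length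

end Vale.Agent.Lib.P310.M
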