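import Mathlib

/-!
Digit programs: an abstract form of the alternating programs, over states of digits.
A label is a tag with arguments; an instruction is an OR over a list of labels, an AND of two labels,
a sequence of tests and settings of digits followed by a jump, or acceptance.
-/

namespace Vale.Agent.Lib.P310.M

/-- Labels: a tag and a list of arguments. -/
abbrev Lab := ℕ × List ℕ

/-- Operations on a digit state: `inl (c, v)`: digit `c` must equal `v`; `inr (c, v, v')`: digit `c`
must equal `v` and is set to `v'`. -/
abbrev Op := (ℕ × ℕ) ⊕ (ℕ × ℕ × ℕ)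

/-- Instructions: `or`, `and`, `seq`, `acc`, as a sum type (so that they have an encoding). -/
abbrev DIns := List Lab ⊕ (Lab × Lab) ⊕ (List Op × Lab) ⊕ Unit

/-- The OR instruction. -/
abbrev DIns.or (ls : List Lab) : DIns := Sum.inl ls
/-- The AND instruction. -/
abbrev DIns.and (a b : Lab) : DIns := Sum.inr (Sum.inl (a, b))
/-- The sequence instruction. -/
abbrev DIns.seq (ops : List Op) (l : Lab) : DIns := Sum.inr (Sum.inr (Sum.inl (ops, l)))
/-- The accepting instruction. -/
abbrev DIns.acc : DIns := Sum.inr (Sum.inr (Sum.inr ()))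

/-- A digit test. -/
abbrev Op.test (c v : ℕ) : Op := Sum.inl (c, v)
/-- A digit setting. -/
abbrev Op.set (c v v' : ℕ) : Op := Sum.inr (c, v, v')

/-- Applying one operation. -/
def applyOp (dg : ℕ → ℕ) : Op → Option (ℕ → ℕ)
  | Sum.inl (c, v) => if dg c = v then some dg else none
  | Sum.inr (c, v, v') => if dg c = v then some (Function.update dg c v') else none

/-- Applying a list of operations. -/
def applyOps : List Op → (ℕ → ℕ) → Option (ℕ → ℕ)
  | [], dg => some dg
  | o :: l, dg =>
    match applyOp dg o with
    | some dg' => applyOps l dg'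
    | none => none

/-- Acceptance of a digit state at a label: a least fixed point. -/
inductive DAcc (ins : Lab → DIns) : Lab → (ℕ → ℕ) → Prop
  | acc {l : Lab} {dg : ℕ → ℕ} (h : ins l = DIns.acc) : DAcc ins l dg
  | or {l l' : Lab} {ls : List Lab} {dg : ℕ → ℕ} (h : ins l = DIns.or ls) (hm : l' ∈ ls)
      (h' : DAcc ins l' dg) : DAcc ins l dg
  | and {l a b : Lab} {dg : ℕ → ℕ} (h : ins l = DIns.and a b) (ha : DAcc ins a dg)
      (hb : DAcc ins b dg) : DAcc ins l dg
  | seq {l l' : Lab} {ops : List Op} {dg dg' : ℕ → ℕ} (h : ins l = DIns.seq ops l')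
      (ho : applyOps ops dg = some dg') (h' : DAcc ins l' dg') : DAcc ins l dg

/-- The children of an instruction. -/
def DIns.children : DIns → List Lab
  | Sum.inl ls => ls
  | Sum.inr (Sum.inl (a, b)) => [a, b]
  | Sum.inr (Sum.inr (Sum.inl (_, l))) => [l]
  | Sum.inr (Sum.inr (Sum.inr _)) => []

/-- The columns and digit values of the operations of an instruction are in range. -/
def DIns.opsOk (nc q : ℕ) : DIns → Prop
  | Sum.inr (Sum.inr (Sum.inl (ops, _))) =>
    ops ≠ [] ∧ ∀ o ∈ ops, match o with
      | Sum.inl (c, v) => c < nc ∧ v < q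
      | Sum.inr (c, v, v') => c < nc ∧ v < q ∧ v' < q
  | _ => True

/-- A well-formed digit program on `nc` digit columns with digits below `q`: the list of labels is
closed under the children of instructions, and the operations are in range. -/
structure DWF (nc q : ℕ) (labs : List Lab) (ins : Lab → DIns) : Prop where
  closed : ∀ l ∈ labs, ∀ l' ∈ (ins l).children, l' ∈ labs
  opsOk : ∀ l ∈ labs, (ins l).opsOk nc q

end Vale.Agent.Lib.P310.M
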