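import Vale.Agent.Lib.P310.N.NetDefs

/-!
Labels as lists of bits.
-/

namespace Vale.Agent.Lib.P310.M

open Vale.Agent.Lib.P310.N

/-- The bits of a label. -/
def labD {b : ℕ} (x : Sg b) : List Bool := List.ofFn fun i => decide (x i = 1)

/-- The label of a list of bits. -/
def ofBits {b : ℕ} (l : List Bool) : Sg b := fun i => if l.getD i.val false then 1 else 0

/-- Bitwise exclusive or of lists. -/
def xorL (a c : List Bool) : List Bool := List.zipWith xor a c

/-- All lists of `b` bits, in lexicographic order. -/
def allVec : ℕ → List (List Bool)
  | 0 => [[]]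
  | b + 1 => (allVec b).flatMap fun v => [false :: v, true :: v]

/-! (module M-LAB) -/

private lemma zmod2_cases (a : ZMod 2) : a = 0 ∨ a = 1 := by
  revert a; decide

lemma ofBits_labD {b : ℕ} (x : Sg b) : (ofBits (labD x) : Sg b) = x := by
  funext i
  have hi : i.val < (labD x).length := by simp [labD]
  have h : (labD x).getD i.val false = decide (x i = 1) := by
    rw [List.getD_eq_getElem _ _ hi]
    simp [labD]
  simp only [ofBits, h]
  rcases zmod2_cases (x i) with h0 | h1
  · simp [h0]
  · simp [h1]

lemma labD_length {b : ℕ} (x : Sg b) : (labD x).length = b := by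
  simp [labD]

private lemma decide_eq_iff_bit {a : ZMod 2} {c : Bool} (h : a = if c then 1 else 0) :
    decide (a = 1) = c := by
  subst h
  cases c <;> simp

lemma labD_ofBits {b : ℕ} {l : List Bool} (h : l.length = b) : labD (ofBits l : Sg b) = l := by
  apply List.ext_getElem
  · simp [labD, h]
  · intro i hi1 hi2
    have hb : i < b := by simpa [labD] using hi1
    have hval : (ofBits l : Sg b) ⟨i, hb⟩ = if l[i] then 1 else 0 := by
      simp only [ofBits]
      rw [List.getD_eq_getElem _ _ hi2]
    simp only [labD, List.getElem_ofFn]
    rw [decide_eq_iff_bit hval]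

lemma labD_inj {b : ℕ} : Function.Injective (labD : Sg b → List Bool) := by
  intro x y h
  rw [← ofBits_labD x, ← ofBits_labD y, h]

lemma labD_add {b : ℕ} (x y : Sg b) : labD (x + y) = xorL (labD x) (labD y) := by
  apply List.ext_getElem
  · simp [labD, xorL]
  · intro i hi1 hi2
    have hb : i < b := by simpa [labD] using hi1
    simp only [labD, xorL, List.getElem_ofFn, List.getElem_zipWith, Pi.add_apply]
    rcases zmod2_cases (x ⟨i, hb⟩) with h0 | h0 <;> rcases zmod2_cases (y ⟨i, hb⟩) with h1 | h1 <;>
      simp [h0, h1]

lemma allVec_length (b : ℕ) : (allVec b).length = 2 ^ b := by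
  induction b with
  | zero => simp [allVec]
  | succ b ih =>
    simp only [allVec, List.length_flatMap, List.length_cons, List.length_nil]
    simp [ih, pow_succ]

lemma mem_allVec {b : ℕ} {l : List Bool} : l ∈ allVec b ↔ l.length = b := by
  induction b generalizing l with
  | zero =>
    simp only [allVec, List.mem_singleton]
    exact ⟨fun h => by simp [h], fun h => List.length_eq_zero_iff.mp h⟩
  | succ b ih =>
    simp only [allVec, List.mem_flatMap, List.mem_cons, List.not_mem_nil, or_false]
    constructor
    · rintro ⟨v, hv, rfl | rfl⟩ <;> simp [ih.mp hv]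
    · intro h
      cases l with
      | nil => simp at h
      | cons a t =>
        refine ⟨t, ih.mpr (by simpa using h), ?_⟩
        cases a <;> simp

lemma allVec_nodup (b : ℕ) : (allVec b).Nodup := by
  induction b with
  | zero => simp [allVec]
  | succ b ih =>
    simp only [allVec]
    rw [List.nodup_flatMap]
    constructor
    · intro v _
      simp
    · refine ih.imp_of_mem ?_
      intro v w _ _ hne
      simp only [Function.onFun, List.disjoint_left, List.mem_cons, List.not_mem_nil, or_false]
      rintro a (rfl | rfl) (h | h) <;> simp at h <;> exact hne h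

end Vale.Agent.Lib.P310.M
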