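import Vale.Agent.Lib.P310.M.DP
import Vale.Agent.Lib.P310.M.Labels
import Vale.Agent.Lib.P310.N.Prog

/-!
From digit programs to programs on frames: numeric tables, with four kinds of nodes and `N` nodes of
each kind (only one of them is used at each index).
-/

namespace Vale.Agent.Lib.P310.M

open Vale.Agent.Lib.P310.N

/-- A reference to a node: kind (`0` gate, `1` read, `2` write, `3` accept) and index. -/
abbrev NodeD := ℕ × ℕ

/-- Numeric programs: the number `N` of indices, the gates (left children and right children per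
branch), the reads (column, label, next), the writes (translation vector, next). -/
abbrev NP := ℕ × List (List NodeD × List NodeD) × List (ℕ × List Bool × NodeD) ×
  List (List (List Bool) × NodeD)

namespace NP

variable (np : NP)

def N : ℕ := np.1
def gates : List (List NodeD × List NodeD) := np.2.1
def reads : List (ℕ × List Bool × NodeD) := np.2.2.1
def writes : List (List (List Bool) × NodeD) := np.2.2.2

/-- The node of a reference; `d` is a default index. -/
def res (d : Fin np.N) (n : NodeD) : Fin np.N ⊕ Fin np.N ⊕ Fin np.N ⊕ Fin np.N :=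
  let i : Fin np.N := if h : n.2 < np.N then ⟨n.2, h⟩ else d
  if n.1 = 0 then Sum.inl i
  else if n.1 = 1 then Sum.inr (Sum.inl i)
  else if n.1 = 2 then Sum.inr (Sum.inr (Sum.inl i))
  else Sum.inr (Sum.inr (Sum.inr i))

/-- The left children of a gate. -/
def gateL (g i : ℕ) : NodeD := ((np.gates.getD g ([], [])).1).getD i (0, g)
/-- The right children of a gate. -/
def gateR (g i : ℕ) : NodeD := ((np.gates.getD g ([], [])).2).getD i (0, g)

/-- A legal gate: all its branches are equal, or each branch has equal children. -/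
def gateOk (g : ℕ) : Prop :=
  (∀ i < np.N, ∀ i' < np.N, np.gateL g i = np.gateL g i' ∧ np.gateR g i = np.gateR g i') ∨
    ∀ i < np.N, np.gateL g i = np.gateR g i

/-- A legal write vector. -/
def writeOk (p b : ℕ) (w : ℕ) : Prop :=
  ∑ j : Fin p, (ofBits (((np.writes.getD w ([], (0, w))).1).getD j.val []) : Sg b) = 0

open scoped Classical in
/-- The program of a numeric table. Illegal gates and writes are neutralised. -/
noncomputable def toProg (p b : ℕ) (hp : 0 < p) : Prog p b where
  Ga := Fin np.N
  Re := Fin np.N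
  Wr := Fin np.N
  Ac := Fin np.N
  Br := Fin np.N
  instG := inferInstance
  instR := inferInstance
  instW := inferInstance
  instA := inferInstance
  instB := inferInstance
  gl := fun g i => if np.gateOk g.val then np.res g (np.gateL g.val i.val) else Sum.inl g
  gr := fun g i => if np.gateOk g.val then np.res g (np.gateR g.val i.val) else Sum.inl g
  gate_ok := by
    intro g
    by_cases hg : np.gateOk g.val
    · have hg' := hg
      rcases hg' with h | h
      · refine Or.inl fun i i' => ?_
        have h1 := h i.val i.isLt i'.val i'.isLt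
        simp only [if_pos hg, h1.1, h1.2, and_self]
      · refine Or.inr fun i => ?_
        simp only [if_pos hg, h i.val i.isLt]
    · refine Or.inl fun i i' => ?_
      simp only [if_neg hg, and_self]
  reJ := fun r =>
    let j := (np.reads.getD r.val (0, [], (0, 0))).1
    if h : j < p then ⟨j, h⟩ else ⟨0, hp⟩
  reS := fun r => ofBits (np.reads.getD r.val (0, [], (0, 0))).2.1
  reN := fun r => np.res r (np.reads.getD r.val (0, [], (0, r.val))).2.2
  wrD := fun w j =>
    if np.writeOk p b w.val then ofBits (((np.writes.getD w.val ([], (0, w.val))).1).getD j.val [])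
    else 0
  wrN := fun w => np.res w (np.writes.getD w.val ([], (0, w.val))).2
  wr_sum := by
    intro w
    by_cases hw : np.writeOk p b w.val
    · simp only [if_pos hw]
      exact hw
    · simp only [if_neg hw]
      exact Finset.sum_const_zero

end NP

/-- A table of instructions of a digit program. -/
abbrev DTab := List (Lab × DIns)

/-- The instruction of a label in a table. -/
def insOf (tab : DTab) (l : Lab) : DIns := (tab.lookup l).getD (DIns.or [])

/-- The primitive steps of operations: `inl (c, v)`: read digit, `inr (c, v, v')`: write digit. -/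
def primsOf (ops : List Op) : List Op :=
  ops.flatMap fun o => Sum.elim (fun x => [Sum.inl x]) (fun x => [Sum.inl (x.1, x.2.1), Sum.inr x]) o

/-- The number of nodes of a label: the primitive steps of a sequence, or one. -/
def nodeCount (i : DIns) : ℕ :=
  Sum.elim (fun _ => 1) (Sum.elim (fun _ => 1) (Sum.elim (fun x => (primsOf x.1).length) (fun _ => 1))) i

/-- The list of nodes of a table. -/
def nodesOf (tab : DTab) : List (Lab × ℕ) :=
  tab.flatMap fun x => (List.range (nodeCount x.2)).map fun i => (x.1, i)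

/-- The kind of a node. -/
def kindOf (tab : DTab) (n : Lab × ℕ) : ℕ :=
  Sum.elim (fun _ => 0) (Sum.elim (fun _ => 0) (Sum.elim
    (fun x => Sum.elim (fun _ => 1) (fun _ => 2) ((primsOf x.1).getD n.2 (Sum.inl (0, 0))))
    (fun _ => 3))) (insOf tab n.1)

/-- The reference of a node. -/
def refN (tab : DTab) (n : Lab × ℕ) : NodeD := (kindOf tab n, (nodesOf tab).idxOf n)

/-- The reference following the primitive step `i` of a sequence. -/
def nextRef (tab : DTab) (l : Lab) (i : ℕ) (x : List Op × Lab) : NodeD :=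
  if i + 1 < (primsOf x.1).length then refN tab (l, i + 1) else refN tab (x.2, 0)

/-- The children per branch of an OR instruction at a node. -/
def orChildren (tab : DTab) (n : Lab × ℕ) (ls : List Lab) : List NodeD :=
  (nodesOf tab).map fun n' =>
    if n'.2 = 0 ∧ n'.1 ∈ ls then refN tab n'
    else match ls with
      | [] => refN tab n
      | c :: _ => refN tab (c, 0)

/-- The gate table entry of a node. -/
def gateEntry (tab : DTab) (n : Lab × ℕ) : List NodeD × List NodeD :=
  let N := (nodesOf tab).length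
  Sum.elim (fun ls => (orChildren tab n ls, orChildren tab n ls))
    (Sum.elim (fun x => (List.replicate N (refN tab (x.1, 0)), List.replicate N (refN tab (x.2, 0))))
      (fun _ => (List.replicate N (0, (nodesOf tab).idxOf n), List.replicate N (0, (nodesOf tab).idxOf n))))
    (insOf tab n.1)

/-- The read table entry of a node. -/
def readEntry (lb : List (List Bool)) (tab : DTab) (n : Lab × ℕ) : ℕ × List Bool × NodeD :=
  let self : NodeD := (1, (nodesOf tab).idxOf n)
  let z := lb.getD 0 []
  Sum.elim (fun _ => (0, z, self)) (Sum.elim (fun _ => (0, z, self)) (Sum.elim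
    (fun x => Sum.elim (fun y => (y.1, lb.getD y.2 [], nextRef tab n.1 n.2 x))
      (fun _ => (0, z, self)) ((primsOf x.1).getD n.2 (Sum.inl (0, 0))))
    (fun _ => (0, z, self)))) (insOf tab n.1)

/-- The translation vector setting digit `c` from `v` to `v'`: the difference in column `c` and in
the last column. -/
def writeVec (p : ℕ) (lb : List (List Bool)) (y : ℕ × ℕ × ℕ) : List (List Bool) :=
  let x := xorL (lb.getD y.2.1 []) (lb.getD y.2.2 [])
  let z := (lb.getD 0 []).map fun _ => false
  (List.range p).map fun j => if j = y.1 ∨ j + 1 = p then x else z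

/-- The write table entry of a node. -/
def writeEntry (p : ℕ) (lb : List (List Bool)) (tab : DTab) (n : Lab × ℕ) :
    List (List Bool) × NodeD :=
  let z := (List.range p).map fun _ => (lb.getD 0 []).map fun _ => false
  let self : NodeD := (2, (nodesOf tab).idxOf n)
  Sum.elim (fun _ => (z, self)) (Sum.elim (fun _ => (z, self)) (Sum.elim
    (fun x => Sum.elim (fun _ => (z, self)) (fun y => (writeVec p lb y, nextRef tab n.1 n.2 x))
      ((primsOf x.1).getD n.2 (Sum.inl (0, 0))))
    (fun _ => (z, self)))) (insOf tab n.1)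

/-- The numeric program of a table of a digit program. -/
def npOf (p : ℕ) (lb : List (List Bool)) (tab : DTab) : NP :=
  ((nodesOf tab).length, (nodesOf tab).map (gateEntry tab),
    (nodesOf tab).map (readEntry lb tab), (nodesOf tab).map (writeEntry p lb tab))

/-- The frame of a digit state: columns below `p - 1` show the labels of the digits, the last column
is the sum of them. -/
noncomputable def frm {p b : ℕ} (lb : List (List Bool)) (dg : ℕ → ℕ) : Frame p b := fun c =>
  if c.val + 1 < p then ofBits (lb.getD (dg c.val) [])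
  else ∑ c' ∈ (Finset.univ : Finset (Fin p)).filter (fun c' => c'.val + 1 < p),
    ofBits (lb.getD (dg c'.val) [])

/-- Normal digit states: digits below `q` in the first `p - 1` columns, `0` afterwards. -/
def NormDg (p q : ℕ) (dg : ℕ → ℕ) : Prop := (∀ c, c + 1 < p → dg c < q) ∧ ∀ c, p ≤ c + 1 → dg c = 0

/-- The table of a digit program. -/
def tabOf (labs : List Lab) (ins : Lab → DIns) : DTab := labs.map fun l => (l, ins l)


/-! ### Proofs of module M-DP -/

section Proofs

variable {labs : List Lab} {ins : Lab → DIns}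

lemma insOf_tabOf {l : Lab} (hl : l ∈ labs) : insOf (tabOf labs ins) l = ins l := by
  unfold insOf tabOf
  induction labs with
  | nil => simp at hl
  | cons a t ih =>
    simp only [List.map_cons, List.lookup_cons]
    by_cases h : l = a
    · subst h
      simp
    · have hl' : l ∈ t := by simpa [h] using hl
      have h2 : (l == a) = false := by simpa using h
      rw [h2]
      exact ih hl'

lemma mem_nodesOf_iff {n : Lab × ℕ} :
    n ∈ nodesOf (tabOf labs ins) ↔ n.1 ∈ labs ∧ n.2 < nodeCount (ins n.1) := by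
  obtain ⟨l, i⟩ := n
  simp only [nodesOf, tabOf, List.mem_flatMap, List.mem_map, List.mem_range, Prod.mk.injEq]
  constructor
  · rintro ⟨x, ⟨a, ha, rfl⟩, j, hj, h1, rfl⟩
    subst h1
    exact ⟨ha, hj⟩
  · rintro ⟨h1, h2⟩
    exact ⟨(l, ins l), ⟨l, h1, rfl⟩, i, h2, rfl, rfl⟩

lemma primsOf_cons_inl (x : ℕ × ℕ) (t : List Op) :
    primsOf ((Sum.inl x : Op) :: t) = (Sum.inl x : Op) :: primsOf t := by
  simp [primsOf]

lemma primsOf_cons_inr (x : ℕ × ℕ × ℕ) (t : List Op) :
    primsOf ((Sum.inr x : Op) :: t) =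
      (Sum.inl (x.1, x.2.1) : Op) :: (Sum.inr x : Op) :: primsOf t := by
  simp [primsOf]

lemma primsOf_ne_nil {ops : List Op} (h : ops ≠ []) : primsOf ops ≠ [] := by
  cases ops with
  | nil => exact absurd rfl h
  | cons o t =>
    rcases o with x | x
    · rw [primsOf_cons_inl]; simp
    · rw [primsOf_cons_inr]; simp

/-- A write primitive is preceded by the read of the same digit. -/
lemma prim_write_pred {ops : List Op} {i : ℕ} {y : ℕ × ℕ × ℕ}
    (h : (primsOf ops).getD i (Sum.inl (0, 0)) = Sum.inr y) :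
    ∃ i', i = i' + 1 ∧ (primsOf ops).getD i' (Sum.inl (0, 0)) = Sum.inl (y.1, y.2.1) := by
  induction ops generalizing i with
  | nil => simp [primsOf] at h
  | cons o t ih =>
    rcases o with x | x
    · rw [primsOf_cons_inl] at h ⊢
      cases i with
      | zero => simp at h
      | succ i0 =>
        simp only [List.getD_cons_succ] at h
        obtain ⟨i', rfl, h2⟩ := ih h
        exact ⟨i' + 1, rfl, by simpa using h2⟩
    · rw [primsOf_cons_inr] at h ⊢
      cases i with
      | zero => simp at h
      | succ i0 =>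
        cases i0 with
        | zero =>
          simp only [List.getD_cons_succ, List.getD_cons_zero, Sum.inr.injEq] at h
          subst h
          exact ⟨0, rfl, by simp⟩
        | succ i1 =>
          simp only [List.getD_cons_succ] at h
          obtain ⟨i', rfl, h2⟩ := ih h
          exact ⟨i' + 2, rfl, by simpa using h2⟩

/-- The first primitive is a read. -/
lemma prim_zero_not_write {ops : List Op} {y : ℕ × ℕ × ℕ} :
    (primsOf ops).getD 0 (Sum.inl (0, 0)) ≠ Sum.inr y := by
  intro h
  obtain ⟨i', hi, _⟩ := prim_write_pred h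
  omega

lemma applyOps_primsOf (ops : List Op) (dg : ℕ → ℕ) :
    applyOps (primsOf ops) dg = applyOps ops dg := by
  induction ops generalizing dg with
  | nil => rfl
  | cons o t ih =>
    rcases o with ⟨c, v⟩ | ⟨c, v, v'⟩
    · rw [primsOf_cons_inl]
      simp only [applyOps, applyOp]
      split
      · rw [ih]
      · rfl
    · rw [primsOf_cons_inr]
      simp only [applyOps, applyOp]
      by_cases h : dg c = v
      · simp [h, ih]
      · simp [h]

/-- The range of the operations. -/
def OpOk (nc q : ℕ) : Op → Prop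
  | Sum.inl (c, v) => c < nc ∧ v < q
  | Sum.inr (c, v, v') => c < nc ∧ v < q ∧ v' < q

lemma prims_ok {nc q : ℕ} {ops : List Op} (h : ∀ o ∈ ops, OpOk nc q o) :
    ∀ o ∈ primsOf ops, OpOk nc q o := by
  induction ops with
  | nil => simp [primsOf]
  | cons o t ih =>
    have h1 : OpOk nc q o := h o (by simp)
    have h2 := ih fun o' ho' => h o' (by simp [ho'])
    rcases o with ⟨c, v⟩ | ⟨c, v, v'⟩
    · rw [primsOf_cons_inl]
      intro o' ho'
      rcases List.mem_cons.mp ho' with rfl | ho'
      · exact h1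
      · exact h2 o' ho'
    · rw [primsOf_cons_inr]
      intro o' ho'
      rcases List.mem_cons.mp ho' with rfl | ho'
      · exact ⟨h1.1, h1.2.1⟩
      · rcases List.mem_cons.mp ho' with rfl | ho'
        · exact h1
        · exact h2 o' ho'

lemma seq_ops_ok {nc q : ℕ} {l : Lab} (hw : DWF nc q labs ins) (hl : l ∈ labs) {ops : List Op}
    {l' : Lab} (h : ins l = DIns.seq ops l') : ops ≠ [] ∧ ∀ o ∈ ops, OpOk nc q o := by
  have h1 := hw.opsOk l hl
  rw [h] at h1
  refine ⟨h1.1, fun o ho => ?_⟩
  have h2 := h1.2 o ho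
  rcases o with ⟨c, v⟩ | ⟨c, v, v'⟩
  · exact h2
  · exact h2

lemma nodeCount_pos {nc q : ℕ} {l : Lab} (hw : DWF nc q labs ins) (hl : l ∈ labs) :
    0 < nodeCount (ins l) := by
  rcases hi : ins l with ls | ⟨a, c⟩ | ⟨ops, l'⟩ | u
  · simp [nodeCount]
  · simp [nodeCount]
  · have := (seq_ops_ok hw hl hi).1
    have h2 := primsOf_ne_nil this
    simp only [nodeCount, Sum.elim_inr, Sum.elim_inl]
    exact List.length_pos_iff.mpr h2
  · simp [nodeCount]

lemma zero_mem_nodes {nc q : ℕ} {l : Lab} (hw : DWF nc q labs ins) (hl : l ∈ labs) :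
    (l, 0) ∈ nodesOf (tabOf labs ins) :=
  mem_nodesOf_iff.mpr ⟨hl, nodeCount_pos hw hl⟩

end Proofs


section Proofs2

variable {labs : List Lab} {ins : Lab → DIns}

lemma sg_add_self' {b : ℕ} (x : Sg b) : x + x = 0 := by
  funext i
  exact CharTwo.add_self_eq_zero (x i)

lemma getD_map_lt {α β : Type} {l : List α} {f : α → β} {k : ℕ} (h : k < l.length) (d : β) :
    (l.map f).getD k d = f l[k] := by
  have h2 : k < (l.map f).length := by simpa using h
  rw [List.getD_eq_getElem _ _ h2, List.getElem_map]

lemma getD_replicate_lt {α : Type} {N k : ℕ} {a d : α} (h : k < N) :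
    (List.replicate N a).getD k d = a := by
  have h2 : k < (List.replicate N a).length := by simpa using h
  rw [List.getD_eq_getElem _ _ h2, List.getElem_replicate]

lemma idx_lt_of_mem {n : Lab × ℕ} {tab : DTab} (h : n ∈ nodesOf tab) :
    (nodesOf tab).idxOf n < (nodesOf tab).length :=
  List.idxOf_lt_length_iff.mpr h

lemma lbl_length {b v : ℕ} (h : v < 2 ^ b) : ((allVec b).getD v []).length = b := by
  have h2 : v < (allVec b).length := by rw [allVec_length]; exact h
  rw [List.getD_eq_getElem _ _ h2]
  exact mem_allVec.mp (List.getElem_mem h2)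

lemma lbl0_length (b : ℕ) : ((allVec b).getD 0 []).length = b :=
  lbl_length (by positivity)

lemma ofBits_false {b : ℕ} {l : List Bool} (h : ∀ x ∈ l, x = false) : (ofBits l : Sg b) = 0 := by
  funext i
  have : l.getD i.val false = false := by
    by_cases hi : i.val < l.length
    · rw [List.getD_eq_getElem _ _ hi]
      exact h _ (List.getElem_mem hi)
    · rw [List.getD_eq_default _ _ (by omega)]
  change (if l.getD i.val false = true then (1 : ZMod 2) else 0) = 0
  rw [this]
  simp

lemma ofBits_xorL {b : ℕ} {a e : List Bool} (ha : a.length = b) (he : e.length = b) :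
    (ofBits (xorL a e) : Sg b) = ofBits a + ofBits e := by
  funext i
  have hi := i.isLt
  have h1 : i.val < (xorL a e).length := by simp [xorL, ha, he]
  have h2 : i.val < a.length := by omega
  have h3 : i.val < e.length := by omega
  simp only [ofBits, Pi.add_apply]
  rw [List.getD_eq_getElem _ _ h1, List.getD_eq_getElem _ _ h2, List.getD_eq_getElem _ _ h3]
  simp only [xorL, List.getElem_zipWith]
  generalize a[i.val] = x
  generalize e[i.val] = y
  cases x <;> cases y <;> decide

/-- The forms of the gate entries. -/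
lemma gateEntry_or {n : Lab × ℕ} (hl : n.1 ∈ labs) {ls : List Lab} (h : ins n.1 = DIns.or ls) :
    gateEntry (tabOf labs ins) n
      = (orChildren (tabOf labs ins) n ls, orChildren (tabOf labs ins) n ls) := by
  unfold gateEntry
  rw [insOf_tabOf hl, h]
  rfl

lemma gateEntry_and {n : Lab × ℕ} (hl : n.1 ∈ labs) {a c : Lab} (h : ins n.1 = DIns.and a c) :
    gateEntry (tabOf labs ins) n
      = (List.replicate (nodesOf (tabOf labs ins)).length (refN (tabOf labs ins) (a, 0)),
         List.replicate (nodesOf (tabOf labs ins)).length (refN (tabOf labs ins) (c, 0))) := by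
  unfold gateEntry
  rw [insOf_tabOf hl, h]
  rfl

lemma gateEntry_other {n : Lab × ℕ} (hl : n.1 ∈ labs)
    {u : (List Op × Lab) ⊕ Unit} (h : ins n.1 = Sum.inr (Sum.inr u)) :
    gateEntry (tabOf labs ins) n
      = (List.replicate (nodesOf (tabOf labs ins)).length (0, (nodesOf (tabOf labs ins)).idxOf n),
         List.replicate (nodesOf (tabOf labs ins)).length (0, (nodesOf (tabOf labs ins)).idxOf n)) := by
  unfold gateEntry
  rw [insOf_tabOf hl, h]
  rfl

lemma orChildren_getD {tab : DTab} {n : Lab × ℕ} {ls : List Lab} {i : ℕ}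
    (hi : i < (nodesOf tab).length) (d : NodeD) :
    (orChildren tab n ls).getD i d =
      if (nodesOf tab)[i].2 = 0 ∧ (nodesOf tab)[i].1 ∈ ls then refN tab (nodesOf tab)[i]
      else match ls with
        | [] => refN tab n
        | c :: _ => refN tab (c, 0) := by
  unfold orChildren
  rw [getD_map_lt hi]

/-- The next reference of a primitive step is a valid reference. -/
lemma nextRef_lt {nc q : ℕ} (hw : DWF nc q labs ins) {l l' : Lab} {ops : List Op} {i : ℕ}
    (hl : l ∈ labs) (h : ins l = DIns.seq ops l') :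
    (nextRef (tabOf labs ins) l i (ops, l')).2 < (nodesOf (tabOf labs ins)).length := by
  unfold nextRef
  split
  · rename_i h2
    refine idx_lt_of_mem (mem_nodesOf_iff.mpr ⟨hl, ?_⟩)
    rw [h]
    simpa [nodeCount] using h2
  · have : l' ∈ labs := by
      apply hw.closed l hl
      rw [h]
      simp [DIns.children]
    exact idx_lt_of_mem (zero_mem_nodes hw this)

lemma prim_mem_ok {nc q : ℕ} (hw : DWF nc q labs ins) {l l' : Lab} {ops : List Op} {i : ℕ}
    (hl : l ∈ labs) (h : ins l = DIns.seq ops l') (hi : i < (primsOf ops).length) :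
    OpOk nc q ((primsOf ops).getD i (Sum.inl (0, 0))) := by
  rw [List.getD_eq_getElem _ _ hi]
  exact prims_ok (seq_ops_ok hw hl h).2 _ (List.getElem_mem hi)

lemma mem_nodes_seq {l l' : Lab} {ops : List Op} {i : ℕ} (h : ins l = DIns.seq ops l')
    (hn : (l, i) ∈ nodesOf (tabOf labs ins)) : i < (primsOf ops).length := by
  have := (mem_nodesOf_iff.mp hn).2
  simp only [h] at this
  simpa [nodeCount] using this

/-- The read entries of a primitive read. -/
lemma readEntry_read {lb : List (List Bool)} {l l' : Lab} {ops : List Op} {i : ℕ} (hl : l ∈ labs)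
    (h : ins l = DIns.seq ops l') {y : ℕ × ℕ}
    (hp : (primsOf ops).getD i (Sum.inl (0, 0)) = Sum.inl y) :
    readEntry lb (tabOf labs ins) (l, i) = (y.1, lb.getD y.2 [], nextRef (tabOf labs ins) l i (ops, l')) := by
  unfold readEntry
  simp only
  rw [insOf_tabOf hl, h]
  simp only [Sum.elim_inr, Sum.elim_inl, hp]

lemma writeEntry_write {p : ℕ} {lb : List (List Bool)} {l l' : Lab} {ops : List Op} {i : ℕ}
    (hl : l ∈ labs) (h : ins l = DIns.seq ops l') {y : ℕ × ℕ × ℕ}
    (hp : (primsOf ops).getD i (Sum.inl (0, 0)) = Sum.inr y) :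
    writeEntry p lb (tabOf labs ins) (l, i) = (writeVec p lb y, nextRef (tabOf labs ins) l i (ops, l')) := by
  unfold writeEntry
  simp only
  rw [insOf_tabOf hl, h]
  simp only [Sum.elim_inr, Sum.elim_inl, hp]

lemma writeVec_getD {p j : ℕ} {lb : List (List Bool)} {y : ℕ × ℕ × ℕ} (hj : j < p) :
    (writeVec p lb y).getD j [] =
      if j = y.1 ∨ j + 1 = p then xorL (lb.getD y.2.1 []) (lb.getD y.2.2 [])
      else (lb.getD 0 []).map fun _ => false := by
  unfold writeVec
  rw [getD_map_lt (by simpa using hj)]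
  simp

/-- The sum of the labels of a write vector is zero. -/
lemma writeVec_sum {p b : ℕ} {y : ℕ × ℕ × ℕ} (hy : y.1 + 1 < p) :
    ∑ j : Fin p, (ofBits ((writeVec p (allVec b) y).getD j.val []) : Sg b) = 0 := by
  set X : Sg b := ofBits (xorL ((allVec b).getD y.2.1 []) ((allVec b).getD y.2.2 [])) with hX
  have hp : p - 1 < p := by omega
  have h1 : ∀ j : Fin p, (ofBits ((writeVec p (allVec b) y).getD j.val []) : Sg b)
      = (if j = (⟨y.1, by omega⟩ : Fin p) then X else 0)
        + (if j = (⟨p - 1, hp⟩ : Fin p) then X else 0) := by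
    intro j
    rw [writeVec_getD j.isLt]
    have hj := j.isLt
    by_cases h1 : j.val = y.1
    · have e1 : j = (⟨y.1, by omega⟩ : Fin p) := Fin.ext h1
      have e2 : j ≠ (⟨p - 1, hp⟩ : Fin p) := fun h => by
        have := congrArg Fin.val h
        simp only at this
        omega
      rw [if_pos (Or.inl h1), if_pos e1, if_neg e2, add_zero]
    · have e1 : j ≠ (⟨y.1, by omega⟩ : Fin p) := fun h => h1 (congrArg Fin.val h)
      by_cases h2 : j.val + 1 = p
      · have e2 : j = (⟨p - 1, hp⟩ : Fin p) := Fin.ext (by simp only; omega)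
        rw [if_pos (Or.inr h2), if_neg e1, if_pos e2, zero_add]
      · have e2 : j ≠ (⟨p - 1, hp⟩ : Fin p) := fun h => by
          have := congrArg Fin.val h
          simp only at this
          omega
        rw [if_neg (by tauto), if_neg e1, if_neg e2, add_zero]
        exact ofBits_false (by simp)
  simp only [h1]
  rw [Finset.sum_add_distrib, Finset.sum_ite_eq', Finset.sum_ite_eq']
  simp only [Finset.mem_univ, if_true]
  exact sg_add_self' X

end Proofs2


section Proofs3

variable {labs : List Lab} {ins : Lab → DIns}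

/-- The all-zero write vector. -/
def zzVec (p : ℕ) (lb : List (List Bool)) : List (List Bool) :=
  (List.range p).map fun _ => (lb.getD 0 []).map fun _ => false

lemma readEntry_form (lb : List (List Bool)) {n : Lab × ℕ} (hl : n.1 ∈ labs) :
    readEntry lb (tabOf labs ins) n = (0, lb.getD 0 [], (1, (nodesOf (tabOf labs ins)).idxOf n)) ∨
      ∃ ops l' y, ins n.1 = DIns.seq ops l' ∧
        (primsOf ops).getD n.2 (Sum.inl (0, 0)) = Sum.inl y ∧
        readEntry lb (tabOf labs ins) n = (y.1, lb.getD y.2 [], nextRef (tabOf labs ins) n.1 n.2 (ops, l')) := by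
  unfold readEntry
  simp only
  rw [insOf_tabOf hl]
  rcases hi : ins n.1 with ls | ⟨a, c⟩ | ⟨ops, l'⟩ | u
  · left; rfl
  · left; rfl
  · rcases hp : (primsOf ops).getD n.2 (Sum.inl (0, 0)) with y | y
    · right
      exact ⟨ops, l', y, rfl, hp, by simp only [Sum.elim_inr, Sum.elim_inl, hp]⟩
    · left
      simp only [Sum.elim_inr, Sum.elim_inl, hp]
  · left; rfl

lemma writeEntry_form (p : ℕ) (lb : List (List Bool)) {n : Lab × ℕ} (hl : n.1 ∈ labs) :
    writeEntry p lb (tabOf labs ins) n = (zzVec p lb, (2, (nodesOf (tabOf labs ins)).idxOf n)) ∨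
      ∃ ops l' y, ins n.1 = DIns.seq ops l' ∧
        (primsOf ops).getD n.2 (Sum.inl (0, 0)) = Sum.inr y ∧
        writeEntry p lb (tabOf labs ins) n = (writeVec p lb y, nextRef (tabOf labs ins) n.1 n.2 (ops, l')) := by
  unfold writeEntry
  simp only
  rw [insOf_tabOf hl]
  rcases hi : ins n.1 with ls | ⟨a, c⟩ | ⟨ops, l'⟩ | u
  · left; rfl
  · left; rfl
  · rcases hp : (primsOf ops).getD n.2 (Sum.inl (0, 0)) with y | y
    · left
      simp only [Sum.elim_inr, Sum.elim_inl, hp, zzVec]
    · right
      exact ⟨ops, l', y, rfl, hp, by simp only [Sum.elim_inr, Sum.elim_inl, hp]⟩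
  · left; rfl

lemma zzVec_getD {p j : ℕ} {lb : List (List Bool)} (hj : j < p) :
    (zzVec p lb).getD j [] = (lb.getD 0 []).map fun _ => false := by
  unfold zzVec
  rw [getD_map_lt (by simpa using hj)]

lemma zzVec_sum {p b : ℕ} :
    ∑ j : Fin p, (ofBits ((zzVec p (allVec b)).getD j.val []) : Sg b) = 0 := by
  apply Finset.sum_eq_zero
  intro j _
  rw [zzVec_getD j.isLt]
  exact ofBits_false (by simp)

end Proofs3


section Proofs4

lemma ofBits_lbl_inj {b u v : ℕ} (hu : u < 2 ^ b) (hv : v < 2 ^ b)
    (h : (ofBits ((allVec b).getD u []) : Sg b) = ofBits ((allVec b).getD v [])) : u = v := by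
  have h1 := labD_ofBits (b := b) (lbl_length hu)
  have h2 := labD_ofBits (b := b) (lbl_length hv)
  rw [h, h2] at h1
  have hu' : u < (allVec b).length := by rw [allVec_length]; exact hu
  have hv' : v < (allVec b).length := by rw [allVec_length]; exact hv
  rw [List.getD_eq_getElem _ _ hu', List.getD_eq_getElem _ _ hv'] at h1
  exact ((allVec_nodup b).getElem_inj_iff.mp h1.symm)

lemma frm_lt {p b : ℕ} (lb : List (List Bool)) (dg : ℕ → ℕ) (c : Fin p) (h : c.val + 1 < p) :
    (frm lb dg : Frame p b) c = ofBits (lb.getD (dg c.val) []) := by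
  simp [frm, h]

/-- The sum of the first columns of a frame. -/
noncomputable def frmS {p b : ℕ} (lb : List (List Bool)) (dg : ℕ → ℕ) : Sg b :=
  ∑ c' ∈ (Finset.univ : Finset (Fin p)).filter (fun c' => c'.val + 1 < p),
    ofBits (lb.getD (dg c'.val) [])

lemma frm_last {p b : ℕ} (lb : List (List Bool)) (dg : ℕ → ℕ) (c : Fin p) (h : ¬ c.val + 1 < p) :
    (frm lb dg : Frame p b) c = frmS (p := p) lb dg := by
  simp [frm, frmS, h]

lemma sum_split {p b : ℕ} (hp : 2 ≤ p) (f : Fin p → Sg b) :
    ∑ c, f c = ∑ c ∈ (Finset.univ : Finset (Fin p)).filter (fun c' => c'.val + 1 < p), f c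
      + f ⟨p - 1, by omega⟩ := by
  rw [← Finset.sum_filter_add_sum_filter_not Finset.univ (fun c' : Fin p => c'.val + 1 < p) f]
  congr 1
  have : (Finset.univ : Finset (Fin p)).filter (fun c' => ¬ c'.val + 1 < p) = {⟨p - 1, by omega⟩} := by
    ext c
    have hc := c.isLt
    simp only [Finset.mem_filter, Finset.mem_univ, true_and, Finset.mem_singleton, Fin.ext_iff]
    omega
  rw [this, Finset.sum_singleton]

lemma frm_sum {p b : ℕ} (hp : 2 ≤ p) (lb : List (List Bool)) (dg : ℕ → ℕ) :
    ∑ c, (frm lb dg : Frame p b) c = 0 := by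
  rw [sum_split hp]
  have h1 : ∑ c ∈ (Finset.univ : Finset (Fin p)).filter (fun c' => c'.val + 1 < p),
      (frm lb dg : Frame p b) c = frmS (p := p) lb dg := by
    apply Finset.sum_congr rfl
    intro c hc
    exact frm_lt lb dg c (Finset.mem_filter.mp hc).2
  rw [h1, frm_last lb dg ⟨p - 1, by omega⟩ (by simp only; omega)]
  exact sg_add_self' _

lemma frm_of_sum_zero {p b : ℕ} (hp : 2 ≤ p) (L : Frame p b) (h : ∑ c, L c = 0) :
    ∃ dg, NormDg p (2 ^ b) dg ∧ L = frm (allVec b) dg := by
  let dg : ℕ → ℕ := fun c =>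
    if h : c + 1 < p then (allVec b).idxOf (labD (L ⟨c, by omega⟩)) else 0
  have hmem : ∀ x : Sg b, labD x ∈ allVec b := fun x => mem_allVec.mpr (labD_length x)
  have hidx : ∀ x : Sg b, (allVec b).idxOf (labD x) < (allVec b).length :=
    fun x => List.idxOf_lt_length_iff.mpr (hmem x)
  have hdg : ∀ (c : Fin p), c.val + 1 < p →
      (ofBits ((allVec b).getD (dg c.val) []) : Sg b) = L c := by
    intro c hc
    have h1 : dg c.val = (allVec b).idxOf (labD (L c)) := by
      simp only [dg, dif_pos hc]
    rw [h1, List.getD_eq_getElem _ _ (hidx _), List.getElem_idxOf, ofBits_labD]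
  refine ⟨dg, ⟨?_, ?_⟩, ?_⟩
  · intro c hc
    simp only [dg, dif_pos hc]
    have := hidx (L ⟨c, by omega⟩)
    rwa [allVec_length] at this
  · intro c hc
    simp only [dg]
    rw [dif_neg (by omega)]
  · funext c
    by_cases hc : c.val + 1 < p
    · rw [frm_lt _ _ c hc, hdg c hc]
    · rw [frm_last _ _ c hc]
      have hc' : c = ⟨p - 1, by omega⟩ := by
        apply Fin.ext
        have := c.isLt
        simp only
        omega
      have h2 := sum_split hp L
      rw [h] at h2
      have h3 : frmS (p := p) (allVec b) dg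
          = ∑ c ∈ (Finset.univ : Finset (Fin p)).filter (fun c' => c'.val + 1 < p), L c := by
        unfold frmS
        apply Finset.sum_congr rfl
        intro c hc
        exact hdg c (Finset.mem_filter.mp hc).2
      rw [h3, hc']
      set S := ∑ c ∈ (Finset.univ : Finset (Fin p)).filter (fun c' => c'.val + 1 < p), L c
      calc L ⟨p - 1, by omega⟩ = (S + S) + L ⟨p - 1, by omega⟩ := by
            rw [sg_add_self', zero_add]
        _ = S + (S + L ⟨p - 1, by omega⟩) := add_assoc _ _ _
        _ = S := by rw [← h2, add_zero]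

lemma frm_inj {p b : ℕ} {dg dg' : ℕ → ℕ} (h1 : NormDg p (2 ^ b) dg) (h2 : NormDg p (2 ^ b) dg')
    (h : (frm (allVec b) dg : Frame p b) = frm (allVec b) dg') : dg = dg' := by
  funext c
  by_cases hc : c + 1 < p
  · have h3 := congrFun h ⟨c, by omega⟩
    rw [frm_lt _ _ _ hc, frm_lt _ _ _ hc] at h3
    exact ofBits_lbl_inj (h1.1 c hc) (h2.1 c hc) h3
  · rw [h1.2 c (by omega), h2.2 c (by omega)]

lemma frmS_update {p b : ℕ} (lb : List (List Bool)) (dg : ℕ → ℕ) {c v' : ℕ} (hc : c + 1 < p) :
    frmS (p := p) (b := b) lb (Function.update dg c v')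
      = frmS (p := p) lb dg + (ofBits (lb.getD (dg c) []) + ofBits (lb.getD v' [])) := by
  unfold frmS
  have h0 : (⟨c, by omega⟩ : Fin p) ∈ (Finset.univ : Finset (Fin p)).filter (fun c' => c'.val + 1 < p) := by
    simp [hc]
  have h1 : ∀ c' ∈ (Finset.univ : Finset (Fin p)).filter (fun c' => c'.val + 1 < p),
      (ofBits (lb.getD (Function.update dg c v' c'.val) []) : Sg b)
        = ofBits (lb.getD (dg c'.val) []) +
          if c' = (⟨c, by omega⟩ : Fin p) then
            (ofBits (lb.getD (dg c) []) + ofBits (lb.getD v' [])) else 0 := by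
    intro c' _
    by_cases h : c' = (⟨c, by omega⟩ : Fin p)
    · subst h
      simp only [if_true, Function.update_self]
      rw [← add_assoc, sg_add_self', zero_add]
    · have h' : c'.val ≠ c := fun e => h (Fin.ext e)
      rw [if_neg h, add_zero, Function.update_of_ne h']
  rw [Finset.sum_congr rfl h1, Finset.sum_add_distrib, Finset.sum_ite_eq']
  simp [hc]

/-- A frame is the translate of the frame with the updated digit. -/
lemma frm_write {p b : ℕ} (lb : List (List Bool)) (dg : ℕ → ℕ) {c v v' : ℕ} (hc : c + 1 < p)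
    (hd : dg c = v) (hv : (lb.getD v []).length = b) (hv' : (lb.getD v' []).length = b) :
    (frm lb dg : Frame p b) = fun j => (frm lb (Function.update dg c v') : Frame p b) j +
      ofBits ((writeVec p lb (c, v, v')).getD j.val []) := by
  funext j
  rw [writeVec_getD j.isLt]
  simp only
  by_cases h1 : j.val + 1 < p
  · rw [frm_lt _ _ j h1, frm_lt _ _ j h1]
    by_cases h2 : j.val = c
    · rw [if_pos (Or.inl h2), h2, Function.update_self, hd, ofBits_xorL hv hv']
      have e : ∀ x y : Sg b, x = y + (x + y) := fun x y => by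
        rw [add_comm x y, ← add_assoc, sg_add_self', zero_add]
      exact e _ _
    · rw [if_neg (by omega), Function.update_of_ne h2]
      have e : (ofBits ((lb.getD 0 []).map fun _ => false) : Sg b) = 0 := ofBits_false (by simp)
      rw [e, add_zero]
  · rw [frm_last _ _ j h1, frm_last _ _ j h1, if_pos (Or.inr (by have := j.isLt; omega)),
      frmS_update lb dg hc, hd, ofBits_xorL hv hv', add_assoc, sg_add_self', add_zero]

lemma applyOps_norm {p q : ℕ} {ops : List Op} (h : ∀ o ∈ ops, OpOk (p - 1) q o) {dg dg' : ℕ → ℕ}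
    (hn : NormDg p q dg) (ha : applyOps ops dg = some dg') : NormDg p q dg' := by
  induction ops generalizing dg with
  | nil =>
    simp only [applyOps, Option.some.injEq] at ha
    subst ha
    exact hn
  | cons o t ih =>
    have h1 : OpOk (p - 1) q o := h o (by simp)
    have h2 := fun o' (ho' : o' ∈ t) => h o' (by simp [ho'])
    rcases o with ⟨c, v⟩ | ⟨c, v, v'⟩
    · by_cases he : dg c = v
      · simp only [applyOps, applyOp, he, if_true] at ha
        exact ih h2 hn ha
      · simp [applyOps, applyOp, he] at ha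
    · by_cases he : dg c = v
      · simp only [applyOps, applyOp, he, if_true] at ha
        refine ih h2 ⟨?_, ?_⟩ ha
        · intro c' hc'
          by_cases hcc : c' = c
          · subst hcc
            rw [Function.update_self]
            exact h1.2.2
          · rw [Function.update_of_ne hcc]
            exact hn.1 c' hc'
        · intro c' hc'
          have hcc : c' ≠ c := by
            have := h1.1
            omega
          rw [Function.update_of_ne hcc]
          exact hn.2 c' hc'
      · simp [applyOps, applyOp, he] at ha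

end Proofs4

/-- The references of a node are valid. -/
lemma refN_lt {labs : List Lab} {ins : Lab → DIns} {q c : ℕ} (hw : DWF c q labs ins) {l : Lab}
    (hl : l ∈ labs) : (refN (tabOf labs ins) (l, 0)).2 < (nodesOf (tabOf labs ins)).length :=
  List.idxOf_lt_length_iff.mpr (zero_mem_nodes hw hl)

/-- Well-formedness of a numeric program. -/
structure NP.WF (np : NP) (p b : ℕ) : Prop where
  gate_len : np.gates.length = np.N
  read_len : np.reads.length = np.N
  write_len : np.writes.length = np.N
  gate_ok : ∀ g < np.N, np.gateOk g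
  gate_lt : ∀ g < np.N, ∀ i < np.N, (np.gateL g i).2 < np.N ∧ (np.gateR g i).2 < np.N
  read_col : ∀ r < np.N, (np.reads.getD r (0, [], (0, 0))).1 < p
  read_len' : ∀ r < np.N, (np.reads.getD r (0, [], (0, 0))).2.1.length = b
  read_lt : ∀ r < np.N, (np.reads.getD r (0, [], (0, 0))).2.2.2 < np.N
  write_ok : ∀ w < np.N, np.writeOk p b w
  write_vec : ∀ w < np.N, ((np.writes.getD w ([], (0, 0))).1).length = p ∧
    ∀ x ∈ (np.writes.getD w ([], (0, 0))).1, x.length = b
  write_lt : ∀ w < np.N, (np.writes.getD w ([], (0, 0))).2.2 < np.N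

/-- The numeric program of a well-formed digit program is well formed. -/
theorem npOf_wf_aux {p b : ℕ} (hp : 2 ≤ p) {labs : List Lab} {ins : Lab → DIns}
    (hw : DWF (p - 1) (2 ^ b) labs ins) : (npOf p (allVec b) (tabOf labs ins)).WF p b := by
  have hmem : ∀ k (hk : k < (nodesOf (tabOf labs ins)).length),
      (nodesOf (tabOf labs ins))[k] ∈ nodesOf (tabOf labs ins) := fun k hk => List.getElem_mem hk
  have hl : ∀ k (hk : k < (nodesOf (tabOf labs ins)).length), (nodesOf (tabOf labs ins))[k].1 ∈ labs :=
    fun k hk => (mem_nodesOf_iff.mp (hmem k hk)).1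
  have hG : ∀ g (hg : g < (nodesOf (tabOf labs ins)).length) (d : List NodeD × List NodeD),
      (npOf p (allVec b) (tabOf labs ins)).gates.getD g d
        = gateEntry (tabOf labs ins) (nodesOf (tabOf labs ins))[g] :=
    fun g hg d => getD_map_lt hg d
  have hR : ∀ r (hr : r < (nodesOf (tabOf labs ins)).length) (d : ℕ × List Bool × NodeD),
      (npOf p (allVec b) (tabOf labs ins)).reads.getD r d
        = readEntry (allVec b) (tabOf labs ins) (nodesOf (tabOf labs ins))[r] :=
    fun r hr d => getD_map_lt hr d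
  have hW : ∀ w (hw' : w < (nodesOf (tabOf labs ins)).length) (d : List (List Bool) × NodeD),
      (npOf p (allVec b) (tabOf labs ins)).writes.getD w d
        = writeEntry p (allVec b) (tabOf labs ins) (nodesOf (tabOf labs ins))[w] :=
    fun w hw' d => getD_map_lt hw' d
  refine ⟨by simp [NP.gates, NP.N, npOf], by simp [NP.reads, NP.N, npOf],
    by simp [NP.writes, NP.N, npOf], ?_, ?_, ?_, ?_, ?_, ?_, ?_, ?_⟩
  · -- gate_ok
    intro g hg
    have hg' : g < (nodesOf (tabOf labs ins)).length := hg
    unfold NP.gateOk NP.gateL NP.gateR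
    rw [hG g hg']
    rcases hi : ins (nodesOf (tabOf labs ins))[g].1 with ls | ⟨a, c⟩ | u
    · right
      intro i _
      rw [gateEntry_or (hl g hg') hi]
    · left
      intro i hi1 i' hi2
      have hi1' : i < (nodesOf (tabOf labs ins)).length := hi1
      have hi2' : i' < (nodesOf (tabOf labs ins)).length := hi2
      rw [gateEntry_and (hl g hg') hi]
      simp only
      rw [getD_replicate_lt hi1', getD_replicate_lt hi2', getD_replicate_lt hi1',
        getD_replicate_lt hi2']
      exact ⟨rfl, rfl⟩
    · left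
      intro i hi1 i' hi2
      have hi1' : i < (nodesOf (tabOf labs ins)).length := hi1
      have hi2' : i' < (nodesOf (tabOf labs ins)).length := hi2
      rw [gateEntry_other (hl g hg') hi]
      simp only
      rw [getD_replicate_lt hi1', getD_replicate_lt hi2']
      exact ⟨rfl, rfl⟩
  · -- gate_lt
    intro g hg i hi'
    have hg' : g < (nodesOf (tabOf labs ins)).length := hg
    have hi1 : i < (nodesOf (tabOf labs ins)).length := hi'
    have hN : (npOf p (allVec b) (tabOf labs ins)).N = (nodesOf (tabOf labs ins)).length := rfl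
    unfold NP.gateL NP.gateR
    rw [hG g hg', hN]
    rcases hi : ins (nodesOf (tabOf labs ins))[g].1 with ls | ⟨a, c⟩ | u
    · rw [gateEntry_or (hl g hg') hi]
      simp only
      have key : ∀ d : NodeD, ((orChildren (tabOf labs ins) (nodesOf (tabOf labs ins))[g] ls).getD i d).2
          < (nodesOf (tabOf labs ins)).length := by
        intro d
        rw [orChildren_getD hi1]
        split
        · exact idx_lt_of_mem (hmem i hi1)
        · cases ls with
          | nil => exact idx_lt_of_mem (hmem g hg')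
          | cons e t =>
            apply idx_lt_of_mem
            apply zero_mem_nodes hw
            apply hw.closed _ (hl g hg')
            rw [hi]
            simp [DIns.children]
      exact ⟨key _, key _⟩
    · rw [gateEntry_and (hl g hg') hi]
      simp only
      rw [getD_replicate_lt hi1, getD_replicate_lt hi1]
      have hc := hw.closed _ (hl g hg')
      rw [hi] at hc
      exact ⟨idx_lt_of_mem (zero_mem_nodes hw (hc a (by simp [DIns.children]))),
        idx_lt_of_mem (zero_mem_nodes hw (hc c (by simp [DIns.children])))⟩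
    · rw [gateEntry_other (hl g hg') hi]
      simp only
      rw [getD_replicate_lt hi1]
      exact ⟨idx_lt_of_mem (hmem g hg'), idx_lt_of_mem (hmem g hg')⟩
  · -- read_col
    intro r hr
    have hr' : r < (nodesOf (tabOf labs ins)).length := hr
    rw [hR r hr']
    rcases readEntry_form (allVec b) (hl r hr') with h | ⟨ops, l', y, hi, hp', h⟩
    · rw [h]
      simp only
      omega
    · rw [h]
      have h0 := (hmem r hr')
      have h1 : (nodesOf (tabOf labs ins))[r].2 < (primsOf ops).length := by
        have := (mem_nodesOf_iff.mp h0).2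
        rw [hi] at this
        simpa [nodeCount] using this
      have h2 := prim_mem_ok hw (hl r hr') hi h1
      rw [hp'] at h2
      have h3 : y.1 < p - 1 := h2.1
      simp only
      omega
  · -- read_len'
    intro r hr
    have hr' : r < (nodesOf (tabOf labs ins)).length := hr
    rw [hR r hr']
    rcases readEntry_form (allVec b) (hl r hr') with h | ⟨ops, l', y, hi, hp', h⟩
    · rw [h]
      exact lbl0_length b
    · rw [h]
      have h0 := (hmem r hr')
      have h1 : (nodesOf (tabOf labs ins))[r].2 < (primsOf ops).length := by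
        have := (mem_nodesOf_iff.mp h0).2
        rw [hi] at this
        simpa [nodeCount] using this
      have h2 := prim_mem_ok hw (hl r hr') hi h1
      rw [hp'] at h2
      exact lbl_length h2.2
  · -- read_lt
    intro r hr
    have hr' : r < (nodesOf (tabOf labs ins)).length := hr
    have hN : (npOf p (allVec b) (tabOf labs ins)).N = (nodesOf (tabOf labs ins)).length := rfl
    rw [hR r hr', hN]
    rcases readEntry_form (allVec b) (hl r hr') with h | ⟨ops, l', y, hi, hp', h⟩
    · rw [h]
      exact idx_lt_of_mem (hmem r hr')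
    · rw [h]
      exact nextRef_lt hw (hl r hr') hi
  · -- write_ok
    intro w hw1
    have hw' : w < (nodesOf (tabOf labs ins)).length := hw1
    unfold NP.writeOk
    rw [hW w hw']
    rcases writeEntry_form p (allVec b) (hl w hw') with h | ⟨ops, l', y, hi, hp', h⟩
    · rw [h]
      exact zzVec_sum
    · rw [h]
      have h0 := (hmem w hw')
      have h1 : (nodesOf (tabOf labs ins))[w].2 < (primsOf ops).length := by
        have := (mem_nodesOf_iff.mp h0).2
        rw [hi] at this
        simpa [nodeCount] using this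
      have h2 := prim_mem_ok hw (hl w hw') hi h1
      rw [hp'] at h2
      have h3 : y.1 < p - 1 := h2.1
      exact writeVec_sum (by omega)
  · -- write_vec
    intro w hw1
    have hw' : w < (nodesOf (tabOf labs ins)).length := hw1
    rw [hW w hw']
    rcases writeEntry_form p (allVec b) (hl w hw') with h | ⟨ops, l', y, hi, hp', h⟩
    · rw [h]
      refine ⟨by simp [zzVec], ?_⟩
      intro x hx
      simp only [zzVec, List.mem_map, List.mem_range] at hx
      obtain ⟨_, _, rfl⟩ := hx
      simpa using lbl0_length b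
    · rw [h]
      have h0 := (hmem w hw')
      have h1 : (nodesOf (tabOf labs ins))[w].2 < (primsOf ops).length := by
        have := (mem_nodesOf_iff.mp h0).2
        rw [hi] at this
        simpa [nodeCount] using this
      have h2 := prim_mem_ok hw (hl w hw') hi h1
      rw [hp'] at h2
      have h3 : y.2.1 < 2 ^ b := h2.2.1
      have h4 : y.2.2 < 2 ^ b := h2.2.2
      refine ⟨by simp [writeVec], ?_⟩
      intro x hx
      simp only [writeVec, List.mem_map, List.mem_range] at hx
      obtain ⟨j, _, rfl⟩ := hx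
      split
      · unfold xorL
        rw [List.length_zipWith, lbl_length h3, lbl_length h4]
        exact min_self b
      · simpa using lbl0_length b
  · -- write_lt
    intro w hw1
    have hw' : w < (nodesOf (tabOf labs ins)).length := hw1
    have hN : (npOf p (allVec b) (tabOf labs ins)).N = (nodesOf (tabOf labs ins)).length := rfl
    rw [hW w hw', hN]
    rcases writeEntry_form p (allVec b) (hl w hw') with h | ⟨ops, l', y, hi, hp', h⟩
    · rw [h]
      exact idx_lt_of_mem (hmem w hw')
    · rw [h]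
      exact nextRef_lt hw (hl w hw') hi


section Proofs5

variable {labs : List Lab} {ins : Lab → DIns}

lemma NP.res_k0 (np : NP) (d : Fin np.N) (n : NodeD) (h : n.2 < np.N) (hk : n.1 = 0) :
    np.res d n = Sum.inl ⟨n.2, h⟩ := by
  simp [NP.res, h, hk]

lemma NP.res_k1 (np : NP) (d : Fin np.N) (n : NodeD) (h : n.2 < np.N) (hk : n.1 = 1) :
    np.res d n = Sum.inr (Sum.inl ⟨n.2, h⟩) := by
  simp [NP.res, h, hk]

lemma NP.res_k2 (np : NP) (d : Fin np.N) (n : NodeD) (h : n.2 < np.N) (hk : n.1 = 2) :
    np.res d n = Sum.inr (Sum.inr (Sum.inl ⟨n.2, h⟩)) := by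
  simp [NP.res, h, hk]

lemma NP.res_k3 (np : NP) (d : Fin np.N) (n : NodeD) (h : n.2 < np.N) (hk : n.1 = 3) :
    np.res d n = Sum.inr (Sum.inr (Sum.inr ⟨n.2, h⟩)) := by
  simp [NP.res, h, hk]

lemma NP.res_indep (np : NP) (d d' : Fin np.N) (n : NodeD) (h : n.2 < np.N) :
    np.res d n = np.res d' n := by
  simp [NP.res, h]

/-- The shape of a node. -/
theorem node_shape {p : ℕ} {lb : List (List Bool)} {n : Lab × ℕ}
    (hn : n ∈ nodesOf (tabOf labs ins)) (d : Fin (npOf p lb (tabOf labs ins)).N)
    (hk : (nodesOf (tabOf labs ins)).idxOf n < (npOf p lb (tabOf labs ins)).N) :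
    (∃ ls, ins n.1 = DIns.or ls ∧
      (npOf p lb (tabOf labs ins)).res d (refN (tabOf labs ins) n) = Sum.inl ⟨_, hk⟩) ∨
    (∃ a c, ins n.1 = DIns.and a c ∧
      (npOf p lb (tabOf labs ins)).res d (refN (tabOf labs ins) n) = Sum.inl ⟨_, hk⟩) ∨
    (∃ ops l' y, ins n.1 = DIns.seq ops l' ∧ (primsOf ops).getD n.2 (Sum.inl (0, 0)) = Sum.inl y ∧
      (npOf p lb (tabOf labs ins)).res d (refN (tabOf labs ins) n) = Sum.inr (Sum.inl ⟨_, hk⟩)) ∨
    (∃ ops l' y, ins n.1 = DIns.seq ops l' ∧ (primsOf ops).getD n.2 (Sum.inl (0, 0)) = Sum.inr y ∧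
      (npOf p lb (tabOf labs ins)).res d (refN (tabOf labs ins) n)
        = Sum.inr (Sum.inr (Sum.inl ⟨_, hk⟩))) ∨
    (ins n.1 = DIns.acc ∧
      (npOf p lb (tabOf labs ins)).res d (refN (tabOf labs ins) n)
        = Sum.inr (Sum.inr (Sum.inr ⟨_, hk⟩))) := by
  have hl := (mem_nodesOf_iff.mp hn).1
  have hK : kindOf (tabOf labs ins) n = Sum.elim (fun _ => 0) (Sum.elim (fun _ => 0) (Sum.elim
      (fun x => Sum.elim (fun _ => 1) (fun _ => 2) ((primsOf x.1).getD n.2 (Sum.inl (0, 0))))
      (fun _ => 3))) (ins n.1) := by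
    unfold kindOf
    rw [insOf_tabOf hl]
  rcases hi : ins n.1 with ls | ⟨a, c⟩ | ⟨ops, l'⟩ | u
  · left
    refine ⟨ls, rfl, NP.res_k0 _ d _ hk ?_⟩
    show kindOf _ _ = 0
    rw [hK, hi]
    rfl
  · right; left
    refine ⟨a, c, rfl, NP.res_k0 _ d _ hk ?_⟩
    show kindOf _ _ = 0
    rw [hK, hi]
    rfl
  · rcases hp : (primsOf ops).getD n.2 (Sum.inl (0, 0)) with y | y
    · right; right; left
      refine ⟨ops, l', y, rfl, hp, NP.res_k1 _ d _ hk ?_⟩
      show kindOf _ _ = 1
      rw [hK, hi]
      simp only [Sum.elim_inr, Sum.elim_inl, hp]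
    · right; right; right; left
      refine ⟨ops, l', y, rfl, hp, NP.res_k2 _ d _ hk ?_⟩
      show kindOf _ _ = 2
      rw [hK, hi]
      simp only [Sum.elim_inr, Sum.elim_inl, hp]
  · right; right; right; right
    refine ⟨rfl, NP.res_k3 _ d _ hk ?_⟩
    show kindOf _ _ = 3
    rw [hK, hi]
    rfl

lemma getD_map_idxOf {α β : Type} [BEq α] [LawfulBEq α] {l : List α} {f : α → β} {a : α}
    (h : a ∈ l) (d : β) : (l.map f).getD (l.idxOf a) d = f a := by
  rw [getD_map_lt (List.idxOf_lt_length_iff.mpr h), List.getElem_idxOf]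

/-- The next node of a primitive step. -/
def nextN (ops : List Op) (l l' : Lab) (i : ℕ) : Lab × ℕ :=
  if i + 1 < (primsOf ops).length then (l, i + 1) else (l', 0)

lemma nextRef_eq (tab : DTab) (ops : List Op) (l l' : Lab) (i : ℕ) :
    nextRef tab l i (ops, l') = refN tab (nextN ops l l' i) := by
  unfold nextRef nextN
  split <;> rfl

lemma nextN_mem {nc q : ℕ} (hw : DWF nc q labs ins) {l l' : Lab} {ops : List Op} (i : ℕ)
    (hl : l ∈ labs) (h : ins l = DIns.seq ops l') : nextN ops l l' i ∈ nodesOf (tabOf labs ins) := by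
  unfold nextN
  split
  · rename_i h2
    refine mem_nodesOf_iff.mpr ⟨hl, ?_⟩
    simp only [h]
    simpa [nodeCount] using h2
  · apply zero_mem_nodes hw
    apply hw.closed l hl
    rw [h]
    simp [DIns.children]

/-- The condition at a write node: the read before it has been checked. -/
def PreN (p b : ℕ) (ins : Lab → DIns) (n : Lab × ℕ) (L : Frame p b) : Prop :=
  ∀ ops l' y, ins n.1 = DIns.seq ops l' →
    (primsOf ops).getD n.2 (Sum.inl (0, 0)) = Sum.inr y →
    ∃ hc : y.1 < p, L ⟨y.1, hc⟩ = ofBits ((allVec b).getD y.2.1 [])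

/-- The acceptance of a digit state at a node. -/
def GoodN (ins : Lab → DIns) (n : Lab × ℕ) (dg : ℕ → ℕ) : Prop :=
  (∀ ops l', ins n.1 = DIns.seq ops l' →
    ∃ dg', applyOps ((primsOf ops).drop n.2) dg = some dg' ∧ DAcc ins l' dg') ∧
  ((∀ ops l', ins n.1 ≠ DIns.seq ops l') → DAcc ins n.1 dg)

lemma goodN_zero {l : Lab} {dg : ℕ → ℕ} (h : GoodN ins (l, 0) dg) : DAcc ins l dg := by
  rcases hi : ins l with ls | ⟨a, c⟩ | ⟨ops, l'⟩ | u
  · exact h.2 fun ops l' e => by
      simp only [hi] at e
      cases e
  · exact h.2 fun ops l' e => by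
      simp only [hi] at e
      cases e
  · obtain ⟨dg', h1, h2⟩ := h.1 ops l' hi
    simp only [List.drop_zero] at h1
    rw [applyOps_primsOf] at h1
    exact DAcc.seq hi h1 h2
  · exact h.2 fun ops l' e => by
      simp only [hi] at e
      cases e

lemma preN_zero {p b : ℕ} {l : Lab} {L : Frame p b} : PreN p b ins (l, 0) L := by
  intro ops l' y _ h
  exact absurd h prim_zero_not_write

lemma drop_cons_getD {α : Type} {l : List α} {i : ℕ} (h : i < l.length) (d : α) :
    l.drop i = l.getD i d :: l.drop (i + 1) := by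
  rw [List.getD_eq_getElem _ _ h, List.drop_eq_getElem_cons h]

variable {p b : ℕ}

lemma gl_eq (hp : 2 ≤ p) (hw : DWF (p - 1) (2 ^ b) labs ins) (hp' : 0 < p)
    (g : Fin (npOf p (allVec b) (tabOf labs ins)).N) (i : Fin (npOf p (allVec b) (tabOf labs ins)).N) :
    ((npOf p (allVec b) (tabOf labs ins)).toProg p b hp').gl g i
      = (npOf p (allVec b) (tabOf labs ins)).res g ((npOf p (allVec b) (tabOf labs ins)).gateL g.val i.val) := by
  exact if_pos ((npOf_wf_aux hp hw).gate_ok g.val g.isLt)

lemma gr_eq (hp : 2 ≤ p) (hw : DWF (p - 1) (2 ^ b) labs ins) (hp' : 0 < p)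
    (g : Fin (npOf p (allVec b) (tabOf labs ins)).N) (i : Fin (npOf p (allVec b) (tabOf labs ins)).N) :
    ((npOf p (allVec b) (tabOf labs ins)).toProg p b hp').gr g i
      = (npOf p (allVec b) (tabOf labs ins)).res g ((npOf p (allVec b) (tabOf labs ins)).gateR g.val i.val) := by
  exact if_pos ((npOf_wf_aux hp hw).gate_ok g.val g.isLt)

/-- The default child of an OR node. -/
def orDflt (tab : DTab) (n : Lab × ℕ) : List Lab → NodeD
  | [] => refN tab n
  | c :: _ => refN tab (c, 0)

lemma orChildren_getD' {tab : DTab} {n : Lab × ℕ} {ls : List Lab} {i : ℕ}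
    (hi : i < (nodesOf tab).length) (d : NodeD) :
    (orChildren tab n ls).getD i d =
      if (nodesOf tab)[i].2 = 0 ∧ (nodesOf tab)[i].1 ∈ ls then refN tab (nodesOf tab)[i]
      else orDflt tab n ls := by
  rw [orChildren_getD hi]
  cases ls <;> rfl

lemma gateL_or {n : Lab × ℕ} (hn : n ∈ nodesOf (tabOf labs ins)) {ls : List Lab}
    (hi : ins n.1 = DIns.or ls) {i : ℕ} (hi' : i < (nodesOf (tabOf labs ins)).length) :
    (npOf p (allVec b) (tabOf labs ins)).gateL ((nodesOf (tabOf labs ins)).idxOf n) i
      = (if (nodesOf (tabOf labs ins))[i].2 = 0 ∧ (nodesOf (tabOf labs ins))[i].1 ∈ ls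
          then refN (tabOf labs ins) (nodesOf (tabOf labs ins))[i]
          else orDflt (tabOf labs ins) n ls) ∧
    (npOf p (allVec b) (tabOf labs ins)).gateR ((nodesOf (tabOf labs ins)).idxOf n) i
      = (if (nodesOf (tabOf labs ins))[i].2 = 0 ∧ (nodesOf (tabOf labs ins))[i].1 ∈ ls
          then refN (tabOf labs ins) (nodesOf (tabOf labs ins))[i]
          else orDflt (tabOf labs ins) n ls) := by
  have hl := (mem_nodesOf_iff.mp hn).1
  have e : (npOf p (allVec b) (tabOf labs ins)).gates.getD ((nodesOf (tabOf labs ins)).idxOf n) ([], [])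
      = gateEntry (tabOf labs ins) n := getD_map_idxOf hn _
  unfold NP.gateL NP.gateR
  rw [e, gateEntry_or hl hi]
  simp only
  rw [orChildren_getD' hi']
  exact ⟨rfl, rfl⟩

lemma gateL_and {n : Lab × ℕ} (hn : n ∈ nodesOf (tabOf labs ins)) {a c : Lab}
    (hi : ins n.1 = DIns.and a c) {i : ℕ} (hi' : i < (nodesOf (tabOf labs ins)).length) :
    (npOf p (allVec b) (tabOf labs ins)).gateL ((nodesOf (tabOf labs ins)).idxOf n) i
      = refN (tabOf labs ins) (a, 0) ∧
    (npOf p (allVec b) (tabOf labs ins)).gateR ((nodesOf (tabOf labs ins)).idxOf n) i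
      = refN (tabOf labs ins) (c, 0) := by
  have hl := (mem_nodesOf_iff.mp hn).1
  have e : (npOf p (allVec b) (tabOf labs ins)).gates.getD ((nodesOf (tabOf labs ins)).idxOf n) ([], [])
      = gateEntry (tabOf labs ins) n := getD_map_idxOf hn _
  unfold NP.gateL NP.gateR
  rw [e, gateEntry_and hl hi]
  simp only
  rw [getD_replicate_lt hi', getD_replicate_lt hi']
  exact ⟨rfl, rfl⟩

/-- The fields of a read node. -/
lemma read_fields (hp : 2 ≤ p) (hw : DWF (p - 1) (2 ^ b) labs ins) (hp' : 0 < p) {l l' : Lab}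
    {ops : List Op} {i : ℕ} (hn : (l, i) ∈ nodesOf (tabOf labs ins)) (hi : ins l = DIns.seq ops l')
    {y : ℕ × ℕ} (hy : (primsOf ops).getD i (Sum.inl (0, 0)) = Sum.inl y)
    (hk : (nodesOf (tabOf labs ins)).idxOf (l, i) < (npOf p (allVec b) (tabOf labs ins)).N) :
    y.1 + 1 < p ∧ y.2 < 2 ^ b ∧
    (((npOf p (allVec b) (tabOf labs ins)).toProg p b hp').reJ ⟨_, hk⟩).val = y.1 ∧
    ((npOf p (allVec b) (tabOf labs ins)).toProg p b hp').reS ⟨_, hk⟩ = ofBits ((allVec b).getD y.2 []) ∧
    ((npOf p (allVec b) (tabOf labs ins)).toProg p b hp').reN ⟨_, hk⟩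
      = (npOf p (allVec b) (tabOf labs ins)).res ⟨_, hk⟩ (refN (tabOf labs ins) (nextN ops l l' i)) := by
  have hl := (mem_nodesOf_iff.mp hn).1
  have hlen := mem_nodes_seq hi hn
  have hok := prim_mem_ok hw hl hi hlen
  rw [hy] at hok
  have h1 : y.1 < p - 1 := hok.1
  have h2 : y.2 < 2 ^ b := hok.2
  have e : ∀ d, (npOf p (allVec b) (tabOf labs ins)).reads.getD ((nodesOf (tabOf labs ins)).idxOf (l, i)) d
      = (y.1, (allVec b).getD y.2 [], nextRef (tabOf labs ins) l i (ops, l')) := fun d =>
    (getD_map_idxOf hn d).trans (readEntry_read hl hi hy)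
  refine ⟨by omega, h2, ?_, ?_, ?_⟩
  · show (if h : ((npOf p (allVec b) (tabOf labs ins)).reads.getD _ (0, [], (0, 0))).1 < p
      then (⟨_, h⟩ : Fin p) else ⟨0, hp'⟩).val = y.1
    rw [dif_pos (by rw [e]; simp only; omega)]
    simp only [e]
  · show ofBits ((npOf p (allVec b) (tabOf labs ins)).reads.getD _ (0, [], (0, 0))).2.1 = _
    rw [e]
  · show (npOf p (allVec b) (tabOf labs ins)).res _ ((npOf p (allVec b) (tabOf labs ins)).reads.getD _ (0, [], (0, _))).2.2 = _
    rw [e, nextRef_eq]

/-- The fields of a write node. -/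
lemma write_fields (hp : 2 ≤ p) (hw : DWF (p - 1) (2 ^ b) labs ins) (hp' : 0 < p) {l l' : Lab}
    {ops : List Op} {i : ℕ} (hn : (l, i) ∈ nodesOf (tabOf labs ins)) (hi : ins l = DIns.seq ops l')
    {y : ℕ × ℕ × ℕ} (hy : (primsOf ops).getD i (Sum.inl (0, 0)) = Sum.inr y)
    (hk : (nodesOf (tabOf labs ins)).idxOf (l, i) < (npOf p (allVec b) (tabOf labs ins)).N) :
    y.1 + 1 < p ∧ y.2.1 < 2 ^ b ∧ y.2.2 < 2 ^ b ∧
    (∀ j, ((npOf p (allVec b) (tabOf labs ins)).toProg p b hp').wrD ⟨_, hk⟩ j
      = ofBits ((writeVec p (allVec b) y).getD j.val [])) ∧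
    ((npOf p (allVec b) (tabOf labs ins)).toProg p b hp').wrN ⟨_, hk⟩
      = (npOf p (allVec b) (tabOf labs ins)).res ⟨_, hk⟩ (refN (tabOf labs ins) (nextN ops l l' i)) := by
  have hl := (mem_nodesOf_iff.mp hn).1
  have hlen := mem_nodes_seq hi hn
  have hok := prim_mem_ok hw hl hi hlen
  rw [hy] at hok
  have h1 : y.1 < p - 1 := hok.1
  have h2 : y.2.1 < 2 ^ b := hok.2.1
  have h3 : y.2.2 < 2 ^ b := hok.2.2
  have e : ∀ d, (npOf p (allVec b) (tabOf labs ins)).writes.getD ((nodesOf (tabOf labs ins)).idxOf (l, i)) d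
      = (writeVec p (allVec b) y, nextRef (tabOf labs ins) l i (ops, l')) := fun d =>
    (getD_map_idxOf hn d).trans (writeEntry_write hl hi hy)
  refine ⟨by omega, h2, h3, ?_, ?_⟩
  · intro j
    refine (if_pos ((npOf_wf_aux hp hw).write_ok _ hk)).trans ?_
    rw [e]
  · show (npOf p (allVec b) (tabOf labs ins)).res _ ((npOf p (allVec b) (tabOf labs ins)).writes.getD _ ([], (0, _))).2 = _
    rw [e, nextRef_eq]

end Proofs5

section Proofs6

variable {labs : List Lab} {ins : Lab → DIns} {p b : ℕ}

/-- The numeric table of a digit program. -/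
abbrev npT (p b : ℕ) (labs : List Lab) (ins : Lab → DIns) : NP := npOf p (allVec b) (tabOf labs ins)

/-- The program of a digit program. -/
noncomputable abbrev Qt (p b : ℕ) (labs : List Lab) (ins : Lab → DIns) (hp' : 0 < p) : Prog p b :=
  (npT p b labs ins).toProg p b hp'

lemma node_shape_or {n : Lab × ℕ} (hn : n ∈ nodesOf (tabOf labs ins))
    (d : Fin (npT p b labs ins).N) (hk : (nodesOf (tabOf labs ins)).idxOf n < (npT p b labs ins).N)
    {ls : List Lab} (h : ins n.1 = DIns.or ls) :
    (npT p b labs ins).res d (refN (tabOf labs ins) n) = Sum.inl ⟨_, hk⟩ := by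
  rcases node_shape hn d hk with ⟨ls2, hi2, e⟩ | ⟨a', c, hi2, e⟩ | ⟨ops2, l2, y, hi2, hy, e⟩ |
      ⟨ops2, l2, y, hi2, hy, e⟩ | ⟨hi2, e⟩
  · exact e
  all_goals
    rw [h] at hi2
    cases hi2

lemma node_shape_and {n : Lab × ℕ} (hn : n ∈ nodesOf (tabOf labs ins))
    (d : Fin (npT p b labs ins).N) (hk : (nodesOf (tabOf labs ins)).idxOf n < (npT p b labs ins).N)
    {a c : Lab} (h : ins n.1 = DIns.and a c) :
    (npT p b labs ins).res d (refN (tabOf labs ins) n) = Sum.inl ⟨_, hk⟩ := by
  rcases node_shape hn d hk with ⟨ls2, hi2, e⟩ | ⟨a', c', hi2, e⟩ | ⟨ops2, l2, y, hi2, hy, e⟩ |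
      ⟨ops2, l2, y, hi2, hy, e⟩ | ⟨hi2, e⟩
  · exact e
  · exact e
  all_goals
    rw [h] at hi2
    cases hi2

lemma goodN_next {l l' : Lab} {ops : List Op} {i : ℕ} {dg : ℕ → ℕ}
    (hi : ins l = DIns.seq ops l') (h : GoodN ins (nextN ops l l' i) dg) :
    ∃ dg', applyOps ((primsOf ops).drop (i + 1)) dg = some dg' ∧ DAcc ins l' dg' := by
  unfold nextN at h
  split at h
  · exact h.1 ops l' hi
  · rename_i h2
    refine ⟨dg, ?_, goodN_zero h⟩
    rw [List.drop_eq_nil_of_le (by omega)]
    rfl

lemma goodN_step {l l' : Lab} {ops : List Op} {i : ℕ} (hi : ins l = DIns.seq ops l')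
    (hlen : i < (primsOf ops).length) {o : Op} (ho : (primsOf ops).getD i (Sum.inl (0, 0)) = o)
    {dg dg1 : ℕ → ℕ} (hs : applyOp dg o = some dg1)
    (hnext : ∃ dg', applyOps ((primsOf ops).drop (i + 1)) dg1 = some dg' ∧ DAcc ins l' dg') :
    GoodN ins (l, i) dg := by
  refine ⟨fun ops2 l2 e => ?_, fun hne => absurd hi (hne ops l')⟩
  have e2 : (Sum.inr (Sum.inr (Sum.inl (ops, l'))) : DIns) = Sum.inr (Sum.inr (Sum.inl (ops2, l2))) :=
    hi.symm.trans e
  simp only [Sum.inr.injEq, Sum.inl.injEq, Prod.mk.injEq] at e2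
  obtain ⟨rfl, rfl⟩ := e2
  show ∃ dg', applyOps ((primsOf ops).drop i) dg = some dg' ∧ DAcc ins l' dg'
  rw [drop_cons_getD hlen (Sum.inl (0, 0)), ho]
  simp only [applyOps, hs]
  exact hnext

lemma goodN_nonseq {n : Lab × ℕ} {dg : ℕ → ℕ} (hne : ∀ ops l', ins n.1 ≠ DIns.seq ops l')
    (h : DAcc ins n.1 dg) : GoodN ins n dg :=
  ⟨fun ops l' e => absurd e (hne ops l'), fun _ => h⟩

lemma preN_next_r {l l' : Lab} {ops : List Op} {i : ℕ} (hi : ins l = DIns.seq ops l')
    {y : ℕ × ℕ} (hy : (primsOf ops).getD i (Sum.inl (0, 0)) = Sum.inl y) {L : Frame p b}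
    (hc : y.1 < p) (hL : L ⟨y.1, hc⟩ = ofBits ((allVec b).getD y.2 [])) :
    PreN p b ins (nextN ops l l' i) L := by
  unfold nextN
  split
  · intro ops2 l2 y2 e h2
    have e2 : (Sum.inr (Sum.inr (Sum.inl (ops, l'))) : DIns) = Sum.inr (Sum.inr (Sum.inl (ops2, l2))) :=
      hi.symm.trans e
    simp only [Sum.inr.injEq, Sum.inl.injEq, Prod.mk.injEq] at e2
    obtain ⟨rfl, rfl⟩ := e2
    obtain ⟨i', hi', h3⟩ := prim_write_pred h2
    have hii : i' = i := by simpa using hi'.symm
    subst hii
    rw [hy] at h3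
    have h4 : y = (y2.1, y2.2.1) := Sum.inl.inj h3
    subst h4
    exact ⟨hc, hL⟩
  · exact preN_zero

lemma preN_next_w {l l' : Lab} {ops : List Op} {i : ℕ} (hi : ins l = DIns.seq ops l')
    {y : ℕ × ℕ × ℕ} (hy : (primsOf ops).getD i (Sum.inl (0, 0)) = Sum.inr y) {L : Frame p b} :
    PreN p b ins (nextN ops l l' i) L := by
  unfold nextN
  split
  · intro ops2 l2 y2 e h2
    have e2 : (Sum.inr (Sum.inr (Sum.inl (ops, l'))) : DIns) = Sum.inr (Sum.inr (Sum.inl (ops2, l2))) :=
      hi.symm.trans e
    simp only [Sum.inr.injEq, Sum.inl.injEq, Prod.mk.injEq] at e2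
    obtain ⟨rfl, rfl⟩ := e2
    obtain ⟨i', hi', h3⟩ := prim_write_pred h2
    have hii : i' = i := by simpa using hi'.symm
    subst hii
    rw [hy] at h3
    cases h3
  · exact preN_zero

/-- Soundness of the compilation. -/
theorem acc_sem (hp : 2 ≤ p) (hw : DWF (p - 1) (2 ^ b) labs ins) (hp' : 0 < p)
    {x : (Qt p b labs ins hp').Node} {L : Frame p b} (h : (Qt p b labs ins hp').Acc x L) :
    ∀ n ∈ nodesOf (tabOf labs ins), ∀ d, x = (npT p b labs ins).res d (refN (tabOf labs ins) n) →
      PreN p b ins n L → ∃ dg, NormDg p (2 ^ b) dg ∧ L = frm (allVec b) dg ∧ GoodN ins n dg := by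
  induction h with
  | ac a L hL =>
    intro n hn d hx hpre
    have hk : (nodesOf (tabOf labs ins)).idxOf n < (npT p b labs ins).N := idx_lt_of_mem hn
    rcases node_shape hn d hk with ⟨ls, hi, e⟩ | ⟨a', c, hi, e⟩ | ⟨ops, l', y, hi, hy, e⟩ |
      ⟨ops, l', y, hi, hy, e⟩ | ⟨hi, e⟩
    · rw [e] at hx; cases hx
    · rw [e] at hx; cases hx
    · rw [e] at hx; cases hx
    · rw [e] at hx; cases hx
    · obtain ⟨dg, hdg, hL'⟩ := frm_of_sum_zero hp L hL
      refine ⟨dg, hdg, hL', goodN_nonseq (fun ops l' e' => ?_) (DAcc.acc hi)⟩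
      rw [hi] at e'
      cases e'
  | re r L hr h' ih =>
    intro n hn d hx hpre
    obtain ⟨l, i⟩ := n
    have hk : (nodesOf (tabOf labs ins)).idxOf (l, i) < (npT p b labs ins).N := idx_lt_of_mem hn
    rcases node_shape hn d hk with ⟨ls, hi, e⟩ | ⟨a', c, hi, e⟩ | ⟨ops, l', y, hi, hy, e⟩ |
      ⟨ops, l', y, hi, hy, e⟩ | ⟨hi, e⟩
    · rw [e] at hx; cases hx
    · rw [e] at hx; cases hx
    · rw [e] at hx
      have hr' : r = ⟨_, hk⟩ := Sum.inl.inj (Sum.inr.inj hx)
      subst hr'
      have hi' : ins l = DIns.seq ops l' := hi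
      have hy' : (primsOf ops).getD i (Sum.inl (0, 0)) = Sum.inl y := hy
      have hlab := (mem_nodesOf_iff.mp hn).1
      obtain ⟨hy1, hy2, hJ, hS, hN⟩ := read_fields hp hw hp' hn hi' hy' hk
      have hN' := nextN_mem hw i hlab hi'
      have hk' : (nodesOf (tabOf labs ins)).idxOf (nextN ops l l' i) < (npT p b labs ins).N :=
        idx_lt_of_mem hN'
      have hJ' : (Qt p b labs ins hp').reJ ⟨_, hk⟩ = ⟨y.1, by omega⟩ := Fin.ext hJ
      have hL1 : L ⟨y.1, by omega⟩ = ofBits ((allVec b).getD y.2 []) := by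
        rw [← hJ', hr, hS]
      have hEq : (Qt p b labs ins hp').reN ⟨_, hk⟩ =
          (npT p b labs ins).res d (refN (tabOf labs ins) (nextN ops l l' i)) :=
        hN.trans (NP.res_indep _ _ _ _ hk')
      obtain ⟨dg, hdg, hL', hg⟩ := ih _ hN' d hEq (preN_next_r hi' hy' (by omega) hL1)
      refine ⟨dg, hdg, hL', ?_⟩
      have hv : dg y.1 = y.2 := by
        rw [hL', frm_lt _ _ _ hy1] at hL1
        exact ofBits_lbl_inj (hdg.1 _ hy1) hy2 hL1
      refine goodN_step hi' (mem_nodes_seq hi' hn) hy' (dg1 := dg) ?_ (goodN_next hi' hg)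
      simp only [applyOp, hv, if_true]
    · rw [e] at hx; cases hx
    · rw [e] at hx; cases hx
  | wr w L h ih =>
    intro n hn d hx hpre
    obtain ⟨l, i⟩ := n
    have hk : (nodesOf (tabOf labs ins)).idxOf (l, i) < (npT p b labs ins).N := idx_lt_of_mem hn
    rcases node_shape hn d hk with ⟨ls, hi, e⟩ | ⟨a', c, hi, e⟩ | ⟨ops, l', y, hi, hy, e⟩ |
      ⟨ops, l', y, hi, hy, e⟩ | ⟨hi, e⟩
    · rw [e] at hx; cases hx
    · rw [e] at hx; cases hx
    · rw [e] at hx; cases hx
    · rw [e] at hx
      have hr' : w = ⟨_, hk⟩ := Sum.inl.inj (Sum.inr.inj (Sum.inr.inj hx))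
      subst hr'
      have hi' : ins l = DIns.seq ops l' := hi
      have hy' : (primsOf ops).getD i (Sum.inl (0, 0)) = Sum.inr y := hy
      have hlab := (mem_nodesOf_iff.mp hn).1
      obtain ⟨hy1, hv, hv', hD, hN⟩ := write_fields hp hw hp' hn hi' hy' hk
      have hN' := nextN_mem hw i hlab hi'
      have hk' : (nodesOf (tabOf labs ins)).idxOf (nextN ops l l' i) < (npT p b labs ins).N :=
        idx_lt_of_mem hN'
      have hEq : (Qt p b labs ins hp').wrN ⟨_, hk⟩ =
          (npT p b labs ins).res d (refN (tabOf labs ins) (nextN ops l l' i)) :=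
        hN.trans (NP.res_indep _ _ _ _ hk')
      obtain ⟨dg0, hdg0, hL0, hg0⟩ := ih _ hN' d hEq (preN_next_w hi' hy')
      obtain ⟨hc, hpre1⟩ := hpre ops l' y hi hy
      obtain ⟨c, v, v'⟩ := y
      simp only at hy1 hv hv' hc hpre1
      have hdv : dg0 c = v' := by
        have h1 : L ⟨c, hc⟩ + (Qt p b labs ins hp').wrD ⟨_, hk⟩ ⟨c, hc⟩
            = ofBits ((allVec b).getD v []) := hpre1
        rw [hD, writeVec_getD hc, if_pos (Or.inl rfl), hL0, frm_lt _ _ _ hy1,
          ofBits_xorL (lbl_length hv) (lbl_length hv')] at h1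
        simp only at h1
        refine ofBits_lbl_inj (hdg0.1 c hy1) hv' ?_
        generalize (ofBits ((allVec b).getD (dg0 c) []) : Sg b) = A at h1
        generalize (ofBits ((allVec b).getD v []) : Sg b) = B at h1
        generalize (ofBits ((allVec b).getD v' []) : Sg b) = C at h1
        calc A = A + (B + C) + (B + C) := by rw [add_assoc, sg_add_self', add_zero]
          _ = B + (B + C) := by rw [h1]
          _ = C := by rw [← add_assoc, sg_add_self', zero_add]
      have hup : Function.update (Function.update dg0 c v) c v' = dg0 := by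
        rw [Function.update_idem, ← hdv, Function.update_eq_self]
      have hnorm : NormDg p (2 ^ b) (Function.update dg0 c v) := by
        refine ⟨fun c' hc' => ?_, fun c' hc' => ?_⟩
        · by_cases hcc : c' = c
          · subst hcc
            rw [Function.update_self]
            exact hv
          · rw [Function.update_of_ne hcc]
            exact hdg0.1 c' hc'
        · have hcc : c' ≠ c := by omega
          rw [Function.update_of_ne hcc]
          exact hdg0.2 c' hc'
      refine ⟨Function.update dg0 c v, hnorm, ?_, ?_⟩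
      · rw [frm_write (allVec b) (Function.update dg0 c v) (c := c) (v := v) (v' := v') hy1
          (Function.update_self _ _ _) (lbl_length hv) (lbl_length hv'), hup, ← hL0]
        funext j
        rw [hD]
      · refine goodN_step hi' (mem_nodes_seq hi' hn) hy' (dg1 := dg0) ?_ (goodN_next hi' hg0)
        simp only [applyOp, Function.update_self, if_true, hup]
    · rw [e] at hx; cases hx
  | ga g br L h h' ih ih' =>
    intro n hn d hx hpre
    have hk : (nodesOf (tabOf labs ins)).idxOf n < (npT p b labs ins).N := idx_lt_of_mem hn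
    have hnl := (mem_nodesOf_iff.mp hn).1
    rcases node_shape hn d hk with ⟨ls, hi, e⟩ | ⟨a', c, hi, e⟩ | ⟨ops, l', y, hi, hy, e⟩ |
      ⟨ops, l', y, hi, hy, e⟩ | ⟨hi, e⟩
    · rw [e] at hx
      have hr' : g = ⟨_, hk⟩ := Sum.inl.inj hx
      subst hr'
      have hne : ∀ ops l', ins n.1 ≠ DIns.seq ops l' := fun ops l' e' => by
        rw [hi] at e'
        cases e'
      have hbr : br.val < (nodesOf (tabOf labs ins)).length := br.isLt
      have hgl := gl_eq hp hw hp' ⟨_, hk⟩ br
      rw [(gateL_or hn hi hbr).1] at hgl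
      by_cases hcond : (nodesOf (tabOf labs ins))[br.val].2 = 0 ∧ (nodesOf (tabOf labs ins))[br.val].1 ∈ ls
      · rw [if_pos hcond] at hgl
        have hmem : (nodesOf (tabOf labs ins))[br.val] ∈ nodesOf (tabOf labs ins) :=
          List.getElem_mem hbr
        have hk' := idx_lt_of_mem hmem
        obtain ⟨dg, hdg, hL, hg⟩ := ih _ hmem d (hgl.trans (NP.res_indep _ _ _ _ hk')) (by
          have e1 : (nodesOf (tabOf labs ins))[br.val]
              = ((nodesOf (tabOf labs ins))[br.val].1, 0) := Prod.ext rfl hcond.1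
          rw [e1]
          exact preN_zero)
        refine ⟨dg, hdg, hL, goodN_nonseq hne (DAcc.or hi hcond.2 ?_)⟩
        have e1 : (nodesOf (tabOf labs ins))[br.val]
              = ((nodesOf (tabOf labs ins))[br.val].1, 0) := Prod.ext rfl hcond.1
        rw [e1] at hg
        exact goodN_zero hg
      · rw [if_neg hcond] at hgl
        cases ls with
        | nil =>
          exact ih _ hn d (hgl.trans (NP.res_indep _ _ _ _ hk)) hpre
        | cons c t =>
          have hcl : c ∈ labs := by
            apply hw.closed _ hnl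
            rw [hi]
            simp [DIns.children]
          have hmem := zero_mem_nodes hw hcl
          obtain ⟨dg, hdg, hL, hg⟩ := ih _ hmem d
            (hgl.trans (NP.res_indep _ _ _ _ (idx_lt_of_mem hmem))) preN_zero
          exact ⟨dg, hdg, hL, goodN_nonseq hne (DAcc.or hi (List.mem_cons_self ..) (goodN_zero hg))⟩
    · rw [e] at hx
      have hr' : g = ⟨_, hk⟩ := Sum.inl.inj hx
      subst hr'
      have hne : ∀ ops l', ins n.1 ≠ DIns.seq ops l' := fun ops l' e' => by
        rw [hi] at e'
        cases e'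
      have hbr : br.val < (nodesOf (tabOf labs ins)).length := br.isLt
      have hgl := gl_eq hp hw hp' ⟨_, hk⟩ br
      have hgr := gr_eq hp hw hp' ⟨_, hk⟩ br
      rw [(gateL_and hn hi hbr).1] at hgl
      rw [(gateL_and hn hi hbr).2] at hgr
      have hcc := hw.closed _ hnl
      rw [hi] at hcc
      have hal : a' ∈ labs := hcc a' (by simp [DIns.children])
      have hcl : c ∈ labs := hcc c (by simp [DIns.children])
      have hma := zero_mem_nodes hw hal
      have hmc := zero_mem_nodes hw hcl
      obtain ⟨dg, hdg, hL, hg⟩ := ih _ hma d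
        (hgl.trans (NP.res_indep _ _ _ _ (idx_lt_of_mem hma))) preN_zero
      obtain ⟨dg2, hdg2, hL2, hg2⟩ := ih' _ hmc d
        (hgr.trans (NP.res_indep _ _ _ _ (idx_lt_of_mem hmc))) preN_zero
      have hdd : dg = dg2 := frm_inj hdg hdg2 (hL.symm.trans hL2)
      subst hdd
      exact ⟨dg, hdg, hL, goodN_nonseq hne (DAcc.and hi (goodN_zero hg) (goodN_zero hg2))⟩
    · rw [e] at hx; cases hx
    · rw [e] at hx; cases hx
    · rw [e] at hx; cases hx

end Proofs6

section Proofs7

variable {labs : List Lab} {ins : Lab → DIns} {p b : ℕ}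

/-- Walking along the primitive steps of a sequence. -/
lemma seq_walk (hp : 2 ≤ p) (hw : DWF (p - 1) (2 ^ b) labs ins) (hp' : 0 < p) {l l' : Lab}
    {ops : List Op} (hl : l ∈ labs) (hi : ins l = DIns.seq ops l') {dg' : ℕ → ℕ}
    (ht : ∀ d, (Qt p b labs ins hp').Acc ((npT p b labs ins).res d (refN (tabOf labs ins) (l', 0)))
      (frm (allVec b) dg')) :
    ∀ m i (dg : ℕ → ℕ), (primsOf ops).length - i = m → i < (primsOf ops).length →
      NormDg p (2 ^ b) dg → applyOps ((primsOf ops).drop i) dg = some dg' →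
      ∀ d, (Qt p b labs ins hp').Acc ((npT p b labs ins).res d (refN (tabOf labs ins) (l, i)))
        (frm (allVec b) dg) := by
  intro m
  induction m with
  | zero =>
    intro i dg hm hlt
    omega
  | succ m ih =>
    intro i dg hm hlt hdg ho d
    have hn : (l, i) ∈ nodesOf (tabOf labs ins) := mem_nodesOf_iff.mpr ⟨hl, by
      simp only [hi]
      simpa [nodeCount] using hlt⟩
    have hk : (nodesOf (tabOf labs ins)).idxOf (l, i) < (npT p b labs ins).N := idx_lt_of_mem hn
    have hnext : ∀ dg1 : ℕ → ℕ, NormDg p (2 ^ b) dg1 →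
        applyOps ((primsOf ops).drop (i + 1)) dg1 = some dg' →
        ∀ d, (Qt p b labs ins hp').Acc
          ((npT p b labs ins).res d (refN (tabOf labs ins) (nextN ops l l' i)))
          (frm (allVec b) dg1) := by
      intro dg1 hdg1 ho1 d
      unfold nextN
      split
      · rename_i h2
        exact ih (i + 1) dg1 (by omega) h2 hdg1 ho1 d
      · rename_i h2
        rw [List.drop_eq_nil_of_le (by omega)] at ho1
        have : dg1 = dg' := by simpa [applyOps] using ho1
        subst this
        exact ht d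
    rw [drop_cons_getD hlt (Sum.inl (0, 0))] at ho
    rcases node_shape hn d hk with ⟨ls, hi2, e⟩ | ⟨a', c, hi2, e⟩ | ⟨ops2, l2, y, hi2, hy, e⟩ |
      ⟨ops2, l2, y, hi2, hy, e⟩ | ⟨hi2, e⟩
    · have hi3 : ins l = _ := hi2
      rw [hi] at hi3
      cases hi3
    · have hi3 : ins l = _ := hi2
      rw [hi] at hi3
      cases hi3
    · have hi3 : ins l = _ := hi2
      have e2 : (Sum.inr (Sum.inr (Sum.inl (ops, l'))) : DIns) = Sum.inr (Sum.inr (Sum.inl (ops2, l2))) :=
        hi.symm.trans hi3
      simp only [Sum.inr.injEq, Sum.inl.injEq, Prod.mk.injEq] at e2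
      obtain ⟨rfl, rfl⟩ := e2
      have hy' : (primsOf ops).getD i (Sum.inl (0, 0)) = Sum.inl y := hy
      rw [hy'] at ho
      obtain ⟨hy1, hy2, hJ, hS, hN⟩ := read_fields hp hw hp' hn hi hy' hk
      have hv : dg y.1 = y.2 := by
        by_contra hne
        simp [applyOps, applyOp, hne] at ho
      have ho1 : applyOps ((primsOf ops).drop (i + 1)) dg = some dg' := by
        simpa [applyOps, applyOp, hv] using ho
      rw [e]
      refine Prog.Acc.re _ _ ?_ ?_
      · have hJ' : (Qt p b labs ins hp').reJ ⟨_, hk⟩ = ⟨y.1, by omega⟩ := Fin.ext hJ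
        rw [hJ', hS, frm_lt _ _ _ hy1, hv]
      · rw [hN]
        exact hnext dg hdg ho1 _
    · have hi3 : ins l = _ := hi2
      have e2 : (Sum.inr (Sum.inr (Sum.inl (ops, l'))) : DIns) = Sum.inr (Sum.inr (Sum.inl (ops2, l2))) :=
        hi.symm.trans hi3
      simp only [Sum.inr.injEq, Sum.inl.injEq, Prod.mk.injEq] at e2
      obtain ⟨rfl, rfl⟩ := e2
      have hy' : (primsOf ops).getD i (Sum.inl (0, 0)) = Sum.inr y := hy
      rw [hy'] at ho
      obtain ⟨hy1, hv, hv', hD, hN⟩ := write_fields hp hw hp' hn hi hy' hk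
      obtain ⟨c, v, v'⟩ := y
      simp only at hy1 hv hv'
      have hdv : dg c = v := by
        by_contra hne
        simp [applyOps, applyOp, hne] at ho
      have ho1 : applyOps ((primsOf ops).drop (i + 1)) (Function.update dg c v') = some dg' := by
        simpa [applyOps, applyOp, hdv] using ho
      have hnorm : NormDg p (2 ^ b) (Function.update dg c v') := by
        refine ⟨fun c' hc' => ?_, fun c' hc' => ?_⟩
        · by_cases hcc : c' = c
          · subst hcc
            rw [Function.update_self]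
            exact hv'
          · rw [Function.update_of_ne hcc]
            exact hdg.1 c' hc'
        · have hcc : c' ≠ c := by omega
          rw [Function.update_of_ne hcc]
          exact hdg.2 c' hc'
      rw [e, frm_write (allVec b) dg (c := c) (v := v) (v' := v') hy1 hdv (lbl_length hv)
        (lbl_length hv')]
      have hfr : (fun j : Fin p => (frm (allVec b) (Function.update dg c v') : Frame p b) j +
          ofBits ((writeVec p (allVec b) (c, v, v')).getD j.val []))
          = fun j => (frm (allVec b) (Function.update dg c v') : Frame p b) j +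
            (Qt p b labs ins hp').wrD ⟨_, hk⟩ j := by
        funext j
        rw [hD]
      rw [hfr]
      refine Prog.Acc.wr _ _ ?_
      rw [hN]
      exact hnext _ hnorm ho1 _
    · have hi3 : ins l = _ := hi2
      rw [hi] at hi3
      cases hi3

/-- Completeness of the compilation. -/
theorem acc_of_dacc (hp : 2 ≤ p) (hw : DWF (p - 1) (2 ^ b) labs ins) (hp' : 0 < p) {l : Lab}
    {dg : ℕ → ℕ} (h : DAcc ins l dg) : l ∈ labs → NormDg p (2 ^ b) dg →
    ∀ d, (Qt p b labs ins hp').Acc ((npT p b labs ins).res d (refN (tabOf labs ins) (l, 0)))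
      (frm (allVec b) dg) := by
  induction h with
  | @acc l dg h =>
    intro hl hdg d
    have hn := zero_mem_nodes hw hl
    have hk : (nodesOf (tabOf labs ins)).idxOf (l, 0) < (npT p b labs ins).N := idx_lt_of_mem hn
    rcases node_shape hn d hk with ⟨ls, hi2, e⟩ | ⟨a', c, hi2, e⟩ | ⟨ops2, l2, y, hi2, hy, e⟩ |
      ⟨ops2, l2, y, hi2, hy, e⟩ | ⟨hi2, e⟩
    · have hi3 : ins l = _ := hi2
      rw [h] at hi3
      cases hi3
    · have hi3 : ins l = _ := hi2
      rw [h] at hi3
      cases hi3
    · have hi3 : ins l = _ := hi2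
      rw [h] at hi3
      cases hi3
    · have hi3 : ins l = _ := hi2
      rw [h] at hi3
      cases hi3
    · rw [e]
      exact Prog.Acc.ac _ _ (frm_sum hp _ _)
  | @or l l2 ls dg h hm h' ih =>
    intro hl hdg d
    have hn := zero_mem_nodes hw hl
    have hk : (nodesOf (tabOf labs ins)).idxOf (l, 0) < (npT p b labs ins).N := idx_lt_of_mem hn
    have hl2 : l2 ∈ labs := by
      apply hw.closed l hl
      rw [h]
      exact hm
    have hn2 := zero_mem_nodes hw hl2
    have hk2 : (nodesOf (tabOf labs ins)).idxOf (l2, 0) < (npT p b labs ins).N := idx_lt_of_mem hn2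
    have hk3 : (nodesOf (tabOf labs ins)).idxOf (l2, 0) < (nodesOf (tabOf labs ins)).length := hk2
    have hgeq : (nodesOf (tabOf labs ins))[(nodesOf (tabOf labs ins)).idxOf (l2, 0)] = (l2, 0) :=
      List.getElem_idxOf hk3
    have hcond : (nodesOf (tabOf labs ins))[(nodesOf (tabOf labs ins)).idxOf (l2, 0)].2 = 0 ∧
        (nodesOf (tabOf labs ins))[(nodesOf (tabOf labs ins)).idxOf (l2, 0)].1 ∈ ls := by
      rw [hgeq]
      exact ⟨rfl, hm⟩
    have hgl := gl_eq hp hw hp' ⟨_, hk⟩ ⟨_, hk2⟩
    have hgr := gr_eq hp hw hp' ⟨_, hk⟩ ⟨_, hk2⟩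
    rw [(gateL_or hn h hk3).1, if_pos hcond, hgeq] at hgl
    rw [(gateL_or hn h hk3).2, if_pos hcond, hgeq] at hgr
    rw [(node_shape_or hn d hk h)]
    refine Prog.Acc.ga (Q := Qt p b labs ins hp') (⟨_, hk⟩ : Fin (npT p b labs ins).N)
      (⟨_, hk2⟩ : Fin (npT p b labs ins).N) _ ?_ ?_
    · rw [hgl]
      exact ih hl2 hdg _
    · rw [hgr]
      exact ih hl2 hdg _
  | @and l a c dg h ha hb iha ihb =>
    intro hl hdg d
    have hn := zero_mem_nodes hw hl
    have hk : (nodesOf (tabOf labs ins)).idxOf (l, 0) < (npT p b labs ins).N := idx_lt_of_mem hn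
    have hk3 : (nodesOf (tabOf labs ins)).idxOf (l, 0) < (nodesOf (tabOf labs ins)).length := hk
    have hcc := hw.closed l hl
    rw [h] at hcc
    have hal : a ∈ labs := hcc a (by simp [DIns.children])
    have hcl : c ∈ labs := hcc c (by simp [DIns.children])
    have hgl := gl_eq hp hw hp' ⟨_, hk⟩ ⟨_, hk⟩
    have hgr := gr_eq hp hw hp' ⟨_, hk⟩ ⟨_, hk⟩
    rw [(gateL_and hn h hk3).1] at hgl
    rw [(gateL_and hn h hk3).2] at hgr
    rw [node_shape_and hn d hk h]
    refine Prog.Acc.ga (Q := Qt p b labs ins hp') (⟨_, hk⟩ : Fin (npT p b labs ins).N)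
      (⟨_, hk⟩ : Fin (npT p b labs ins).N) _ ?_ ?_
    · rw [hgl]
      exact iha hal hdg _
    · rw [hgr]
      exact ihb hcl hdg _
  | @seq l l2 ops dg dg' h ho h' ih =>
    intro hl hdg d
    have hok := seq_ops_ok hw hl h
    have hl2 : l2 ∈ labs := by
      apply hw.closed l hl
      rw [h]
      simp [DIns.children]
    have hdg' := applyOps_norm hok.2 hdg ho
    have ho' : applyOps ((primsOf ops).drop 0) dg = some dg' := by
      rw [List.drop_zero, applyOps_primsOf]
      exact ho
    exact seq_walk hp hw hp' hl h (ih hl2 hdg') _ 0 dg rfl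
      (List.length_pos_iff.mpr (primsOf_ne_nil hok.1)) hdg ho' d

end Proofs7

/-- (module M-DP) The compilation of a digit program to a program on frames is correct: a frame is
accepted at the node of a label iff it is the frame of a normal digit state accepted at the label.
Here `allVec b` is the list of all `b`-bit labels, `q = 2 ^ b` digits. The default index of `res` is
irrelevant, as the reference is valid. -/
theorem dp_acc_iff {p b : ℕ} (hp : 2 ≤ p) {labs : List Lab} {ins : Lab → DIns}
    (hw : DWF (p - 1) (2 ^ b) labs ins) (l : Lab) (hl : l ∈ labs)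
    (d : Fin (npOf p (allVec b) (tabOf labs ins)).N) (L : Frame p b) :
    ((npOf p (allVec b) (tabOf labs ins)).toProg p b (by omega)).Acc
        ((npOf p (allVec b) (tabOf labs ins)).res d (refN (tabOf labs ins) (l, 0))) L ↔
      ∃ dg, NormDg p (2 ^ b) dg ∧ L = frm (allVec b) dg ∧ DAcc ins l dg := by
  constructor
  · intro h
    obtain ⟨dg, hn, hL, hg⟩ := acc_sem hp hw (by omega) h (l, 0) (zero_mem_nodes hw hl) d rfl preN_zero
    exact ⟨dg, hn, hL, goodN_zero hg⟩
  · rintro ⟨dg, h1, rfl, h3⟩
    exact acc_of_dacc hp hw (by omega) h3 hl h1 d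

/-- (module M-DP) The numeric program of a well-formed digit program is well formed. -/
theorem npOf_wf {p b : ℕ} (hp : 2 ≤ p) {labs : List Lab} {ins : Lab → DIns}
    (hw : DWF (p - 1) (2 ^ b) labs ins) : (npOf p (allVec b) (tabOf labs ins)).WF p b :=
  npOf_wf_aux hp hw

end Vale.Agent.Lib.P310.M
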