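import Vale.Agent.Lib.P310.M.TM
import Vale.Agent.Lib.P310.M.Cmd

/-!
(module OT) A structured program on stacks followed by a Turing machine is a Turing machine.

The machine `M'` has one tape whose cells carry a mark and one symbol per stack, the bottom of each
stack in cell `0`. The control state is a continuation, a list of commands still to be run; only
finitely many continuations occur. After the program the machine behaves as `M`, reading the track
of the output stack through a decoding function.
-/

namespace Vale.Agent.Lib.P310.M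

open scoped Classical

noncomputable section

/-- The store at the start: the input word on stack `sI`, its last bit on top. -/
def σin (w : List Bool) : St := fun s => if s = sI then w.reverse.map bitS else []

/-- The store at the end: the output word on stack `sO`, its last bit on top. -/
def σout (y : List Bool) : St := fun s => if s = sO then y.reverse.map bitS else []

/-! ### Continuations -/

/-- One move of the continuation. -/
inductive Nx : List Cmd → List Cmd → Prop
  | skip (k : List Cmd) : Nx (Cmd.skip :: k) k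
  | push (s : Stk) (a : Sym) (k : List Cmd) : Nx (Cmd.push s a :: k) k
  | seq (c d : Cmd) (k : List Cmd) : Nx (Cmd.seq c d :: k) (c :: d :: k)
  | case0 (s : Stk) (c0 c1 c2 c3 : Cmd) (k : List Cmd) : Nx (Cmd.case s c0 c1 c2 c3 :: k) (c0 :: k)
  | case1 (s : Stk) (c0 c1 c2 c3 : Cmd) (k : List Cmd) : Nx (Cmd.case s c0 c1 c2 c3 :: k) (c1 :: k)
  | case2 (s : Stk) (c0 c1 c2 c3 : Cmd) (k : List Cmd) : Nx (Cmd.case s c0 c1 c2 c3 :: k) (c2 :: k)
  | case3 (s : Stk) (c0 c1 c2 c3 : Cmd) (k : List Cmd) : Nx (Cmd.case s c0 c1 c2 c3 :: k) (c3 :: k)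
  | loop0 (s : Stk) (c0 c1 : Cmd) (k : List Cmd) :
      Nx (Cmd.loop s c0 c1 :: k) (c0 :: Cmd.loop s c0 c1 :: k)
  | loop1 (s : Stk) (c0 c1 : Cmd) (k : List Cmd) :
      Nx (Cmd.loop s c0 c1 :: k) (c1 :: Cmd.loop s c0 c1 :: k)
  | loopX (s : Stk) (c0 c1 : Cmd) (k : List Cmd) : Nx (Cmd.loop s c0 c1 :: k) k

lemma Nx.inv_append {l e m : List Cmd} (h : Nx (l ++ e) m) (hl : l ≠ []) :
    ∃ l', m = l' ++ e ∧ Nx l l' := by
  cases l with
  | nil => exact absurd rfl hl
  | cons x l0 =>
    simp only [List.cons_append] at h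
    cases h with
    | skip => exact ⟨l0, rfl, Nx.skip _⟩
    | push s a => exact ⟨l0, rfl, Nx.push _ _ _⟩
    | seq c d => exact ⟨c :: d :: l0, rfl, Nx.seq _ _ _⟩
    | case0 => exact ⟨_ :: l0, rfl, Nx.case0 _ _ _ _ _ _⟩
    | case1 => exact ⟨_ :: l0, rfl, Nx.case1 _ _ _ _ _ _⟩
    | case2 => exact ⟨_ :: l0, rfl, Nx.case2 _ _ _ _ _ _⟩
    | case3 => exact ⟨_ :: l0, rfl, Nx.case3 _ _ _ _ _ _⟩
    | loop0 => exact ⟨_ :: _ :: l0, rfl, Nx.loop0 _ _ _ _⟩
    | loop1 => exact ⟨_ :: _ :: l0, rfl, Nx.loop1 _ _ _ _⟩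
    | loopX => exact ⟨l0, rfl, Nx.loopX _ _ _ _⟩

/-- A finite set of continuations closed under moves, containing the program itself. -/
def conts : Cmd → Set (List Cmd)
  | Cmd.skip => {[Cmd.skip], []}
  | Cmd.push s a => {[Cmd.push s a], []}
  | Cmd.seq c d => {[Cmd.seq c d]} ∪ (fun l => l ++ [d]) '' conts c ∪ conts d
  | Cmd.case s c0 c1 c2 c3 =>
      {[Cmd.case s c0 c1 c2 c3]} ∪ conts c0 ∪ conts c1 ∪ conts c2 ∪ conts c3
  | Cmd.loop s c0 c1 =>
      {[Cmd.loop s c0 c1], []} ∪ (fun l => l ++ [Cmd.loop s c0 c1]) '' conts c0 ∪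
        (fun l => l ++ [Cmd.loop s c0 c1]) '' conts c1

lemma conts_finite (c : Cmd) : (conts c).Finite := by
  induction c with
  | skip => simp [conts]
  | push s a => simp [conts]
  | seq c d hc hd =>
    simp only [conts]
    exact ((Set.finite_singleton _).union (hc.image _)).union hd
  | case s c0 c1 c2 c3 h0 h1 h2 h3 =>
    simp only [conts]
    exact (((((Set.finite_singleton _).union h0)).union h1).union h2).union h3
  | loop s c0 c1 h0 h1 =>
    simp only [conts]
    exact (((Set.finite_singleton _).insert _).union (h0.image _)).union (h1.image _)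

lemma self_mem_conts (c : Cmd) : [c] ∈ conts c := by
  cases c <;> simp [conts]

lemma nil_mem_conts (c : Cmd) : [] ∈ conts c := by
  induction c with
  | skip => simp [conts]
  | push s a => simp [conts]
  | seq c d hc hd =>
    simp only [conts]
    exact Or.inr hd
  | case s c0 c1 c2 c3 h0 h1 h2 h3 =>
    simp only [conts]
    exact Or.inr h3
  | loop s c0 c1 h0 h1 => simp [conts]

lemma conts_closed (c : Cmd) : ∀ {l m : List Cmd}, l ∈ conts c → Nx l m → m ∈ conts c := by
  induction c with
  | skip =>
    intro l m hl h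
    simp only [conts, Set.mem_insert_iff, Set.mem_singleton_iff] at hl ⊢
    rcases hl with rfl | rfl
    · cases h; exact Or.inr rfl
    · cases h
  | push s a =>
    intro l m hl h
    simp only [conts, Set.mem_insert_iff, Set.mem_singleton_iff] at hl ⊢
    rcases hl with rfl | rfl
    · cases h; exact Or.inr rfl
    · cases h
  | seq c d hc hd =>
    intro l m hl h
    simp only [conts] at hl ⊢
    rcases hl with (hl | ⟨l0, hl0, rfl⟩) | hl
    · rw [Set.mem_singleton_iff] at hl
      subst hl
      cases h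
      exact Or.inl (Or.inr ⟨[c], self_mem_conts c, rfl⟩)
    · by_cases h0 : l0 = []
      · subst h0
        exact Or.inr (hd (self_mem_conts d) h)
      · obtain ⟨l', rfl, h'⟩ := Nx.inv_append h h0
        exact Or.inl (Or.inr ⟨l', hc hl0 h', rfl⟩)
    · exact Or.inr (hd hl h)
  | case s c0 c1 c2 c3 h0 h1 h2 h3 =>
    intro l m hl h
    simp only [conts] at hl ⊢
    rcases hl with (((hl | hl) | hl) | hl) | hl
    · rw [Set.mem_singleton_iff] at hl
      subst hl
      cases h
      · exact Or.inl (Or.inl (Or.inl (Or.inr (self_mem_conts c0))))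
      · exact Or.inl (Or.inl (Or.inr (self_mem_conts c1)))
      · exact Or.inl (Or.inr (self_mem_conts c2))
      · exact Or.inr (self_mem_conts c3)
    · exact Or.inl (Or.inl (Or.inl (Or.inr (h0 hl h))))
    · exact Or.inl (Or.inl (Or.inr (h1 hl h)))
    · exact Or.inl (Or.inr (h2 hl h))
    · exact Or.inr (h3 hl h)
  | loop s c0 c1 h0 h1 =>
    intro l m hl h
    have key : ∀ {m : List Cmd}, Nx [Cmd.loop s c0 c1] m → m ∈ conts (Cmd.loop s c0 c1) := by
      intro m h
      simp only [conts]
      cases h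
      · exact Or.inl (Or.inr ⟨[c0], self_mem_conts c0, rfl⟩)
      · exact Or.inr ⟨[c1], self_mem_conts c1, rfl⟩
      · exact Or.inl (Or.inl (Or.inr rfl))
    rcases hl with (hl | ⟨l0, hl0, rfl⟩) | ⟨l0, hl0, rfl⟩
    · rcases hl with rfl | hl
      · exact key h
      · rw [Set.mem_singleton_iff] at hl
        subst hl
        cases h
    · by_cases h00 : l0 = []
      · subst h00
        exact key h
      · obtain ⟨l', rfl, h'⟩ := Nx.inv_append h h00
        exact Or.inl (Or.inr ⟨l', h0 hl0 h', rfl⟩)
    · by_cases h00 : l0 = []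
      · subst h00
        exact key h
      · obtain ⟨l', rfl, h'⟩ := Nx.inv_append h h00
        exact Or.inr ⟨l', h1 hl0 h', rfl⟩

/-- The size of a program. -/
def Cmd.size : Cmd → ℕ
  | Cmd.skip => 1
  | Cmd.push _ _ => 1
  | Cmd.seq c d => c.size + d.size + 1
  | Cmd.case _ c0 c1 c2 c3 => c0.size + c1.size + c2.size + c3.size + 1
  | Cmd.loop _ c0 c1 => c0.size + c1.size + 1

lemma Cmd.size_pos (c : Cmd) : 1 ≤ c.size := by
  cases c <;> simp [Cmd.size]

/-- The stack used by the first command of a continuation. -/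
def stackOf : List Cmd → Stk
  | Cmd.push s _ :: _ => s
  | Cmd.case s _ _ _ _ :: _ => s
  | Cmd.loop s _ _ :: _ => s
  | _ => 0

/-- The continuation after popping a symbol. -/
def brS : Sym → List Cmd → List Cmd
  | Sym.b0, Cmd.case _ c0 _ _ _ :: k => c0 :: k
  | Sym.b1, Cmd.case _ _ c1 _ _ :: k => c1 :: k
  | Sym.hash, Cmd.case _ _ _ c2 _ :: k => c2 :: k
  | Sym.b0, Cmd.loop s c0 c1 :: k => c0 :: Cmd.loop s c0 c1 :: k
  | Sym.b1, Cmd.loop s c0 c1 :: k => c1 :: Cmd.loop s c0 c1 :: k
  | Sym.hash, Cmd.loop _ _ _ :: k => k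
  | _, l => l

/-- The continuation after finding the stack empty. -/
def brE : List Cmd → List Cmd
  | Cmd.case _ _ _ _ c3 :: k => c3 :: k
  | Cmd.loop _ _ _ :: k => k
  | l => l

lemma brS_mem {K : Set (List Cmd)} (hK : ∀ {l m}, l ∈ K → Nx l m → m ∈ K) (a : Sym) {k : List Cmd}
    (hk : k ∈ K) : brS a k ∈ K := by
  rcases k with _ | ⟨x, k⟩
  · cases a <;> exact hk
  · cases x <;> cases a <;> first
      | exact hk
      | exact hK hk (Nx.case0 _ _ _ _ _ _)
      | exact hK hk (Nx.case1 _ _ _ _ _ _)
      | exact hK hk (Nx.case2 _ _ _ _ _ _)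
      | exact hK hk (Nx.loop0 _ _ _ _)
      | exact hK hk (Nx.loop1 _ _ _ _)
      | exact hK hk (Nx.loopX _ _ _ _)

lemma brE_mem {K : Set (List Cmd)} (hK : ∀ {l m}, l ∈ K → Nx l m → m ∈ K) {k : List Cmd}
    (hk : k ∈ K) : brE k ∈ K := by
  rcases k with _ | ⟨x, k⟩
  · exact hk
  · cases x <;> first
      | exact hk
      | exact hK hk (Nx.case3 _ _ _ _ _ _)
      | exact hK hk (Nx.loopX _ _ _ _)

/-! ### The machine, first with all continuations as states -/

/-- One cell during the program: a mark and one symbol per stack. -/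
abbrev Cell := Bool × (Stk → Option Sym)

/-- The tape alphabet of the composed machine. -/
abbrev Gam (M : TM) := M.Γ ⊕ Cell

/-- Raw control states. -/
inductive RQ (Q : Type)
  | init
  | ctl (k : List Cmd)
  | left (k : List Cmd)
  | sweep (k : List Cmd)
  | popT (k : List Cmd)
  | mach (q : Q)

/-- The symbol of a stack in a cell. -/
def rd {M : TM} (s : Stk) : Gam M → Option Sym
  | Sum.inl _ => none
  | Sum.inr x => x.2 s

/-- Change the symbol of a stack in a cell. -/
def wr {M : TM} (s : Stk) (a : Option Sym) : Gam M → Gam M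
  | Sum.inl g => Sum.inl g
  | Sum.inr x => Sum.inr (x.1, Function.update x.2 s a)

/-- The mark of a cell. -/
def mk {M : TM} : Gam M → Bool
  | Sum.inl _ => true
  | Sum.inr x => x.1

/-- Put the mark on a cell. -/
def setMk {M : TM} : Gam M → Gam M
  | Sum.inl g => Sum.inl g
  | Sum.inr x => Sum.inr (true, x.2)

/-- What `M` sees in a cell. -/
def dec (M : TM) : Gam M → M.Γ
  | Sum.inl g => g
  | Sum.inr x =>
    match x.2 sO with
    | some Sym.b0 => M.bit false
    | some Sym.b1 => M.bit true
    | _ => M.blank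

/-- The action at the top of a stack, when the sweep has found the first free cell. -/
def act {M : TM} (k : List Cmd) (g : Gam M) : RQ M.Q × Gam M × Bool :=
  match k with
  | Cmd.push s a :: k' => (RQ.left k', wr s (some a) g, false)
  | _ => (RQ.popT k, g, false)

/-- The raw transition function. All moves to the left at cell `0` stay at cell `0`. -/
def rδ (M : TM) (c0 : Cmd) : RQ M.Q → Gam M → RQ M.Q × Gam M × Bool
  | RQ.init, g => (RQ.ctl [c0], setMk g, false)
  | RQ.ctl [], g => (RQ.mach M.start, g, false)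
  | RQ.ctl (Cmd.skip :: k), g => (RQ.ctl k, g, false)
  | RQ.ctl (Cmd.seq c d :: k), g => (RQ.ctl (c :: d :: k), g, false)
  | RQ.ctl (x :: k), g => (RQ.sweep (x :: k), g, false)
  | RQ.left k, g => if mk g = true then (RQ.ctl k, g, false) else (RQ.left k, g, false)
  | RQ.sweep k, g =>
    match rd (stackOf k) g with
    | none => act k g
    | some _ => (RQ.sweep k, g, true)
  | RQ.popT k, g =>
    match rd (stackOf k) g with
    | none => (RQ.left (brE k), g, false)
    | some a => (RQ.left (brS a k), wr (stackOf k) none g, false)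
  | RQ.mach q, g => (RQ.mach (M.δ q (dec M g)).1, Sum.inl (M.δ q (dec M g)).2.1, (M.δ q (dec M g)).2.2)

/-- The finite set of states that occur. -/
def stSet (M : TM) (c0 : Cmd) : Set (RQ M.Q) :=
  {RQ.init} ∪ RQ.ctl '' conts c0 ∪ RQ.left '' conts c0 ∪ RQ.sweep '' conts c0 ∪
    RQ.popT '' conts c0 ∪ Set.range RQ.mach

lemma stSet_finite (M : TM) (c0 : Cmd) : (stSet M c0).Finite := by
  have h := conts_finite c0
  exact ((((((Set.finite_singleton _).union (h.image _)).union (h.image _)).union (h.image _)).union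
    (h.image _)).union (Set.finite_range _))

lemma mem_ctl {M : TM} {c0 : Cmd} {k : List Cmd} (hk : k ∈ conts c0) :
    (RQ.ctl k : RQ M.Q) ∈ stSet M c0 :=
  Or.inl (Or.inl (Or.inl (Or.inl (Or.inr ⟨k, hk, rfl⟩))))

lemma mem_left {M : TM} {c0 : Cmd} {k : List Cmd} (hk : k ∈ conts c0) :
    (RQ.left k : RQ M.Q) ∈ stSet M c0 :=
  Or.inl (Or.inl (Or.inl (Or.inr ⟨k, hk, rfl⟩)))

lemma mem_sweep {M : TM} {c0 : Cmd} {k : List Cmd} (hk : k ∈ conts c0) :
    (RQ.sweep k : RQ M.Q) ∈ stSet M c0 :=
  Or.inl (Or.inl (Or.inr ⟨k, hk, rfl⟩))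

lemma mem_popT {M : TM} {c0 : Cmd} {k : List Cmd} (hk : k ∈ conts c0) :
    (RQ.popT k : RQ M.Q) ∈ stSet M c0 :=
  Or.inl (Or.inr ⟨k, hk, rfl⟩)

lemma mem_mach {M : TM} {c0 : Cmd} (q : M.Q) : (RQ.mach q : RQ M.Q) ∈ stSet M c0 :=
  Or.inr ⟨q, rfl⟩

lemma mem_init {M : TM} {c0 : Cmd} : (RQ.init : RQ M.Q) ∈ stSet M c0 :=
  Or.inl (Or.inl (Or.inl (Or.inl (Or.inl rfl))))

lemma rδ_closed (M : TM) (c0 : Cmd) {q : RQ M.Q} (hq : q ∈ stSet M c0) (g : Gam M) :
    (rδ M c0 q g).1 ∈ stSet M c0 := by
  have hN : ∀ {l m : List Cmd}, l ∈ conts c0 → Nx l m → m ∈ conts c0 := conts_closed c0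
  rcases hq with ((((hq | ⟨k, hk, rfl⟩) | ⟨k, hk, rfl⟩) | ⟨k, hk, rfl⟩) | ⟨k, hk, rfl⟩) | ⟨q, rfl⟩
  · rw [Set.mem_singleton_iff] at hq
    subst hq
    exact mem_ctl (self_mem_conts c0)
  · rcases k with _ | ⟨x, k⟩
    · exact mem_mach _
    · cases x with
      | skip => exact mem_ctl (hN hk (Nx.skip _))
      | seq c d => exact mem_ctl (hN hk (Nx.seq _ _ _))
      | push s a => exact mem_sweep hk
      | case s c0 c1 c2 c3 => exact mem_sweep hk
      | loop s c0 c1 => exact mem_sweep hk
  · show (if mk g = true then ((RQ.ctl k : RQ M.Q), g, false) else (RQ.left k, g, false)).1 ∈ _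
    split_ifs
    · exact mem_ctl hk
    · exact mem_left hk
  · simp only [rδ]
    cases hr : rd (stackOf k) g with
    | some a => exact mem_sweep hk
    | none =>
      simp only [act]
      rcases k with _ | ⟨x, k⟩
      · exact mem_popT hk
      · cases x with
        | push s a => exact mem_left (hN hk (Nx.push _ _ _))
        | skip => exact mem_popT hk
        | seq c d => exact mem_popT hk
        | case s c0 c1 c2 c3 => exact mem_popT hk
        | loop s c0 c1 => exact mem_popT hk
  · simp only [rδ]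
    cases hr : rd (stackOf k) g with
    | some a => exact mem_left (brS_mem hN a hk)
    | none => exact mem_left (brE_mem hN hk)
  · exact mem_mach _

/-- The composed machine. -/
def mkTM (M : TM) (c0 : Cmd) : TM where
  Q := ↥(stSet M c0)
  Γ := Gam M
  instQ := (stSet_finite M c0).fintype
  instΓ := inferInstance
  start := ⟨RQ.init, mem_init⟩
  acc := ⟨RQ.mach M.acc, mem_mach _⟩
  rej := ⟨RQ.mach M.rej, mem_mach _⟩
  blank := Sum.inr (false, fun _ => none)
  bit := fun a => Sum.inr (false, fun s => if s = sI then some (bitS a) else none)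
  δ := fun q g => (⟨(rδ M c0 q.1 g).1, rδ_closed M c0 q.2 g⟩, (rδ M c0 q.1 g).2.1, (rδ M c0 q.1 g).2.2)

/-- Raw configurations. -/
structure RCfg (M : TM) where
  st : RQ M.Q
  pos : ℕ
  tape : ℕ → Gam M

/-- One raw step. -/
def rstep (M : TM) (c0 : Cmd) (c : RCfg M) : RCfg M :=
  if c.st = RQ.mach M.acc ∨ c.st = RQ.mach M.rej then c
  else
    ⟨(rδ M c0 c.st (c.tape c.pos)).1,
      if (rδ M c0 c.st (c.tape c.pos)).2.2 then c.pos + 1 else c.pos - 1,
      Function.update c.tape c.pos (rδ M c0 c.st (c.tape c.pos)).2.1⟩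

/-- The raw configuration of a configuration of the composed machine. -/
def toRaw {M : TM} {c0 : Cmd} (c : (mkTM M c0).Cfg) : RCfg M := ⟨c.st.1, c.pos, c.tape⟩

lemma toRaw_step {M : TM} {c0 : Cmd} (c : (mkTM M c0).Cfg) :
    toRaw ((mkTM M c0).step c) = rstep M c0 (toRaw c) := by
  have h1 : (c.st = (mkTM M c0).acc) ↔ c.st.1 = RQ.mach M.acc :=
    ⟨fun h => by rw [h]; rfl, fun h => Subtype.ext h⟩
  have h2 : (c.st = (mkTM M c0).rej) ↔ c.st.1 = RQ.mach M.rej :=
    ⟨fun h => by rw [h]; rfl, fun h => Subtype.ext h⟩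
  by_cases h : c.st.1 = RQ.mach M.acc ∨ c.st.1 = RQ.mach M.rej
  · have h' : c.st = (mkTM M c0).acc ∨ c.st = (mkTM M c0).rej := by rwa [h1, h2]
    simp only [TM.step, h', if_true]
    simp only [rstep, toRaw, h, if_true]
  · have h' : ¬ (c.st = (mkTM M c0).acc ∨ c.st = (mkTM M c0).rej) := by rwa [h1, h2]
    simp only [TM.step, h', if_false]
    simp only [rstep, toRaw, h, if_false]
    rfl

/-- The raw start configuration. -/
def rinit (M : TM) (c0 : Cmd) (w : List Bool) : RCfg M :=
  ⟨RQ.init, 0, (mkTM M c0).inputTape w⟩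

lemma toRaw_run (M : TM) (c0 : Cmd) (w : List Bool) (t : ℕ) :
    toRaw ((mkTM M c0).run w t) = (rstep M c0)^[t] (rinit M c0 w) := by
  induction t with
  | zero => rfl
  | succ t ih =>
    rw [Function.iterate_succ_apply', ← ih]
    exact toRaw_step _

/-! ### Timed reachability of raw configurations -/

/-- Reachable within a number of steps. -/
def RB (M : TM) (c0 : Cmd) (a b : RCfg M) (n : ℕ) : Prop := ∃ m ≤ n, (rstep M c0)^[m] a = b

lemma RB.trans {M : TM} {c0 : Cmd} {a b c : RCfg M} {m n : ℕ} (h1 : RB M c0 a b m)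
    (h2 : RB M c0 b c n) : RB M c0 a c (m + n) := by
  obtain ⟨m', hm, rfl⟩ := h1
  obtain ⟨n', hn, rfl⟩ := h2
  exact ⟨n' + m', by omega, Function.iterate_add_apply _ _ _ _⟩

lemma RB.mono {M : TM} {c0 : Cmd} {a b : RCfg M} {m n : ℕ} (h1 : RB M c0 a b m) (h : m ≤ n) :
    RB M c0 a b n := by
  obtain ⟨m', hm, h2⟩ := h1
  exact ⟨m', by omega, h2⟩

lemma RB.one {M : TM} {c0 : Cmd} {a b : RCfg M} (h : rstep M c0 a = b) : RB M c0 a b 1 :=
  ⟨1, le_refl _, h⟩

/-! ### The tape of a store -/

/-- The tape of a store: the mark on cell `0`, each stack from its bottom in cell `0` upwards. -/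
def tapeOf (M : TM) (σ : St) (p : ℕ) : Gam M :=
  Sum.inr (decide (p = 0), fun s => (σ s).reverse[p]?)

/-- The raw configuration in control state `q` with the head on cell `0`. -/
def CC (M : TM) (q : RQ M.Q) (σ : St) : RCfg M := ⟨q, 0, tapeOf M σ⟩

lemma rd_tapeOf (M : TM) (σ : St) (s : Stk) (p : ℕ) : rd s (tapeOf M σ p) = (σ s).reverse[p]? := rfl

lemma mk_tapeOf (M : TM) (σ : St) (p : ℕ) : mk (tapeOf M σ p) = decide (p = 0) := rfl

lemma update_push (M : TM) (σ : St) (s : Stk) (a : Sym) :
    Function.update (tapeOf M σ) (σ s).length (wr s (some a) (tapeOf M σ (σ s).length)) =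
      tapeOf M (St.set σ s (a :: σ s)) := by
  funext p
  by_cases hp : p = (σ s).length
  · subst hp
    rw [Function.update_self]
    simp only [tapeOf, wr]
    congr 2
    funext s'
    by_cases hs : s' = s
    · subst hs
      simp [St.set]
    · simp [St.set, Function.update_of_ne hs]
  · rw [Function.update_of_ne hp]
    simp only [tapeOf]
    congr 2
    funext s'
    by_cases hs : s' = s
    · subst hs
      simp only [St.set, Function.update_self, List.reverse_cons]
      rw [List.getElem?_append]
      split_ifs with h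
      · rfl
      · have h1 : (σ s').reverse[p]? = none := by
          rw [List.getElem?_eq_none_iff]; simp only [List.length_reverse] at h ⊢; omega
        rw [h1, eq_comm, List.getElem?_eq_none_iff]
        simp only [List.length_singleton, List.length_reverse] at h ⊢
        omega
    · simp [St.set, Function.update_of_ne hs]

lemma update_pop (M : TM) (σ : St) (s : Stk) {a : Sym} {l : List Sym} (hs : σ s = a :: l) :
    Function.update (tapeOf M σ) l.length (wr s none (tapeOf M σ l.length)) =
      tapeOf M (St.set σ s l) := by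
  funext p
  by_cases hp : p = l.length
  · subst hp
    rw [Function.update_self]
    simp only [tapeOf, wr]
    congr 2
    funext s'
    by_cases h : s' = s
    · subst h
      simp [St.set]
    · simp [St.set, Function.update_of_ne h]
  · rw [Function.update_of_ne hp]
    simp only [tapeOf]
    congr 2
    funext s'
    by_cases h : s' = s
    · subst h
      simp only [St.set, Function.update_self, hs, List.reverse_cons]
      rw [List.getElem?_append]
      split_ifs with h1
      · rfl
      · have h2 : l.reverse[p]? = none := by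
          rw [List.getElem?_eq_none_iff]; simp only [List.length_reverse] at h1 ⊢; omega
        rw [h2, List.getElem?_eq_none_iff]
        simp only [List.length_singleton, List.length_reverse] at h1 ⊢
        omega
    · simp [St.set, Function.update_of_ne h]

/-! ### Sweeps -/

lemma step_left_pos (M : TM) (c0 : Cmd) (σ : St) (k : List Cmd) (p : ℕ) :
    rstep M c0 ⟨RQ.left k, p + 1, tapeOf M σ⟩ = ⟨RQ.left k, p, tapeOf M σ⟩ := by
  have h : mk (tapeOf M σ (p + 1)) = false := by
    rw [mk_tapeOf]; simp
  simp only [rstep, rδ, h]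
  simp [Function.update_eq_self]

lemma step_left_zero (M : TM) (c0 : Cmd) (σ : St) (k : List Cmd) :
    rstep M c0 ⟨RQ.left k, 0, tapeOf M σ⟩ = CC M (RQ.ctl k) σ := by
  have h : mk (tapeOf M σ 0) = true := by
    rw [mk_tapeOf]; simp
  simp only [rstep, rδ, h]
  simp [Function.update_eq_self, CC]

lemma sweep_left (M : TM) (c0 : Cmd) (σ : St) (k : List Cmd) (p : ℕ) :
    RB M c0 ⟨RQ.left k, p, tapeOf M σ⟩ (CC M (RQ.ctl k) σ) (p + 1) := by
  induction p with
  | zero => exact RB.one (step_left_zero M c0 σ k)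
  | succ p ih => exact (RB.one (step_left_pos M c0 σ k p)).trans ih |>.mono (by omega)

lemma sweep_right (M : TM) (c0 : Cmd) (σ : St) (k : List Cmd) (p d : ℕ)
    (hp : p + d = (σ (stackOf k)).length) :
    RB M c0 ⟨RQ.sweep k, p, tapeOf M σ⟩ ⟨RQ.sweep k, p + d, tapeOf M σ⟩ d := by
  induction d generalizing p with
  | zero => exact ⟨0, le_refl _, rfl⟩
  | succ d ih =>
    have h1 : rstep M c0 ⟨RQ.sweep k, p, tapeOf M σ⟩ = ⟨RQ.sweep k, p + 1, tapeOf M σ⟩ := by
      have hlt : p < (σ (stackOf k)).reverse.length := by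
        rw [List.length_reverse]; omega
      have hr : rd (stackOf k) (tapeOf M σ p) = some (σ (stackOf k)).reverse[p] := by
        rw [rd_tapeOf, List.getElem?_eq_getElem hlt]
      simp only [rstep, rδ, hr]
      simp [Function.update_eq_self]
    have h2 := ih (p + 1) (by omega)
    have h3 : p + 1 + d = p + (d + 1) := by omega
    rw [h3] at h2
    exact ((RB.one h1).trans h2).mono (by omega)

/-- A push. -/
lemma op_push (M : TM) (c0 : Cmd) (σ : St) (s : Stk) (a : Sym) (k : List Cmd) :
    RB M c0 (CC M (RQ.ctl (Cmd.push s a :: k)) σ) (CC M (RQ.ctl k) (St.set σ s (a :: σ s)))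
      (2 * (σ s).length + 3) := by
  have h1 : rstep M c0 (CC M (RQ.ctl (Cmd.push s a :: k)) σ) =
      ⟨RQ.sweep (Cmd.push s a :: k), 0, tapeOf M σ⟩ := by
    simp only [CC, rstep, rδ]
    simp [Function.update_eq_self]
  have h2 := sweep_right M c0 σ (Cmd.push s a :: k) 0 (σ s).length (by simp [stackOf])
  rw [Nat.zero_add] at h2
  have h3 : rstep M c0 ⟨RQ.sweep (Cmd.push s a :: k), (σ s).length, tapeOf M σ⟩ =
      ⟨RQ.left k, (σ s).length - 1, tapeOf M (St.set σ s (a :: σ s))⟩ := by
    have hr : rd s (tapeOf M σ (σ s).length) = none := by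
      rw [rd_tapeOf, List.getElem?_eq_none_iff, List.length_reverse]
    simp only [rstep, rδ, stackOf, hr, act]
    simp [update_push]
  have h4 := sweep_left M c0 (St.set σ s (a :: σ s)) k ((σ s).length - 1)
  exact (((RB.one h1).trans h2).trans (RB.one h3)).trans h4 |>.mono (by omega)

/-- A pop of a symbol, for a command whose stack is `s`. -/
lemma op_pop (M : TM) (c0 : Cmd) (σ : St) (k : List Cmd) (hk : rδ M c0 (RQ.ctl k) = fun g =>
    (RQ.sweep k, g, false)) (hact : ∀ g : Gam M, act k g = (RQ.popT k, g, false))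
    {a : Sym} {l : List Sym} (hs : σ (stackOf k) = a :: l) :
    RB M c0 (CC M (RQ.ctl k) σ) (CC M (RQ.ctl (brS a k)) (St.set σ (stackOf k) l))
      (2 * (σ (stackOf k)).length + 3) := by
  set s := stackOf k with hsdef
  have h1 : rstep M c0 (CC M (RQ.ctl k) σ) = ⟨RQ.sweep k, 0, tapeOf M σ⟩ := by
    simp only [CC, rstep, hk]
    simp [Function.update_eq_self]
  have h2 := sweep_right M c0 σ k 0 (σ s).length (by simp [hsdef])
  rw [Nat.zero_add] at h2
  have hlen : (σ s).length = l.length + 1 := by simp [hs]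
  have h3 : rstep M c0 ⟨RQ.sweep k, (σ s).length, tapeOf M σ⟩ =
      ⟨RQ.popT k, l.length, tapeOf M σ⟩ := by
    have hr : rd s (tapeOf M σ (σ s).length) = none := by
      rw [rd_tapeOf, List.getElem?_eq_none_iff, List.length_reverse]
    simp only [rstep, rδ, ← hsdef, hr, hact]
    simp [Function.update_eq_self, hlen]
  have h4 : rstep M c0 ⟨RQ.popT k, l.length, tapeOf M σ⟩ =
      ⟨RQ.left (brS a k), l.length - 1, tapeOf M (St.set σ s l)⟩ := by
    have hr : rd s (tapeOf M σ l.length) = some a := by
      rw [rd_tapeOf, hs, List.reverse_cons, List.getElem?_append_right (by simp)]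
      simp
    simp only [rstep, rδ, ← hsdef, hr]
    simp [update_pop M σ s hs]
  have h5 := sweep_left M c0 (St.set σ s l) (brS a k) (l.length - 1)
  exact ((((RB.one h1).trans h2).trans (RB.one h3)).trans (RB.one h4)).trans h5 |>.mono (by omega)

/-- Finding a stack empty. -/
lemma op_empty (M : TM) (c0 : Cmd) (σ : St) (k : List Cmd) (hk : rδ M c0 (RQ.ctl k) = fun g =>
    (RQ.sweep k, g, false)) (hact : ∀ g : Gam M, act k g = (RQ.popT k, g, false))
    (hs : σ (stackOf k) = []) :
    RB M c0 (CC M (RQ.ctl k) σ) (CC M (RQ.ctl (brE k)) σ) 4 := by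
  have hr : rd (stackOf k) (tapeOf M σ 0) = none := by
    rw [rd_tapeOf, hs]; simp
  have h1 : rstep M c0 (CC M (RQ.ctl k) σ) = ⟨RQ.sweep k, 0, tapeOf M σ⟩ := by
    simp only [CC, rstep, hk]
    simp [Function.update_eq_self]
  have h2 : rstep M c0 ⟨RQ.sweep k, 0, tapeOf M σ⟩ = ⟨RQ.popT k, 0, tapeOf M σ⟩ := by
    simp only [rstep, rδ, hr, hact]
    simp [Function.update_eq_self]
  have h3 : rstep M c0 ⟨RQ.popT k, 0, tapeOf M σ⟩ = ⟨RQ.left (brE k), 0, tapeOf M σ⟩ := by
    simp only [rstep, rδ, hr]
    simp [Function.update_eq_self]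
  have h4 := step_left_zero M c0 σ (brE k)
  exact (((RB.one h1).trans (RB.one h2)).trans (RB.one h3)).trans (RB.one h4)

/-! ### Heights -/

lemma length_le_height (σ : St) (s : Stk) : (σ s).length ≤ height σ :=
  Finset.single_le_sum (f := fun s => (σ s).length) (fun _ _ => Nat.zero_le _) (Finset.mem_univ s)

lemma height_set (σ : St) (s : Stk) (l : List Sym) :
    height (St.set σ s l) + (σ s).length = height σ + l.length := by
  have h1 : height σ = (σ s).length + ∑ i ∈ Finset.univ.erase s, (σ i).length :=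
    (Finset.add_sum_erase _ (fun i => (σ i).length) (Finset.mem_univ s)).symm
  have h2 : height (St.set σ s l) =
      (St.set σ s l s).length + ∑ i ∈ Finset.univ.erase s, (St.set σ s l i).length :=
    (Finset.add_sum_erase _ (fun i => (St.set σ s l i).length) (Finset.mem_univ s)).symm
  have h3 : ∑ i ∈ Finset.univ.erase s, (St.set σ s l i).length =
      ∑ i ∈ Finset.univ.erase s, (σ i).length := by
    apply Finset.sum_congr rfl
    intro i hi
    rw [St.set, Function.update_of_ne (Finset.ne_of_mem_erase hi)]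
  have h4 : (St.set σ s l s) = l := by simp [St.set]
  rw [h2, h3, h4, h1]
  omega

lemma height_eval {c : Cmd} {σ σ' : St} {t : ℕ} (h : Eval c σ σ' t) :
    height σ' ≤ height σ + t := by
  induction h with
  | skip σ => simp
  | push σ s a =>
    have := height_set σ s (a :: σ s)
    simp only [List.length_cons] at this
    omega
  | seq h1 h2 ih1 ih2 => omega
  | @case0 s c0 c1 c2 c3 σ σ' l t hs h ih =>
    have := height_set σ s l
    rw [hs] at this
    simp only [List.length_cons] at this
    omega
  | @case1 s c0 c1 c2 c3 σ σ' l t hs h ih =>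
    have := height_set σ s l
    rw [hs] at this
    simp only [List.length_cons] at this
    omega
  | @case2 s c0 c1 c2 c3 σ σ' l t hs h ih =>
    have := height_set σ s l
    rw [hs] at this
    simp only [List.length_cons] at this
    omega
  | case3 hs h ih => omega
  | @loop0 s c0 c1 σ σ1 σ2 l t1 t2 hs h1 h2 ih1 ih2 =>
    have := height_set σ s l
    rw [hs] at this
    simp only [List.length_cons] at this
    omega
  | @loop1 s c0 c1 σ σ1 σ2 l t1 t2 hs h1 h2 ih1 ih2 =>
    have := height_set σ s l
    rw [hs] at this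
    simp only [List.length_cons] at this
    omega
  | @loopH s c0 c1 σ l hs =>
    have := height_set σ s l
    rw [hs] at this
    simp only [List.length_cons] at this
    omega
  | loopE hs => omega

/-! ### The simulation of a program -/

lemma arith_seq (a b t1 t2 W : ℕ) (hW : 1 ≤ W) :
    1 + (a * (t1 + 1) * W + b * (t2 + 1) * W) ≤ (a + b + 1) * (t1 + t2 + 1) * W := by
  have : (a + b + 1) * (t1 + t2 + 1) * W = a * (t1 + 1) * W + b * (t2 + 1) * W +
      (a * t2 * W + b * t1 * W + (t1 + t2) * W + W) := by ring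
  omega

lemma arith_op (a S t e W c : ℕ) (hc : c ≤ W) (ha : a + 1 ≤ S) :
    c + a * (t + 1) * W ≤ S * (t + e + 1) * W := by
  have h1 : (a + 1) * (t + 1) * W ≤ S * (t + e + 1) * W :=
    Nat.mul_le_mul_right _ (Nat.mul_le_mul ha (by omega))
  have h2 : (a + 1) * (t + 1) * W = a * (t + 1) * W + (t * W + W) := by ring
  omega

lemma arith_loop (a b t1 t2 W c : ℕ) (hc : c ≤ W) :
    c + (a * (t1 + 1) * W + (a + b + 1) * (t2 + 1) * W) ≤ (a + b + 1) * (t1 + t2 + 2 + 1) * W := by
  have : (a + b + 1) * (t1 + t2 + 2 + 1) * W = a * (t1 + 1) * W + (a + b + 1) * (t2 + 1) * W +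
      (b * (t1 + 1) * W + (t1 + 1) * W + (a + b + 1) * W) + a * 0 := by ring
  have h2 : (a + b + 1) * W = a * W + b * W + W := by ring
  omega

/-- The machine runs the program, in time controlled by the size, the length of the evaluation and
a bound on all heights. -/
theorem sim (M : TM) (c0 : Cmd) {c : Cmd} {σ σ' : St} {t : ℕ} (h : Eval c σ σ' t) :
    ∀ (k : List Cmd) (H : ℕ), height σ + t ≤ H →
      RB M c0 (CC M (RQ.ctl (c :: k)) σ) (CC M (RQ.ctl k) σ') (c.size * (t + 1) * (2 * H + 4)) := by
  induction h with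
  | skip σ =>
    intro k H _
    have h1 : rstep M c0 (CC M (RQ.ctl (Cmd.skip :: k)) σ) = CC M (RQ.ctl k) σ := by
      simp only [CC, rstep, rδ]
      simp [Function.update_eq_self]
    exact (RB.one h1).mono (by simp only [Cmd.size]; omega)
  | push σ s a =>
    intro k H hH
    have h1 := op_push M c0 σ s a k
    have h2 := length_le_height σ s
    exact h1.mono (by simp only [Cmd.size]; omega)
  | @seq c d σ σ1 σ2 t1 t2 h1 h2 ih1 ih2 =>
    intro k H hH
    have h0 : rstep M c0 (CC M (RQ.ctl (Cmd.seq c d :: k)) σ) = CC M (RQ.ctl (c :: d :: k)) σ := by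
      simp only [CC, rstep, rδ]
      simp [Function.update_eq_self]
    have hh := height_eval h1
    have e1 := ih1 (d :: k) H (by omega)
    have e2 := ih2 k H (by omega)
    refine ((RB.one h0).trans (e1.trans e2)).mono ?_
    simp only [Cmd.size]
    exact arith_seq _ _ _ _ _ (by omega)
  | @case0 s c0' c1 c2 c3 σ σ' l t hs h ih =>
    intro k H hH
    have e1 := op_pop M c0 σ (Cmd.case s c0' c1 c2 c3 :: k) (funext fun _ => rfl) (fun _ => rfl)
      (a := Sym.b0) (l := l) hs
    have hh := height_set σ s l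
    rw [hs] at hh
    simp only [List.length_cons] at hh
    have e2 := ih k H (by omega)
    have h3 := length_le_height σ s
    refine (e1.trans e2).mono ?_
    simp only [Cmd.size]
    exact arith_op _ _ _ 2 _ _ (by simpa [stackOf] using (by omega : 2 * (σ s).length + 3 ≤ 2 * H + 4))
      (by omega)
  | @case1 s c0' c1 c2 c3 σ σ' l t hs h ih =>
    intro k H hH
    have e1 := op_pop M c0 σ (Cmd.case s c0' c1 c2 c3 :: k) (funext fun _ => rfl) (fun _ => rfl)
      (a := Sym.b1) (l := l) hs
    have hh := height_set σ s l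
    rw [hs] at hh
    simp only [List.length_cons] at hh
    have e2 := ih k H (by omega)
    have h3 := length_le_height σ s
    refine (e1.trans e2).mono ?_
    simp only [Cmd.size]
    exact arith_op _ _ _ 2 _ _ (by simpa [stackOf] using (by omega : 2 * (σ s).length + 3 ≤ 2 * H + 4))
      (by omega)
  | @case2 s c0' c1 c2 c3 σ σ' l t hs h ih =>
    intro k H hH
    have e1 := op_pop M c0 σ (Cmd.case s c0' c1 c2 c3 :: k) (funext fun _ => rfl) (fun _ => rfl)
      (a := Sym.hash) (l := l) hs
    have hh := height_set σ s l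
    rw [hs] at hh
    simp only [List.length_cons] at hh
    have e2 := ih k H (by omega)
    have h3 := length_le_height σ s
    refine (e1.trans e2).mono ?_
    simp only [Cmd.size]
    exact arith_op _ _ _ 2 _ _ (by simpa [stackOf] using (by omega : 2 * (σ s).length + 3 ≤ 2 * H + 4))
      (by omega)
  | @case3 s c0' c1 c2 c3 σ σ' t hs h ih =>
    intro k H hH
    have e1 := op_empty M c0 σ (Cmd.case s c0' c1 c2 c3 :: k) (funext fun _ => rfl) (fun _ => rfl) hs
    have e2 := ih k H (by omega)
    refine (e1.trans e2).mono ?_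
    simp only [Cmd.size]
    exact arith_op _ _ _ 1 _ _ (by omega) (by omega)
  | @loop0 s c0' c1 σ σ1 σ2 l t1 t2 hs h1 h2 ih1 ih2 =>
    intro k H hH
    have e1 := op_pop M c0 σ (Cmd.loop s c0' c1 :: k) (funext fun _ => rfl) (fun _ => rfl)
      (a := Sym.b0) (l := l) hs
    have hh := height_set σ s l
    rw [hs] at hh
    simp only [List.length_cons] at hh
    have hh1 := height_eval h1
    have e2 := ih1 (Cmd.loop s c0' c1 :: k) H (by omega)
    have e3 := ih2 k H (by omega)
    have h3 := length_le_height σ s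
    refine (e1.trans (e2.trans e3)).mono ?_
    simp only [Cmd.size]
    exact arith_loop _ _ _ _ _ _ (by simpa [stackOf] using (by omega : 2 * (σ s).length + 3 ≤ 2 * H + 4))
  | @loop1 s c0' c1 σ σ1 σ2 l t1 t2 hs h1 h2 ih1 ih2 =>
    intro k H hH
    have e1 := op_pop M c0 σ (Cmd.loop s c0' c1 :: k) (funext fun _ => rfl) (fun _ => rfl)
      (a := Sym.b1) (l := l) hs
    have hh := height_set σ s l
    rw [hs] at hh
    simp only [List.length_cons] at hh
    have hh1 := height_eval h1
    have e2 := ih1 (Cmd.loop s c0' c1 :: k) H (by omega)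
    have e3 := ih2 k H (by omega)
    have h3 := length_le_height σ s
    refine (e1.trans (e2.trans e3)).mono ?_
    simp only [Cmd.size]
    have := arith_loop c1.size c0'.size t1 t2 (2 * H + 4) (2 * (σ (stackOf (Cmd.loop s c0' c1 :: k))).length + 3)
      (by simpa [stackOf] using (by omega : 2 * (σ s).length + 3 ≤ 2 * H + 4))
    have e4 : c1.size + c0'.size + 1 = c0'.size + c1.size + 1 := by omega
    rw [e4] at this
    exact this
  | @loopH s c0' c1 σ l hs =>
    intro k H hH
    have e1 := op_pop M c0 σ (Cmd.loop s c0' c1 :: k) (funext fun _ => rfl) (fun _ => rfl)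
      (a := Sym.hash) (l := l) hs
    have h3 := length_le_height σ s
    refine e1.mono ?_
    have h4 : 1 ≤ (Cmd.loop s c0' c1).size * (1 + 1) := by
      have := Cmd.size_pos (Cmd.loop s c0' c1)
      omega
    calc 2 * (σ (stackOf (Cmd.loop s c0' c1 :: k))).length + 3 ≤ 1 * (2 * H + 4) := by
          simpa [stackOf] using (by omega : 2 * (σ s).length + 3 ≤ 2 * H + 4)
      _ ≤ _ := Nat.mul_le_mul_right _ h4
  | @loopE s c0' c1 σ hs =>
    intro k H hH
    have e1 := op_empty M c0 σ (Cmd.loop s c0' c1 :: k) (funext fun _ => rfl) (fun _ => rfl) hs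
    refine e1.mono ?_
    have h4 : 1 ≤ (Cmd.loop s c0' c1).size * (1 + 1) := by
      have := Cmd.size_pos (Cmd.loop s c0' c1)
      omega
    calc 4 ≤ 1 * (2 * H + 4) := by omega
      _ ≤ _ := Nat.mul_le_mul_right _ h4

/-! ### Start and end -/

lemma height_σin (w : List Bool) : height (σin w) = w.length := by
  unfold height
  rw [Finset.sum_eq_single sI]
  · simp [σin]
  · intro b _ hb
    simp [σin, hb]
  · intro h
    exact absurd (Finset.mem_univ _) h

/-- The input tape, with the symbols spelled out. -/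
def inTape (M : TM) (w : List Bool) (i : ℕ) : Gam M :=
  match w[i]? with
  | some a => Sum.inr (false, fun s => if s = sI then some (bitS a) else none)
  | none => Sum.inr (false, fun _ => none)

lemma rinit_eq (M : TM) (c0 : Cmd) (w : List Bool) :
    rinit M c0 w = ⟨RQ.init, 0, inTape M w⟩ := by
  have h : ((mkTM M c0).inputTape w : ℕ → Gam M) = inTape M w := by
    funext i
    simp only [TM.inputTape, inTape]
    cases w[i]? <;> rfl
  exact congrArg (fun tp => (⟨RQ.init, 0, tp⟩ : RCfg M)) h

lemma first_step (M : TM) (c0 : Cmd) (w : List Bool) :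
    rstep M c0 (rinit M c0 w) = CC M (RQ.ctl [c0]) (σin w) := by
  rw [rinit_eq]
  simp only [rstep, rδ]
  simp only [reduceCtorEq, or_self, if_false, Nat.zero_sub, CC]
  congr 1
  funext p
  by_cases hp : p = 0
  · subst hp
    rw [Function.update_self]
    simp only [inTape, tapeOf, σin]
    cases hw : w[0]? with
    | none =>
      have hw' : w = [] := by
        cases w with
        | nil => rfl
        | cons a l => simp at hw
      subst hw'
      simp only [setMk]
      congr 2
      funext s
      by_cases hs : s = sI <;> simp [hs]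
    | some a =>
      simp only [setMk]
      refine congrArg Sum.inr (Prod.ext (by simp) (funext fun s => ?_))
      by_cases hs : s = sI
      · subst hs
        simp [hw]
      · simp [hs]
  · rw [Function.update_of_ne hp]
    simp only [inTape, tapeOf, σin]
    cases hw : w[p]? with
    | none =>
      refine congrArg Sum.inr (Prod.ext (by simp [hp]) (funext fun s => ?_))
      by_cases hs : s = sI
      · subst hs
        simp [hw]
      · simp [hs]
    | some a =>
      refine congrArg Sum.inr (Prod.ext (by simp [hp]) (funext fun s => ?_))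
      by_cases hs : s = sI
      · subst hs
        simp [hw]
      · simp [hs]

lemma last_step (M : TM) (c0 : Cmd) (σ : St) :
    rstep M c0 (CC M (RQ.ctl []) σ) = CC M (RQ.mach M.start) σ := by
  simp only [CC, rstep, rδ]
  simp [Function.update_eq_self]

lemma dec_tapeOf (M : TM) (y : List Bool) (p : ℕ) :
    dec M (tapeOf M (σout y) p) = M.inputTape y p := by
  simp only [dec, tapeOf, σout, if_true, TM.inputTape]
  simp only [List.reverse_reverse, ← List.map_reverse, List.getElem?_map]
  cases y[p]? with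
  | none => simp
  | some a => cases a <;> simp [bitS]

lemma mach_sim (M : TM) (c0 : Cmd) (y : List Bool) (tp : ℕ → Gam M)
    (htp : ∀ p, dec M (tp p) = M.inputTape y p) (t : ℕ) :
    ∃ tp' : ℕ → Gam M, (rstep M c0)^[t] ⟨RQ.mach M.start, 0, tp⟩ =
        ⟨RQ.mach (M.run y t).st, (M.run y t).pos, tp'⟩ ∧
      ∀ p, dec M (tp' p) = (M.run y t).tape p := by
  induction t with
  | zero => exact ⟨tp, rfl, htp⟩
  | succ t ih =>
    obtain ⟨tp', h1, h2⟩ := ih
    rw [Function.iterate_succ_apply', h1]
    by_cases hq : (M.run y t).st = M.acc ∨ (M.run y t).st = M.rej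
    · have hq' : RQ.mach (M.run y t).st = RQ.mach M.acc ∨ RQ.mach (M.run y t).st = RQ.mach M.rej := by
        rcases hq with hq | hq
        · exact Or.inl (by rw [hq])
        · exact Or.inr (by rw [hq])
      refine ⟨tp', ?_, ?_⟩
      · simp only [rstep, hq', if_true, TM.run, TM.step, hq]
      · intro p
        simp only [TM.run, TM.step, hq, if_true]
        exact h2 p
    · have hq' : ¬ (RQ.mach (M.run y t).st = RQ.mach M.acc ∨
          RQ.mach (M.run y t).st = RQ.mach M.rej) := by
        simpa using hq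
      refine ⟨Function.update tp' (M.run y t).pos
        (Sum.inl (M.δ (M.run y t).st ((M.run y t).tape (M.run y t).pos)).2.1), ?_, ?_⟩
      · simp only [rstep, hq', if_false, rδ, TM.run, TM.step, hq, h2]
      · intro p
        simp only [TM.run, TM.step, hq, if_false]
        by_cases hp : p = (M.run y t).pos
        · subst hp
          simp [dec]
        · simp only [Function.update_of_ne hp]
          exact h2 p

lemma run_frozen (M : TM) (w : List Bool) {t : ℕ} (h : (M.run w t).st = M.acc) (d : ℕ) :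
    (M.run w (t + d)).st = M.acc := by
  induction d with
  | zero => exact h
  | succ d ih =>
    rw [← Nat.add_assoc]
    simp [TM.run, TM.step, ih]

/-- (module OT) The composition: `M'` first runs the program `c` on its input word `w`, turning it
into the word `y`, and then behaves as `M` on `y`. -/
theorem compose (c : Cmd) (M : TM) : ∃ (M' : TM) (K : ℕ), ∀ (w y : List Bool) (T : ℕ),
    Eval c (σin w) (σout y) T →
    ∃ T0, T0 ≤ K * (T + w.length + 1) ^ 2 ∧ (M'.Accepts w ↔ M.Accepts y) ∧
      ∀ t, M.HaltsIn y t → M'.HaltsIn w (T0 + t) := by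
  refine ⟨mkTM M c, 4 * c.size + 2, fun w y T h => ?_⟩
  obtain ⟨n, hn, hrun⟩ := sim M c h [] (w.length + T) (by rw [height_σin])
  have hT0 : (rstep M c)^[n + 2] (rinit M c w) = CC M (RQ.mach M.start) (σout y) := by
    rw [show n + 2 = (n + 1) + 1 by omega, Function.iterate_succ_apply', Function.iterate_succ_apply,
      first_step, hrun, last_step]
  have hkey : ∀ t, ∃ p tp', toRaw ((mkTM M c).run w (n + 2 + t)) =
      ⟨RQ.mach (M.run y t).st, p, tp'⟩ := by
    intro t
    obtain ⟨tp', h1, _⟩ := mach_sim M c y (tapeOf M (σout y)) (dec_tapeOf M y) t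
    refine ⟨(M.run y t).pos, tp', ?_⟩
    rw [toRaw_run, Nat.add_comm, Function.iterate_add_apply, hT0]
    exact h1
  have hst : ∀ t, ((mkTM M c).run w (n + 2 + t)).st.1 = RQ.mach (M.run y t).st := by
    intro t
    obtain ⟨p, tp', h1⟩ := hkey t
    exact congrArg RCfg.st h1
  refine ⟨n + 2, ?_, ?_, ?_⟩
  · have hX : 1 ≤ T + w.length + 1 := by omega
    have h1 : c.size * (T + 1) * (2 * (w.length + T) + 4) ≤
        c.size * (T + w.length + 1) * (4 * (T + w.length + 1)) := by
      apply Nat.mul_le_mul (Nat.mul_le_mul_left _ (by omega)) (by omega)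
    have h2 : (4 * c.size + 2) * (T + w.length + 1) ^ 2 =
        c.size * (T + w.length + 1) * (4 * (T + w.length + 1)) + 2 * (T + w.length + 1) ^ 2 := by
      ring
    have h3 : 1 ≤ (T + w.length + 1) ^ 2 := Nat.one_le_pow _ _ hX
    omega
  · constructor
    · rintro ⟨t, ht⟩
      have h1 := run_frozen (mkTM M c) w ht (n + 2)
      refine ⟨t, ?_⟩
      have h2 := hst t
      rw [Nat.add_comm n 2, Nat.add_comm] at h1
      have h3 : ((mkTM M c).run w (n + 2 + t)).st.1 = RQ.mach M.acc := by
        rw [show n + 2 + t = t + (2 + n) by omega, Nat.add_comm t]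
        rw [h1]
        rfl
      rw [h2] at h3
      exact RQ.mach.inj h3
    · rintro ⟨t, ht⟩
      refine ⟨n + 2 + t, Subtype.ext ?_⟩
      rw [hst t, ht]
      rfl
  · rintro t (ht | ht)
    · left
      apply Subtype.ext
      rw [hst t, ht]
      rfl
    · right
      apply Subtype.ext
      rw [hst t, ht]
      rfl

end

end Vale.Agent.Lib.P310.M
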