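import Vale.Agent.Lib.P310.M.Raw

namespace Vale.Agent.Lib.P310.M

/-!
(module R3) The closure lemmas around a computed function: fixing the first component of the argument,
and the program from the input stack to the output stack. Auxiliary names carry the prefix `r3`.
-/

/-- Push a list of symbols; the head of the list ends on top. -/
def r3pushW (s : Stk) : List Sym → Cmd
  | [] => Cmd.skip
  | a :: l => Cmd.seq (r3pushW s l) (Cmd.push s a)

lemma r3_set_set (σ : St) (s : Stk) (l l' : List Sym) : St.set (St.set σ s l) s l' = St.set σ s l' := by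
  simp [St.set]

lemma r3_set_same (σ : St) (s : Stk) (l : List Sym) : St.set σ s l s = l := by
  simp [St.set]

lemma r3_set_ne (σ : St) {s s' : Stk} (l : List Sym) (h : s' ≠ s) : St.set σ s l s' = σ s' := by
  simp [St.set, h]

lemma r3_eval_pushW (s : Stk) (w : List Sym) (σ : St) :
    Eval (r3pushW s w) σ (St.set σ s (w ++ σ s)) w.length := by
  induction w with
  | nil =>
    have : St.set σ s ([] ++ σ s) = σ := by simp [St.set]
    rw [this]
    exact Eval.skip σ
  | cons a l ih =>
    have h := Eval.seq ih (Eval.push (St.set σ s (l ++ σ s)) s a)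
    have e : St.set (St.set σ s (l ++ σ s)) s (a :: St.set σ s (l ++ σ s) s) =
        St.set σ s ((a :: l) ++ σ s) := by
      rw [r3_set_set, r3_set_same]; rfl
    rw [e] at h
    exact h

/-- Fixing the first component of the argument keeps the exponents. -/
theorem PTe.fix {f : T → T} {d d' : ℕ} (h : PTe f d d') (a : T) :
    PTe (fun x => f (T.node a x)) (max d 1) d' := by
  obtain ⟨code, c, c', hsz, hc⟩ := h
  have key : ∀ (x : T) (e : ℕ), (sz (T.node a x) + 1) ^ e ≤ (sz a + 2) ^ e * (sz x + 1) ^ e := by
    intro x e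
    rw [← mul_pow]
    apply Nat.pow_le_pow_left
    rw [sz_node]
    nlinarith [sz_pos x, sz_pos a]
  refine ⟨Cmd.seq (r3pushW sA (Sym.b1 :: word a)) code, (sz a + 1) + c * (sz a + 2) ^ d,
    c' * (sz a + 2) ^ d', ?_, ?_⟩
  · intro x
    calc sz (f (T.node a x)) ≤ c' * (sz (T.node a x) + 1) ^ d' := hsz _
      _ ≤ c' * ((sz a + 2) ^ d' * (sz x + 1) ^ d') := Nat.mul_le_mul_left _ (key x d')
      _ = _ := by ring
  · intro x σ l hA hW hD
    have hp := r3_eval_pushW sA (Sym.b1 :: word a) σ
    set σ1 := St.set σ sA ((Sym.b1 :: word a) ++ σ sA) with hσ1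
    have h1A : σ1 sA = word (T.node a x) ++ l := by
      rw [hσ1, r3_set_same, hA, word_node]; simp
    have h1W : σ1 sW = [] := by
      rw [hσ1, r3_set_ne _ _ (by decide)]; exact hW
    have h1D : σ1 sD = [] := by
      rw [hσ1, r3_set_ne _ _ (by decide)]; exact hD
    obtain ⟨t, ht, hev⟩ := hc (T.node a x) σ1 l h1A h1W h1D
    have e : St.set σ1 sA (word (f (T.node a x)) ++ l) = St.set σ sA (word (f (T.node a x)) ++ l) := by
      rw [hσ1, r3_set_set]
    rw [e] at hev
    refine ⟨(Sym.b1 :: word a).length + t, ?_, Eval.seq hp hev⟩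
    have hone : 1 ≤ (sz x + 1) ^ max d 1 := Nat.one_le_pow _ _ (by omega)
    have hle : (sz x + 1) ^ d ≤ (sz x + 1) ^ max d 1 :=
      Nat.pow_le_pow_right (by omega) (le_max_left _ _)
    have hlen : (Sym.b1 :: word a).length = sz a + 1 := by simp [word_length]
    rw [hlen]
    calc sz a + 1 + t ≤ (sz a + 1) * (sz x + 1) ^ max d 1 + c * ((sz a + 2) ^ d * (sz x + 1) ^ max d 1) := by
          apply Nat.add_le_add
          · exact Nat.le_mul_of_pos_right _ hone
          · calc t ≤ c * (sz (T.node a x) + 1) ^ d := ht
              _ ≤ c * ((sz a + 2) ^ d * (sz x + 1) ^ d) := Nat.mul_le_mul_left _ (key x d)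
              _ ≤ _ := by
                apply Nat.mul_le_mul_left
                apply Nat.mul_le_mul_left
                exact hle
      _ = _ := by ring

/-! The total height grows by at most one per step. -/

lemma r3_height_set (σ : St) (s : Stk) (l : List Sym) :
    height (St.set σ s l) + (σ s).length = height σ + l.length := by
  unfold height
  have h1 := Finset.add_sum_erase Finset.univ (fun t => (St.set σ s l t).length) (Finset.mem_univ s)
  have h2 := Finset.add_sum_erase Finset.univ (fun t => (σ t).length) (Finset.mem_univ s)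
  have h3 : ∑ t ∈ Finset.univ.erase s, (St.set σ s l t).length =
      ∑ t ∈ Finset.univ.erase s, (σ t).length := by
    apply Finset.sum_congr rfl
    intro t ht
    rw [r3_set_ne _ _ (Finset.ne_of_mem_erase ht)]
  simp only [r3_set_same] at h1
  omega

lemma r3_height_le {c : Cmd} {σ σ' : St} {t : ℕ} (h : Eval c σ σ' t) :
    height σ' ≤ height σ + t := by
  induction h with
  | skip σ => simp
  | push σ s a =>
    have := r3_height_set σ s (a :: σ s)
    simp only [List.length_cons] at this
    omega
  | seq _ _ ih1 ih2 => omega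
  | @case0 s _ _ _ _ σ σ' l t hs _ ih =>
    have := r3_height_set σ s l
    rw [hs] at this
    simp only [List.length_cons] at this
    omega
  | @case1 s _ _ _ _ σ σ' l t hs _ ih =>
    have := r3_height_set σ s l
    rw [hs] at this
    simp only [List.length_cons] at this
    omega
  | @case2 s _ _ _ _ σ σ' l t hs _ ih =>
    have := r3_height_set σ s l
    rw [hs] at this
    simp only [List.length_cons] at this
    omega
  | case3 _ _ ih => omega
  | @loop0 s _ _ σ σ1 σ2 l t1 t2 hs _ _ ih1 ih2 =>
    have := r3_height_set σ s l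
    rw [hs] at this
    simp only [List.length_cons] at this
    omega
  | @loop1 s _ _ σ σ1 σ2 l t1 t2 hs _ _ ih1 ih2 =>
    have := r3_height_set σ s l
    rw [hs] at this
    simp only [List.length_cons] at this
    omega
  | @loopH s _ _ σ l hs =>
    have := r3_height_set σ s l
    rw [hs] at this
    simp only [List.length_cons] at this
    omega
  | loopE _ => omega

/-! Loading the input and decoding the output. -/

/-- Move the input to the main stack. -/
def r3load : Cmd := Cmd.loop sI (Cmd.push sA Sym.b0) (Cmd.push sA Sym.b1)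

lemma r3_eval_load (w : List Bool) (σ : St) (hI : σ sI = w.map bitS) :
    Eval r3load σ (St.set (St.set σ sI []) sA (w.reverse.map bitS ++ σ sA)) (3 * w.length + 1) := by
  induction w generalizing σ with
  | nil =>
    have e : St.set (St.set σ sI []) sA (([] : List Bool).reverse.map bitS ++ σ sA) = σ := by
      funext s
      by_cases hs : s = sA
      · subst hs; simp [St.set]
      · rw [r3_set_ne _ _ hs]
        by_cases hs' : s = sI
        · subst hs'; simpa [St.set] using hI.symm
        · rw [r3_set_ne _ _ hs']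
    rw [e]
    exact Eval.loopE (by simpa using hI)
  | cons a l ih =>
    have hI' : (St.set (St.set σ sI (l.map bitS)) sA (bitS a :: St.set σ sI (l.map bitS) sA)) sI =
        l.map bitS := by
      rw [r3_set_ne _ _ (by decide), r3_set_same]
    have ih' := ih _ hI'
    have e : St.set (St.set (St.set (St.set σ sI (l.map bitS)) sA
        (bitS a :: St.set σ sI (l.map bitS) sA)) sI []) sA
        (l.reverse.map bitS ++ (St.set (St.set σ sI (l.map bitS)) sA
        (bitS a :: St.set σ sI (l.map bitS) sA)) sA) =
        St.set (St.set σ sI []) sA ((a :: l).reverse.map bitS ++ σ sA) := by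
      funext s
      by_cases hs : s = sA
      · subst hs
        rw [r3_set_same, r3_set_same, r3_set_same, r3_set_ne _ _ (by decide)]
        simp
      · rw [r3_set_ne _ _ hs, r3_set_ne _ _ hs]
        by_cases hs' : s = sI
        · subst hs'; simp [St.set]
        · rw [r3_set_ne _ _ hs', r3_set_ne _ _ hs', r3_set_ne _ _ hs,
            r3_set_ne _ _ hs']
    rw [e] at ih'
    have hlen : 3 * (a :: l).length + 1 = 1 + (3 * l.length + 1) + 2 := by
      simp only [List.length_cons]; ring
    rw [hlen]
    cases a with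
    | false =>
      exact Eval.loop0 (l := l.map bitS) (by simpa [bitS] using hI) (Eval.push _ _ _) ih'
    | true =>
      exact Eval.loop1 (l := l.map bitS) (by simpa [bitS] using hI) (Eval.push _ _ _) ih'

/-- Pop one symbol of the main stack. -/
def r3popA : Cmd := Cmd.case sA Cmd.skip Cmd.skip Cmd.skip Cmd.skip

/-- Decode the word of `bitsT y` on the main stack to the output stack. -/
def r3decode : Cmd :=
  Cmd.loop sA Cmd.skip
    (Cmd.case sA (Cmd.push sO Sym.b0)
      (Cmd.seq r3popA (Cmd.seq r3popA (Cmd.push sO Sym.b1))) Cmd.skip Cmd.skip)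

lemma r3_sz_bitsT_cons (a : Bool) (l : List Bool) : sz (bitsT l) + 2 ≤ sz (bitsT (a :: l)) := by
  cases a <;> simp [bitsT, tBool, sz_node, sz_leaf]

lemma r3_eval_decode (y : List Bool) (σ : St) (hA : σ sA = word (bitsT y)) :
    ∃ t ≤ 3 * sz (bitsT y),
      Eval r3decode σ (St.set (St.set σ sA []) sO (y.reverse.map bitS ++ σ sO)) t := by
  induction y generalizing σ with
  | nil =>
    refine ⟨0 + 1 + 2, by simp [bitsT, sz_leaf], ?_⟩
    have e : St.set (St.set σ sA []) sO (([] : List Bool).reverse.map bitS ++ σ sO) =
        St.set σ sA [] := by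
      funext s
      by_cases hs : s = sO
      · subst hs
        rw [r3_set_same, r3_set_ne _ _ (by decide)]
        simp
      · rw [r3_set_ne _ _ hs]
    rw [e]
    unfold r3decode
    exact Eval.loop0 (l := []) (t1 := 0) (t2 := 1) (by simpa [bitsT, word_leaf] using hA)
      (Eval.skip _) (Eval.loopE (by simp [St.set]))
  | cons a l ih =>
    cases a with
    | false =>
      set rest := word (bitsT l) with hrest
      have hA' : σ sA = Sym.b1 :: (Sym.b0 :: rest) := by
        rw [hA]; simp [bitsT, tBool, word_node, word_leaf, hrest]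
      set σa := St.set σ sA (Sym.b0 :: rest) with hσa
      set σb := St.set σa sA rest with hσb
      set σ1 := St.set σb sO (Sym.b0 :: σb sO) with hσ1
      have h1A : σ1 sA = word (bitsT l) := by
        rw [hσ1, r3_set_ne _ _ (by decide), hσb, r3_set_same]
      obtain ⟨t, ht, hev⟩ := ih σ1 h1A
      have e : St.set (St.set σ1 sA []) sO (l.reverse.map bitS ++ σ1 sO) =
          St.set (St.set σ sA []) sO ((false :: l).reverse.map bitS ++ σ sO) := by
        funext s
        by_cases hs : s = sO
        · subst hs
          rw [r3_set_same, r3_set_same, hσ1, r3_set_same, hσb, r3_set_ne _ _ (by decide),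
            hσa, r3_set_ne _ _ (by decide)]
          simp [bitS]
        · rw [r3_set_ne _ _ hs, r3_set_ne _ _ hs]
          by_cases hs' : s = sA
          · subst hs'
            rw [r3_set_same, r3_set_same]
          · rw [r3_set_ne _ _ hs', r3_set_ne _ _ hs', hσ1, r3_set_ne _ _ hs, hσb,
              r3_set_ne _ _ hs', hσa, r3_set_ne _ _ hs']
      rw [e] at hev
      refine ⟨(1 + 2) + t + 2, ?_, ?_⟩
      · have := r3_sz_bitsT_cons false l
        omega
      · unfold r3decode at hev ⊢
        refine Eval.loop1 hA' ?_ hev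
        exact Eval.case0 (l := rest) (r3_set_same _ _ _) (Eval.push _ _ _)
    | true =>
      set rest := word (bitsT l) with hrest
      have hA' : σ sA = Sym.b1 :: (Sym.b1 :: Sym.b0 :: Sym.b0 :: rest) := by
        rw [hA]; simp [bitsT, tBool, word_node, word_leaf, hrest]
      set σa := St.set σ sA (Sym.b1 :: Sym.b0 :: Sym.b0 :: rest) with hσa
      set σb := St.set σa sA (Sym.b0 :: Sym.b0 :: rest) with hσb
      set σc := St.set σb sA (Sym.b0 :: rest) with hσc
      set σd := St.set σc sA rest with hσd
      set σ1 := St.set σd sO (Sym.b1 :: σd sO) with hσ1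
      have h1A : σ1 sA = word (bitsT l) := by
        rw [hσ1, r3_set_ne _ _ (by decide), hσd, r3_set_same]
      obtain ⟨t, ht, hev⟩ := ih σ1 h1A
      have e : St.set (St.set σ1 sA []) sO (l.reverse.map bitS ++ σ1 sO) =
          St.set (St.set σ sA []) sO ((true :: l).reverse.map bitS ++ σ sO) := by
        funext s
        by_cases hs : s = sO
        · subst hs
          rw [r3_set_same, r3_set_same, hσ1, r3_set_same, hσd, r3_set_ne _ _ (by decide),
            hσc, r3_set_ne _ _ (by decide), hσb, r3_set_ne _ _ (by decide),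
            hσa, r3_set_ne _ _ (by decide)]
          simp [bitS]
        · rw [r3_set_ne _ _ hs, r3_set_ne _ _ hs]
          by_cases hs' : s = sA
          · subst hs'
            rw [r3_set_same, r3_set_same]
          · rw [r3_set_ne _ _ hs', r3_set_ne _ _ hs', hσ1, r3_set_ne _ _ hs, hσd,
              r3_set_ne _ _ hs', hσc, r3_set_ne _ _ hs', hσb, r3_set_ne _ _ hs',
              hσa, r3_set_ne _ _ hs']
      rw [e] at hev
      refine ⟨(2 + (2 + 1) + 2) + t + 2, ?_, ?_⟩
      · have h2 : sz (bitsT l) + 4 ≤ sz (bitsT (true :: l)) := by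
          simp [bitsT, tBool, sz_node, sz_leaf]; omega
        omega
      · unfold r3decode at hev ⊢
        refine Eval.loop1 hA' ?_ hev
        have hp1 : Eval r3popA σb σc 2 :=
          Eval.case0 (l := Sym.b0 :: rest) (t := 0) (r3_set_same _ _ _) (Eval.skip _)
        have hp2 : Eval r3popA σc σd 2 :=
          Eval.case0 (l := rest) (t := 0) (r3_set_same _ _ _) (Eval.skip _)
        exact Eval.case1 (l := Sym.b0 :: Sym.b0 :: rest) (r3_set_same _ _ _)
          (Eval.seq hp1 (Eval.seq hp2 (Eval.push _ _ _)))

/-- The program around a computed function. -/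
theorem PTe.wrapper {f : T → T} {d d' : ℕ} (h : PTe f d d') :
    ∃ (code : Cmd) (c : ℕ), ∀ (x : T) (y : List Bool), f x = bitsT y →
      ∃ t ≤ c * (sz x + 1) ^ (max d 1 + 1),
        Eval code (fun s => if s = sI then (ser x).reverse.map bitS else [])
          (fun s => if s = sO then y.reverse.map bitS else []) t := by
  obtain ⟨code, c, c', _, hc⟩ := h
  refine ⟨Cmd.seq r3load (Cmd.seq code r3decode), 19 + 4 * c, ?_⟩
  intro x y hy
  set σ0 : St := fun s => if s = sI then (ser x).reverse.map bitS else [] with hσ0
  have hI : σ0 sI = (ser x).reverse.map bitS := by simp [hσ0]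
  have h0ne : ∀ s, s ≠ sI → σ0 s = [] := by
    intro s hs
    simp [hσ0, hs]
  have hload := r3_eval_load (ser x).reverse σ0 hI
  set σ1 := St.set (St.set σ0 sI []) sA ((ser x).reverse.reverse.map bitS ++ σ0 sA) with hσ1
  have h1A : σ1 sA = word x ++ [] := by
    rw [hσ1, r3_set_same, h0ne sA (by decide)]
    simp [word]
  have h1W : σ1 sW = [] := by
    rw [hσ1, r3_set_ne _ _ (by decide), r3_set_ne _ _ (by decide)]
    exact h0ne _ (by decide)
  have h1D : σ1 sD = [] := by
    rw [hσ1, r3_set_ne _ _ (by decide), r3_set_ne _ _ (by decide)]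
    exact h0ne _ (by decide)
  obtain ⟨t, ht, hev⟩ := hc x σ1 [] h1A h1W h1D
  set σ2 := St.set σ1 sA (word (f x) ++ []) with hσ2
  have h2A : σ2 sA = word (bitsT y) := by
    rw [hσ2, r3_set_same, hy]; simp
  obtain ⟨t', ht', hdec⟩ := r3_eval_decode y σ2 h2A
  have e : St.set (St.set σ2 sA []) sO (y.reverse.map bitS ++ σ2 sO) =
      fun s => if s = sO then y.reverse.map bitS else [] := by
    funext s
    by_cases hs : s = sO
    · subst hs
      rw [r3_set_same, hσ2, r3_set_ne _ _ (by decide), hσ1, r3_set_ne _ _ (by decide),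
        r3_set_ne _ _ (by decide), h0ne _ (by decide)]
      simp
    · rw [r3_set_ne _ _ hs, if_neg hs]
      by_cases hs' : s = sA
      · subst hs'
        rw [r3_set_same]
      · rw [r3_set_ne _ _ hs', hσ2, r3_set_ne _ _ hs', hσ1, r3_set_ne _ _ hs']
        by_cases hs'' : s = sI
        · subst hs''
          rw [r3_set_same]
        · rw [r3_set_ne _ _ hs'']
          exact h0ne _ hs''
  rw [e] at hdec
  have hlen : (ser x).reverse.length = sz x := by simp [sz]
  rw [hlen] at hload
  -- the height bound
  have h0 : height σ0 ≤ sz x := by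
    have : height σ0 = ((ser x).reverse.map bitS).length := by
      unfold height
      rw [Finset.sum_eq_single sI]
      · simp [hσ0]
      · intro s _ hs
        simp [hσ0, hs]
      · simp
    rw [this]
    simp [sz]
  have h1 := r3_height_le hload
  have h2 := r3_height_le hev
  have h3 : (σ2 sA).length ≤ height σ2 := by
    unfold height
    exact Finset.single_le_sum (f := fun s => (σ2 s).length) (fun _ _ => Nat.zero_le _)
      (Finset.mem_univ sA)
  have h4 : sz (bitsT y) = (σ2 sA).length := by
    rw [h2A, word_length]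
  refine ⟨(3 * sz x + 1) + (t + t'), ?_, Eval.seq hload (Eval.seq hev hdec)⟩
  have hn1 : 1 ≤ sz x + 1 := by omega
  have hp1 : sz x + 1 ≤ (sz x + 1) ^ (max d 1 + 1) := by
    calc sz x + 1 = (sz x + 1) ^ 1 := (pow_one _).symm
      _ ≤ _ := Nat.pow_le_pow_right hn1 (by omega)
  have hp2 : (sz x + 1) ^ d ≤ (sz x + 1) ^ (max d 1 + 1) :=
    Nat.pow_le_pow_right hn1 (by have := le_max_left d 1; omega)
  have ht2 : t ≤ c * (sz x + 1) ^ (max d 1 + 1) := le_trans ht (Nat.mul_le_mul_left _ hp2)
  have hbound : (3 * sz x + 1) + (t + t') ≤ 19 * (sz x + 1) + 4 * t := by omega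
  calc (3 * sz x + 1) + (t + t') ≤ 19 * (sz x + 1) + 4 * t := hbound
    _ ≤ 19 * (sz x + 1) ^ (max d 1 + 1) + 4 * (c * (sz x + 1) ^ (max d 1 + 1)) := by
      apply Nat.add_le_add
      · exact Nat.mul_le_mul_left _ hp1
      · exact Nat.mul_le_mul_left _ ht2
    _ = _ := by ring

end Vale.Agent.Lib.P310.M
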