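import Vale.Agent.Lib.P310.M.RedCorrect
import Vale.Agent.Lib.P310.M.OneTape
import Vale.Agent.Lib.P310.M.RawWrap

/-!
The diagonalisation: the lower bound from the reduction. A machine deciding `k`-WL equivalence fast
is turned into a machine on codes which, on its own code padded by the table of all labels, accepts
iff the graphs are equivalent iff it does not accept.
-/

namespace Vale.Agent.Lib.P310.M

open Vale.Agent.Lib.P310.N

open scoped Classical

namespace TM

variable (M : TM)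

lemma step_of_halted (c : M.Cfg) (h : c.st = M.acc ∨ c.st = M.rej) : M.step c = c := by
  unfold step
  rw [if_pos h]

lemma run_add_of_halted {w : List Bool} {t : ℕ} (h : M.HaltsIn w t) (s : ℕ) :
    M.run w (t + s) = M.run w t := by
  induction s with
  | zero => rfl
  | succ s ih =>
    show M.step (M.run w (t + s)) = M.run w t
    rw [ih]
    exact M.step_of_halted _ h

lemma run_of_halted {w : List Bool} {t t' : ℕ} (h : M.HaltsIn w t) (ht : t ≤ t') :
    M.run w t' = M.run w t := by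
  obtain ⟨s, rfl⟩ := Nat.exists_eq_add_of_le ht
  exact M.run_add_of_halted h s

/-- A machine which has halted accepts iff it is in the accepting state. -/
lemma accepts_iff_of_halted {w : List Bool} {t : ℕ} (h : M.HaltsIn w t) :
    M.Accepts w ↔ (M.run w t).st = M.acc := by
  constructor
  · rintro ⟨t', ht'⟩
    rcases le_total t t' with hle | hle
    · rw [M.run_of_halted h hle] at ht'
      exact ht'
    · rw [M.run_of_halted (t := t') (Or.inl ht') hle]
      exact ht'
  · intro hst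
    exact ⟨t, hst⟩

end TM

/-- The size of the encoding of a list of bits. -/
lemma sz_enc_bits (l : List Bool) : sz (enc l) ≤ 4 * l.length + 1 := by
  induction l with
  | nil =>
    have h' : (enc ([] : List Bool) : T) = T.leaf := rfl
    rw [h', sz_leaf]
    simp
  | cons a l ih =>
    have h : (enc (a :: l) : T) = T.node (tBool a) (enc l) := rfl
    rw [h, sz_node]
    have : sz (tBool a) ≤ 3 := by
      cases a <;> decide
    simp only [List.length_cons]
    omega

/-- The length of a word is at most the size of the tree of the word. -/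
lemma length_le_sz_enc (l : List Bool) : l.length ≤ sz (enc l) := by
  induction l with
  | nil => exact Nat.zero_le _
  | cons a l ih =>
    have h : (enc (a :: l) : T) = T.node (tBool a) (enc l) := rfl
    rw [h, sz_node]
    simp only [List.length_cons]
    omega

/-- The size of the encoding of a list whose entries have bounded size. -/
lemma sz_enc_list (l : List (List Bool)) (B : ℕ) (h : ∀ x ∈ l, sz (enc x) ≤ B) :
    sz (enc l) ≤ l.length * (B + 1) + 1 := by
  induction l with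
  | nil =>
    have h' : (enc ([] : List (List Bool)) : T) = T.leaf := rfl
    rw [h', sz_leaf]
    simp
  | cons a l ih =>
    have h' : (enc (a :: l) : T) = T.node (enc a) (enc l) := rfl
    rw [h', sz_node]
    have h1 := h a (by simp)
    have h2 := ih (fun x hx => h x (by simp [hx]))
    simp only [List.length_cons, add_mul, one_mul]
    omega

/-- The size of the table of all labels. -/
lemma sz_enc_allVec (b : ℕ) : sz (enc (allVec b)) ≤ 2 ^ b * (4 * b + 2) + 1 := by
  have := sz_enc_list (allVec b) (4 * b + 1) (fun x hx => by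
    have h := sz_enc_bits x
    rwa [mem_allVec.1 hx] at h)
  rwa [allVec_length] at this

/-- The size of the input. -/
lemma sz_inp (nc : NCode) (b : ℕ) :
    sz (enc ((nc, allVec b) : Inp)) ≤ sz (enc nc) + 2 ^ b * (4 * b + 2) + 2 := by
  have h : (enc ((nc, allVec b) : Inp) : T) = T.node (enc nc) (enc (allVec b)) := rfl
  rw [h, sz_node]
  have := sz_enc_allVec b
  omega

/-- The padding is large enough. -/
lemma inp_small (nc : NCode) (b : ℕ) (hb : 6 ≤ b) (hb' : sz (enc nc) + 4 ≤ b) :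
    (ser (enc ((nc, allVec b) : Inp))).length + 2 ≤ 2 ^ b * 2 ^ b := by
  have h1 := sz_inp nc b
  have h2 : (ser (enc ((nc, allVec b) : Inp))).length = sz (enc ((nc, allVec b) : Inp)) := rfl
  rw [h2]
  have h3 : b < 2 ^ b := Nat.lt_two_pow_self
  have h4 : 4 * b + 3 ≤ 2 ^ b := by
    clear h1 h2 h3 hb'
    induction b, hb using Nat.le_induction with
    | base => norm_num
    | succ n hn ih =>
      rw [pow_succ]
      have : 0 < 2 ^ n := by positivity
      omega
  have h5 : 2 ^ b * (4 * b + 3) ≤ 2 ^ b * 2 ^ b := Nat.mul_le_mul_left _ h4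
  have h6 : 2 ^ b * (4 * b + 3) = 2 ^ b * (4 * b + 2) + 2 ^ b := by ring
  omega

/-- The arithmetic of the diagonalisation. -/
lemma diag_arith {A B q X Y Z : ℕ} (hq : A + B + 1 ≤ q) (hX : X ≤ Z) (hY : Y ≤ Z) (hq1 : 1 ≤ q) :
    A * q ^ X + B * q ^ Y ≤ q ^ (Z + 1) - 1 := by
  have h1 : q ^ X ≤ q ^ Z := Nat.pow_le_pow_right hq1 hX
  have h2 : q ^ Y ≤ q ^ Z := Nat.pow_le_pow_right hq1 hY
  have h3 : 1 ≤ q ^ Z := Nat.one_le_pow _ _ hq1
  have h4 : A * q ^ X ≤ A * q ^ Z := Nat.mul_le_mul_left _ h1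
  have h5 : B * q ^ Y ≤ B * q ^ Z := Nat.mul_le_mul_left _ h2
  have h6 : (A + B + 1) * q ^ Z ≤ q * q ^ Z := Nat.mul_le_mul_right _ hq
  have h7 : (A + B + 1) * q ^ Z = A * q ^ Z + B * q ^ Z + q ^ Z := by ring
  have h8 : q ^ (Z + 1) = q * q ^ Z := by ring
  omega

/-- The time bound of the diagonalisation. -/
lemma time_bound {K cw C c' D d' e k m q L t T0 t1 n : ℕ} (hWq : L + 1 ≤ q ^ 2)
    (ht : t ≤ cw * (L + 1) ^ (D + 1)) (hT0 : T0 ≤ K * (t + L + 1) ^ 2) (ht1 : t1 ≤ C * n ^ e)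
    (hn : n ≤ c' * (L + 1) ^ d') (he : e * (8 * (d' + 1)) ≤ k) (hm : m = (k - 3) / 2)
    (hk : 8 * D + 40 ≤ k) (hq : K * (cw + 1) ^ 2 + C * c' ^ e + 1 ≤ q) :
    T0 + t1 ≤ q ^ (m - 1) - 1 := by
  have hq1 : 1 ≤ q := by omega
  have hT0' : T0 ≤ K * (cw + 1) ^ 2 * q ^ (4 * D + 4) := by
    have h1 : (L + 1) ≤ (L + 1) ^ (D + 1) :=
      Nat.le_self_pow (by omega) _
    have h2 : t + L + 1 ≤ (cw + 1) * (L + 1) ^ (D + 1) := by
      have : (cw + 1) * (L + 1) ^ (D + 1) =
          cw * (L + 1) ^ (D + 1) + (L + 1) ^ (D + 1) := by ring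
      omega
    have h3 : (L + 1) ^ (D + 1) ≤ q ^ (2 * (D + 1)) := by
      rw [pow_mul]
      exact Nat.pow_le_pow_left hWq _
    calc T0 ≤ K * (t + L + 1) ^ 2 := hT0
      _ ≤ K * ((cw + 1) * q ^ (2 * (D + 1))) ^ 2 := by
          apply Nat.mul_le_mul_left
          apply Nat.pow_le_pow_left
          exact h2.trans (Nat.mul_le_mul_left _ h3)
      _ = K * (cw + 1) ^ 2 * q ^ (4 * D + 4) := by
          rw [mul_pow, ← pow_mul]
          ring_nf
  have hnq : n ≤ c' * q ^ (2 * d') := by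
    have h3 : (L + 1) ^ d' ≤ q ^ (2 * d') := by
      rw [pow_mul]
      exact Nat.pow_le_pow_left hWq _
    exact hn.trans (Nat.mul_le_mul_left _ h3)
  have ht1' : t1 ≤ C * c' ^ e * q ^ (2 * d' * e) := by
    calc t1 ≤ C * n ^ e := ht1
      _ ≤ C * (c' * q ^ (2 * d')) ^ e := Nat.mul_le_mul_left _ (Nat.pow_le_pow_left hnq _)
      _ = C * c' ^ e * q ^ (2 * d' * e) := by
          rw [mul_pow, ← pow_mul]
          ring
  have hZ : m - 1 = (m - 2) + 1 := by omega
  have hX : 4 * D + 4 ≤ m - 2 := by omega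
  have hY : 2 * d' * e ≤ m - 2 := by
    have h2 : e * (8 * (d' + 1)) = 8 * (d' * e) + 8 * e := by ring
    have h3 : 2 * d' * e = 2 * (d' * e) := by ring
    omega
  rw [hZ]
  have := diag_arith hq hX hY hq1
  omega

/-- The number of vertices is at most the length of the word. -/
lemma n_le_length {n : ℕ} (hn : 1 ≤ n) (G H : SimpleGraph (Fin n)) : n ≤ (encPair G H).length := by
  unfold encPair
  simp only [List.length_append]
  have hlen : ∀ G' : SimpleGraph (Fin n), (adjBits G').length = n * n := by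
    intro G'
    simp [adjBits]
  rw [hlen, hlen]
  nlinarith

/-- **The lower bound.** -/
theorem lowerBound : LowerBound := by
  obtain ⟨g, hg, hgenc⟩ := redBits_pt
  obtain ⟨d, d', hgd⟩ := hg
  obtain ⟨D, hD⟩ : ∃ D, D = max d 1 := ⟨_, rfl⟩
  refine ⟨8 * (d' + 1), 8 * D + 40, by omega, ?_⟩
  intro k hk M hdec C htime
  obtain ⟨e, he⟩ : ∃ e, e = k / (8 * (d' + 1)) := ⟨_, rfl⟩
  rw [← he] at htime
  have he' : e * (8 * (d' + 1)) ≤ k := by
    rw [he]; exact Nat.div_mul_le_self _ _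
  obtain ⟨m, hm⟩ : ∃ m, m = (k - 3) / 2 := ⟨_, rfl⟩
  have hm3 : 3 ≤ m := by omega
  have hkm : 2 * m + 3 ≤ k := by omega
  -- the reduction for this `k`
  have hf : PTe (fun x => g (T.node (enc ((k, m) : ℕ × ℕ)) x)) (max d 1) d' := PTe.fix hgd _
  have hfenc : ∀ i : Inp, g (T.node (enc ((k, m) : ℕ × ℕ)) (enc i)) =
      bitsT (redBits ((k, m), i)) := by
    intro i
    have h := hgenc ((k, m), i)
    rw [← enc_bits, ← h]
    rfl
  obtain ⟨code, cw, hcode⟩ := PTe.wrapper hf
  obtain ⟨_, _, c', hsz, _⟩ := hf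
  -- the machine
  obtain ⟨M', K, hM'⟩ := compose code M
  obtain ⟨N, hN⟩ : ∃ N, N = codeOf M' := ⟨_, rfl⟩
  have hNwf : N.WF := hN ▸ codeOf_wf M'
  -- the constants
  obtain ⟨b, hb⟩ : ∃ b, b = 6 + N.nG + N.nQ + sz (enc N) + K * (cw + 1) ^ 2 + C * c' ^ e := ⟨_, rfl⟩
  have hb2 : b < 2 ^ b := Nat.lt_two_pow_self
  have hW0 := inp_small N b (by omega) (by omega)
  have hred := red_correct k m N b hm3 hkm hNwf
  obtain ⟨q, hq⟩ : ∃ q, q = 2 ^ b := ⟨_, rfl⟩
  rw [← hq] at hb2 hW0 hred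
  have hG : N.nG + 2 ≤ q := by omega
  have hQ : N.nQ + 2 ≤ q := by omega
  have hqAB : K * (cw + 1) ^ 2 + C * c' ^ e + 1 ≤ q := by omega
  clear hb hb2
  obtain ⟨n, G, H, hn, hy, hcorr⟩ := hred hG hQ hW0
  obtain ⟨x, hx⟩ : ∃ x : T, x = enc ((N, allVec b) : Inp) := ⟨_, rfl⟩
  rw [← hx] at hW0 hcorr
  obtain ⟨w, hw⟩ : ∃ w, w = ser x := ⟨_, rfl⟩
  rw [← hw] at hW0 hcorr
  have hszx : sz x = w.length := by rw [hw]; rfl
  obtain ⟨y, hydef⟩ : ∃ y, y = redBits ((k, m), (N, allVec b)) := ⟨_, rfl⟩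
  rw [← hydef] at hy
  have hfx : g (T.node (enc ((k, m) : ℕ × ℕ)) x) = bitsT y := by
    rw [hx, hydef]; exact hfenc _
  obtain ⟨t, ht, hEval⟩ := hcode x y hfx
  rw [← hw] at hEval
  obtain ⟨T0, hT0, hacc, hhalt⟩ := hM' w y t hEval
  obtain ⟨t1, ht1, hhalt1⟩ := htime n G H hn
  rw [← hy] at hhalt1
  have hH' := hhalt t1 hhalt1
  have hWq : w.length + 1 ≤ q ^ 2 := by
    rw [pow_two]
    exact le_trans (Nat.le_add_right _ 1) hW0
  have hmax : max (max d 1) 1 = D := by simp [hD]
  rw [hmax, hszx] at ht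
  have hnL : n ≤ c' * (w.length + 1) ^ d' := by
    have h0 : sz (g (T.node (enc ((k, m) : ℕ × ℕ)) x)) ≤ c' * (sz x + 1) ^ d' := hsz x
    rw [hfx, hszx, ← enc_bits] at h0
    have h1 := n_le_length hn G H
    rw [← hy] at h1
    exact h1.trans ((length_le_sz_enc y).trans h0)
  have htot : T0 + t1 ≤ q ^ (m - 1) - 1 :=
    time_bound hWq ht hT0 ht1 hnL he' hm hk hqAB
  -- the contradiction
  have hH'' : M'.HaltsIn w (q ^ (m - 1) - 1) := by
    rw [TM.HaltsIn, M'.run_of_halted hH' htot]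
    exact hH'
  have e1 := M'.accepts_iff_of_halted hH''
  have e2 := (hdec n G H).2
  rw [← hy] at e2
  have e3 := codeOf_acc M' w (q ^ (m - 1) - 1)
  rw [← hN] at e3
  have e4 : M'.Accepts w ↔ ¬ (M'.run w (q ^ (m - 1) - 1)).st = M'.acc := by
    rw [hacc, e2, hcorr]
    exact not_congr e3
  rw [e1] at e4
  exact iff_not_self e4

end Vale.Agent.Lib.P310.M
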