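import Vale.Agent.Lib.P310.M.Red
import Vale.Agent.Lib.P310.M.OneTape
import Vale.Agent.Lib.P310.M.RawWrap

/-!
(module M-DIAG) The diagonal argument: from a fast machine for `k`-WL a machine that contradicts the
correctness of the reduction on its own code.
-/

namespace Vale.Agent.Lib.P310.M

open Vale.Agent.Lib.P310

/-! ### Sizes -/

lemma sz_tBool_le (a : Bool) : sz (tBool a) ≤ 3 := by
  cases a <;> decide

lemma sz_bitsT_le (l : List Bool) : sz (bitsT l) ≤ 4 * l.length + 1 := by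
  induction l with
  | nil => decide
  | cons a l ih =>
    have h := sz_tBool_le a
    simp only [bitsT, sz_node, List.length_cons]
    omega

lemma length_le_sz_bitsT (l : List Bool) : l.length ≤ sz (bitsT l) := by
  induction l with
  | nil => exact Nat.zero_le _
  | cons a l ih =>
    simp only [bitsT, sz_node, List.length_cons]
    omega

/-- The size of the tree of a list of lists of bits. -/
lemma sz_enc_vecs (L : List (List Bool)) (b : ℕ) (h : ∀ l ∈ L, l.length = b) :
    sz (enc L) ≤ L.length * (4 * b + 2) + 1 := by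
  induction L with
  | nil =>
    show sz T.leaf ≤ _
    simp [sz_leaf]
  | cons a L ih =>
    have h1 : sz (enc a) ≤ 4 * b + 1 := by
      rw [enc_bits]
      have h0 := sz_bitsT_le a
      rw [h a (by simp)] at h0
      exact h0
    have h2 : sz (enc L) ≤ L.length * (4 * b + 2) + 1 := ih fun l hl => h l (by simp [hl])
    have h3 : sz (enc (a :: L)) = sz (enc a) + sz (enc L) + 1 := sz_node (enc a) (enc L)
    rw [h3, List.length_cons]
    nlinarith

lemma sz_enc_allVec (b : ℕ) : sz (enc (allVec b)) ≤ 2 ^ b * (4 * b + 2) + 1 := by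
  have h := sz_enc_vecs (allVec b) b fun l hl => mem_allVec.1 hl
  rwa [allVec_length] at h

lemma encPair_length {n : ℕ} (G H : SimpleGraph (Fin n)) : (encPair G H).length = 2 * (n * n) := by
  simp only [encPair, adjBits, List.length_append, List.length_flatMap, List.length_map,
    List.length_finRange]
  simp
  ring

/-! ### Halting -/

namespace TM

variable (M : TM)

lemma run_halted {w : List Bool} {t : ℕ} (h : M.HaltsIn w t) (s : ℕ) :
    M.run w (t + s) = M.run w t := by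
  induction s with
  | zero => rfl
  | succ s ih =>
    rw [← Nat.add_assoc]
    show M.step (M.run w (t + s)) = _
    rw [ih]
    unfold step
    rw [if_pos (show (M.run w t).st = M.acc ∨ (M.run w t).st = M.rej from h)]

lemma haltsIn_mono {w : List Bool} {t t' : ℕ} (h : M.HaltsIn w t) (ht : t ≤ t') :
    M.HaltsIn w t' := by
  obtain ⟨s, rfl⟩ := Nat.exists_eq_add_of_le ht
  unfold HaltsIn at *
  rw [M.run_halted h s]
  exact h

/-- After halting, acceptance is read off the state. -/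
lemma accepts_iff {w : List Bool} {t : ℕ} (h : M.HaltsIn w t) :
    M.Accepts w ↔ (M.run w t).st = M.acc := by
  constructor
  · rintro ⟨s, hs⟩
    rcases le_total s t with hst | hst
    · obtain ⟨r, rfl⟩ := Nat.exists_eq_add_of_le hst
      have hh : M.HaltsIn w s := Or.inl hs
      rw [M.run_halted hh r]
      exact hs
    · obtain ⟨r, rfl⟩ := Nat.exists_eq_add_of_le hst
      rw [M.run_halted h r] at hs
      exact hs
  · intro hs
    exact ⟨t, hs⟩

end TM

/-! ### The diagonal argument -/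

/-- Arithmetic: the parameter `b`. -/
lemma exists_b (Z : ℕ) : ∃ b : ℕ, Z ≤ 2 ^ b ∧ 4 * b + 3 ≤ 2 ^ b ∧ 1 ≤ b := by
  refine ⟨Z + 5, ?_, ?_, by omega⟩
  · have := Nat.lt_two_pow_self (n := Z + 5)
    omega
  · have : ∀ n, 4 * (n + 5) + 3 ≤ 2 ^ (n + 5) := by
      intro n
      induction n with
      | zero => norm_num
      | succ n ih =>
        have : 2 ^ (n + 1 + 5) = 2 * 2 ^ (n + 5) := by ring
        omega
    exact this Z

/-- The correctness of the reduction, as needed for the diagonal argument. -/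
def RedSpec : Prop :=
  ∀ (p m b : ℕ) (nc : NCode), 2 ≤ p → (redPar p m (nc, allVec b)).Good →
    ∃ (n : ℕ) (G H : SimpleGraph (Fin n)), 1 ≤ n ∧ redBits ((p, m), (nc, allVec b)) = encPair G H ∧
      (WLEquiv p G H ↔ ¬ (nc.run (ser (enc ((nc, allVec b) : Inp))) ((2 ^ b) ^ (m - 1) - 1)).st = nc.qa)

/-- The arithmetic of the time bound. -/
lemma time_arith {K c1 C c' e q m S n T1 T0 t1 D d' L : ℕ} (hS1 : S ≤ q * q) (hS0 : 1 ≤ S)
    (hq1 : 1 ≤ q) (hL : L + 1 = S) (hT1 : T1 ≤ c1 * S ^ (D + 1))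
    (hT0 : T0 ≤ K * (T1 + L + 1) ^ 2) (ht1 : t1 ≤ C * n ^ e) (hny : n ≤ c' * S ^ d')
    (hm1 : 4 * (D + 1) + 2 ≤ m) (hm2 : 2 * (d' * e) + 2 ≤ m)
    (hc : K * (c1 + 1) ^ 2 + C * c' ^ e + 1 ≤ q) : T0 + t1 ≤ q ^ (m - 1) - 1 := by
  have hSle : ∀ r, S ^ r ≤ q ^ (2 * r) := by
    intro r
    calc S ^ r ≤ (q * q) ^ r := Nat.pow_le_pow_left hS1 r
      _ = q ^ (2 * r) := by rw [← pow_two, ← pow_mul]
  have hT1S : T1 + L + 1 ≤ (c1 + 1) * S ^ (D + 1) := by
    have h1 : S ≤ S ^ (D + 1) := by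
      calc S = S ^ 1 := (pow_one S).symm
        _ ≤ S ^ (D + 1) := Nat.pow_le_pow_right hS0 (by omega)
    have h4 : (c1 + 1) * S ^ (D + 1) = c1 * S ^ (D + 1) + S ^ (D + 1) := by ring
    omega
  have hT0' : T0 ≤ K * (c1 + 1) ^ 2 * q ^ (m - 2) := by
    calc T0 ≤ K * (T1 + L + 1) ^ 2 := hT0
      _ ≤ K * ((c1 + 1) * S ^ (D + 1)) ^ 2 :=
        Nat.mul_le_mul_left _ (Nat.pow_le_pow_left hT1S 2)
      _ = K * (c1 + 1) ^ 2 * (S ^ (D + 1)) ^ 2 := by ring
      _ ≤ K * (c1 + 1) ^ 2 * q ^ (m - 2) := by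
        apply Nat.mul_le_mul_left
        calc (S ^ (D + 1)) ^ 2 = S ^ (2 * (D + 1)) := by ring
          _ ≤ q ^ (2 * (2 * (D + 1))) := hSle _
          _ ≤ q ^ (m - 2) := Nat.pow_le_pow_right hq1 (by omega)
  have ht1' : t1 ≤ C * c' ^ e * q ^ (m - 2) := by
    calc t1 ≤ C * n ^ e := ht1
      _ ≤ C * (c' * S ^ d') ^ e := Nat.mul_le_mul_left _ (Nat.pow_le_pow_left hny e)
      _ = C * c' ^ e * S ^ (d' * e) := by rw [mul_pow, ← pow_mul]; ring
      _ ≤ C * c' ^ e * q ^ (m - 2) := by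
        apply Nat.mul_le_mul_left
        calc S ^ (d' * e) ≤ q ^ (2 * (d' * e)) := hSle _
          _ ≤ q ^ (m - 2) := Nat.pow_le_pow_right hq1 (by omega)
  have h1 : 1 ≤ q ^ (m - 2) := Nat.one_le_pow _ _ hq1
  have h2 : q ^ (m - 1) = q ^ (m - 2) * q := by
    rw [← pow_succ]
    congr 1
    omega
  have h3 : (K * (c1 + 1) ^ 2 + C * c' ^ e + 1) * q ^ (m - 2) ≤ q ^ (m - 2) * q := by
    rw [Nat.mul_comm]
    exact Nat.mul_le_mul_left _ hc
  have h4 : (K * (c1 + 1) ^ 2 + C * c' ^ e + 1) * q ^ (m - 2) =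
      K * (c1 + 1) ^ 2 * q ^ (m - 2) + C * c' ^ e * q ^ (m - 2) + q ^ (m - 2) := by
    ring
  omega

/-- The arithmetic of the exponents. -/
lemma exponent_arith {k d' D : ℕ} (hk : k ≥ 8 * (D + 1) + 16) :
    4 * (D + 1) + 2 ≤ (k - 3) / 2 ∧ 2 * (d' * (k / (8 * (d' + 1)))) + 2 ≤ (k - 3) / 2 := by
  have h1 : k / (8 * (d' + 1)) * (8 * (d' + 1)) ≤ k := Nat.div_mul_le_self k _
  generalize k / (8 * (d' + 1)) = e at h1 ⊢
  have h2 : 8 * (d' * e) ≤ e * (8 * (d' + 1)) := by nlinarith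
  omega

/-- The logic of the contradiction. -/
lemma diag_logic {k n t : ℕ} {M M' : TM} {G H : SimpleGraph (Fin n)} {w y : List Bool}
    (hy : y = encPair G H) (hdec : DecidesWL k M) (hacc : M'.Accepts w ↔ M.Accepts y)
    (hHalt : M'.HaltsIn w t)
    (hWL : WLEquiv k G H ↔ ¬ ((codeOf M').run w t).st = (codeOf M').qa) : False := by
  have e1 := M'.accepts_iff hHalt
  have e2 := codeOf_acc M' w t
  have e3 := (hdec n G H).2
  rw [← hy] at e3
  tauto

/-- The size of the input of the reduction. -/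
lemma input_size {nc : NCode} {b : ℕ} (hb : 4 * b + 3 ≤ 2 ^ b) (hA : sz (enc nc) + 8 ≤ 2 ^ b) :
    sz (enc ((nc, allVec b) : Inp)) + 3 ≤ 2 ^ b * 2 ^ b := by
  have hSz : sz (enc ((nc, allVec b) : Inp)) = sz (enc nc) + sz (enc (allVec b)) + 1 := sz_node _ _
  have hB := sz_enc_allVec b
  generalize 2 ^ b = q at *
  have h2 : q * (4 * b + 3) ≤ q * q := Nat.mul_le_mul_left _ hb
  have h3 : q * (4 * b + 3) = q * (4 * b + 2) + q := by ring
  omega

/-- The goodness of the parameters. -/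
lemma good_params {M' : TM} {k m b : ℕ} (hm3 : 3 ≤ m) (hmk : 2 * m + 2 ≤ k - 1)
    (hb : 4 * b + 3 ≤ 2 ^ b) (hb1 : (codeOf M').nG + (codeOf M').nQ + sz (enc (codeOf M')) + 8 ≤ 2 ^ b) :
    (redPar k m (codeOf M', allVec b)).Good := by
  have hL : (allVec b).length = 2 ^ b := allVec_length b
  have hS := input_size (nc := codeOf M') hb (by omega)
  refine ⟨codeOf_wf M', hm3, ?_, ?_, ?_, ?_, hmk⟩
  · show 2 ≤ (allVec b).length
    omega
  · show (codeOf M').nG + 2 ≤ (allVec b).length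
    omega
  · show (codeOf M').nQ + 2 ≤ (allVec b).length
    omega
  · show (ser (enc ((codeOf M', allVec b) : Inp))).length + 2 ≤
      (allVec b).length * (allVec b).length
    rw [hL]
    have : (ser (enc ((codeOf M', allVec b) : Inp))).length = sz (enc ((codeOf M', allVec b) : Inp)) := rfl
    omega

/-- The diagonal argument for fixed constants. -/
theorem diag_fixed (hspec : RedSpec) {g : T → T} {d d' : ℕ} (hg : PTe g d d')
    (hge : ∀ a, g (enc a) = enc (redBits a)) {k : ℕ} (hk : k ≥ 8 * (max (max d 1) 1 + 1) + 16)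
    (M : TM) (hdec : DecidesWL k M) (C : ℕ) (htime : TimeBound M C (k / (8 * (d' + 1)))) : False := by
  obtain ⟨hm1, hm2⟩ := exponent_arith (d' := d') hk
  generalize hmdef : (k - 3) / 2 = m at hm1 hm2
  generalize hedef : k / (8 * (d' + 1)) = e at hm2 htime
  obtain ⟨a0, ha0⟩ : ∃ a0 : T, a0 = enc ((k, m) : ℕ × ℕ) := ⟨_, rfl⟩
  have hfix := PTe.fix hg a0
  obtain ⟨code, c1, hwr⟩ := PTe.wrapper hfix
  obtain ⟨_, _, c', hsz, _⟩ := hfix
  obtain ⟨M', K, hcomp⟩ := compose code M
  obtain ⟨b, hb1, hb2, hb3⟩ := exists_b (K * (c1 + 1) ^ 2 + C * c' ^ e + 1 + (codeOf M').nG +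
    (codeOf M').nQ + sz (enc (codeOf M')) + 8)
  have hGood : (redPar k m (codeOf M', allVec b)).Good :=
    good_params (by omega) (by omega) hb2 (by omega)
  obtain ⟨n, G, H, hn, hbits, hWL⟩ := hspec k m b (codeOf M') (by omega) hGood
  have hfy : g (T.node a0 (enc ((codeOf M', allVec b) : Inp))) =
      bitsT (redBits ((k, m), (codeOf M', allVec b))) := by
    have h1 := hge ((k, m), (codeOf M', allVec b))
    rw [← enc_bits, ha0]
    exact h1
  obtain ⟨T1, hT1, hEval⟩ := hwr _ _ hfy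
  obtain ⟨T0, hT0, hacc, hhalt⟩ := hcomp _ _ T1 hEval
  obtain ⟨t1, ht1, hh1⟩ := htime n G H hn
  rw [← hbits] at hh1
  have hS := input_size (nc := codeOf M') hb2 (by omega)
  have hny : n ≤ c' * (sz (enc ((codeOf M', allVec b) : Inp)) + 1) ^ d' := by
    have h1 : sz (g (T.node a0 (enc ((codeOf M', allVec b) : Inp)))) ≤
        c' * (sz (enc ((codeOf M', allVec b) : Inp)) + 1) ^ d' := hsz _
    rw [hfy] at h1
    have h2 := length_le_sz_bitsT (redBits ((k, m), (codeOf M', allVec b)))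
    have h3 : (redBits ((k, m), (codeOf M', allVec b))).length = 2 * (n * n) := by
      rw [hbits, encPair_length]
    have h4 : n ≤ n * n := Nat.le_mul_self n
    omega
  have htot := time_arith (S := sz (enc ((codeOf M', allVec b) : Inp)) + 1) (q := 2 ^ b)
    (L := sz (enc ((codeOf M', allVec b) : Inp))) (K := K) (c1 := c1) (C := C) (c' := c') (e := e)
    (by omega) (by omega) (by omega) rfl hT1 hT0 ht1 hny hm1 hm2 (by omega)
  exact diag_logic hbits hdec hacc
    ((M'.haltsIn_mono (hhalt t1 hh1) htot)) hWL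

/-- The diagonal argument. -/
theorem lowerBound_of_spec (hspec : RedSpec) : LowerBound := by
  obtain ⟨g, ⟨d, d', hg⟩, hge⟩ := (redBits_pt : PT redBits)
  refine ⟨8 * (d' + 1), 8 * (max (max d 1) 1 + 1) + 16, by positivity, ?_⟩
  intro k hk M hdec C htime
  exact diag_fixed hspec hg hge hk M hdec C htime

end Vale.Agent.Lib.P310.M
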