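import Vale.Agent.Lib.P310.Defs

/-! `k`-WL equivalence is invariant under isomorphisms. -/

namespace Vale.Agent.Lib.P310.M

open scoped Classical

private lemma atomicType_iso {V V' : Type} {G : SimpleGraph V} {G' : SimpleGraph V'}
    (e : G ≃g G') {t : ℕ} (x : Fin t → V) :
    atomicType G' (fun i => e (x i)) = atomicType G x := by
  funext i j
  simp only [atomicType]
  have h1 : decide (e (x i) = e (x j)) = decide (x i = x j) := by
    simp only [decide_eq_decide]
    exact e.injective.eq_iff
  have h2 : decide (G'.Adj (e (x i)) (e (x j))) = decide (G.Adj (x i) (x j)) := by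
    simp only [decide_eq_decide]
    exact e.map_rel_iff
  rw [h1, h2]

private lemma wlColor_iso {V V' : Type} [Fintype V] [Fintype V'] {G : SimpleGraph V}
    {G' : SimpleGraph V'} (e : G ≃g G') (t : ℕ) :
    ∀ (r : ℕ) (x : Fin t → V), wlColor G' t r (fun i => e (x i)) = wlColor G t r x := by
  intro r
  induction r with
  | zero =>
    intro x
    simp only [wlColor]
    exact atomicType_iso e x
  | succ r ih =>
    intro x
    simp only [wlColor]
    refine Prod.ext (ih x) ?_
    have hm : (Finset.univ : Finset V').val = (Finset.univ : Finset V).val.map e.toEquiv :=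
      (Multiset.map_univ_val_equiv e.toEquiv).symm
    simp only
    rw [hm, Multiset.map_map]
    refine Multiset.map_congr rfl ?_
    intro y _
    funext i
    simp only [Function.comp]
    rw [← ih (Function.update x i y)]
    congr 1
    funext j
    by_cases hj : j = i
    · subst hj
      simp
    · simp [Function.update_of_ne hj]

private lemma map_tuple_iso {V V' : Type} [Fintype V] [Fintype V'] {G : SimpleGraph V}
    {G' : SimpleGraph V'} (e : G ≃g G') (t r : ℕ) :
    (Finset.univ : Finset (Fin t → V')).val.map (wlColor G' t r) =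
      (Finset.univ : Finset (Fin t → V)).val.map (wlColor G t r) := by
  let E : (Fin t → V) ≃ (Fin t → V') :=
    Equiv.arrowCongr (Equiv.refl _) e.toEquiv
  have hm : (Finset.univ : Finset (Fin t → V')).val =
      (Finset.univ : Finset (Fin t → V)).val.map E :=
    (Multiset.map_univ_val_equiv E).symm
  rw [hm, Multiset.map_map]
  refine Multiset.map_congr rfl ?_
  intro x _
  exact wlColor_iso e t r x

/-- (module M-ISO) -/
theorem wlEquiv_iso {V V' W W' : Type} [Fintype V] [Fintype V'] [Fintype W] [Fintype W'] (k : ℕ)
    {G : SimpleGraph V} {G' : SimpleGraph V'} {H : SimpleGraph W} {H' : SimpleGraph W'}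
    (e1 : G ≃g G') (e2 : H ≃g H') : WLEquiv k G H ↔ WLEquiv k G' H' := by
  unfold WLEquiv
  refine forall_congr' fun r => ?_
  rw [map_tuple_iso e1, map_tuple_iso e2]

end Vale.Agent.Lib.P310.M
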