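import Vale.Agent.Lib.P310.M.TM

/-!
A graph whose vertices are listed by a list: the word of its adjacency matrix, and the invariance of
`WLEquiv` under isomorphisms in the form used here.
-/

namespace Vale.Agent.Lib.P310.M

open Vale.Agent.Lib.P310

section Generic

variable {V A : Type}

open scoped Classical in
/-- A graph whose vertices are listed by `L`, with adjacency given by a Boolean function. -/
theorem graph_of_list (G : SimpleGraph V) (L : List A) (f : V → A) (adj : A → A → Bool)
    (hinj : Function.Injective f) (hL : ∀ x, x ∈ L ↔ ∃ v, f v = x) (hnd : L.Nodup)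
    (hadj : ∀ u v, G.Adj u v ↔ adj (f u) (f v) = true) (n : ℕ) (hn : L.length = n) :
    ∃ G' : SimpleGraph (Fin n), Nonempty (G' ≃g G) ∧
      adjBits G' = L.flatMap fun x => L.map fun y => adj x y := by
  subst hn
  have hex : ∀ i : Fin L.length, ∃ v, f v = L[i] := fun i => (hL _).1 (List.getElem_mem _)
  choose g hg using hex
  have hgb : Function.Bijective g := by
    constructor
    · intro i j hij
      have : L[i] = L[j] := by rw [← hg i, ← hg j, hij]
      exact Fin.ext ((List.Nodup.getElem_inj_iff hnd).1 this)
    · intro v
      obtain ⟨i, hi, hi'⟩ := List.getElem_of_mem ((hL (f v)).2 ⟨v, rfl⟩)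
      refine ⟨⟨i, hi⟩, hinj ?_⟩
      rw [hg]
      exact hi'
  let e : Fin L.length ≃ V := Equiv.ofBijective g hgb
  refine ⟨G.comap e, ⟨SimpleGraph.Iso.comap e G⟩, ?_⟩
  have hL' : L = (List.finRange L.length).map fun i => L[i] := by
    apply List.ext_getElem
    · simp
    · intro i h1 h2
      simp
  unfold adjBits
  have key : ∀ i j : Fin L.length, (G.comap e).Adj i j ↔ adj L[i] L[j] = true := by
    intro i j
    have h1 : (G.comap e).Adj i j ↔ G.Adj (g i) (g j) := Iff.rfl
    have h2 := hadj (g i) (g j)
    rw [hg, hg] at h2
    rw [h1, h2]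
  conv_rhs => rw [hL']
  simp only [List.flatMap_map, List.map_map]
  apply List.flatMap_congr
  intro i _
  apply List.map_congr_left
  intro j _
  simp only [Function.comp]
  rw [Bool.eq_iff_iff, decide_eq_true_iff]
  exact key i j

open scoped Classical in
/-- The colours are invariant under isomorphisms. -/
lemma wlColor_iso {V W : Type} [Fintype V] [Fintype W] {G : SimpleGraph V} {H : SimpleGraph W}
    (φ : G ≃g H) (t r : ℕ) (x : Fin t → V) : wlColor H t r (φ ∘ x) = wlColor G t r x := by
  induction r generalizing x with
  | zero =>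
    funext i j
    simp only [wlColor, atomicType, Function.comp]
    have h1 : (φ (x i) = φ (x j)) ↔ x i = x j := φ.toEquiv.injective.eq_iff
    have h2 : H.Adj (φ (x i)) (φ (x j)) ↔ G.Adj (x i) (x j) := φ.map_rel_iff
    simp only [h1, h2]
  | succ r ih =>
    simp only [wlColor]
    rw [ih x]
    congr 1
    have h := Multiset.map_univ_val_equiv φ.toEquiv
    rw [← h, Multiset.map_map]
    apply Multiset.map_congr rfl
    intro y _
    funext i
    simp only [Function.comp]
    have hu : Function.update (φ ∘ x) i (φ.toEquiv y) = φ ∘ Function.update x i y := by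
      funext j
      by_cases hj : j = i
      · subst hj
        simp
      · simp [Function.update_of_ne hj]
    rw [hu, ih]

/-- The multiset of colours is invariant under isomorphisms. -/
lemma wlColors_iso {V W : Type} [Fintype V] [Fintype W] {G : SimpleGraph V} {H : SimpleGraph W}
    (φ : G ≃g H) (t r : ℕ) :
    (Finset.univ : Finset (Fin t → W)).val.map (wlColor H t r) =
      (Finset.univ : Finset (Fin t → V)).val.map (wlColor G t r) := by
  have h := Multiset.map_univ_val_equiv (Equiv.arrowCongr (Equiv.refl (Fin t)) φ.toEquiv)
  rw [← h, Multiset.map_map]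
  apply Multiset.map_congr rfl
  intro x _
  exact wlColor_iso φ t r x

/-- `WLEquiv` is invariant under isomorphisms. -/
theorem wlEquiv_congr {V W V' W' : Type} [Fintype V] [Fintype W] [Fintype V'] [Fintype W']
    {G : SimpleGraph V} {H : SimpleGraph W} {G' : SimpleGraph V'} {H' : SimpleGraph W'}
    (φ : G ≃g G') (ψ : H ≃g H') (t : ℕ) : WLEquiv t G H ↔ WLEquiv t G' H' := by
  unfold WLEquiv
  refine forall_congr' fun r => ?_
  rw [wlColors_iso φ t r, wlColors_iso ψ t r]

/-- The length of a list enumerating a finite type. -/
lemma length_eq_card [Fintype V] (L : List A) (f : V → A) (hinj : Function.Injective f)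
    (hL : ∀ x, x ∈ L ↔ ∃ v, f v = x) (hnd : L.Nodup) : L.length = Fintype.card V := by
  classical
  have h1 : L.toFinset = Finset.univ.image f := by
    ext x
    simp [hL]
  rw [← List.toFinset_card_of_nodup hnd, h1, Finset.card_image_of_injective _ hinj]
  rfl

end Generic

end Vale.Agent.Lib.P310.M
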