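import Vale.Agent.Lib.P310.M.TM

/-!
Two more models of computation: deterministic Turing machines with any number of tapes, and random
access machines in the sense of Cook and Reckhow, with unit cost per instruction.
-/

namespace Vale.Agent.Lib.P310.M

open scoped Classical

noncomputable section

/-- A deterministic Turing machine with `τ + 1` tapes; the input is written on tape `0`. A move is
`none` (stay), `some true` (right) or `some false` (left). -/
structure MTM where
  τ : ℕ
  Q : Type
  Γ : Type
  instQ : Fintype Q
  instΓ : Fintype Γ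
  start : Q
  acc : Q
  rej : Q
  blank : Γ
  bit : Bool → Γ
  δ : Q → (Fin (τ + 1) → Γ) → Q × (Fin (τ + 1) → Γ × Option Bool)

attribute [instance] MTM.instQ MTM.instΓ

namespace MTM

variable (M : MTM)

/-- A configuration; the tapes are infinite to the right only. -/
structure Cfg where
  st : M.Q
  pos : Fin (M.τ + 1) → ℕ
  tape : Fin (M.τ + 1) → ℕ → M.Γ

/-- The start configuration on an input word. -/
def init (w : List Bool) : M.Cfg :=
  ⟨M.start, fun _ => 0, fun j i =>
    if j = 0 then
      match w[i]? with
      | some a => M.bit a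
      | none => M.blank
    else M.blank⟩

/-- The new position of a head. -/
def move (p : ℕ) : Option Bool → ℕ
  | none => p
  | some true => p + 1
  | some false => p - 1

/-- One step. The accepting and the rejecting state are final; moving left in cell `0` stays in
cell `0`. -/
def step (c : M.Cfg) : M.Cfg :=
  if c.st = M.acc ∨ c.st = M.rej then c
  else
    let r := M.δ c.st (fun j => c.tape j (c.pos j))
    ⟨r.1, fun j => move (c.pos j) (r.2 j).2,
      fun j => Function.update (c.tape j) (c.pos j) (r.2 j).1⟩

/-- The configuration after `t` steps on the input `w`. -/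
def run (w : List Bool) : ℕ → M.Cfg
  | 0 => M.init w
  | t + 1 => M.step (run w t)

/-- The machine accepts the word. -/
def Accepts (w : List Bool) : Prop := ∃ t, (M.run w t).st = M.acc

/-- The machine has halted on the word after `t` steps. -/
def HaltsIn (w : List Bool) (t : ℕ) : Prop :=
  (M.run w t).st = M.acc ∨ (M.run w t).st = M.rej

/-- The machine decides `k`-WL equivalence on adjacency matrices. -/
def DecidesWL (k : ℕ) : Prop :=
  ∀ (n : ℕ) (G H : SimpleGraph (Fin n)),
    (∃ t, M.HaltsIn (encPair G H) t) ∧ (M.Accepts (encPair G H) ↔ WLEquiv k G H)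

/-- The machine halts within `C * n ^ e` steps on all pairs of graphs with `n ≥ 1` vertices. -/
def TimeBound (C e : ℕ) : Prop :=
  ∀ (n : ℕ) (G H : SimpleGraph (Fin n)), 1 ≤ n → ∃ t ≤ C * n ^ e, M.HaltsIn (encPair G H) t

end MTM

/-- The lower bound for multi-tape Turing machines. -/
def LowerBoundMTM : Prop :=
  ∃ c k0 : ℕ, 0 < c ∧ ∀ k ≥ k0, ∀ M : MTM, M.DecidesWL k → ∀ C, ¬ M.TimeBound C (k / c)

/-- The instructions of a random access machine with registers `R 0, R 1, ...` holding natural
numbers: `R r := v`, `R r := R a + R b`, `R r := R a - R b` (truncated), `R r := R (R a)`,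
`R (R a) := R b`, jump to instruction `l` if `R r = 0`, accept, reject. -/
inductive RIns
  | const (r v : ℕ)
  | add (r a b : ℕ)
  | sub (r a b : ℕ)
  | load (r a : ℕ)
  | store (a b : ℕ)
  | jz (r l : ℕ)
  | accept
  | reject

/-- A random access machine: a list of instructions. A program counter beyond its end rejects. -/
abbrev RAM := List RIns

namespace RAM

variable (P : RAM)

/-- A configuration: program counter and registers. -/
structure Cfg where
  pc : ℕ
  mem : ℕ → ℕ

/-- The start configuration: `R 0` holds the length of the input, `R (i + 1)` its bit number `i`,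
all the other registers hold `0`. -/
def init (w : List Bool) : Cfg :=
  ⟨0, fun i =>
    match i with
    | 0 => w.length
    | i + 1 =>
      match w[i]? with
      | some true => 1
      | _ => 0⟩

/-- The current instruction. -/
def cur (c : Cfg) : RIns := P.getD c.pc RIns.reject

/-- One step: one instruction, at unit cost. -/
def step (c : Cfg) : Cfg :=
  match P.cur c with
  | RIns.const r v => ⟨c.pc + 1, Function.update c.mem r v⟩
  | RIns.add r a b => ⟨c.pc + 1, Function.update c.mem r (c.mem a + c.mem b)⟩
  | RIns.sub r a b => ⟨c.pc + 1, Function.update c.mem r (c.mem a - c.mem b)⟩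
  | RIns.load r a => ⟨c.pc + 1, Function.update c.mem r (c.mem (c.mem a))⟩
  | RIns.store a b => ⟨c.pc + 1, Function.update c.mem (c.mem a) (c.mem b)⟩
  | RIns.jz r l => ⟨if c.mem r = 0 then l else c.pc + 1, c.mem⟩
  | RIns.accept => c
  | RIns.reject => c

/-- The configuration after `t` steps on the input `w`. -/
def run (w : List Bool) : ℕ → Cfg
  | 0 => init w
  | t + 1 => P.step (run w t)

/-- The machine accepts the word. -/
def Accepts (w : List Bool) : Prop := ∃ t, P.cur (P.run w t) = RIns.accept

/-- The machine has halted on the word after `t` steps. -/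
def HaltsIn (w : List Bool) (t : ℕ) : Prop :=
  P.cur (P.run w t) = RIns.accept ∨ P.cur (P.run w t) = RIns.reject

/-- The machine decides `k`-WL equivalence on adjacency matrices. -/
def DecidesWL (k : ℕ) : Prop :=
  ∀ (n : ℕ) (G H : SimpleGraph (Fin n)),
    (∃ t, P.HaltsIn (encPair G H) t) ∧ (P.Accepts (encPair G H) ↔ WLEquiv k G H)

/-- The machine halts within `C * n ^ e` steps on all pairs of graphs with `n ≥ 1` vertices. -/
def TimeBound (C e : ℕ) : Prop :=
  ∀ (n : ℕ) (G H : SimpleGraph (Fin n)), 1 ≤ n → ∃ t ≤ C * n ^ e, P.HaltsIn (encPair G H) t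

end RAM

/-- The lower bound for random access machines. -/
def LowerBoundRAM : Prop :=
  ∃ c k0 : ℕ, 0 < c ∧ ∀ k ≥ k0, ∀ P : RAM, P.DecidesWL k → ∀ C, ¬ P.TimeBound C (k / c)

end

end Vale.Agent.Lib.P310.M
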