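import Vale.Agent.Lib.P310.M.PTArith

/-!
The closure properties of `PT` in compositional form, registered for the `fun_prop` automation.
-/

namespace Vale.Agent.Lib.P310.M

variable {α β γ δ : Type} [Enc α] [Enc β] [Enc γ] [Enc δ]

attribute [fun_prop] PT

namespace PT

attribute [fun_prop] PT.id PT.const PT.comp

@[fun_prop] theorem fst' {f : α → β × γ} (h : PT f) : PT (fun a => (f a).1) := PT.fst.comp h

@[fun_prop] theorem snd' {f : α → β × γ} (h : PT f) : PT (fun a => (f a).2) := PT.snd.comp h

@[fun_prop] theorem mk' {f : α → β} {g : α → γ} (hf : PT f) (hg : PT g) :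
    PT (fun a => (f a, g a)) := PT.pair hf hg

@[fun_prop] theorem getD' {f : α → List β} {i : α → ℕ} {d : α → β} (hf : PT f) (hi : PT i)
    (hd : PT d) : PT (fun a => (f a).getD (i a) (d a)) := PT.getD hf hi hd

@[fun_prop] theorem map' {f : α → List β} {g : α → β → γ} (hf : PT f)
    (hg : PT (fun x : α × β => g x.1 x.2)) : PT (fun a => (f a).map (g a)) := PT.map hf hg

@[fun_prop] theorem flatMap' {f : α → List β} {g : α → β → List γ} (hf : PT f)
    (hg : PT (fun x : α × β => g x.1 x.2)) : PT (fun a => (f a).flatMap (g a)) := PT.flatMap hf hg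

@[fun_prop] theorem filter' {f : α → List β} {g : α → β → Bool} (hf : PT f)
    (hg : PT (fun x : α × β => g x.1 x.2)) : PT (fun a => (f a).filter (g a)) := PT.filter hf hg

@[fun_prop] theorem any' {f : α → List β} {g : α → β → Bool} (hf : PT f)
    (hg : PT (fun x : α × β => g x.1 x.2)) : PT (fun a => (f a).any (g a)) := PT.any hf hg

@[fun_prop] theorem all' {f : α → List β} {g : α → β → Bool} (hf : PT f)
    (hg : PT (fun x : α × β => g x.1 x.2)) : PT (fun a => (f a).all (g a)) := PT.all hf hg

@[fun_prop] theorem range' {f : α → ℕ} (hf : PT f) : PT (fun a => List.range (f a)) := PT.range hf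

@[fun_prop] theorem length' {f : α → List β} (hf : PT f) : PT (fun a => (f a).length) := PT.length hf

@[fun_prop] theorem replicate' {n : α → ℕ} {f : α → β} (hn : PT n) (hf : PT f) :
    PT (fun a => List.replicate (n a) (f a)) := PT.replicate hn hf

@[fun_prop] theorem append' {f g : α → List β} (hf : PT f) (hg : PT g) :
    PT (fun a => f a ++ g a) := PT.append hf hg

@[fun_prop] theorem cons' {f : α → β} {g : α → List β} (hf : PT f) (hg : PT g) :
    PT (fun a => f a :: g a) := PT.cons hf hg

@[fun_prop] theorem add' {f g : α → ℕ} (hf : PT f) (hg : PT g) : PT (fun a => f a + g a) :=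
  PT.add hf hg

@[fun_prop] theorem mul' {f g : α → ℕ} (hf : PT f) (hg : PT g) : PT (fun a => f a * g a) :=
  PT.mul hf hg

@[fun_prop] theorem sub' {f g : α → ℕ} (hf : PT f) (hg : PT g) : PT (fun a => f a - g a) :=
  PT.sub hf hg

@[fun_prop] theorem inl' {f : α → β} (hf : PT f) : PT (fun a => (Sum.inl (f a) : β ⊕ γ)) :=
  PT.inl.comp hf

@[fun_prop] theorem inr' {f : α → γ} (hf : PT f) : PT (fun a => (Sum.inr (f a) : β ⊕ γ)) :=
  PT.inr.comp hf

@[fun_prop] theorem elim' {f : α → β ⊕ γ} {g : α → β → δ} {h : α → γ → δ} (hf : PT f)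
    (hg : PT (fun x : α × β => g x.1 x.2)) (hh : PT (fun x : α × γ => h x.1 x.2)) :
    PT (fun a => Sum.elim (g a) (h a) (f a)) :=
  PT.sum_elim (f := f) (g := fun x : α × β => g x.1 x.2) (h := fun x : α × γ => h x.1 x.2) hf hg hh

@[fun_prop] theorem enc' {f : α → β} (hf : PT f) : PT (fun a => (enc (f a) : T)) :=
  PT.enc_fn.comp hf

@[fun_prop] theorem ser' {f : α → T} (hf : PT f) : PT (fun a => ser (f a)) :=
  (PT.ser_enc (α := T)).comp hf

/-! Conditionals and tests. -/

@[fun_prop] theorem ite' {p : α → Prop} [∀ a, Decidable (p a)] {f g : α → β}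
    (hc : PT (fun a => decide (p a))) (hf : PT f) (hg : PT g) :
    PT (fun a => if p a then f a else g a) := by
  have := PT.ite hc hf hg
  convert this using 2 with a
  by_cases h : p a <;> simp [h]

@[fun_prop] theorem cond' {c : α → Bool} {f g : α → β} (hc : PT c) (hf : PT f) (hg : PT g) :
    PT (fun a => cond (c a) (f a) (g a)) := by
  have := PT.ite hc hf hg
  convert this using 2 with a
  cases c a <;> rfl

@[fun_prop] theorem dec_true {c : α → Bool} [∀ a, Decidable (c a = true)] (hc : PT c) :
    PT (fun a => decide (c a = true)) := by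
  convert hc using 2 with a
  by_cases h : c a = true <;> simp [h]

@[fun_prop] theorem dec_eq {f g : α → β} [∀ a, Decidable (f a = g a)] (hf : PT f) (hg : PT g) :
    PT (fun a => decide (f a = g a)) := by
  classical
  have := PT.eq hf hg
  convert this using 2 with a
  by_cases h : f a = g a <;> simp [h]

@[fun_prop] theorem dec_lt {f g : α → ℕ} [∀ a, Decidable (f a < g a)] (hf : PT f) (hg : PT g) :
    PT (fun a => decide (f a < g a)) := by
  have := PT.blt hf hg
  convert this using 2 with a
  by_cases h : f a < g a <;> simp [h]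

@[fun_prop] theorem dec_le {f g : α → ℕ} [∀ a, Decidable (f a ≤ g a)] (hf : PT f) (hg : PT g) :
    PT (fun a => decide (f a ≤ g a)) := by
  have := PT.ble hf hg
  convert this using 2 with a
  by_cases h : f a ≤ g a <;> simp [h]

@[fun_prop] theorem dec_and {p q : α → Prop} [∀ a, Decidable (p a)] [∀ a, Decidable (q a)]
    [∀ a, Decidable (p a ∧ q a)] (hp : PT (fun a => decide (p a))) (hq : PT (fun a => decide (q a))) :
    PT (fun a => decide (p a ∧ q a)) := by
  have := PT.band hp hq
  convert this using 2 with a
  by_cases h1 : p a <;> by_cases h2 : q a <;> simp [h1, h2]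

@[fun_prop] theorem dec_or {p q : α → Prop} [∀ a, Decidable (p a)] [∀ a, Decidable (q a)]
    [∀ a, Decidable (p a ∨ q a)] (hp : PT (fun a => decide (p a))) (hq : PT (fun a => decide (q a))) :
    PT (fun a => decide (p a ∨ q a)) := by
  have := PT.bor hp hq
  convert this using 2 with a
  by_cases h1 : p a <;> by_cases h2 : q a <;> simp [h1, h2]

@[fun_prop] theorem dec_not {p : α → Prop} [∀ a, Decidable (p a)] [∀ a, Decidable (¬ p a)]
    (hp : PT (fun a => decide (p a))) : PT (fun a => decide (¬ p a)) := by
  have := PT.bnot hp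
  convert this using 2 with a
  by_cases h1 : p a <;> simp [h1]

@[fun_prop] theorem dec_ne {f g : α → β} [∀ a, Decidable (f a ≠ g a)] (hf : PT f) (hg : PT g) :
    PT (fun a => decide (f a ≠ g a)) := by
  classical
  have := PT.bnot (PT.eq hf hg)
  convert this using 2 with a
  by_cases h1 : f a = g a <;> simp [h1]

@[fun_prop] theorem dec_mem {f : α → β} {g : α → List β} [∀ a, Decidable (f a ∈ g a)] (hf : PT f)
    (hg : PT g) : PT (fun a => decide (f a ∈ g a)) := by
  classical
  have := PT.mem hf hg
  convert this using 2 with a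
  by_cases h : f a ∈ g a <;> simp [h]

@[fun_prop] theorem beq' [BEq β] [LawfulBEq β] {f g : α → β} (hf : PT f) (hg : PT g) :
    PT (fun a => f a == g a) := by
  classical
  have := PT.eq hf hg
  convert this using 2 with a
  by_cases h1 : f a = g a <;> simp [h1]

@[fun_prop] theorem bne' [BEq β] [LawfulBEq β] {f g : α → β} (hf : PT f) (hg : PT g) :
    PT (fun a => f a != g a) := by
  exact PT.bnot (beq' hf hg)

@[fun_prop] theorem and' {f g : α → Bool} (hf : PT f) (hg : PT g) : PT (fun a => f a && g a) :=
  PT.band hf hg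

@[fun_prop] theorem or' {f g : α → Bool} (hf : PT f) (hg : PT g) : PT (fun a => f a || g a) :=
  PT.bor hf hg

@[fun_prop] theorem not' {f : α → Bool} (hf : PT f) : PT (fun a => !(f a)) := PT.bnot hf

@[fun_prop] theorem xor' {f g : α → Bool} (hf : PT f) (hg : PT g) : PT (fun a => xor (f a) (g a)) :=
  PT.bxor hf hg

/-- The index of an element, for any lawful equality test. -/
@[fun_prop] theorem idxOf' [BEq β] [LawfulBEq β] {f : α → β} {g : α → List β} (hf : PT f)
    (hg : PT g) : PT (fun a => (g a).idxOf (f a)) := by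
  classical
  have := PT.idxOf hf hg
  convert this using 2 with a
  generalize g a = l
  induction l with
  | nil => rfl
  | cons y l ih =>
    by_cases h : y = f a
    · have h1 : (y == f a) = true := by simpa using h
      have h2 : (@BEq.beq _ instBEqOfDecidableEq y (f a)) = true := by simpa using h
      simp only [List.idxOf_cons, h1, h2, cond_true]
    · have h1 : (y == f a) = false := by simpa using h
      have h2 : (@BEq.beq _ instBEqOfDecidableEq y (f a)) = false := by simpa using h
      simp only [List.idxOf_cons, h1, h2, cond_false, ih]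

/-- Lists of pairs. -/
@[fun_prop] theorem zip' {f : α → List β} {g : α → List γ} (hf : PT f) (hg : PT g) :
    PT (fun a => List.zip (f a) (g a)) := by
  have h : PT (fun x : α × β × γ => (x.2.1, x.2.2)) := by fun_prop
  exact PT.zipWith hf hg h

end PT

end Vale.Agent.Lib.P310.M
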