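import Vale.Agent.Lib.P310.M.Raw
import Vale.Agent.Lib.P310.M.Clip

/-!
Typed functions computed in polynomial time, in the style of `Primrec`. Data types are encoded as
trees (natural numbers in unary); `PT f` says that `f` is computed in polynomial time on encodings.
-/

namespace Vale.Agent.Lib.P310.M

/-- Encodings as trees. -/
class Enc (α : Type) where
  enc : α → T
  inj : Function.Injective enc

export Enc (enc)

instance : Enc T := ⟨fun x => x, fun _ _ h => h⟩

instance : Enc Unit := ⟨fun _ => T.leaf, fun _ _ _ => rfl⟩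

instance : Enc Bool := ⟨tBool, by
  intro a b h
  cases a <;> cases b <;> first | rfl | cases h⟩

/-- Natural numbers in unary. -/
def natT : ℕ → T
  | 0 => T.leaf
  | n + 1 => T.node T.leaf (natT n)

instance : Enc ℕ := ⟨natT, by
  intro a
  induction a with
  | zero =>
    intro b h
    cases b with
    | zero => rfl
    | succ b => cases h
  | succ a ih =>
    intro b h
    cases b with
    | zero => cases h
    | succ b =>
      have : natT a = natT b := by
        have h' : T.node T.leaf (natT a) = T.node T.leaf (natT b) := h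
        injection h'
      rw [ih this]⟩

instance {α β : Type} [Enc α] [Enc β] : Enc (α × β) :=
  ⟨fun x => T.node (enc x.1) (enc x.2), by
    rintro ⟨a, b⟩ ⟨a', b'⟩ h
    injection h with h1 h2
    have h1' : enc a = enc a' := h1
    have h2' : enc b = enc b' := h2
    rw [Enc.inj h1', Enc.inj h2']⟩

instance {α β : Type} [Enc α] [Enc β] : Enc (α ⊕ β) :=
  ⟨fun x => Sum.elim (fun a => T.node T.leaf (enc a)) (fun b => T.node (T.node T.leaf T.leaf) (enc b)) x, by
    rintro (a | b) (a' | b') h
    · simp only [Sum.elim_inl] at h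
      injection h with _ h2
      rw [Enc.inj h2]
    · simp only [Sum.elim_inl, Sum.elim_inr] at h
      injection h with h1
      cases h1
    · simp only [Sum.elim_inl, Sum.elim_inr] at h
      injection h with h1
      cases h1
    · simp only [Sum.elim_inr] at h
      injection h with _ h2
      rw [Enc.inj h2]⟩

/-- The tree of a list. -/
def listT {α : Type} [Enc α] : List α → T
  | [] => T.leaf
  | a :: l => T.node (enc a) (listT l)

instance {α : Type} [Enc α] : Enc (List α) := ⟨listT, by
  intro a
  induction a with
  | nil =>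
    intro b h
    cases b with
    | nil => rfl
    | cons y l => cases h
  | cons x l ih =>
    intro b h
    cases b with
    | nil => cases h
    | cons y l' =>
      have h' : T.node (enc x) (listT l) = T.node (enc y) (listT l') := h
      injection h' with h1 h2
      rw [Enc.inj h1, ih h2]⟩

lemma enc_bits (l : List Bool) : (enc l : T) = bitsT l := by
  induction l with
  | nil => rfl
  | cons a l ih =>
    show T.node (tBool a) (listT l) = T.node (tBool a) (bitsT l)
    rw [← ih]
    rfl

variable {α β γ δ : Type} [Enc α] [Enc β] [Enc γ] [Enc δ]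

/-- `f` is computed in polynomial time on encodings. -/
def PT (f : α → β) : Prop := ∃ g : T → T, PTraw g ∧ ∀ a, g (enc a) = enc (f a)

namespace PT

/-! (module T1) The basic closure properties; each one is a short argument from `PTraw`. -/

theorem id : PT (fun a : α => a) := ⟨fun x => x, PTraw.id, fun _ => rfl⟩

theorem const (b : β) : PT (fun _ : α => b) := ⟨fun _ => enc b, PTraw.const _, fun _ => rfl⟩

theorem comp {f : β → γ} {g : α → β} (hf : PT f) (hg : PT g) : PT (fun a => f (g a)) := by
  obtain ⟨F, hF, hF'⟩ := hf
  obtain ⟨G, hG, hG'⟩ := hg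
  exact ⟨fun x => F (G x), hF.comp hG, fun a => by simp only [hG', hF']⟩

theorem pair {f : α → β} {g : α → γ} (hf : PT f) (hg : PT g) : PT (fun a => (f a, g a)) := by
  obtain ⟨F, hF, hF'⟩ := hf
  obtain ⟨G, hG, hG'⟩ := hg
  refine ⟨fun x => T.node (F x) (G x), hF.pair hG, fun a => ?_⟩
  simp only [hF', hG']
  rfl

theorem fst : PT (fun x : α × β => x.1) := ⟨M.car, PTraw.car, fun _ => rfl⟩

theorem snd : PT (fun x : α × β => x.2) := ⟨M.cdr, PTraw.cdr, fun _ => rfl⟩

/-- The encoding itself. -/
theorem enc_fn : PT (fun a : α => (enc a : T)) := ⟨fun x => x, PTraw.id, fun _ => rfl⟩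

/-- Branching. -/
theorem ite {c : α → Bool} {f g : α → β} (hc : PT c) (hf : PT f) (hg : PT g) :
    PT (fun a => if c a then f a else g a) := by
  obtain ⟨C, hC, hC'⟩ := hc
  obtain ⟨F, hF, hF'⟩ := hf
  obtain ⟨G, hG, hG'⟩ := hg
  refine ⟨fun x => if C x = T.leaf then G x else F x, hC.ifLeaf hG hF, fun a => ?_⟩
  simp only [hC', hF', hG']
  cases h : c a
  · have : (enc false : T) = T.leaf := rfl
    simp [this]
  · have : (enc true : T) ≠ T.leaf := by
      intro h'
      cases h'
    simp [this]

/-- Equality test. -/
theorem eq [DecidableEq β] {f g : α → β} (hf : PT f) (hg : PT g) :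
    PT (fun a => decide (f a = g a)) := by
  obtain ⟨F, hF, hF'⟩ := hf
  obtain ⟨G, hG, hG'⟩ := hg
  refine ⟨fun x => tBool (decide (M.car (T.node (F x) (G x)) = M.cdr (T.node (F x) (G x)))),
    PTraw.eqT.comp (hF.pair hG), fun a => ?_⟩
  simp only [M.car, M.cdr, hF', hG']
  show tBool _ = tBool _
  congr 1
  exact decide_eq_decide.2 ⟨fun h => Enc.inj h, fun h => by rw [h]⟩

/-- The serialisation, as a function on encodings. -/
theorem ser_enc : PT (fun a : α => ser (enc a)) :=
  ⟨fun x => bitsT (ser x), PTraw.serT, fun a => (enc_bits _).symm⟩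

/-- Sums. -/
theorem inl : PT (fun a : α => (Sum.inl a : α ⊕ β)) :=
  ⟨fun x => T.node T.leaf x, (PTraw.const _).pair PTraw.id, fun _ => rfl⟩

theorem inr : PT (fun b : β => (Sum.inr b : α ⊕ β)) :=
  ⟨fun x => T.node (T.node T.leaf T.leaf) x, (PTraw.const _).pair PTraw.id, fun _ => rfl⟩

theorem sum_elim {f : α → β ⊕ γ} {g : α × β → δ} {h : α × γ → δ} (hf : PT f) (hg : PT g)
    (hh : PT h) : PT (fun a => Sum.elim (fun x => g (a, x)) (fun y => h (a, y)) (f a)) := by
  obtain ⟨F, hF, hF'⟩ := hf
  obtain ⟨G, hG, hG'⟩ := hg
  obtain ⟨H, hH, hH'⟩ := hh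
  have harg : PTraw (fun x => T.node x (M.cdr (F x))) := PTraw.id.pair (PTraw.cdr.comp hF)
  refine ⟨fun x => if M.car (F x) = T.leaf then G (T.node x (M.cdr (F x)))
      else H (T.node x (M.cdr (F x))),
    (PTraw.car.comp hF).ifLeaf (hG.comp harg) (hH.comp harg), fun a => ?_⟩
  simp only [hF']
  cases hfa : f a with
  | inl b =>
    have e1 : M.car (enc (Sum.inl b : β ⊕ γ)) = T.leaf := rfl
    have e2 : M.cdr (enc (Sum.inl b : β ⊕ γ)) = enc b := rfl
    simp only [e1, e2, if_true, Sum.elim_inl]
    exact hG' (a, b)
  | inr c =>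
    have e1 : M.car (enc (Sum.inr c : β ⊕ γ)) = T.node T.leaf T.leaf := rfl
    have e2 : M.cdr (enc (Sum.inr c : β ⊕ γ)) = enc c := rfl
    have e3 : (T.node T.leaf T.leaf) ≠ T.leaf := by
      intro h'
      cases h'
    simp only [e1, e2, if_neg e3, Sum.elim_inr]
    exact hH' (a, c)

/-- Numbers. -/
theorem succ : PT Nat.succ :=
  ⟨fun x => T.node T.leaf x, (PTraw.const _).pair PTraw.id, fun _ => rfl⟩

theorem nat_case {f : α → ℕ} {g : α → β} {h : α × ℕ → β} (hf : PT f) (hg : PT g) (hh : PT h) :
    PT (fun a => Nat.casesOn (motive := fun _ => β) (f a) (g a) (fun n => h (a, n))) := by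
  obtain ⟨F, hF, hF'⟩ := hf
  obtain ⟨G, hG, hG'⟩ := hg
  obtain ⟨H, hH, hH'⟩ := hh
  have harg : PTraw (fun x => T.node x (M.cdr (F x))) := PTraw.id.pair (PTraw.cdr.comp hF)
  refine ⟨fun x => if F x = T.leaf then G x else H (T.node x (M.cdr (F x))),
    hF.ifLeaf hG (hH.comp harg), fun a => ?_⟩
  simp only [hF']
  cases hfa : f a with
  | zero =>
    have e1 : (enc (0 : ℕ) : T) = T.leaf := rfl
    simp only [e1, if_true]
    exact hG' a
  | succ n =>
    have e1 : (enc (n + 1 : ℕ) : T) = T.node T.leaf (enc n) := rfl
    have e3 : T.node T.leaf (enc n) ≠ T.leaf := by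
      intro h'
      cases h'
    simp only [e1, if_neg e3]
    exact hH' (a, n)

/-- Lists. -/
theorem nil : PT (fun _ : α => ([] : List β)) := const []

theorem cons {f : α → β} {g : α → List β} (hf : PT f) (hg : PT g) :
    PT (fun a => f a :: g a) := by
  obtain ⟨F, hF, hF'⟩ := hf
  obtain ⟨G, hG, hG'⟩ := hg
  refine ⟨fun x => T.node (F x) (G x), hF.pair hG, fun a => ?_⟩
  simp only [hF', hG']
  rfl

theorem list_case {f : α → List β} {g : α → γ} {h : α × β × List β → γ} (hf : PT f) (hg : PT g)
    (hh : PT h) :
    PT (fun a => List.casesOn (motive := fun _ => γ) (f a) (g a) (fun y l => h (a, y, l))) := by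
  obtain ⟨F, hF, hF'⟩ := hf
  obtain ⟨G, hG, hG'⟩ := hg
  obtain ⟨H, hH, hH'⟩ := hh
  have harg : PTraw (fun x => T.node x (F x)) := PTraw.id.pair hF
  refine ⟨fun x => if F x = T.leaf then G x else H (T.node x (F x)),
    hF.ifLeaf hG (hH.comp harg), fun a => ?_⟩
  simp only [hF']
  cases hfa : f a with
  | nil =>
    have e1 : (enc ([] : List β) : T) = T.leaf := rfl
    simp only [e1, if_true]
    exact hG' a
  | cons y l =>
    have e1 : (enc (y :: l) : T) = T.node (enc y) (enc l) := rfl
    have e3 : T.node (enc y) (enc l) ≠ T.leaf := by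
      intro h'
      cases h'
    simp only [e1, if_neg e3]
    exact hH' (a, y, l)

/-- (module T2) Fold along a list, given a polynomial bound for the sizes of the partial results. -/
theorem list_foldr {f : α → List β} {b : α → γ} {s : α × β × γ → γ} (hf : PT f) (hb : PT b)
    (hs : PT s)
    (hB : ∃ c d, ∀ (a : α) (l : List β),
      sz (enc (l.foldr (fun y acc => s (a, y, acc)) (b a))) ≤ c * (sz (enc a) + sz (enc l) + 1) ^ d) :
    PT (fun a => (f a).foldr (fun y acc => s (a, y, acc)) (b a)) := by
  obtain ⟨gf, hgf, ef⟩ := hf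
  obtain ⟨gb, hgb, eb⟩ := hb
  obtain ⟨gs, hgs, es⟩ := hs
  obtain ⟨c, d, hB⟩ := hB
  obtain ⟨B, S, hF, hBB, hSS⟩ := ptFoldClip hgb hgs c d
  refine ⟨fun x => foldT B S (T.node x (gf x)) (gf x), ?_, ?_⟩
  · exact PTraw.comp hF (PTraw.pair (PTraw.pair PTraw.id hgf) hgf)
  · intro a
    show foldT B S (T.node (enc a) (gf (enc a))) (gf (enc a)) = _
    rw [ef a]
    have hbd : ∀ l : List β, sz (enc l) ≤ sz (enc (f a)) →
        sz (enc (l.foldr (fun y acc => s (a, y, acc)) (b a))) ≤
          c * sz (T.node (enc a) (enc (f a))) ^ d := by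
      intro l hl
      refine (hB a l).trans (Nat.mul_le_mul_left _ (Nat.pow_le_pow_left ?_ d))
      rw [sz_node]
      omega
    have key : ∀ l : List β, sz (enc l) ≤ sz (enc (f a)) →
        foldT B S (T.node (enc a) (enc (f a))) (enc l) =
          enc (l.foldr (fun y acc => s (a, y, acc)) (b a)) := by
      intro l
      induction l with
      | nil =>
        intro hl
        show B (T.node (enc a) (enc (f a))) = enc (b a)
        rw [hBB, eb]
        rw [eb]
        exact hbd [] hl
      | cons y l ih =>
        intro hl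
        have hl' : sz (enc l) ≤ sz (enc (f a)) := by
          have h1 : sz (enc (y :: l)) = sz (enc y) + sz (enc l) + 1 := sz_node _ _
          omega
        have es' : gs (T.node (enc a) (T.node (enc y) (enc (l.foldr (fun y acc => s (a, y, acc)) (b a))))) =
            enc (s (a, y, l.foldr (fun y acc => s (a, y, acc)) (b a))) := es (a, y, _)
        show S (T.node (T.node (enc a) (enc (f a))) (T.node (enc y)
          (foldT B S (T.node (enc a) (enc (f a))) (enc l)))) =
            enc (s (a, y, l.foldr (fun y acc => s (a, y, acc)) (b a)))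
        rw [ih hl', hSS, es']
        rw [es']
        exact hbd (y :: l) hl
    exact key _ le_rfl

/-! (module T3) Derived list functions. -/

/-! Size facts for the encodings. -/

lemma sz_enc_pair (a : α) (b : β) : sz (enc (a, b)) = sz (enc a) + sz (enc b) + 1 :=
  sz_node _ _

lemma sz_enc_nil : sz (enc ([] : List β)) = 1 := rfl

lemma sz_enc_cons (y : β) (l : List β) : sz (enc (y :: l)) = sz (enc y) + sz (enc l) + 1 :=
  sz_node _ _

lemma sz_enc_append (l l' : List β) : sz (enc (l ++ l')) + 1 = sz (enc l) + sz (enc l') := by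
  induction l with
  | nil =>
    simp only [List.nil_append, sz_enc_nil]
    omega
  | cons y l ih =>
    simp only [List.cons_append, sz_enc_cons]
    omega

lemma length_le_sz (l : List β) : l.length ≤ sz (enc l) := by
  induction l with
  | nil => simp
  | cons y l ih =>
    simp only [List.length_cons, sz_enc_cons]
    omega

lemma sz_le_of_mem {y : β} {l : List β} (h : y ∈ l) : sz (enc y) ≤ sz (enc l) := by
  induction l with
  | nil => simp at h
  | cons z l ih =>
    simp only [List.mem_cons] at h
    simp only [sz_enc_cons]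
    rcases h with rfl | h
    · omega
    · have := ih h
      omega

lemma sz_natEnc (n : ℕ) : sz (enc n) = 2 * n + 1 := by
  induction n with
  | zero => rfl
  | succ n ih =>
    show sz (T.node T.leaf (natT n)) = _
    rw [sz_node, sz_leaf]
    have : sz (natT n) = 2 * n + 1 := ih
    omega

lemma sz_enc_bool (b : Bool) : sz (enc b) ≤ 3 := by
  cases b <;> decide

/-- A computed function has polynomially bounded output. -/
lemma szBound {f : α → β} (hf : PT f) :
    ∃ c d, ∀ a, sz (enc (f a)) ≤ c * (sz (enc a) + 1) ^ d := by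
  obtain ⟨g, ⟨d, d', code, c, c', hsz, -⟩, hg⟩ := hf
  exact ⟨c', d', fun a => by rw [← hg a]; exact hsz _⟩

/-- Bound for a function of a parameter and a list element. -/
lemma szBound_two {g : α × β → γ} (hg : PT g) :
    ∃ c d, ∀ (a : α) (l : List β) (y : β), y ∈ l →
      sz (enc (g (a, y))) ≤ c * (sz (enc a) + sz (enc l) + 1) ^ d := by
  obtain ⟨c, d, h⟩ := szBound hg
  refine ⟨c * 2 ^ d, d, fun a l y hy => ?_⟩
  refine (h (a, y)).trans ?_
  rw [sz_enc_pair, mul_assoc, ← mul_pow]
  apply Nat.mul_le_mul_left
  apply Nat.pow_le_pow_left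
  have := sz_le_of_mem hy
  have := sz_pos (enc a)
  omega

/-- The bound for a flat map. -/
lemma sz_flatMap_le {K : ℕ} (G : β → List γ) (l : List β)
    (h : ∀ y ∈ l, sz (enc (G y)) ≤ K) : sz (enc (l.flatMap G)) ≤ K * l.length + 1 := by
  induction l with
  | nil => simp [sz_enc_nil]
  | cons y l ih =>
    have h1 := h y (by simp)
    have h2 := ih (fun z hz => h z (by simp [hz]))
    have h3 := sz_enc_append (G y) (l.flatMap G)
    simp only [List.flatMap_cons, List.length_cons, mul_add, mul_one]
    omega

theorem append {f g : α → List β} (hf : PT f) (hg : PT g) : PT (fun a => f a ++ g a) := by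
  have hs : PT (fun x : α × β × List β => x.2.1 :: x.2.2) :=
    PT.cons (PT.fst.comp PT.snd) (PT.snd.comp PT.snd)
  obtain ⟨c, d, hb⟩ := szBound hg
  have := PT.list_foldr (f := f) (b := g) (s := fun x : α × β × List β => x.2.1 :: x.2.2) hf hg hs
    ⟨c + 1, d + 1, fun a l => by
      have h1 : l.foldr (fun y acc => y :: acc) (g a) = l ++ g a := by
        induction l with
        | nil => rfl
        | cons y l ih => simp
      simp only [h1]
      have h2 := sz_enc_append l (g a)
      have h3 := hb a
      have hN : 1 ≤ sz (enc a) + sz (enc l) + 1 := by omega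
      have h4 : (sz (enc a) + 1) ^ d ≤ (sz (enc a) + sz (enc l) + 1) ^ d :=
        Nat.pow_le_pow_left (by omega) _
      have h5 : (sz (enc a) + sz (enc l) + 1) ^ d ≤ (sz (enc a) + sz (enc l) + 1) ^ (d + 1) :=
        Nat.pow_le_pow_right hN (by omega)
      have h6 : sz (enc a) + sz (enc l) + 1 ≤ (sz (enc a) + sz (enc l) + 1) ^ (d + 1) :=
        Nat.le_self_pow (by omega) _
      calc sz (enc (l ++ g a)) ≤ sz (enc l) + c * (sz (enc a) + 1) ^ d := by omega
        _ ≤ (sz (enc a) + sz (enc l) + 1) ^ (d + 1) + c * (sz (enc a) + sz (enc l) + 1) ^ (d + 1) := by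
            have : c * (sz (enc a) + 1) ^ d ≤ c * (sz (enc a) + sz (enc l) + 1) ^ (d + 1) :=
              Nat.mul_le_mul_left _ (h4.trans h5)
            omega
        _ = (c + 1) * (sz (enc a) + sz (enc l) + 1) ^ (d + 1) := by ring⟩
  refine (by
    convert this using 2 with a
    induction f a with
    | nil => rfl
    | cons y l ih => simp)


/-- Elementary arithmetic for the size bounds: `n ≤ N ^ (d + 1)` and `N ^ d ≤ N ^ (d + 1)`. -/
lemma pow_helper {N : ℕ} (hN : 1 ≤ N) (d : ℕ) : N ≤ N ^ (d + 1) ∧ N ^ d ≤ N ^ (d + 1) ∧ 1 ≤ N ^ d :=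
  ⟨Nat.le_self_pow (by omega) _, Nat.pow_le_pow_right hN (by omega), Nat.one_le_pow _ _ hN⟩

theorem flatMap {f : α → List β} {g : α × β → List γ} (hf : PT f) (hg : PT g) :
    PT (fun a => (f a).flatMap (fun y => g (a, y))) := by
  have hs : PT (fun x : α × β × List γ => g (x.1, x.2.1) ++ x.2.2) :=
    append (hg.comp (PT.pair PT.fst (PT.fst.comp PT.snd))) (PT.snd.comp PT.snd)
  obtain ⟨c, d, hb⟩ := szBound_two hg
  have key : ∀ (a : α) (l : List β),
      l.foldr (fun y acc => g (a, y) ++ acc) [] = l.flatMap (fun y => g (a, y)) := by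
    intro a l
    induction l with
    | nil => rfl
    | cons y l ih => simp [ih]
  have := PT.list_foldr (f := f) (b := fun _ : α => ([] : List γ))
    (s := fun x : α × β × List γ => g (x.1, x.2.1) ++ x.2.2) hf PT.nil hs
    ⟨c + 1, d + 1, fun a l => by
      simp only [key]
      have h1 := sz_flatMap_le (K := c * (sz (enc a) + sz (enc l) + 1) ^ d)
        (fun y => g (a, y)) l (fun y hy => hb a l y hy)
      have h2 := length_le_sz l
      set N := sz (enc a) + sz (enc l) + 1 with hN
      have hN1 : 1 ≤ N := by omega
      obtain ⟨h3, h4, h5⟩ := pow_helper hN1 d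
      have h6 : l.length ≤ N := by omega
      calc sz (enc (l.flatMap (fun y => g (a, y)))) ≤ c * N ^ d * l.length + 1 := h1
        _ ≤ c * N ^ d * N + N := by
            have := Nat.mul_le_mul_left (c * N ^ d) h6
            omega
        _ = c * N ^ (d + 1) + N := by ring
        _ ≤ (c + 1) * N ^ (d + 1) := by
            have : (c + 1) * N ^ (d + 1) = c * N ^ (d + 1) + N ^ (d + 1) := by ring
            omega⟩
  convert this using 2 with a
  exact (key a (f a)).symm

theorem map {f : α → List β} {g : α × β → γ} (hf : PT f) (hg : PT g) :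
    PT (fun a => (f a).map (fun y => g (a, y))) := by
  have h : PT (fun x : α × β => [g x]) := PT.cons hg PT.nil
  have := flatMap hf h
  convert this using 2 with a
  simp [List.map_eq_flatMap]

theorem filter {f : α → List β} {g : α × β → Bool} (hf : PT f) (hg : PT g) :
    PT (fun a => (f a).filter (fun y => g (a, y))) := by
  have h : PT (fun x : α × β => if g x then [x.2] else []) :=
    PT.ite hg (PT.cons PT.snd PT.nil) PT.nil
  have := flatMap hf h
  convert this using 2 with a
  induction f a with
  | nil => rfl
  | cons y l ih =>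
    by_cases hy : g (a, y) <;> simp [hy, ih]

theorem any {f : α → List β} {g : α × β → Bool} (hf : PT f) (hg : PT g) :
    PT (fun a => (f a).any (fun y => g (a, y))) := by
  have hs : PT (fun x : α × β × Bool => if g (x.1, x.2.1) then true else x.2.2) :=
    PT.ite (hg.comp (PT.pair PT.fst (PT.fst.comp PT.snd))) (PT.const true) (PT.snd.comp PT.snd)
  have := PT.list_foldr (f := f) (b := fun _ : α => false)
    (s := fun x : α × β × Bool => if g (x.1, x.2.1) then true else x.2.2) hf (PT.const false) hs
    ⟨3, 0, fun a l => by simpa using sz_enc_bool _⟩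
  convert this using 2 with a
  induction f a with
  | nil => rfl
  | cons y l ih =>
    by_cases hy : g (a, y) <;> simp [hy, ih]

theorem all {f : α → List β} {g : α × β → Bool} (hf : PT f) (hg : PT g) :
    PT (fun a => (f a).all (fun y => g (a, y))) := by
  have hs : PT (fun x : α × β × Bool => if g (x.1, x.2.1) then x.2.2 else false) :=
    PT.ite (hg.comp (PT.pair PT.fst (PT.fst.comp PT.snd))) (PT.snd.comp PT.snd) (PT.const false)
  have := PT.list_foldr (f := f) (b := fun _ : α => true)
    (s := fun x : α × β × Bool => if g (x.1, x.2.1) then x.2.2 else false) hf (PT.const true) hs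
    ⟨3, 0, fun a l => by simpa using sz_enc_bool _⟩
  convert this using 2 with a
  induction f a with
  | nil => rfl
  | cons y l ih =>
    by_cases hy : g (a, y) <;> simp [hy, ih]

theorem length {f : α → List β} (hf : PT f) : PT (fun a => (f a).length) := by
  have hs : PT (fun x : α × β × ℕ => Nat.succ x.2.2) := PT.succ.comp (PT.snd.comp PT.snd)
  have key : ∀ l : List β, l.foldr (fun _ acc => Nat.succ acc) 0 = l.length := by
    intro l
    induction l with
    | nil => rfl
    | cons y l ih => simp [ih]
  have := PT.list_foldr (f := f) (b := fun _ : α => 0)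
    (s := fun x : α × β × ℕ => Nat.succ x.2.2) hf (PT.const 0) hs
    ⟨3, 1, fun a l => by
      simp only [key, sz_natEnc, pow_one]
      have := length_le_sz l
      omega⟩
  convert this using 2 with a
  exact (key (f a)).symm

/-- A number as a list of units: the same tree. -/
lemma enc_nat_replicate (n : ℕ) : (enc (List.replicate n ()) : T) = enc n := by
  induction n with
  | zero => rfl
  | succ n ih =>
    show T.node T.leaf (enc (List.replicate n ())) = T.node T.leaf (natT n)
    rw [ih]
    rfl

theorem unary {f : α → ℕ} (hf : PT f) : PT (fun a => List.replicate (f a) ()) := by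
  have h : PT (fun n : ℕ => List.replicate n ()) :=
    ⟨fun x => x, PTraw.id, fun n => (enc_nat_replicate n).symm⟩
  exact h.comp hf

/-- The size of a list from bounds on its elements. -/
lemma sz_list_le {K : ℕ} (l : List β) (h : ∀ y ∈ l, sz (enc y) ≤ K) :
    sz (enc l) ≤ (K + 1) * l.length + 1 := by
  induction l with
  | nil => simp [sz_enc_nil]
  | cons y l ih =>
    have h1 := h y (by simp)
    have h2 := ih (fun z hz => h z (by simp [hz]))
    simp only [sz_enc_cons, List.length_cons, mul_add, mul_one]
    omega

theorem range {f : α → ℕ} (hf : PT f) : PT (fun a => List.range (f a)) := by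
  have hs : PT (fun x : α × Unit × List ℕ => x.2.2 ++ [x.2.2.length]) :=
    append (PT.snd.comp PT.snd) (PT.cons (length (PT.snd.comp PT.snd)) PT.nil)
  have key : ∀ l : List Unit, l.foldr (fun _ acc => acc ++ [acc.length]) [] = List.range l.length := by
    intro l
    induction l with
    | nil => rfl
    | cons y l ih => simp [ih, List.range_succ]
  have := PT.list_foldr (f := fun a => List.replicate (f a) ()) (b := fun _ : α => ([] : List ℕ))
    (s := fun x : α × Unit × List ℕ => x.2.2 ++ [x.2.2.length]) (unary hf) PT.nil hs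
    ⟨4, 2, fun a l => by
      simp only [key]
      have h1 := sz_list_le (K := 2 * l.length) (List.range l.length) (fun y hy => by
        rw [sz_natEnc]
        have := List.mem_range.mp hy
        omega)
      rw [List.length_range] at h1
      have h2 := length_le_sz l
      have h3 := sz_pos (enc a)
      set N := sz (enc a) + sz (enc l) + 1 with hN
      have h4 : l.length ≤ N := by omega
      have h5 : 1 ≤ N := by omega
      have h6 : (2 * l.length + 1) * l.length ≤ 3 * N * N := by
        apply Nat.mul_le_mul _ h4
        omega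
      nlinarith⟩
  convert this using 2 with a
  rw [key, List.length_replicate]

lemma sz_tail_le (l : List β) : sz (enc l.tail) ≤ sz (enc l) := by
  cases l with
  | nil => exact le_rfl
  | cons y l =>
    simp only [List.tail_cons, sz_enc_cons]
    omega

lemma sz_drop_le (n : ℕ) (l : List β) : sz (enc (l.drop n)) ≤ sz (enc l) := by
  induction n with
  | zero => simp
  | succ n ih =>
    rw [← List.tail_drop]
    exact (sz_tail_le _).trans ih

theorem tail {f : α → List β} (hf : PT f) : PT (fun a => (f a).tail) := by
  have := PT.list_case (f := f) (g := fun _ : α => ([] : List β))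
    (h := fun x : α × β × List β => x.2.2) hf PT.nil (PT.snd.comp PT.snd)
  convert this using 2 with a
  cases f a <;> rfl

theorem drop {f : α → List β} {i : α → ℕ} (hf : PT f) (hi : PT i) :
    PT (fun a => (f a).drop (i a)) := by
  have hs : PT (fun x : α × Unit × List β => x.2.2.tail) := tail (PT.snd.comp PT.snd)
  have key : ∀ (l : List Unit) (L : List β), l.foldr (fun _ acc => acc.tail) L = L.drop l.length := by
    intro l L
    induction l with
    | nil => rfl
    | cons y l ih => simp [ih, List.tail_drop]
  obtain ⟨c, d, hb⟩ := szBound hf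
  have := PT.list_foldr (f := fun a => List.replicate (i a) ()) (b := f)
    (s := fun x : α × Unit × List β => x.2.2.tail) (unary hi) hf hs
    ⟨c, d, fun a l => by
      simp only [key]
      refine (sz_drop_le _ _).trans ((hb a).trans ?_)
      apply Nat.mul_le_mul_left
      apply Nat.pow_le_pow_left
      omega⟩
  convert this using 2 with a
  rw [key, List.length_replicate]

theorem getD {f : α → List β} {i : α → ℕ} {d : α → β} (hf : PT f) (hi : PT i) (hd : PT d) :
    PT (fun a => (f a).getD (i a) (d a)) := by
  have := PT.list_case (f := fun a => (f a).drop (i a)) (g := d)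
    (h := fun x : α × β × List β => x.2.1) (drop hf hi) hd (PT.fst.comp PT.snd)
  convert this using 2 with a
  generalize f a = l
  generalize i a = n
  induction l generalizing n with
  | nil => simp
  | cons y l ih =>
    cases n with
    | zero => simp
    | succ n =>
      simp only [List.getD_cons_succ, List.drop_succ_cons]
      exact ih n

theorem idxOf [DecidableEq β] {f : α → β} {g : α → List β} (hf : PT f) (hg : PT g) :
    PT (fun a => (g a).idxOf (f a)) := by
  have hs : PT (fun x : α × β × ℕ => if decide (x.2.1 = f x.1) then 0 else Nat.succ x.2.2) :=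
    PT.ite (PT.eq (PT.fst.comp PT.snd) (hf.comp PT.fst)) (PT.const 0)
      (PT.succ.comp (PT.snd.comp PT.snd))
  have key : ∀ (a : α) (l : List β),
      l.foldr (fun y acc => if decide (y = f a) then 0 else Nat.succ acc) 0 = l.idxOf (f a) := by
    intro a l
    induction l with
    | nil => rfl
    | cons y l ih =>
      simp only [List.foldr_cons, ih]
      by_cases hy : y = f a <;> simp [List.idxOf_cons, hy]
  have := PT.list_foldr (f := g) (b := fun _ : α => 0)
    (s := fun x : α × β × ℕ => if decide (x.2.1 = f x.1) then 0 else Nat.succ x.2.2) hg (PT.const 0) hs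
    ⟨3, 1, fun a l => by
      simp only [key, sz_natEnc, pow_one]
      have h1 := length_le_sz l
      have h2 : l.idxOf (f a) ≤ l.length := List.idxOf_le_length
      omega⟩
  convert this using 2 with a
  exact (key a (g a)).symm

theorem mem [DecidableEq β] {f : α → β} {g : α → List β} (hf : PT f) (hg : PT g) :
    PT (fun a => decide (f a ∈ g a)) := by
  have h : PT (fun x : α × β => decide (x.2 = f x.1)) := PT.eq PT.snd (hf.comp PT.fst)
  have := any hg h
  convert this using 2 with a
  rw [Bool.eq_iff_iff]
  simp [List.any_eq_true]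

theorem replicate {n : α → ℕ} {f : α → β} (hn : PT n) (hf : PT f) :
    PT (fun a => List.replicate (n a) (f a)) := by
  have := map (unary hn) (g := fun x : α × Unit => f x.1) (hf.comp PT.fst)
  convert this using 2 with a
  simp [List.map_replicate]

/-- One index of a `zipWith`. -/
def zipAt {β γ δ : Type} (H : β → γ → δ) (l1 : List β) (l2 : List γ) (i : ℕ) : List δ :=
  match l1.drop i, l2.drop i with
  | x :: _, y :: _ => [H x y]
  | _, _ => []

lemma zipWith_eq {β γ δ : Type} (H : β → γ → δ) (l1 : List β) (l2 : List γ) :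
    List.zipWith H l1 l2 = (List.range l1.length).flatMap (zipAt H l1 l2) := by
  induction l1 generalizing l2 with
  | nil => simp
  | cons x l1 ih =>
    rw [List.length_cons, List.range_succ_eq_map, List.flatMap_cons]
    cases l2 with
    | nil =>
      have h : ∀ i, zipAt H (x :: l1) ([] : List γ) i = [] := by
        intro i
        simp [zipAt]
      simp [h]
    | cons y l2 =>
      have h0 : zipAt H (x :: l1) (y :: l2) 0 = [H x y] := by simp [zipAt]
      have h1 : ∀ i, zipAt H (x :: l1) (y :: l2) (i + 1) = zipAt H l1 l2 i := by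
        intro i
        simp [zipAt]
      rw [h0, List.zipWith_cons_cons, ih, List.flatMap_map]
      simp [h1, Function.comp_def]

theorem zipWith {f : α → List β} {g : α → List γ} {h : α × β × γ → δ} (hf : PT f) (hg : PT g)
    (hh : PT h) : PT (fun a => List.zipWith (fun x y => h (a, x, y)) (f a) (g a)) := by
  -- the inner case, on the second list
  have hin : PT (fun q : (α × ℕ) × β × List β =>
      List.casesOn (motive := fun _ => List δ) ((g q.1.1).drop q.1.2) []
        (fun y l => (fun r : ((α × ℕ) × β × List β) × γ × List γ => [h (r.1.1.1, r.1.2.1, r.2.1)]) (q, y, l))) :=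
    PT.list_case (f := fun q : (α × ℕ) × β × List β => (g q.1.1).drop q.1.2)
      (g := fun _ => ([] : List δ))
      (h := fun r : ((α × ℕ) × β × List β) × γ × List γ => [h (r.1.1.1, r.1.2.1, r.2.1)])
      (drop (hg.comp (PT.fst.comp PT.fst)) (PT.snd.comp PT.fst)) PT.nil
      (PT.cons (hh.comp (PT.pair (PT.fst.comp (PT.fst.comp PT.fst))
        (PT.pair (PT.fst.comp (PT.snd.comp PT.fst)) (PT.fst.comp PT.snd)))) PT.nil)
  have hout : PT (fun p : α × ℕ =>
      List.casesOn (motive := fun _ => List δ) ((f p.1).drop p.2) []
        (fun x l => (fun q : (α × ℕ) × β × List β =>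
          List.casesOn (motive := fun _ => List δ) ((g q.1.1).drop q.1.2) []
            (fun y l => (fun r : ((α × ℕ) × β × List β) × γ × List γ => [h (r.1.1.1, r.1.2.1, r.2.1)]) (q, y, l))) (p, x, l))) :=
    PT.list_case (f := fun p : α × ℕ => (f p.1).drop p.2) (g := fun _ => ([] : List δ))
      (h := fun q : (α × ℕ) × β × List β =>
        List.casesOn (motive := fun _ => List δ) ((g q.1.1).drop q.1.2) []
          (fun y l => (fun r : ((α × ℕ) × β × List β) × γ × List γ => [h (r.1.1.1, r.1.2.1, r.2.1)]) (q, y, l)))
      (drop (hf.comp PT.fst) PT.snd) PT.nil hin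
  have := flatMap (range (length hf)) hout
  convert this using 2 with a
  rw [zipWith_eq]
  congr 1
  funext i
  simp only [zipAt]
  cases (f a).drop i with
  | nil => rfl
  | cons x l =>
    cases (g a).drop i with
    | nil => rfl
    | cons y l' => rfl


end PT

end Vale.Agent.Lib.P310.M
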