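import Vale.Agent.Lib.P310.M.OneTape
import Vale.Agent.Lib.P310.M.RawWrap
import Vale.Agent.Lib.P310.M.PT

/-!
(module X-SIM) A universal interpreter computed in polynomial time gives one-tape machines with
polynomial overhead, with an exponent which depends only on the interpreter.
-/

namespace Vale.Agent.Lib.P310.M

variable {Cd Cf : Type} [Enc Cd] [Enc Cf]

/-- The configurations of an interpreter. -/
def iter (ini : Cd × List Bool → Cf) (stp : Cd × Cf → Cf) (code : Cd) (w : List Bool) : ℕ → Cf
  | 0 => ini (code, w)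
  | t + 1 => stp (code, iter ini stp code w t)

/-! ### Stores with four named stacks -/

/-- A store whose stacks `sF`, `sW`, `sD` are empty. -/
def simSt (a e i o : List Sym) : St := fun s =>
  if s = sA then a else if s = sE then e else if s = sI then i else if s = sO then o else []

lemma simSt_A (a e i o : List Sym) : simSt a e i o sA = a := rfl
lemma simSt_E (a e i o : List Sym) : simSt a e i o sE = e := rfl
lemma simSt_I (a e i o : List Sym) : simSt a e i o sI = i := rfl
lemma simSt_O (a e i o : List Sym) : simSt a e i o sO = o := rfl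
lemma simSt_W (a e i o : List Sym) : simSt a e i o sW = [] := rfl
lemma simSt_D (a e i o : List Sym) : simSt a e i o sD = [] := rfl

lemma simSt_set_A (a e i o a' : List Sym) : St.set (simSt a e i o) sA a' = simSt a' e i o := by
  funext s
  fin_cases s <;> rfl

lemma simSt_set_E (a e i o e' : List Sym) : St.set (simSt a e i o) sE e' = simSt a e' i o := by
  funext s
  fin_cases s <;> rfl

lemma simSt_set_I (a e i o i' : List Sym) : St.set (simSt a e i o) sI i' = simSt a e i' o := by
  funext s
  fin_cases s <;> rfl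

lemma simSt_set_O (a e i o o' : List Sym) : St.set (simSt a e i o) sO o' = simSt a e i o' := by
  funext s
  fin_cases s <;> rfl

lemma simSt_in (w : List Bool) : σin w = simSt [] [] (w.reverse.map bitS) [] := by
  funext s
  fin_cases s <;> rfl

lemma simSt_out (y : List Bool) : σout y = simSt [] [] [] (y.reverse.map bitS) := by
  funext s
  fin_cases s <;> rfl

/-- Push on a named stack. -/
lemma sim_push_A (a e i o : List Sym) (b : Sym) :
    Eval (Cmd.push sA b) (simSt a e i o) (simSt (b :: a) e i o) 1 := by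
  have h := Eval.push (simSt a e i o) sA b
  rwa [simSt_set_A, simSt_A] at h

lemma sim_push_E (a e i o : List Sym) (b : Sym) :
    Eval (Cmd.push sE b) (simSt a e i o) (simSt a (b :: e) i o) 1 := by
  have h := Eval.push (simSt a e i o) sE b
  rwa [simSt_set_E, simSt_E] at h

lemma sim_push_O (a e i o : List Sym) (b : Sym) :
    Eval (Cmd.push sO b) (simSt a e i o) (simSt a e i (b :: o)) 1 := by
  have h := Eval.push (simSt a e i o) sO b
  rwa [simSt_set_O, simSt_O] at h

/-! ### Loading the input as a tree -/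

/-- Add the tree of a bit in front of the tree of a word. -/
def simLoadBody0 : Cmd := Cmd.seq (Cmd.push sA Sym.b0) (Cmd.push sA Sym.b1)

def simLoadBody1 : Cmd :=
  Cmd.seq (Cmd.seq (Cmd.seq (Cmd.push sA Sym.b0) (Cmd.push sA Sym.b0)) (Cmd.push sA Sym.b1))
    (Cmd.push sA Sym.b1)

/-- The input word, read from its last bit, as a tree on the main stack. -/
def simLoad : Cmd := Cmd.seq (Cmd.push sA Sym.b0) (Cmd.loop sI simLoadBody0 simLoadBody1)

lemma sim_word_bitsT_false (l : List Bool) :
    word (bitsT (false :: l)) = Sym.b1 :: Sym.b0 :: word (bitsT l) := by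
  simp [bitsT, tBool, word_node, word_leaf]

lemma sim_word_bitsT_true (l : List Bool) :
    word (bitsT (true :: l)) = Sym.b1 :: Sym.b1 :: Sym.b0 :: Sym.b0 :: word (bitsT l) := by
  simp [bitsT, tBool, word_node, word_leaf]

lemma sim_load_loop (r l : List Bool) :
    ∃ t ≤ 6 * r.length + 1, Eval (Cmd.loop sI simLoadBody0 simLoadBody1)
      (simSt (word (bitsT l)) [] (r.map bitS) [])
      (simSt (word (bitsT (r.reverse ++ l))) [] [] []) t := by
  induction r generalizing l with
  | nil =>
    exact ⟨1, by simp, Eval.loopE (by rfl)⟩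
  | cons b r ih =>
    cases b with
    | false =>
      obtain ⟨t, ht, h⟩ := ih (false :: l)
      refine ⟨(1 + 1) + t + 2, by simp only [List.length_cons]; omega, ?_⟩
      have e : (false :: r).reverse ++ l = r.reverse ++ false :: l := by simp
      rw [e]
      refine Eval.loop0 (l := r.map bitS) (by rfl) ?_ h
      rw [simSt_set_I, sim_word_bitsT_false]
      exact Eval.seq (sim_push_A _ _ _ _ _) (sim_push_A _ _ _ _ _)
    | true =>
      obtain ⟨t, ht, h⟩ := ih (true :: l)
      refine ⟨(1 + 1 + 1 + 1) + t + 2, by simp only [List.length_cons]; omega, ?_⟩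
      have e : (true :: r).reverse ++ l = r.reverse ++ true :: l := by simp
      rw [e]
      refine Eval.loop1 (l := r.map bitS) (by rfl) ?_ h
      rw [simSt_set_I, sim_word_bitsT_true]
      exact Eval.seq (Eval.seq (Eval.seq (sim_push_A _ _ _ _ _) (sim_push_A _ _ _ _ _))
        (sim_push_A _ _ _ _ _)) (sim_push_A _ _ _ _ _)

lemma sim_load (w : List Bool) :
    ∃ t ≤ 6 * w.length + 2, Eval simLoad (σin w) (simSt (word (bitsT w)) [] [] []) t := by
  obtain ⟨t, ht, h⟩ := sim_load_loop w.reverse []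
  refine ⟨1 + t, by simp only [List.length_reverse] at ht; omega, ?_⟩
  rw [simSt_in]
  simp only [List.reverse_reverse, List.append_nil] at h
  exact Eval.seq (sim_push_A [] [] (w.reverse.map bitS) [] Sym.b0 :
    Eval _ _ (simSt (word (bitsT [])) [] (w.reverse.map bitS) []) 1) h

lemma sim_sz_bitsT (l : List Bool) : sz (bitsT l) ≤ 4 * l.length + 1 := by
  induction l with
  | nil => simp [bitsT, sz_leaf]
  | cons a l ih =>
    have h : sz (tBool a) ≤ 3 := by cases a <;> simp [tBool, sz_leaf, sz_node]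
    simp only [bitsT, sz_node, List.length_cons]
    omega

/-! ### The main loop -/

/-- Pop the main stack. -/
def simPop : Cmd := Cmd.case sA Cmd.skip Cmd.skip Cmd.skip Cmd.skip

lemma sim_pop (b : Sym) (hb : b = Sym.b0) (a e i o : List Sym) :
    Eval simPop (simSt (b :: a) e i o) (simSt a e i o) 2 := by
  subst hb
  refine Eval.case0 (l := a) (t := 0) (by rfl) ?_
  rw [simSt_set_A]
  exact Eval.skip _

/-- After one interpreter step: read the flag of `(b, c)`. -/
def simFlag : Cmd :=
  Cmd.case sA Cmd.skip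
    (Cmd.case sA (Cmd.push sE Sym.b0) (Cmd.seq simPop simPop) Cmd.skip Cmd.skip)
    Cmd.skip Cmd.skip

lemma sim_flag_false (x : T) :
    Eval simFlag (simSt (word (enc ((false, x) : Bool × T))) [] [] [])
      (simSt (word x) [Sym.b0] [] []) (1 + 2 + 2) := by
  have e : word (enc ((false, x) : Bool × T)) = Sym.b1 :: Sym.b0 :: word x := by
    show word (T.node (tBool false) x) = _
    simp [tBool, word_node, word_leaf]
  rw [e]
  refine Eval.case1 (l := Sym.b0 :: word x) (by rfl) ?_
  rw [simSt_set_A]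
  refine Eval.case0 (l := word x) (by rfl) ?_
  rw [simSt_set_A]
  exact sim_push_E _ _ _ _ _

lemma sim_flag_true (x : T) :
    Eval simFlag (simSt (word (enc ((true, x) : Bool × T))) [] [] [])
      (simSt (word x) [] [] []) ((2 + 2) + 2 + 2) := by
  have e : word (enc ((true, x) : Bool × T)) =
      Sym.b1 :: Sym.b1 :: Sym.b0 :: Sym.b0 :: word x := by
    show word (T.node (tBool true) x) = _
    simp [tBool, word_node, word_leaf]
  rw [e]
  refine Eval.case1 (l := Sym.b1 :: Sym.b0 :: Sym.b0 :: word x) (by rfl) ?_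
  rw [simSt_set_A]
  refine Eval.case1 (l := Sym.b0 :: Sym.b0 :: word x) (by rfl) ?_
  rw [simSt_set_A]
  exact Eval.seq (sim_pop _ rfl _ _ _ _) (sim_pop _ rfl _ _ _ _)

/-- The main loop for a program `cB` computing the flagged step. -/
lemma sim_main_loop {cB : Cmd} {W : ℕ} {X : ℕ → T} {F : ℕ → T}
    (n N : ℕ) (hB : ∀ i ≤ N, ∃ t ≤ W, Eval cB (simSt (word (X i)) [] [] [])
      (simSt (word (F i)) [] [] []) t)
    (hF1 : ∀ i, i < N → F i = enc ((false, X (i + 1)) : Bool × T))
    (hF2 : F N = enc ((true, X N) : Bool × T)) (i : ℕ) (hi : i + n = N) :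
    ∃ t ≤ (n + 1) * (W + 11), Eval (Cmd.loop sE (Cmd.seq cB simFlag) Cmd.skip)
      (simSt (word (X i)) [Sym.b0] [] []) (simSt (word (X N)) [] [] []) t := by
  induction n generalizing i with
  | zero =>
    obtain rfl : i = N := by omega
    obtain ⟨t, ht, h⟩ := hB i le_rfl
    refine ⟨(t + ((2 + 2) + 2 + 2)) + 1 + 2, by omega, ?_⟩
    have hE : Eval (Cmd.loop sE (Cmd.seq cB simFlag) Cmd.skip) (simSt (word (X i)) [] [] [])
        (simSt (word (X i)) [] [] []) 1 := Eval.loopE rfl
    refine Eval.loop0 (l := []) (t1 := t + ((2 + 2) + 2 + 2)) (t2 := 1) (by rfl) ?_ hE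
    rw [simSt_set_E]
    refine Eval.seq h ?_
    rw [hF2]
    exact sim_flag_true _
  | succ n ih =>
    obtain ⟨t, ht, h⟩ := hB i (by omega)
    obtain ⟨t', ht', h'⟩ := ih (i + 1) (by omega)
    refine ⟨(t + (1 + 2 + 2)) + t' + 2, ?_, ?_⟩
    · have : (n + 1 + 1) * (W + 11) = (n + 1) * (W + 11) + (W + 11) := by ring
      omega
    · refine Eval.loop0 (l := []) (t1 := t + (1 + 2 + 2)) (t2 := t') (by rfl) ?_ h'
      rw [simSt_set_E]
      refine Eval.seq h ?_
      rw [hF1 i (by omega)]
      exact sim_flag_false _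

/-! ### The final decision -/

/-- Write the answer on the output stack. -/
def simOut : Cmd :=
  Cmd.case sA (Cmd.push sO Sym.b0) (Cmd.seq simPop (Cmd.seq simPop (Cmd.push sO Sym.b1)))
    Cmd.skip Cmd.skip

lemma sim_out (a : Bool) :
    ∃ t ≤ 7, Eval simOut (simSt (word (tBool a)) [] [] [])
      (simSt [] [] [] ([a].reverse.map bitS)) t := by
  cases a with
  | false =>
    refine ⟨1 + 2, by norm_num, ?_⟩
    refine Eval.case0 (l := []) (by rfl) ?_
    rw [simSt_set_A]
    exact sim_push_O _ _ _ _ _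
  | true =>
    refine ⟨(2 + (2 + 1)) + 2, by norm_num, ?_⟩
    refine Eval.case1 (l := [Sym.b0, Sym.b0]) (by rfl) ?_
    rw [simSt_set_A]
    exact Eval.seq (sim_pop _ rfl _ _ _ _) (Eval.seq (sim_pop _ rfl _ _ _ _) (sim_push_O _ _ _ _ _))

/-! ### The small machine which reads one bit -/

open scoped Classical in
/-- Reads cell `0` and accepts iff it holds the bit `true`. -/
noncomputable def simTriv : TM where
  Q := Fin 3
  Γ := Option Bool
  instQ := inferInstance
  instΓ := inferInstance
  start := 0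
  acc := 1
  rej := 2
  blank := none
  bit := some
  δ := fun _ g => (if g = some true then 1 else 2, g, true)

lemma simTriv_run_one (a : Bool) :
    (simTriv.run [a] 1).st = if a = true then (1 : Fin 3) else 2 := by
  have h0 : ¬ ((simTriv.run [a] 0).st = simTriv.acc ∨ (simTriv.run [a] 0).st = simTriv.rej) := by
    show ¬ ((0 : Fin 3) = 1 ∨ (0 : Fin 3) = 2)
    decide
  show (simTriv.step (simTriv.run [a] 0)).st = _
  rw [TM.step, if_neg h0]
  show (if some a = some true then (1 : Fin 3) else 2) = _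
  cases a <;> simp

lemma simTriv_frozen (a : Bool) (t : ℕ) :
    (simTriv.run [a] (t + 1)).st = if a = true then (1 : Fin 3) else 2 := by
  induction t with
  | zero => exact simTriv_run_one a
  | succ t ih =>
    show (simTriv.step (simTriv.run [a] (t + 1))).st = _
    have h0 : (simTriv.run [a] (t + 1)).st = simTriv.acc ∨
        (simTriv.run [a] (t + 1)).st = simTriv.rej := by
      rw [ih]
      cases a
      · right; rfl
      · left; rfl
    rw [TM.step, if_pos h0, ih]

lemma simTriv_halts (a : Bool) : simTriv.HaltsIn [a] 1 := by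
  unfold TM.HaltsIn
  rw [simTriv_run_one]
  cases a
  · right; rfl
  · left; rfl

lemma simTriv_accepts (a : Bool) : simTriv.Accepts [a] ↔ a = true := by
  constructor
  · rintro ⟨t, ht⟩
    cases t with
    | zero =>
      exact absurd ht (by show ¬ ((0 : Fin 3) = 1); decide)
    | succ t =>
      rw [simTriv_frozen] at ht
      cases a
      · exact absurd ht (by show ¬ ((2 : Fin 3) = 1); decide)
      · rfl
  · rintro rfl
    exact ⟨1, by rw [simTriv_run_one]; rfl⟩

/-- (module X-SIM) The simulation. If the interpreter halts on the word `w` first at time `t` and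
its configurations have size at most `S` up to that time, then the machine halts within a polynomial
of `S + t + |w|` steps, and it accepts iff the interpreter answers `true`. -/
theorem sim_machine {ini : Cd × List Bool → Cf} {stp : Cd × Cf → Cf} {hlt ans : Cd × Cf → Bool}
    (hini : PT ini) (hstp : PT stp) (hhlt : PT hlt) (hans : PT ans) :
    ∃ E : ℕ, ∀ code : Cd, ∃ (M1 : TM) (K : ℕ), ∀ (w : List Bool) (t S : ℕ),
      (∀ i ≤ t, sz (enc (iter ini stp code w i)) ≤ S) →
      (∀ i < t, hlt (code, iter ini stp code w i) = false) →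
      hlt (code, iter ini stp code w t) = true →
      ∃ T0 ≤ K * (S + t + w.length + 1) ^ E, M1.HaltsIn w T0 ∧
        (M1.Accepts w ↔ ans (code, iter ini stp code w t) = true) := by
  -- the flagged step
  have hBfun : PT (fun a : Cd × Cf => if hlt a then ((true, a.2) : Bool × Cf)
      else (false, stp a)) :=
    PT.ite hhlt (PT.pair (PT.const true) PT.snd) (PT.pair (PT.const false) hstp)
  obtain ⟨gI, ⟨dI, dI', hI⟩, hgI⟩ := hini
  obtain ⟨gB, ⟨dB, dB', hB⟩, hgB⟩ := hBfun
  obtain ⟨gA, ⟨dA, dA', hA⟩, hgA⟩ := hans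
  obtain ⟨D, hDI, hDB, hDA⟩ : ∃ D, max dI 1 ≤ D ∧ max dB 1 ≤ D ∧ max dA 1 ≤ D :=
    ⟨max dI 1 + max dB 1 + max dA 1, by omega, by omega, by omega⟩
  refine ⟨2 * (D + 1), fun code => ?_⟩
  obtain ⟨cdI, cI, _, _, hcI⟩ := PTe.fix hI (enc code)
  obtain ⟨cdB, cB, _, _, hcB⟩ := PTe.fix hB (enc code)
  obtain ⟨cdA, cA, _, _, hcA⟩ := PTe.fix hA (enc code)
  -- the program
  obtain ⟨P, hP⟩ : ∃ P : Cmd, P = Cmd.seq simLoad (Cmd.seq cdI (Cmd.seq (Cmd.push sE Sym.b0)
    (Cmd.seq (Cmd.loop sE (Cmd.seq cdB simFlag) Cmd.skip) (Cmd.seq cdA simOut)))) := ⟨_, rfl⟩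
  obtain ⟨M1, K2, hcomp⟩ := compose P simTriv
  obtain ⟨K', hK'⟩ : ∃ K', K' = 8 + cI * 4 ^ D + 1 + (cB + 11) + cA + 7 := ⟨_, rfl⟩
  refine ⟨M1, K2 * (K' + 1) ^ 2 + 1, ?_⟩
  intro w t S hS hF hT
  obtain ⟨X, hX⟩ : ∃ X, X = S + t + w.length + 1 := ⟨_, rfl⟩
  rw [← hX]
  have hX1 : 1 ≤ X := by omega
  have hpow : ∀ a, a ≤ D + 1 → X ^ a ≤ X ^ (D + 1) := fun a ha => Nat.pow_le_pow_right hX1 ha
  have hXD : X ^ D ≤ X ^ (D + 1) := hpow D (by omega)
  have hX11 : X ≤ X ^ (D + 1) := by simpa using hpow 1 (by omega)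
  have h1XD : 1 ≤ X ^ (D + 1) := Nat.one_le_pow _ _ hX1
  have hSD : ∀ d, d ≤ D → (S + 1) ^ d ≤ X ^ D := by
    intro d hd
    calc (S + 1) ^ d ≤ X ^ d := Nat.pow_le_pow_left (by omega) _
      _ ≤ X ^ D := Nat.pow_le_pow_right hX1 hd
  -- load
  obtain ⟨tL, htL, hevL⟩ := sim_load w
  -- initial configuration
  have hinit : word (bitsT w) = word (bitsT w) ++ [] := by simp
  obtain ⟨tI, htI, hevI⟩ := hcI (bitsT w) (simSt (word (bitsT w)) [] [] []) [] hinit rfl rfl
  have eI : gI (T.node (enc code) (bitsT w)) = enc (iter ini stp code w 0) := by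
    have h : gI (enc (code, w)) = enc (ini (code, w)) := hgI _
    rw [show (enc (code, w) : T) = T.node (enc code) (enc w) from rfl, enc_bits] at h
    exact h
  simp only at hevI
  rw [simSt_set_A, eI, List.append_nil] at hevI
  have htI' : tI ≤ cI * 4 ^ D * X ^ D := by
    have h1 : sz (bitsT w) + 1 ≤ 4 * X := by
      have := sim_sz_bitsT w
      omega
    calc tI ≤ cI * (sz (bitsT w) + 1) ^ max dI 1 := htI
      _ ≤ cI * (4 * X) ^ max dI 1 := Nat.mul_le_mul_left _ (Nat.pow_le_pow_left h1 _)
      _ ≤ cI * (4 * X) ^ D := Nat.mul_le_mul_left _ (Nat.pow_le_pow_right (by omega) hDI)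
      _ = cI * 4 ^ D * X ^ D := by rw [mul_pow]; ring
  -- the main loop
  have hlp : ∀ i ≤ t, ∃ t' ≤ cB * X ^ D, Eval cdB (simSt (word (enc (iter ini stp code w i))) [] [] [])
        (simSt (word (gB (T.node (enc code) (enc (iter ini stp code w i))))) [] [] []) t' := by
    intro i hi
    have hin : word (enc (iter ini stp code w i)) = word (enc (iter ini stp code w i)) ++ [] := by
      simp
    obtain ⟨t', ht', hev⟩ := hcB (enc (iter ini stp code w i))
      (simSt (word (enc (iter ini stp code w i))) [] [] []) [] hin rfl rfl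
    simp only at hev
    rw [simSt_set_A, List.append_nil] at hev
    refine ⟨t', ?_, hev⟩
    calc t' ≤ cB * (sz (enc (iter ini stp code w i)) + 1) ^ max dB 1 := ht'
      _ ≤ cB * (S + 1) ^ max dB 1 :=
        Nat.mul_le_mul_left _ (Nat.pow_le_pow_left (by have := hS i hi; omega) _)
      _ ≤ cB * X ^ D := Nat.mul_le_mul_left _ (hSD _ hDB)
  have hF1 : ∀ i, i < t → gB (T.node (enc code) (enc (iter ini stp code w i))) =
      enc ((false, enc (iter ini stp code w (i + 1))) : Bool × T) := by
    intro i hi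
    have h : gB (enc (code, iter ini stp code w i)) = _ := hgB _
    rw [show (enc (code, iter ini stp code w i) : T) =
      T.node (enc code) (enc (iter ini stp code w i)) from rfl] at h
    rw [h]
    simp only [hF i hi]
    rfl
  have hF2 : gB (T.node (enc code) (enc (iter ini stp code w t))) =
      enc ((true, enc (iter ini stp code w t)) : Bool × T) := by
    have h : gB (enc (code, iter ini stp code w t)) = _ := hgB _
    rw [show (enc (code, iter ini stp code w t) : T) =
      T.node (enc code) (enc (iter ini stp code w t)) from rfl] at h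
    rw [h]
    simp only [hT]
    rfl
  obtain ⟨tM, htM, hevM⟩ := sim_main_loop (cB := cdB) (W := cB * X ^ D)
    (X := fun i => enc (iter ini stp code w i))
    (F := fun i => gB (T.node (enc code) (enc (iter ini stp code w i))))
    t t hlp hF1 hF2 0 (by omega)
  -- the answer
  have hinA : word (enc (iter ini stp code w t)) = word (enc (iter ini stp code w t)) ++ [] := by
    simp
  obtain ⟨tA, htA, hevA⟩ := hcA (enc (iter ini stp code w t))
    (simSt (word (enc (iter ini stp code w t))) [] [] []) [] hinA rfl rfl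
  simp only at hevA
  have eA : gA (T.node (enc code) (enc (iter ini stp code w t))) =
      tBool (ans (code, iter ini stp code w t)) := hgA (code, iter ini stp code w t)
  rw [simSt_set_A, eA, List.append_nil] at hevA
  have htA' : tA ≤ cA * X ^ D := by
    calc tA ≤ cA * (sz (enc (iter ini stp code w t)) + 1) ^ max dA 1 := htA
      _ ≤ cA * (S + 1) ^ max dA 1 :=
        Nat.mul_le_mul_left _ (Nat.pow_le_pow_left (by have := hS t le_rfl; omega) _)
      _ ≤ cA * X ^ D := Nat.mul_le_mul_left _ (hSD _ hDA)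
  obtain ⟨tO, htO, hevO⟩ := sim_out (ans (code, iter ini stp code w t))
  -- all together
  have hpushE : Eval (Cmd.push sE Sym.b0) (simSt (word (enc (iter ini stp code w 0))) [] [] [])
      (simSt (word (enc (iter ini stp code w 0))) [Sym.b0] [] []) 1 := sim_push_E _ _ _ _ _
  have hEv : Eval P (σin w) (σout [ans (code, iter ini stp code w t)])
      (tL + (tI + (1 + (tM + (tA + tO))))) := by
    rw [simSt_out, hP]
    exact Eval.seq hevL (Eval.seq hevI (Eval.seq hpushE (Eval.seq hevM (Eval.seq hevA hevO))))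
  obtain ⟨T0, hT0, hacc, hhalt⟩ := hcomp w _ _ hEv
  -- the bound
  have hTb : tL + (tI + (1 + (tM + (tA + tO)))) ≤ K' * X ^ (D + 1) := by
    have h1 : tL ≤ 8 * X ^ (D + 1) := by
      have : tL ≤ 8 * X := by omega
      calc tL ≤ 8 * X := this
        _ ≤ 8 * X ^ (D + 1) := Nat.mul_le_mul_left _ hX11
    have h2 : tI ≤ cI * 4 ^ D * X ^ (D + 1) := htI'.trans (Nat.mul_le_mul_left _ hXD)
    have h3 : tM ≤ (cB + 11) * X ^ (D + 1) := by
      have ht1 : t + 1 ≤ X := by omega
      calc tM ≤ (0 + t + 1) * (cB * X ^ D + 11) := by simpa using htM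
        _ ≤ X * (cB * X ^ D + 11) := Nat.mul_le_mul_right _ (by omega)
        _ = cB * (X * X ^ D) + 11 * X := by ring
        _ = cB * X ^ (D + 1) + 11 * X := by rw [pow_succ X D, mul_comm X]
        _ ≤ cB * X ^ (D + 1) + 11 * X ^ (D + 1) := by
            exact Nat.add_le_add_left (Nat.mul_le_mul_left _ hX11) _
        _ = _ := by ring
    have h4 : tA ≤ cA * X ^ (D + 1) := htA'.trans (Nat.mul_le_mul_left _ hXD)
    have h5 : tO ≤ 7 * X ^ (D + 1) := by omega
    have h6 : 1 ≤ 1 * X ^ (D + 1) := by omega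
    rw [hK']
    have e : (8 + cI * 4 ^ D + 1 + (cB + 11) + cA + 7) * X ^ (D + 1) =
        8 * X ^ (D + 1) + cI * 4 ^ D * X ^ (D + 1) + 1 * X ^ (D + 1) + (cB + 11) * X ^ (D + 1) +
          cA * X ^ (D + 1) + 7 * X ^ (D + 1) := by ring
    rw [e]
    omega
  have hTb2 : tL + (tI + (1 + (tM + (tA + tO)))) + w.length + 1 ≤ (K' + 1) * X ^ (D + 1) := by
    have : w.length + 1 ≤ X ^ (D + 1) := le_trans (by omega) hX11
    have e : (K' + 1) * X ^ (D + 1) = K' * X ^ (D + 1) + X ^ (D + 1) := by ring
    omega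
  have hT0' : T0 ≤ K2 * (K' + 1) ^ 2 * X ^ (2 * (D + 1)) := by
    calc T0 ≤ K2 * (tL + (tI + (1 + (tM + (tA + tO)))) + w.length + 1) ^ 2 := hT0
      _ ≤ K2 * ((K' + 1) * X ^ (D + 1)) ^ 2 :=
        Nat.mul_le_mul_left _ (Nat.pow_le_pow_left hTb2 _)
      _ = K2 * (K' + 1) ^ 2 * X ^ (2 * (D + 1)) := by
        rw [mul_pow, ← pow_mul, mul_comm (D + 1) 2]
        ring
  refine ⟨T0 + 1, ?_, hhalt 1 (simTriv_halts _), ?_⟩
  · have h1 : 1 ≤ X ^ (2 * (D + 1)) := Nat.one_le_pow _ _ hX1
    have e : (K2 * (K' + 1) ^ 2 + 1) * X ^ (2 * (D + 1)) =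
        K2 * (K' + 1) ^ 2 * X ^ (2 * (D + 1)) + X ^ (2 * (D + 1)) := by ring
    omega
  · rw [hacc, simTriv_accepts]

end Vale.Agent.Lib.P310.M
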