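import Vale.Agent.Lib.P310.M.Models
import Vale.Agent.Lib.P310.M.Sim
import Vale.Agent.Lib.P310.M.PTFun

/-!
(module X-MT) Multi-tape machines are simulated by one-tape machines with polynomial overhead, with
an absolute exponent: a universal interpreter on numeric codes. See notes/P310_machine.md.
-/

namespace Vale.Agent.Lib.P310.M

/-- A tape of the interpreter: the cells to the left of the head, nearest first, and the cells from
the head on. -/
abbrev UTape := List ℕ × List ℕ

/-- A configuration of the interpreter: the state and the tapes. -/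
abbrev MCf := ℕ × List UTape

/-- An entry of a transition table: state and symbols read, new state and actions. -/
abbrev MEntry := (ℕ × List ℕ) × (ℕ × List (ℕ × ℕ))

/-- A code: number of tapes minus one, (blank, bit 0, bit 1), (start, accept, reject), the table. -/
abbrev MCode := ℕ × (ℕ × ℕ × ℕ) × (ℕ × ℕ × ℕ) × List MEntry

/-- The action on one tape: write the symbol, then move (`0` stay, `1` right, else left). -/
def uupd (t : UTape) (a : ℕ × ℕ) : UTape :=
  if a.2 = 0 then (t.1, a.1 :: t.2.tail)
  else if a.2 = 1 then (a.1 :: t.1, t.2.tail)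
  else if t.1.length = 0 then ([], a.1 :: t.2.tail)
  else (t.1.tail, t.1.getD 0 0 :: a.1 :: t.2.tail)

/-- The interpreter has halted. -/
def uhlt (x : MCode × MCf) : Bool := x.2.1 == x.1.2.2.1.2.1 || x.2.1 == x.1.2.2.1.2.2

/-- The answer of the interpreter. -/
def uans (x : MCode × MCf) : Bool := x.2.1 == x.1.2.2.1.2.1

/-- The key to the table: the state and the symbols under the heads. -/
def ukey (x : MCode × MCf) : ℕ × List ℕ :=
  (x.2.1, x.2.2.map (fun t => t.2.getD 0 x.1.2.1.1))

/-- The values of the table at the key. -/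
def ulook (x : MCode × MCf) : ℕ × List (ℕ × ℕ) :=
  (x.1.2.2.2.map (fun e => e.2)).getD ((x.1.2.2.2.map (fun e => e.1)).idxOf (ukey x)) (0, [])

/-- One step of the interpreter. -/
def ustep (x : MCode × MCf) : MCf :=
  if uhlt x = true then x.2
  else ((ulook x).1, (List.zip x.2.2 (ulook x).2).map (fun p => uupd p.1 p.2))

/-- The start configuration of the interpreter. -/
def uini (x : MCode × List Bool) : MCf :=
  (x.1.2.2.1.1, (([] : List ℕ), x.2.map (fun b => cond b x.1.2.1.2.2 x.1.2.1.2.1)) ::
    List.replicate x.1.1 (([] : List ℕ), ([] : List ℕ)))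

@[fun_prop] theorem pt_tail' {α β : Type} [Enc α] [Enc β] {f : α → List β} (hf : PT f) :
    PT (fun a => (f a).tail) := PT.tail hf

theorem pt_uupd : PT (fun x : UTape × (ℕ × ℕ) => uupd x.1 x.2) := by
  unfold uupd
  fun_prop

theorem pt_uhlt : PT uhlt := by
  unfold uhlt
  fun_prop

theorem pt_uans : PT uans := by
  unfold uans
  fun_prop

theorem pt_ulook : PT ulook := by
  unfold ulook ukey
  fun_prop

theorem pt_ustep : PT ustep := by
  have h1 := pt_uhlt
  have h2 := pt_ulook
  have h3 := pt_uupd
  have h4 : PT (fun x : (MCode × MCf) × (UTape × (ℕ × ℕ)) => uupd x.2.1 x.2.2) :=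
    h3.comp PT.snd
  unfold ustep
  fun_prop

theorem pt_uini : PT uini := by
  unfold uini
  fun_prop

/-! The numbering of a machine and the bisimulation. -/

/-- The invariant of one tape: position, cells to the left, cells from the head on. -/
structure TapeInv (bl pos : ℕ) (tape : ℕ → ℕ) (t : UTape) : Prop where
  len : t.1.length = pos
  left : ∀ i < pos, t.1.getD (pos - 1 - i) 0 = tape i
  right : ∀ i, t.2.getD i bl = tape (pos + i)

/-- The bounds of one tape: symbols and length. -/
structure TapeBd (g n : ℕ) (t : UTape) : Prop where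
  l : ∀ x ∈ t.1, x < g
  r : ∀ x ∈ t.2, x < g
  len : t.1.length + t.2.length ≤ n

/-- The code of a move. -/
def mvCode : Option Bool → ℕ
  | none => 0
  | some true => 1
  | some false => 2

lemma getD_tail (l : List ℕ) (i d : ℕ) : l.tail.getD i d = l.getD (i + 1) d := by
  cases l with
  | nil => simp
  | cons a l => simp

lemma getD_cons_succ' (x : ℕ) (l : List ℕ) (i d : ℕ) : (x :: l).getD (i + 1) d = l.getD i d := by
  simp

lemma uupd_none {bl pos : ℕ} {tape : ℕ → ℕ} {t : UTape} (h : TapeInv bl pos tape t) (s : ℕ) :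
    TapeInv bl pos (Function.update tape pos s) (t.1, s :: t.2.tail) := by
  refine ⟨h.len, ?_, ?_⟩
  · intro i hi
    rw [Function.update_of_ne (by omega)]
    exact h.left i hi
  · intro i
    rcases i with _ | i
    · simp
    · have h6 : Function.update tape pos s (pos + (i + 1)) = tape (pos + (i + 1)) :=
        Function.update_of_ne (by omega) _ _
      rw [h6, ← h.right (i + 1)]
      simp only [getD_cons_succ', getD_tail]

lemma uupd_right {bl pos : ℕ} {tape : ℕ → ℕ} {t : UTape} (h : TapeInv bl pos tape t) (s : ℕ) :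
    TapeInv bl (pos + 1) (Function.update tape pos s) (s :: t.1, t.2.tail) := by
  refine ⟨by simp [h.len], ?_, ?_⟩
  · intro i hi
    by_cases hp : i = pos
    · subst hp
      simp
    · rw [Function.update_of_ne hp]
      have h5 : pos + 1 - 1 - i = (pos - 1 - i) + 1 := by omega
      rw [h5, getD_cons_succ']
      exact h.left i (by omega)
  · intro i
    have h6 : Function.update tape pos s (pos + 1 + i) = tape (pos + (i + 1)) := by
      rw [Function.update_of_ne (by omega)]
      congr 1
      omega
    rw [h6, ← h.right (i + 1)]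
    simp only [getD_tail]

lemma uupd_left {bl p : ℕ} {tape : ℕ → ℕ} {x : ℕ} {l r : List ℕ}
    (h : TapeInv bl (p + 1) tape (x :: l, r)) (s : ℕ) :
    TapeInv bl p (Function.update tape (p + 1) s) (l, x :: s :: r.tail) := by
  have hl : l.length = p := by
    have := h.len
    simp only [List.length_cons] at this
    omega
  refine ⟨hl, ?_, ?_⟩
  · intro i hi
    have h4 := h.left i (by omega)
    have h5 : p + 1 - 1 - i = (p - 1 - i) + 1 := by omega
    rw [h5, getD_cons_succ'] at h4
    rw [Function.update_of_ne (by omega)]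
    exact h4
  · intro i
    rcases i with _ | _ | i
    · have h4 := h.left p (by omega)
      have h5 : p + 1 - 1 - p = 0 := by omega
      rw [h5] at h4
      have h6 : Function.update tape (p + 1) s (p + 0) = tape p :=
        Function.update_of_ne (by omega) _ _
      rw [h6, ← h4]
      simp
    · have h6 : p + (0 + 1) = p + 1 := rfl
      rw [h6, Function.update_self]
      simp
    · have h6 : Function.update tape (p + 1) s (p + (i + 1 + 1)) = tape (p + 1 + (i + 1)) := by
        rw [Function.update_of_ne (by omega)]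
        congr 1
        omega
      rw [h6, ← h.right (i + 1)]
      simp only [getD_cons_succ', getD_tail]

lemma uupd_inv {bl pos : ℕ} {tape : ℕ → ℕ} {t : UTape} (h : TapeInv bl pos tape t) (s : ℕ)
    (mv : Option Bool) :
    TapeInv bl (MTM.move pos mv) (Function.update tape pos s) (uupd t (s, mvCode mv)) := by
  rcases mv with _ | _ | _
  · simpa [uupd, mvCode, MTM.move] using uupd_none h s
  · obtain ⟨l, r⟩ := t
    rcases l with _ | ⟨x, l⟩
    · have hp : pos = 0 := by simpa using h.len.symm
      subst hp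
      simpa [uupd, mvCode, MTM.move] using uupd_none h s
    · have hp : pos = l.length + 1 := by simpa using h.len.symm
      subst hp
      have := uupd_left h s
      simpa [uupd, mvCode, MTM.move] using this
  · simpa [uupd, mvCode, MTM.move] using uupd_right h s

lemma uupd_bd {g n : ℕ} {t : UTape} (h : TapeBd g n t) {s : ℕ} (hs : s < g) (m : ℕ) :
    TapeBd g (n + 1) (uupd t (s, m)) := by
  obtain ⟨l, r⟩ := t
  obtain ⟨h1, h2, h3⟩ := h
  simp only at h1 h2 h3
  have hr : ∀ x ∈ r.tail, x < g := fun x hx => h2 x (List.mem_of_mem_tail hx)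
  have hlen : r.tail.length = r.length - 1 := by simp
  unfold uupd
  simp only
  split_ifs with h4 h5 h6
  · refine ⟨h1, ?_, ?_⟩
    · intro x hx
      rcases List.mem_cons.1 hx with rfl | hx
      · exact hs
      · exact hr x hx
    · simp only [List.length_cons, hlen]
      omega
  · refine ⟨?_, hr, ?_⟩
    · intro x hx
      rcases List.mem_cons.1 hx with rfl | hx
      · exact hs
      · exact h1 x hx
    · simp only [List.length_cons, hlen]
      omega
  · refine ⟨by simp, ?_, ?_⟩
    · intro x hx
      rcases List.mem_cons.1 hx with rfl | hx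
      · exact hs
      · exact hr x hx
    · simp only [List.length_cons, hlen, List.length_nil]
      omega
  · rcases l with _ | ⟨y, l⟩
    · simp at h6
    · refine ⟨fun x hx => h1 x (List.mem_cons_of_mem _ (by simpa using hx)), ?_, ?_⟩
      · intro x hx
        simp only [List.getD_cons_zero, List.mem_cons] at hx
        rcases hx with rfl | rfl | hx
        · exact h1 _ (by simp)
        · exact hs
        · exact hr x hx
      · simp only [List.length_cons, List.tail_cons, hlen] at h3 ⊢
        omega

section Machine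

open scoped Classical

noncomputable section

variable (M : MTM)

/-- The numbering of the states. -/
def eQ (q : M.Q) : ℕ := (Fintype.equivFin M.Q q : ℕ)

/-- The numbering of the symbols. -/
def eG (g : M.Γ) : ℕ := (Fintype.equivFin M.Γ g : ℕ)

lemma eQ_inj {a b : M.Q} (h : eQ M a = eQ M b) : a = b :=
  (Fintype.equivFin M.Q).injective (Fin.ext h)

lemma eG_inj {a b : M.Γ} (h : eG M a = eG M b) : a = b :=
  (Fintype.equivFin M.Γ).injective (Fin.ext h)

lemma eQ_lt (a : M.Q) : eQ M a < Fintype.card M.Q := Fin.is_lt _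

lemma eG_lt (a : M.Γ) : eG M a < Fintype.card M.Γ := Fin.is_lt _

/-- The key of an entry of the table. -/
def tblKey (p : M.Q × (Fin (M.τ + 1) → M.Γ)) : ℕ × List ℕ :=
  (eQ M p.1, List.ofFn (fun j => eG M (p.2 j)))

/-- The value of an entry of the table. -/
def tblVal (p : M.Q × (Fin (M.τ + 1) → M.Γ)) : ℕ × List (ℕ × ℕ) :=
  (eQ M (M.δ p.1 p.2).1,
    List.ofFn (fun j => (eG M ((M.δ p.1 p.2).2 j).1, mvCode ((M.δ p.1 p.2).2 j).2)))

lemma tblKey_inj {p p' : M.Q × (Fin (M.τ + 1) → M.Γ)} (h : tblKey M p = tblKey M p') : p = p' := by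
  obtain ⟨a, f⟩ := p
  obtain ⟨a', f'⟩ := p'
  simp only [tblKey, Prod.mk.injEq] at h
  obtain ⟨h1, h2⟩ := h
  have h3 := List.ofFn_injective h2
  have h4 : f = f' := by
    funext j
    exact eG_inj M (congrFun h3 j)
  rw [eQ_inj M h1, h4]

/-- The code of a machine. -/
def codeM : MCode :=
  (M.τ, (eG M M.blank, eG M (M.bit false), eG M (M.bit true)), (eQ M M.start, eQ M M.acc, eQ M M.rej),
    (Finset.univ : Finset (M.Q × (Fin (M.τ + 1) → M.Γ))).toList.map
      (fun p => (tblKey M p, tblVal M p)))

/-- Looking up an injectively keyed table. -/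
lemma lookup_eq {A : Type} (L : List A) (key : A → ℕ × List ℕ) (val : A → ℕ × List (ℕ × ℕ))
    (hk : ∀ a b, key a = key b → a = b) {a : A} (ha : a ∈ L) (d : ℕ × List (ℕ × ℕ)) :
    ((L.map (fun p => (key p, val p))).map (fun e => e.2)).getD
      (((L.map (fun p => (key p, val p))).map (fun e => e.1)).idxOf (key a)) d = val a := by
  induction L with
  | nil => simp at ha
  | cons b L ih =>
    simp only [List.map_cons, List.idxOf_cons]
    by_cases hb : key b = key a
    · have : b = a := hk _ _ hb
      subst this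
      simp
    · have hb' : (key b == key a) = false := by simpa using hb
      rw [hb']
      have ha' : a ∈ L := by
        rcases List.mem_cons.1 ha with h | h
        · exact absurd (by rw [h]) hb
        · exact h
      simpa using ih ha'

/-- The invariant of the simulation. -/
def SimInv (n : ℕ) (c : M.Cfg) (cf : MCf) : Prop :=
  ∃ tp : Fin (M.τ + 1) → UTape, cf = (eQ M c.st, List.ofFn tp) ∧
    ∀ j, TapeInv (eG M M.blank) (c.pos j) (fun i => eG M (c.tape j i)) (tp j) ∧
      TapeBd (Fintype.card M.Γ) n (tp j)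

lemma zip_ofFn {A B : Type} {m : ℕ} (f : Fin m → A) (g : Fin m → B) :
    List.zip (List.ofFn f) (List.ofFn g) = List.ofFn (fun j => (f j, g j)) := by
  apply List.ext_getElem
  · simp
  · intro i h1 h2
    simp

lemma simInv_step {n : ℕ} {c : M.Cfg} {cf : MCf} (h : SimInv M n c cf) :
    SimInv M (n + 1) (M.step c) (ustep (codeM M, cf)) := by
  obtain ⟨tp, rfl, hj⟩ := h
  by_cases hh : c.st = M.acc ∨ c.st = M.rej
  · have h1 : uhlt (codeM M, (eQ M c.st, List.ofFn tp)) = true := by
      rcases hh with hh | hh <;> simp [uhlt, codeM, hh]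
    have h2 : M.step c = c := by simp [MTM.step, hh]
    rw [h2, ustep, if_pos h1]
    refine ⟨tp, rfl, fun j => ⟨(hj j).1, ?_⟩⟩
    obtain ⟨a, b, d⟩ := (hj j).2
    exact ⟨a, b, by omega⟩
  · have h1 : uhlt (codeM M, (eQ M c.st, List.ofFn tp)) = false := by
      have e1 : eQ M c.st ≠ eQ M M.acc := fun e => hh (Or.inl (eQ_inj M e))
      have e2 : eQ M c.st ≠ eQ M M.rej := fun e => hh (Or.inr (eQ_inj M e))
      simp [uhlt, codeM, e1, e2]
    have h2 : M.step c = ⟨(M.δ c.st (fun j => c.tape j (c.pos j))).1,
        fun j => MTM.move (c.pos j) ((M.δ c.st (fun j => c.tape j (c.pos j))).2 j).2,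
        fun j => Function.update (c.tape j) (c.pos j) ((M.δ c.st (fun j => c.tape j (c.pos j))).2 j).1⟩ := by
      simp [MTM.step, hh]
    set syms : Fin (M.τ + 1) → M.Γ := fun j => c.tape j (c.pos j) with hsyms
    have hkey : ukey (codeM M, (eQ M c.st, List.ofFn tp)) = tblKey M (c.st, syms) := by
      simp only [ukey, codeM, tblKey, List.map_ofFn]
      congr 2
      funext j
      have := (hj j).1.right 0
      simpa using this
    have hlook : ulook (codeM M, (eQ M c.st, List.ofFn tp)) = tblVal M (c.st, syms) := by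
      unfold ulook
      rw [hkey]
      exact lookup_eq _ (tblKey M) (tblVal M) (fun a b hab => tblKey_inj M hab)
        (Finset.mem_toList.2 (Finset.mem_univ _)) _
    rw [h2, ustep, if_neg (by rw [h1]; exact Bool.false_ne_true), hlook]
    simp only [tblVal, zip_ofFn, List.map_ofFn]
    refine ⟨_, rfl, fun j => ⟨?_, ?_⟩⟩
    · have := uupd_inv (hj j).1 (eG M ((M.δ c.st syms).2 j).1) ((M.δ c.st syms).2 j).2
      convert this using 1
      · funext i
        by_cases hi : i = c.pos j
        · subst hi
          simp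
        · simp [Function.update_of_ne hi]
      · rfl
    · exact uupd_bd (hj j).2 (eG_lt M _) _

lemma simInv_init (w : List Bool) :
    SimInv M (w.length + 1) (M.init w) (uini (codeM M, w)) := by
  set f : Bool → ℕ := fun b => cond b (eG M (M.bit true)) (eG M (M.bit false)) with hf
  refine ⟨fun j => if j = 0 then (([] : List ℕ), w.map f) else (([] : List ℕ), ([] : List ℕ)),
    ?_, ?_⟩
  · simp only [uini, codeM, MTM.init, List.ofFn_succ]
    have h1 : (fun i : Fin M.τ => (if i.succ = (0 : Fin (M.τ + 1)) then (([] : List ℕ), w.map f)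
        else (([] : List ℕ), ([] : List ℕ)))) = fun _ => (([] : List ℕ), ([] : List ℕ)) := by
      funext i
      simp [Fin.succ_ne_zero]
    simp only [if_true, h1, List.ofFn_const]
    rfl
  · intro j
    by_cases hj : j = 0
    · subst hj
      simp only [if_true]
      refine ⟨⟨rfl, fun i hi => absurd hi (by simp [MTM.init]), ?_⟩,
        ⟨by simp, ?_, by simp⟩⟩
      · intro i
        simp only [MTM.init, if_true, Nat.zero_add, List.getD_eq_getElem?_getD, List.getElem?_map]
        cases hw : w[i]? with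
        | none => simp
        | some a => cases a <;> simp [hf]
      · intro x hx
        obtain ⟨b, -, rfl⟩ := List.mem_map.1 hx
        cases b <;> exact eG_lt M _
    · simp only [if_neg hj]
      refine ⟨⟨rfl, fun i hi => absurd hi (by simp [MTM.init]), ?_⟩, ⟨by simp, by simp, by simp⟩⟩
      intro i
      simp [MTM.init, hj]

lemma simInv_run (w : List Bool) (i : ℕ) :
    SimInv M (w.length + i + 1) (M.run w i) (iter uini ustep (codeM M) w i) := by
  induction i with
  | zero => exact simInv_init M w
  | succ i ih => exact simInv_step M ih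

lemma uhlt_iff {n : ℕ} {c : M.Cfg} {cf : MCf} (h : SimInv M n c cf) :
    uhlt (codeM M, cf) = true ↔ (c.st = M.acc ∨ c.st = M.rej) := by
  obtain ⟨tp, rfl, -⟩ := h
  simp only [uhlt, codeM, Bool.or_eq_true, beq_iff_eq]
  exact or_congr ⟨eQ_inj M, fun e => by rw [e]⟩ ⟨eQ_inj M, fun e => by rw [e]⟩

lemma uans_iff {n : ℕ} {c : M.Cfg} {cf : MCf} (h : SimInv M n c cf) :
    uans (codeM M, cf) = true ↔ c.st = M.acc := by
  obtain ⟨tp, rfl, -⟩ := h
  simp only [uans, codeM, beq_iff_eq]
  exact ⟨eQ_inj M, fun e => by rw [e]⟩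

/-- The constant of the size bound. -/
def sizeA : ℕ :=
  (2 * Fintype.card M.Q + 1) + ((2 * Fintype.card M.Γ + 2) + 4) * (M.τ + 1) + 2

lemma sz_tape_le {g n : ℕ} {t : UTape} (h : TapeBd g n t) :
    sz (enc t) ≤ (2 * g + 2) * n + 3 := by
  have h1 := PT.sz_list_le (K := 2 * g + 1) t.1 (fun y hy => by
    rw [PT.sz_enc_nat]
    have := h.l y hy
    omega)
  have h2 := PT.sz_list_le (K := 2 * g + 1) t.2 (fun y hy => by
    rw [PT.sz_enc_nat]
    have := h.r y hy
    omega)
  have h3 : sz (enc t) = sz (enc t.1) + sz (enc t.2) + 1 := sz_node _ _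
  have h4 := h.len
  have h5 : (2 * g + 1 + 1) * (t.1.length + t.2.length) ≤ (2 * g + 2) * n :=
    Nat.mul_le_mul_left _ h4
  rw [mul_add] at h5
  have e : 2 * g + 1 + 1 = 2 * g + 2 := by ring
  rw [e] at h1 h2 h5
  omega

lemma sz_cf_le {n : ℕ} {c : M.Cfg} {cf : MCf} (h : SimInv M n c cf) (hn : 1 ≤ n) :
    sz (enc cf) ≤ sizeA M * n := by
  obtain ⟨tp, rfl, hj⟩ := h
  have h1 : sz (enc ((eQ M c.st, List.ofFn tp) : MCf)) =
      sz (enc (eQ M c.st)) + sz (enc (List.ofFn tp)) + 1 := sz_node _ _
  have h2 := PT.sz_enc_nat (eQ M c.st)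
  have h3 := eQ_lt M c.st
  have h4 := PT.sz_list_le (K := (2 * Fintype.card M.Γ + 2) * n + 3) (List.ofFn tp) (fun y hy => by
    obtain ⟨j, rfl⟩ := (List.mem_ofFn' _ _).1 hy
    exact sz_tape_le (hj j).2)
  rw [List.length_ofFn] at h4
  rw [h1]
  set g := Fintype.card M.Γ
  set Q := Fintype.card M.Q
  have h5 : sizeA M * n = (2 * Q + 1) * n + ((2 * g + 2) + 4) * (M.τ + 1) * n + 2 * n := by
    simp only [sizeA]
    ring
  have h6 : (2 * Q + 1) * 1 ≤ (2 * Q + 1) * n := Nat.mul_le_mul_left _ hn
  have h7 : ((2 * g + 2) * n + 3 + 1) * (M.τ + 1) ≤ ((2 * g + 2) + 4) * (M.τ + 1) * n := by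
    have : ((2 * g + 2) * n + 3 + 1) ≤ ((2 * g + 2) + 4) * n := by nlinarith
    calc ((2 * g + 2) * n + 3 + 1) * (M.τ + 1) ≤ ((2 * g + 2) + 4) * n * (M.τ + 1) :=
          Nat.mul_le_mul_right _ this
      _ = ((2 * g + 2) + 4) * (M.τ + 1) * n := by ring
  omega

lemma run_halted {w : List Bool} {t : ℕ} (h : M.HaltsIn w t) (k : ℕ) :
    M.run w (t + k) = M.run w t := by
  induction k with
  | zero => rfl
  | succ k ih =>
    have h1 : M.run w (t + (k + 1)) = M.step (M.run w (t + k)) := rfl
    rw [h1, ih]
    simp only [MTM.step]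
    exact if_pos h

end

end Machine

/-- (module X-MT) -/
theorem mtm_sim : ∃ E : ℕ, ∀ M : MTM, ∃ (M1 : TM) (K : ℕ), ∀ (w : List Bool) (t : ℕ),
    M.HaltsIn w t → ∃ T0 ≤ K * (t + w.length + 1) ^ E, M1.HaltsIn w T0 ∧
      (M1.Accepts w ↔ M.Accepts w) := by
  classical
  obtain ⟨E, hE⟩ := sim_machine pt_uini pt_ustep pt_uhlt pt_uans
  refine ⟨E, fun M => ?_⟩
  obtain ⟨M1, K, hM1⟩ := hE (codeM M)
  refine ⟨M1, K * (sizeA M + 1) ^ E, fun w t ht => ?_⟩
  have hex : ∃ t, M.HaltsIn w t := ⟨t, ht⟩
  set t0 := Nat.find hex with ht0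
  have h0 : M.HaltsIn w t0 := Nat.find_spec hex
  have hle : t0 ≤ t := Nat.find_min' hex ht
  have hmin : ∀ i < t0, ¬ M.HaltsIn w i := fun i hi => Nat.find_min hex hi
  have hS : ∀ i ≤ t0, sz (enc (iter uini ustep (codeM M) w i)) ≤ sizeA M * (w.length + t0 + 1) := by
    intro i hi
    refine (sz_cf_le M (simInv_run M w i) (by omega)).trans ?_
    exact Nat.mul_le_mul_left _ (by omega)
  have hlt' : ∀ i < t0, uhlt (codeM M, iter uini ustep (codeM M) w i) = false := by
    intro i hi
    have h1 := uhlt_iff M (simInv_run M w i)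
    cases h2 : uhlt (codeM M, iter uini ustep (codeM M) w i) with
    | false => rfl
    | true => exact absurd (h1.1 h2) (hmin i hi)
  have hht : uhlt (codeM M, iter uini ustep (codeM M) w t0) = true :=
    (uhlt_iff M (simInv_run M w t0)).2 h0
  obtain ⟨T0, hT0, hh, ha⟩ := hM1 w t0 _ hS hlt' hht
  refine ⟨T0, ?_, hh, ?_⟩
  · refine hT0.trans ?_
    have h1 : sizeA M * (w.length + t0 + 1) + t0 + w.length + 1 ≤ (sizeA M + 1) * (t + w.length + 1) := by
      have h2 : sizeA M * (w.length + t0 + 1) ≤ sizeA M * (t + w.length + 1) :=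
        Nat.mul_le_mul_left _ (by omega)
      have h3 : (sizeA M + 1) * (t + w.length + 1) = sizeA M * (t + w.length + 1) + (t + w.length + 1) := by
        ring
      omega
    calc K * (sizeA M * (w.length + t0 + 1) + t0 + w.length + 1) ^ E
        ≤ K * ((sizeA M + 1) * (t + w.length + 1)) ^ E :=
          Nat.mul_le_mul_left _ (Nat.pow_le_pow_left h1 _)
      _ = K * (sizeA M + 1) ^ E * (t + w.length + 1) ^ E := by
          rw [mul_pow]
          ring
  · rw [ha, uans_iff M (simInv_run M w t0)]
    constructor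
    · intro h
      exact ⟨t0, h⟩
    · rintro ⟨t', ht'⟩
      by_cases hc : t' < t0
      · exact absurd (Or.inl ht') (hmin t' hc)
      · obtain ⟨k, rfl⟩ := Nat.exists_eq_add_of_le (not_lt.1 hc)
        rwa [run_halted M h0 k] at ht'

end Vale.Agent.Lib.P310.M
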