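import Vale.Agent.Lib.P310.Defs

/-!
One-tape deterministic Turing machines, the encoding of pairs of graphs by adjacency matrices, and
the statement of the lower bound.
-/

namespace Vale.Agent.Lib.P310.M

open scoped Classical

noncomputable section

/-- A deterministic one-tape Turing machine: finite sets of states and of tape symbols, a start, an
accepting and a rejecting state, the blank, the symbols of the input bits, and the transition
function: new state, written symbol, direction (`true` = right). -/
structure TM where
  Q : Type
  Γ : Type
  instQ : Fintype Q
  instΓ : Fintype Γ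
  start : Q
  acc : Q
  rej : Q
  blank : Γ
  bit : Bool → Γ
  δ : Q → Γ → Q × Γ × Bool

attribute [instance] TM.instQ TM.instΓ

namespace TM

variable (M : TM)

/-- A configuration; the tape is infinite to the right only. -/
structure Cfg where
  st : M.Q
  pos : ℕ
  tape : ℕ → M.Γ

/-- The tape with the input word in the cells `0, 1, ...`, blank elsewhere. -/
def inputTape (w : List Bool) (i : ℕ) : M.Γ :=
  match w[i]? with
  | some a => M.bit a
  | none => M.blank

/-- The start configuration on an input word. -/
def init (w : List Bool) : M.Cfg := ⟨M.start, 0, M.inputTape w⟩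

/-- One step. The accepting and the rejecting state are final; moving left in cell `0` stays in
cell `0`. -/
def step (c : M.Cfg) : M.Cfg :=
  if c.st = M.acc ∨ c.st = M.rej then c
  else
    ⟨(M.δ c.st (c.tape c.pos)).1,
      if (M.δ c.st (c.tape c.pos)).2.2 then c.pos + 1 else c.pos - 1,
      Function.update c.tape c.pos (M.δ c.st (c.tape c.pos)).2.1⟩

/-- The configuration after `t` steps on the input `w`. -/
def run (w : List Bool) : ℕ → M.Cfg
  | 0 => M.init w
  | t + 1 => M.step (run w t)

/-- The machine accepts the word. -/
def Accepts (w : List Bool) : Prop := ∃ t, (M.run w t).st = M.acc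

/-- The machine has halted on the word after `t` steps. -/
def HaltsIn (w : List Bool) (t : ℕ) : Prop :=
  (M.run w t).st = M.acc ∨ (M.run w t).st = M.rej

end TM

/-- The adjacency matrix of a graph on `Fin n`, row by row. -/
def adjBits {n : ℕ} (G : SimpleGraph (Fin n)) : List Bool :=
  (List.finRange n).flatMap fun i => (List.finRange n).map fun j => decide (G.Adj i j)

/-- The input word for a pair of graphs on `n` vertices: the adjacency matrix of the first one, then
that of the second one. -/
def encPair {n : ℕ} (G H : SimpleGraph (Fin n)) : List Bool := adjBits G ++ adjBits H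

/-- The machine decides `k`-WL equivalence on adjacency matrices: on every pair of graphs with the
same number of vertices it halts, and it accepts exactly when the graphs are `k`-WL equivalent. -/
def DecidesWL (k : ℕ) (M : TM) : Prop :=
  ∀ (n : ℕ) (G H : SimpleGraph (Fin n)),
    (∃ t, M.HaltsIn (encPair G H) t) ∧ (M.Accepts (encPair G H) ↔ WLEquiv k G H)

/-- The machine halts within `C * n ^ e` steps on all pairs of graphs with `n ≥ 1` vertices. -/
def TimeBound (M : TM) (C e : ℕ) : Prop :=
  ∀ (n : ℕ) (G H : SimpleGraph (Fin n)), 1 ≤ n → ∃ t ≤ C * n ^ e, M.HaltsIn (encPair G H) t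

/-- The statement of the lower bound: there are constants `c > 0` and `k0` such that for all
`k ≥ k0` no Turing machine deciding `k`-WL equivalence runs in time `O(n ^ ⌊k / c⌋)`. -/
def LowerBound : Prop :=
  ∃ c k0 : ℕ, 0 < c ∧ ∀ k ≥ k0, ∀ M : TM, DecidesWL k M → ∀ C, ¬ TimeBound M C (k / c)

end

end Vale.Agent.Lib.P310.M
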