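import Vale.Agent.Lib.P310.M.Labels
import Vale.Agent.Lib.P310.M.TM
import Vale.Agent.Lib.P310.M.PT

/-!
The graph of a net from a table of its rows: everything as list functions on explicit data.
Rows and sections are known by opaque codes (trees). A row entry: code, incident sections with
their translation vectors (one label per column), the read (a list with at most one entry), the
twist.
-/

namespace Vale.Agent.Lib.P310.M

/-- A row entry. -/
abbrev RowE := T × List (T × List (List Bool)) × List (ℕ × List Bool) × Bool

/-- A block: row, column, state, label. -/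
abbrev BkD := RowE × ℕ × List Bool × List Bool

/-- A variable: `inl (section, column, label)` a wire, `inr (row, column, state)` a rail. -/
abbrev VarD := (T × ℕ × List Bool) ⊕ (T × ℕ × List Bool)

/-- A base vertex: a block and the values of its variables. -/
abbrev VD := BkD × List (VarD × Bool)

/-- A vertex: a base vertex, or a pendant leaf. -/
abbrev VertD := VD ⊕ (VD × ℕ)

/-- The zero label. -/
def zeroOf (lb : List (List Bool)) : List Bool := (lb.getD 0 []).map fun _ => false

/-- The condition on a block. -/
def okB (p : ℕ) (lb : List (List Bool)) (re : RowE) (j : ℕ) (st lab : List Bool) : Bool :=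
  (re.2.2.1.all fun r => !(r.1 == j) || (lab == r.2)) &&
    (!(j == 0) || (st == zeroOf lb)) &&
      (!(j + 1 == p) || (xorL st lab == zeroOf lb))

/-- All blocks. -/
def blocksD (p : ℕ) (lb : List (List Bool)) (tab : List RowE) : List BkD :=
  tab.flatMap fun re => (List.range p).flatMap fun j => lb.flatMap fun st =>
    (lb.filter fun lab => okB p lb re j st lab).map fun lab => (re, j, st, lab)

/-- The variables of a block: wires, outgoing rail, incoming rail. -/
def varsD (p : ℕ) (e : BkD) : List VarD :=
  (e.1.2.1.map fun x => Sum.inl (x.1, e.2.1, xorL e.2.2.2 (x.2.getD e.2.1 []))) ++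
    (if e.2.1 + 1 < p then [Sum.inr (e.1.1, e.2.1, xorL e.2.2.1 e.2.2.2)] else []) ++
      (if 0 < e.2.1 then [Sum.inr (e.1.1, e.2.1 - 1, e.2.2.1)] else [])

/-- The right-hand side of a block. -/
def rhsD (e : BkD) : Bool := (e.2.1 == 0) && e.1.2.2.2

/-- The parity of a list of bits. -/
def parD (l : List Bool) : Bool := l.foldr xor false

/-- All lists of at most five bits. -/
def cube5 : List (List Bool) :=
  (List.range 6).flatMap fun n => ((List.range n).foldr (fun _ acc => acc.flatMap fun v => [false :: v, true :: v]) [[]])

/-- The base vertices with parity parameter `c`. -/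
def baseD (p : ℕ) (blocks : List BkD) (c : Bool) : List VD :=
  blocks.flatMap fun e =>
    (cube5.filter fun bs => (bs.length == (varsD p e).length) && (parD bs == (c && rhsD e))).map
      fun bs => (e, List.zip (varsD p e) bs)

/-- The multiplicity of the leaves. -/
def multD (blocks : List BkD) (m0 : ℕ) (e : BkD) : ℕ := (blocks.idxOf e + 1) * (m0 + 2)

/-- All vertices. -/
def vertsD (p : ℕ) (blocks : List BkD) (c : Bool) : List VertD :=
  (baseD p blocks c).map Sum.inl ++
    (baseD p blocks c).flatMap fun u =>
      (List.range (multD blocks (baseD p blocks false).length u.1)).map fun i => Sum.inr (u, i)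

/-- Adjacency of base vertices. -/
def baseAdjD (u v : VD) : Bool :=
  !(u.1 == v.1) && (u.2.all fun x => v.2.all fun y => !(x.1 == y.1) || (x.2 == y.2))

/-- Adjacency of vertices. -/
def adjD (x y : VertD) : Bool :=
  Sum.elim (fun u => Sum.elim (fun v => baseAdjD u v) (fun l => u == l.1) y)
    (fun l => Sum.elim (fun v => v == l.1) (fun _ => false) y) x

/-- The adjacency matrix. -/
def matD (vs : List VertD) : List Bool := vs.flatMap fun x => vs.map fun y => adjD x y

/-- The word of the pair of graphs of a table of a net with `p` columns and labels `lb`. -/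
def graphBits (p : ℕ) (lb : List (List Bool)) (tab : List RowE) : List Bool :=
  matD (vertsD p (blocksD p lb tab) false) ++ matD (vertsD p (blocksD p lb tab) true)

end Vale.Agent.Lib.P310.M
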