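import Vale.Agent.Lib.P310.M.NetTab
import Vale.Agent.Lib.P310.N.XorCard

/-!
(module M-G1) The graph computed from a table of a net is isomorphic to the graph of the net.
-/

namespace Vale.Agent.Lib.P310.M

open Vale.Agent.Lib.P310.N

open scoped Classical

noncomputable section

/-! ### Generic list lemmas -/

instance sumLawfulBEq {α β : Type*} [BEq α] [BEq β] [LawfulBEq α] [LawfulBEq β] :
    LawfulBEq (α ⊕ β) where
  rfl := by
    intro a
    cases a with
    | inl x => exact beq_self_eq_true x
    | inr x => exact beq_self_eq_true x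
  eq_of_beq := by
    intro a b h
    cases a with
    | inl x =>
      cases b with
      | inl y =>
        have h' : (x == y) = true := h
        rw [eq_of_beq h']
      | inr y =>
        have h' : false = true := h
        cases h'
    | inr x =>
      cases b with
      | inl y =>
        have h' : false = true := h
        cases h'
      | inr y =>
        have h' : (x == y) = true := h
        rw [eq_of_beq h']


lemma nodup_flatMap_key {α β : Type*} {l : List α} {f : α → List β} (key : β → α)
    (hl : l.Nodup) (hf : ∀ a ∈ l, (f a).Nodup) (hk : ∀ a ∈ l, ∀ x ∈ f a, key x = a) :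
    (l.flatMap f).Nodup := by
  rw [List.nodup_flatMap]
  refine ⟨hf, ?_⟩
  refine hl.pairwise_of_forall_ne ?_
  intro a ha a' ha' hne
  intro x hx hx'
  exact hne ((hk a ha x hx).symm.trans (hk a' ha' x hx'))

lemma foldr_cube_eq (l : List ℕ) :
    l.foldr (fun _ acc => acc.flatMap fun v => [false :: v, true :: v]) [[]] = allVec l.length := by
  induction l with
  | nil => rfl
  | cons a t ih =>
    simp only [List.foldr_cons, ih, List.length_cons, allVec]

lemma mem_cube5 {l : List Bool} : l ∈ cube5 ↔ l.length ≤ 5 := by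
  unfold cube5
  simp only [List.mem_flatMap, List.mem_range, foldr_cube_eq, List.length_range, mem_allVec]
  constructor
  · rintro ⟨n, hn, rfl⟩
    omega
  · intro h
    exact ⟨l.length, by omega, rfl⟩

lemma cube5_nodup : cube5.Nodup := by
  unfold cube5
  refine nodup_flatMap_key (fun l => l.length) List.nodup_range ?_ ?_
  · intro n _
    rw [foldr_cube_eq]
    exact allVec_nodup _
  · intro n _ x hx
    rw [foldr_cube_eq] at hx
    rw [mem_allVec] at hx
    simpa using hx

/-- A list of bits on a nodup list is read off an assignment. -/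
lemma exists_assignment {α : Type*} {l : List α} (hl : l.Nodup) {bs : List Bool}
    (hb : bs.length = l.length) :
    ∃ a : α → ZMod 2, (∀ v, v ∉ l → a v = 0) ∧ (l.map fun v => decide (a v = 1)) = bs := by
  induction l generalizing bs with
  | nil =>
    refine ⟨fun _ => 0, fun _ _ => rfl, ?_⟩
    simp only [List.length_nil, List.length_eq_zero_iff] at hb
    simp [hb]
  | cons x t ih =>
    obtain ⟨hx, ht⟩ := List.nodup_cons.1 hl
    cases bs with
    | nil => simp at hb
    | cons b bs =>
      have hb' : bs.length = t.length := by simpa using hb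
      obtain ⟨a, h0, h1⟩ := ih ht hb'
      refine ⟨Function.update a x (if b then 1 else 0), ?_, ?_⟩
      · intro v hv
        have hvx : v ≠ x := fun h => hv (h ▸ List.mem_cons_self)
        rw [Function.update_of_ne hvx]
        exact h0 v (fun h => hv (List.mem_cons_of_mem _ h))
      · have hmap : (t.map fun v => decide (Function.update a x (if b then (1 : ZMod 2) else 0) v = 1)) = bs := by
          rw [← h1]
          apply List.map_congr_left
          intro v hv
          have hvx : v ≠ x := fun h => hx (h ▸ hv)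
          rw [Function.update_of_ne hvx]
        simp only [List.map_cons, Function.update_self, hmap]
        cases b <;> simp

lemma zmod2_add_decide (x y : ZMod 2) :
    decide (x + y = 1) = xor (decide (x = 1)) (decide (y = 1)) := by
  revert x y
  decide

lemma zmod2_sum_decide (l : List (ZMod 2)) :
    decide (l.sum = 1) = l.foldr (fun x acc => xor (decide (x = 1)) acc) false := by
  induction l with
  | nil => simp
  | cons x t ih =>
    simp only [List.sum_cons, List.foldr_cons, ← ih]
    exact zmod2_add_decide x t.sum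

lemma parD_map {α : Type*} (l : List α) (a : α → ZMod 2) :
    parD (l.map fun v => decide (a v = 1)) = decide ((l.map a).sum = 1) := by
  rw [zmod2_sum_decide]
  unfold parD
  induction l with
  | nil => rfl
  | cons x t ih =>
    simp only [List.map_cons, List.foldr_cons, ih]

lemma zmod2_eq_of_decide {x y : ZMod 2} : decide (x = 1) = decide (y = 1) ↔ x = y := by
  revert x y
  decide

/-- A nodup list enumerating the range of an injective function gives a graph on `Fin n`. -/
lemma exists_graph {X : Type} [Fintype X] (vs : List VertD) (f : X → VertD) (G : SimpleGraph X)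
    (hinj : Function.Injective f) (hmem : ∀ x, x ∈ vs ↔ ∃ y, f y = x) (hnd : vs.Nodup)
    (hadj : ∀ x y, adjD (f x) (f y) = true ↔ G.Adj x y) (n : ℕ) (hn : vs.length = n) :
    ∃ H : SimpleGraph (Fin n), matD vs = adjBits H ∧ Nonempty (H ≃g G) := by
  subst hn
  have hex : ∀ i : Fin vs.length, ∃ y, f y = vs.get i := fun i => (hmem _).1 (List.get_mem vs i)
  choose g hg using hex
  have hginj : Function.Injective g := by
    intro i j hij
    have : vs.get i = vs.get j := by rw [← hg i, ← hg j, hij]
    exact (List.Nodup.get_inj_iff hnd).1 this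
  have hgsurj : Function.Surjective g := by
    intro y
    have hy : f y ∈ vs := (hmem _).2 ⟨y, rfl⟩
    obtain ⟨i, hi⟩ := List.get_of_mem hy
    refine ⟨i, hinj ?_⟩
    rw [hg i, hi]
  let e : Fin vs.length ≃ X := Equiv.ofBijective g ⟨hginj, hgsurj⟩
  refine ⟨G.comap e, ?_, ⟨SimpleGraph.Iso.comap e G⟩⟩
  have hvs : vs = (List.finRange vs.length).map vs.get := (List.map_get_finRange vs).symm
  unfold matD adjBits
  conv_lhs => rw [hvs]
  simp only [List.flatMap_map, List.map_map]
  apply List.flatMap_congr
  intro i _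
  apply List.map_congr_left
  intro j _
  simp only [Function.comp]
  rw [← hg i, ← hg j]
  have h1 : (G.comap e).Adj i j ↔ adjD (f (g i)) (f (g j)) = true := by
    rw [hadj]
    exact Iff.rfl
  rw [Bool.eq_iff_iff, decide_eq_true_iff]
  exact h1.symm

/-- A presentation of a net by lists and codes. -/
structure NetPres {p b : ℕ} (N : Net p b) where
  rowsL : List N.Row
  rows_nodup : rowsL.Nodup
  rows_mem : ∀ ℓ, ℓ ∈ rowsL
  incL : N.Row → List N.Sec
  inc_nodup : ∀ ℓ, (incL ℓ).Nodup
  inc_mem : ∀ ℓ S, S ∈ incL ℓ ↔ S ∈ N.inc ℓ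
  inc_len : ∀ ℓ, (incL ℓ).length ≤ 3
  cR : N.Row → T
  cR_inj : Function.Injective cR
  cS : N.Sec → T
  cS_inj : Function.Injective cS

namespace NetPres

variable {p b : ℕ} {N : Net p b} (P : NetPres N)

/-- The entry of a row. -/
def entry (ℓ : N.Row) : RowE :=
  (P.cR ℓ, (P.incL ℓ).map (fun S => (P.cS S, (List.finRange p).map fun j => labD (N.dl ℓ S j))),
    (match N.rd ℓ with
      | none => []
      | some x => [(x.1.val, labD x.2)]),
    decide (N.tw ℓ = 1))

/-- The table of a presentation. -/
def tab : List RowE := P.rowsL.map P.entry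

lemma entry_inj : Function.Injective P.entry := by
  intro ℓ ℓ' h
  exact P.cR_inj (congrArg Prod.fst h)

lemma tab_nodup : P.tab.Nodup := P.rows_nodup.map P.entry_inj

/-- The code of a block. -/
def toD (e : N.Bk) : BkD := (P.entry e.row, e.col.val, labD e.st, labD e.lab)

lemma toD_inj : Function.Injective P.toD := by
  intro e e' h
  simp only [toD, Prod.mk.injEq] at h
  obtain ⟨h1, h2, h3, h4⟩ := h
  exact Net.Bk.ext (P.entry_inj h1) (Fin.ext h2) (labD_inj h3) (labD_inj h4)

/-- The code of a variable. -/
def toV : N.Var → VarD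
  | Sum.inl x => Sum.inl (P.cS x.1, x.2.1.val, labD x.2.2)
  | Sum.inr x => Sum.inr (P.cR x.1, x.2.1.val, labD x.2.2)

lemma toV_inj : Function.Injective P.toV := by
  rintro (⟨S, j, v⟩ | ⟨ℓ, j, v⟩) (⟨S', j', v'⟩ | ⟨ℓ', j', v'⟩) h
  · simp only [toV, Sum.inl.injEq, Prod.mk.injEq] at h
    obtain ⟨h1, h2, h3⟩ := h
    rw [P.cS_inj h1, Fin.ext h2, labD_inj h3]
  · simp [toV] at h
  · simp [toV] at h
  · simp only [toV, Sum.inr.injEq, Prod.mk.injEq] at h
    obtain ⟨h1, h2, h3⟩ := h
    rw [P.cR_inj h1, Fin.ext h2, labD_inj h3]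

/-- The list of the variables of a block. -/
def varL (e : N.Bk) : List N.Var :=
  ((P.incL e.row).map fun S => Net.wire S e.col (e.lab + N.dl e.row S e.col)) ++
    (if e.col.val + 1 < p then [Net.rail e.row e.col (e.st + e.lab)] else []) ++
      (if h : 0 < e.col.val then
        [Net.rail e.row ⟨e.col.val - 1, by have := e.col.isLt; omega⟩ e.st] else [])

lemma mem_varL (e : N.Bk) (v : N.Var) : v ∈ P.varL e ↔ v ∈ e.vars := by
  unfold varL Net.Bk.vars Net.Bk.wires Net.Bk.outRail Net.Bk.inRail
  simp only [List.mem_append, Finset.mem_union, Finset.mem_image, List.mem_map, P.inc_mem]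
  by_cases h1 : e.col.val + 1 < p <;> by_cases h2 : 0 < e.col.val <;> simp [h1, h2]

lemma varL_nodup (e : N.Bk) : (P.varL e).Nodup := by
  unfold varL
  have hw : ((P.incL e.row).map fun S => Net.wire S e.col (e.lab + N.dl e.row S e.col)).Nodup := by
    apply (P.inc_nodup e.row).map
    intro S S' h
    simp only [Net.wire, Sum.inl.injEq, Prod.mk.injEq] at h
    exact h.1
  rw [List.nodup_append, List.nodup_append]
  refine ⟨⟨hw, ?_, ?_⟩, ?_, ?_⟩
  · split_ifs <;> simp
  · intro a ha x hx
    split_ifs at hx with h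
    · simp only [List.mem_singleton] at hx
      simp only [List.mem_map] at ha
      obtain ⟨S, _, rfl⟩ := ha
      subst hx
      simp [Net.wire, Net.rail]
    · simp at hx
  · split_ifs <;> simp
  · intro a ha x hx
    split_ifs at hx with h
    · simp only [List.mem_singleton] at hx
      subst hx
      simp only [List.mem_append, List.mem_map] at ha
      rcases ha with ⟨S, _, rfl⟩ | ha
      · simp [Net.wire, Net.rail]
      · split_ifs at ha with h'
        · simp only [List.mem_singleton] at ha
          subst ha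
          simp only [Net.rail, ne_eq, Sum.inr.injEq, Prod.mk.injEq, not_and]
          intro _ hc
          exfalso
          have := congrArg Fin.val hc
          simp only at this
          omega
        · simp at ha
    · simp at hx

lemma getD_finRange_map {β : Type*} (f : Fin p → β) (j : Fin p) (d : β) :
    ((List.finRange p).map f).getD j.val d = f j := by
  simp [List.getD_eq_getElem?_getD]

lemma varsD_toD (e : N.Bk) : varsD p (P.toD e) = (P.varL e).map P.toV := by
  unfold varsD varL toD
  simp only [List.map_append, List.map_map]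
  congr 1
  · congr 1
    · unfold entry
      simp only [List.map_map]
      apply List.map_congr_left
      intro S _
      simp only [Function.comp, Net.wire, toV]
      rw [getD_finRange_map, labD_add]
    · split_ifs with h
      · simp only [List.map_cons, List.map_nil, Net.rail, toV]
        rw [labD_add]
        simp [entry]
      · rfl
  · by_cases h : 0 < e.col.val
    · simp only [h, dif_pos, if_true, List.map_cons, List.map_nil, Net.rail, toV]
      simp [entry]
    · simp [h]

lemma varL_length_le (h3 : ∀ ℓ, (P.incL ℓ).length ≤ 3) (e : N.Bk) : (P.varL e).length ≤ 5 := by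
  unfold varL
  simp only [List.length_append, List.length_map]
  have := h3 e.row
  have h1 : (if e.col.val + 1 < p then [Net.rail e.row e.col (e.st + e.lab)] else []).length ≤ 1 := by
    split_ifs <;> simp
  have h2 : (if h : 0 < e.col.val then
        [Net.rail e.row ⟨e.col.val - 1, by have := e.col.isLt; omega⟩ e.st] else []).length ≤ 1 := by
    split_ifs <;> simp
  omega

lemma varL_nonempty (e : N.Bk) : (e.vars).Nonempty := by
  obtain ⟨S, hS⟩ := N.inc_ne e.row
  refine ⟨Net.wire S e.col (e.lab + N.dl e.row S e.col), ?_⟩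
  unfold Net.Bk.vars Net.Bk.wires
  simp only [Finset.mem_union, Finset.mem_image]
  exact Or.inl (Or.inl ⟨S, hS, rfl⟩)

lemma zeroOf_allVec (b : ℕ) : zeroOf (allVec b) = labD (0 : Sg b) := by
  have h0 : allVec b ≠ [] := by
    intro h
    have := allVec_length b
    rw [h] at this
    simp at this
    have : 0 < 2 ^ b := by positivity
    omega
  obtain ⟨x, t, ht⟩ := List.exists_cons_of_ne_nil h0
  have hx : x.length = b := mem_allVec.1 (by rw [ht]; exact List.mem_cons_self)
  unfold zeroOf
  rw [ht]
  simp only [List.getD_cons_zero]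
  apply List.ext_getElem
  · simp [labD_length, hx]
  · intro i h1 h2
    simp [labD]

/-- The blocks are exactly the codes of blocks of the net. -/
lemma mem_blocksD (x : BkD) :
    x ∈ blocksD p (allVec b) P.tab ↔ ∃ e : N.Bk, P.toD e = x := by
  obtain ⟨re, j, st, lab⟩ := x
  unfold blocksD tab
  simp only [List.mem_flatMap, List.mem_map, List.mem_range, List.mem_filter, Prod.mk.injEq,
    mem_allVec]
  constructor
  · rintro ⟨_, ⟨ℓ, _, rfl⟩, j', hj, st', hst, lab', ⟨hlab, hok⟩, rfl, rfl, rfl, rfl⟩
    have hst0 : (labD (ofBits st' : Sg b)) = st' := labD_ofBits hst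
    have hlab0 : (labD (ofBits lab' : Sg b)) = lab' := labD_ofBits hlab
    simp only [okB, Bool.and_eq_true] at hok
    obtain ⟨⟨h1, h2⟩, h3⟩ := hok
    refine ⟨⟨ℓ, ⟨j', hj⟩, ofBits st', ofBits lab', ?_, ?_, ?_⟩, ?_⟩
    · intro i σ hrd hi
      have hi' : i.val = j' := by rw [hi]
      have h1' := List.all_eq_true.1 h1 (i.val, labD σ) (by simp [entry, hrd])
      simp only [Bool.or_eq_true, Bool.not_eq_true', beq_eq_false_iff_ne, ne_eq, beq_iff_eq] at h1'
      rcases h1' with h1' | h1'
      · exact absurd hi' h1'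
      · apply labD_inj
        rw [hlab0]
        exact h1'
    · intro h0
      simp only at h0
      simp only [Bool.or_eq_true, Bool.not_eq_true', beq_eq_false_iff_ne, ne_eq, beq_iff_eq] at h2
      rcases h2 with h2 | h2
      · exact absurd h0 h2
      · apply labD_inj
        rw [hst0, h2, zeroOf_allVec]
    · intro h0
      simp only at h0
      simp only [Bool.or_eq_true, Bool.not_eq_true', beq_eq_false_iff_ne, ne_eq, beq_iff_eq] at h3
      rcases h3 with h3 | h3
      · exact absurd h0 h3
      · apply labD_inj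
        rw [labD_add, hst0, hlab0, h3, zeroOf_allVec]
    · simp only [toD, hst0, hlab0]
  · rintro ⟨e, he⟩
    simp only [toD, Prod.mk.injEq] at he
    obtain ⟨rfl, rfl, rfl, rfl⟩ := he
    refine ⟨_, ⟨e.row, P.rows_mem _, rfl⟩, e.col.val, e.col.isLt, labD e.st, labD_length _,
      labD e.lab, ⟨labD_length _, ?_⟩, rfl, rfl, rfl, rfl⟩
    simp only [okB, Bool.and_eq_true]
    refine ⟨⟨?_, ?_⟩, ?_⟩
    · apply List.all_eq_true.2
      intro r hr
      simp only [entry] at hr
      simp only [Bool.or_eq_true, Bool.not_eq_true', beq_eq_false_iff_ne, ne_eq, beq_iff_eq]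
      by_cases hj : r.1 = e.col.val
      · right
        cases hrd : N.rd e.row with
        | none => simp [hrd] at hr
        | some y =>
          simp only [hrd, List.mem_singleton] at hr
          subst hr
          simp only at hj
          have := e.allowed y.1 y.2 hrd (Fin.ext hj)
          rw [this]
      · left
        exact hj
    · simp only [Bool.or_eq_true, Bool.not_eq_true', beq_eq_false_iff_ne, ne_eq, beq_iff_eq]
      by_cases hj : e.col.val = 0
      · right
        rw [e.first hj, zeroOf_allVec]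
      · left
        exact hj
    · simp only [Bool.or_eq_true, Bool.not_eq_true', beq_eq_false_iff_ne, ne_eq, beq_iff_eq]
      by_cases hj : e.col.val + 1 = p
      · right
        rw [← labD_add, e.last hj, zeroOf_allVec]
      · left
        exact hj

lemma allVec_filter_nodup (b : ℕ) (q : List Bool → Bool) : ((allVec b).filter q).Nodup :=
  (allVec_nodup b).filter _

lemma blocksD_nodup : (blocksD p (allVec b) P.tab).Nodup := by
  unfold blocksD
  refine nodup_flatMap_key (fun x => x.1) P.tab_nodup ?_ ?_
  · intro re _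
    refine nodup_flatMap_key (fun x => x.2.1) List.nodup_range ?_ ?_
    · intro j _
      refine nodup_flatMap_key (fun x => x.2.2.1) (allVec_nodup b) ?_ ?_
      · intro st _
        apply (allVec_filter_nodup b _).map
        intro a a' h
        simp only [Prod.mk.injEq] at h
        exact h.2.2.2
      · intro st _ x hx
        simp only [List.mem_map] at hx
        obtain ⟨_, _, rfl⟩ := hx
        rfl
    · intro j _ x hx
      simp only [List.mem_flatMap, List.mem_map] at hx
      obtain ⟨_, _, _, _, rfl⟩ := hx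
      rfl
  · intro re _ x hx
    simp only [List.mem_flatMap, List.mem_map] at hx
    obtain ⟨_, _, _, _, _, _, rfl⟩ := hx
    rfl

/-- The length of the list of blocks. -/
lemma blocksD_length : (blocksD p (allVec b) P.tab).length = Fintype.card N.Bk := by
  have h : (blocksD p (allVec b) P.tab).toFinset = Finset.univ.image P.toD := by
    ext x
    simp [P.mem_blocksD]
  rw [← List.toFinset_card_of_nodup P.blocksD_nodup, h,
    Finset.card_image_of_injective _ P.toD_inj]
  rfl

/-- The numbering of the blocks by their position. -/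
lemma exists_num : ∃ ν : N.Num, ∀ e, (ν e).val = (blocksD p (allVec b) P.tab).idxOf (P.toD e) := by
  have hlt : ∀ e : N.Bk, (blocksD p (allVec b) P.tab).idxOf (P.toD e) < Fintype.card N.Bk := by
    intro e
    rw [← P.blocksD_length]
    exact List.idxOf_lt_length_iff.2 ((P.mem_blocksD _).2 ⟨e, rfl⟩)
  let f : N.Bk → Fin (Fintype.card N.Bk) := fun e => ⟨_, hlt e⟩
  have hf : Function.Injective f := by
    intro e e' h
    have h1 : (blocksD p (allVec b) P.tab).idxOf (P.toD e) =
        (blocksD p (allVec b) P.tab).idxOf (P.toD e') := congrArg Fin.val h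
    exact P.toD_inj ((List.idxOf_inj ((P.mem_blocksD _).2 ⟨e, rfl⟩)).1 h1)
  have hb : Function.Bijective f :=
    (Fintype.bijective_iff_injective_and_card f).2 ⟨hf, by simp⟩
  exact ⟨Equiv.ofBijective f hb, fun e => rfl⟩

variable (ν : N.Num)

/-- The code of a base vertex. -/
def toVD {c : ZMod 2} (u : (N.sys ν).Vx c) : VD :=
  (P.toD u.e, (P.varL u.e).map fun v => (P.toV v, decide (u.a v = 1)))

lemma toVD_inj {c : ZMod 2} : Function.Injective (P.toVD ν (c := c)) := by
  intro u u' h
  simp only [toVD, Prod.mk.injEq] at h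
  obtain ⟨h1, h2⟩ := h
  have he : u.e = u'.e := P.toD_inj h1
  obtain ⟨e, a, s, pr⟩ := u
  obtain ⟨e', a', s', pr'⟩ := u'
  simp only at he h2
  subst he
  apply XorSys.Vx.ext
  · rfl
  · funext v
    by_cases hv : v ∈ e.vars
    · have hv' : v ∈ P.varL e := (P.mem_varL e v).2 hv
      have := List.map_inj_left.1 h2 v hv'
      simp only [Prod.mk.injEq, true_and] at this
      exact zmod2_eq_of_decide.1 this
    · exact (s v hv).trans (s' v hv).symm

/-- The parity condition in the list form. -/
lemma par_iff (c : ZMod 2) (e : N.Bk) (a : N.Var → ZMod 2) :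
    (∑ v ∈ e.vars, a v = c * e.rhs) ↔
      parD ((P.varL e).map fun v => decide (a v = 1)) = (decide (c = 1) && rhsD (P.toD e)) := by
  have hs : ∑ v ∈ e.vars, a v = ((P.varL e).map a).sum := by
    have : e.vars = (P.varL e).toFinset := by
      ext v
      simp [P.mem_varL]
    rw [this, List.sum_toFinset _ (P.varL_nodup e)]
  rw [hs, parD_map]
  have hr : rhsD (P.toD e) = decide (e.rhs = 1) := by
    unfold rhsD toD Net.Bk.rhs entry
    by_cases h : e.col.val = 0
    · simp [h]
    · simp [h]
  rw [hr]
  generalize ((P.varL e).map a).sum = s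
  generalize e.rhs = r
  revert s r c
  decide

lemma bkvars_sys (e : N.Bk) : (N.sys ν).vars e = e.vars := rfl

lemma rhs_sys (e : N.Bk) : (N.sys ν).rhs e = e.rhs := rfl

lemma zip_map_self {α β γ : Type*} (l : List α) (f : α → β) (g : α → γ) :
    (l.map f).zip (l.map g) = l.map (fun v => (f v, g v)) := by
  induction l with
  | nil => rfl
  | cons x t ih => simp [ih]

/-- A vertex code in plain data belongs to the list. -/
lemma base_mem_aux (h3 : ∀ ℓ, (P.incL ℓ).length ≤ 3) (c : ZMod 2) (e : N.Bk) (a : N.Var → ZMod 2)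
    (hpar : ∑ v ∈ e.vars, a v = c * e.rhs) :
    (P.toD e, (P.varL e).map fun v => (P.toV v, decide (a v = 1))) ∈
      baseD p (blocksD p (allVec b) P.tab) (decide (c = 1)) := by
  unfold baseD
  simp only [List.mem_flatMap, List.mem_map, List.mem_filter, mem_cube5, Bool.and_eq_true,
    beq_iff_eq]
  refine ⟨P.toD e, (P.mem_blocksD _).2 ⟨e, rfl⟩, (P.varL e).map fun v => decide (a v = 1),
    ⟨?_, ?_, ?_⟩, ?_⟩
  · rw [List.length_map]
    exact P.varL_length_le h3 e
  · rw [P.varsD_toD]
    simp
  · exact (P.par_iff c e a).1 hpar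
  · rw [P.varsD_toD, zip_map_self]

/-- The base vertices in the list are exactly the codes of vertices. -/
lemma mem_baseD (h3 : ∀ ℓ, (P.incL ℓ).length ≤ 3) (c : ZMod 2) (x : VD) :
    x ∈ baseD p (blocksD p (allVec b) P.tab) (decide (c = 1)) ↔
      ∃ u : (N.sys ν).Vx c, P.toVD ν u = x := by
  constructor
  · intro hx
    unfold baseD at hx
    simp only [List.mem_flatMap, List.mem_map, List.mem_filter, P.mem_blocksD, mem_cube5,
      Bool.and_eq_true, beq_iff_eq] at hx
    obtain ⟨_, ⟨e, rfl⟩, bs, ⟨_, ⟨hlen, hpar⟩⟩, rfl⟩ := hx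
    rw [P.varsD_toD, List.length_map] at hlen
    rw [P.varsD_toD]
    obtain ⟨a, ha0, ha1⟩ := exists_assignment (P.varL_nodup e) hlen
    subst ha1
    refine ⟨⟨e, a, ?_, ?_⟩, ?_⟩
    · intro v hv
      exact ha0 v (fun h => hv ((P.mem_varL e v).1 h))
    · exact (P.par_iff c e a).2 hpar
    · simp only [toVD]
      rw [zip_map_self]
  · rintro ⟨u, rfl⟩
    exact P.base_mem_aux h3 c u.e u.a u.par

lemma baseD_nodup (c : Bool) : (baseD p (blocksD p (allVec b) P.tab) c).Nodup := by
  unfold baseD
  refine nodup_flatMap_key (fun x => x.1) P.blocksD_nodup ?_ ?_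
  · intro e _
    apply List.Nodup.map_on _ (cube5_nodup.filter _)
    intro bs hbs bs' hbs' h
    simp only [List.mem_filter, Bool.and_eq_true, beq_iff_eq] at hbs hbs'
    simp only [Prod.mk.injEq, true_and] at h
    have h1 := congrArg (List.map Prod.snd) h
    rw [List.map_snd_zip (by omega), List.map_snd_zip (by omega)] at h1
    exact h1
  · intro e _ x hx
    simp only [List.mem_map] at hx
    obtain ⟨_, _, rfl⟩ := hx
    rfl

lemma baseD_length (h3 : ∀ ℓ, (P.incL ℓ).length ≤ 3) (c : ZMod 2) :
    (baseD p (blocksD p (allVec b) P.tab) (decide (c = 1))).length =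
      Fintype.card ((N.sys ν).Vx c) := by
  have h : (baseD p (blocksD p (allVec b) P.tab) (decide (c = 1))).toFinset =
      Finset.univ.image (P.toVD ν (c := c)) := by
    ext x
    simp [P.mem_baseD ν h3]
  rw [← List.toFinset_card_of_nodup (P.baseD_nodup _), h,
    Finset.card_image_of_injective _ (P.toVD_inj ν)]
  rfl

/-- The code of a vertex. -/
def toVert {c : ZMod 2} : (N.sys ν).Vtx c → VertD
  | Sum.inl u => Sum.inl (P.toVD ν u)
  | Sum.inr l => Sum.inr (P.toVD ν l.1, l.2.val)

lemma toVert_inj {c : ZMod 2} : Function.Injective (P.toVert ν (c := c)) := by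
  rintro (u | ⟨u, i⟩) (u' | ⟨u', i'⟩) h
  · simp only [toVert, Sum.inl.injEq] at h
    rw [P.toVD_inj ν h]
  · simp [toVert] at h
  · simp [toVert] at h
  · simp only [toVert, Sum.inr.injEq, Prod.mk.injEq] at h
    obtain ⟨h1, h2⟩ := h
    have := P.toVD_inj ν h1
    subst this
    have : i = i' := Fin.ext h2
    rw [this]

/-- The multiplicities agree. -/
lemma multD_eq (hν : ∀ e, (ν e).val = (blocksD p (allVec b) P.tab).idxOf (P.toD e))
    (h3 : ∀ ℓ, (P.incL ℓ).length ≤ 3) (e : N.Bk) :
    multD (blocksD p (allVec b) P.tab) (baseD p (blocksD p (allVec b) P.tab) false).length (P.toD e)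
      = (N.sys ν).mult e := by
  have h0 := P.baseD_length ν h3 0
  have hd : decide ((0 : ZMod 2) = 1) = false := by decide
  rw [hd] at h0
  unfold multD XorSys.mult
  rw [h0, ← hν]
  rfl

lemma mem_vertsD (hν : ∀ e, (ν e).val = (blocksD p (allVec b) P.tab).idxOf (P.toD e))
    (h3 : ∀ ℓ, (P.incL ℓ).length ≤ 3) (c : ZMod 2) (x : VertD) :
    x ∈ vertsD p (blocksD p (allVec b) P.tab) (decide (c = 1)) ↔
      ∃ y : (N.sys ν).Vtx c, P.toVert ν y = x := by
  unfold vertsD
  simp only [List.mem_append, List.mem_map, List.mem_flatMap, List.mem_range, P.mem_baseD ν h3]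
  constructor
  · rintro (⟨_, ⟨u, rfl⟩, rfl⟩ | ⟨_, ⟨u, rfl⟩, i, hi, rfl⟩)
    · exact ⟨Sum.inl u, rfl⟩
    · have hm := P.multD_eq ν hν h3 u.e
      have : i < (N.sys ν).mult u.e := lt_of_lt_of_eq hi hm
      exact ⟨Sum.inr ⟨u, ⟨i, this⟩⟩, rfl⟩
  · rintro ⟨(u | ⟨u, i⟩), rfl⟩
    · exact Or.inl ⟨_, ⟨u, rfl⟩, rfl⟩
    · have hm := P.multD_eq ν hν h3 u.e
      exact Or.inr ⟨_, ⟨u, rfl⟩, i.val, lt_of_lt_of_eq i.isLt hm.symm, rfl⟩

lemma vertsD_nodup (c : Bool) : (vertsD p (blocksD p (allVec b) P.tab) c).Nodup := by
  unfold vertsD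
  rw [List.nodup_append]
  refine ⟨(P.baseD_nodup c).map Sum.inl_injective, ?_, ?_⟩
  · refine nodup_flatMap_key (fun x => Sum.elim id Prod.fst x) (P.baseD_nodup c) ?_ ?_
    · intro u _
      apply List.nodup_range.map
      intro i i' h
      simp only [Sum.inr.injEq, Prod.mk.injEq, true_and] at h
      exact h
    · intro u _ x hx
      simp only [List.mem_map] at hx
      obtain ⟨_, _, rfl⟩ := hx
      rfl
  · intro a ha x hx
    simp only [List.mem_map] at ha
    simp only [List.mem_flatMap, List.mem_map] at hx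
    obtain ⟨_, _, rfl⟩ := ha
    obtain ⟨_, _, _, _, rfl⟩ := hx
    simp

/-- Adjacency of codes of base vertices. -/
lemma baseAdjD_toVD {c : ZMod 2} (u u' : (N.sys ν).Vx c) :
    baseAdjD (P.toVD ν u) (P.toVD ν u') = true ↔ (N.sys ν).baseAdj u u' := by
  unfold baseAdjD toVD XorSys.baseAdj
  simp only [Bool.and_eq_true, Bool.not_eq_true', beq_eq_false_iff_ne, ne_eq, List.all_eq_true,
    List.mem_map, forall_exists_index, and_imp, forall_apply_eq_imp_iff₂, Bool.or_eq_true,
    beq_iff_eq]
  constructor
  · rintro ⟨h1, h2⟩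
    refine ⟨fun h => h1 (by rw [h]), ?_⟩
    intro v hv hv'
    have := h2 v ((P.mem_varL _ _).2 hv) v ((P.mem_varL _ _).2 hv')
    rcases this with h | h
    · exact absurd rfl h
    · exact zmod2_eq_of_decide.1 h
  · rintro ⟨h1, h2⟩
    refine ⟨fun h => h1 (P.toD_inj h), ?_⟩
    intro v hv v' hv'
    by_cases hvv : v = v'
    · subst hvv
      right
      rw [h2 v ((P.mem_varL _ _).1 hv) ((P.mem_varL _ _).1 hv')]
    · left
      exact fun h => hvv (P.toV_inj h)

/-- Adjacency of codes of vertices. -/
lemma adjD_toVert {c : ZMod 2} (x y : (N.sys ν).Vtx c) :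
    adjD (P.toVert ν x) (P.toVert ν y) = true ↔ ((N.sys ν).Gr c).Adj x y := by
  rcases x with u | ⟨u, i⟩ <;> rcases y with u' | ⟨u', i'⟩
  · simpa [adjD, toVert, XorSys.Gr] using P.baseAdjD_toVD ν u u'
  · simp only [adjD, toVert, Sum.elim_inl, Sum.elim_inr, beq_iff_eq, XorSys.Gr]
    exact ⟨fun h => (P.toVD_inj ν h).symm, fun h => by rw [h]⟩
  · simp only [adjD, toVert, Sum.elim_inl, Sum.elim_inr, beq_iff_eq, XorSys.Gr]
    exact ⟨fun h => (P.toVD_inj ν h).symm, fun h => by rw [h]⟩
  · simp [adjD, toVert, XorSys.Gr]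

/-- (module M-G1) The word computed from the table encodes the pair of graphs of the net, for a
suitable numbering of the blocks (the position in the list of blocks). -/
theorem iso (_hp : 2 ≤ p) [Nonempty N.Bk] :
    ∃ (ν : N.Num) (n : ℕ) (G0 G1 : SimpleGraph (Fin n)), 1 ≤ n ∧
      graphBits p (allVec b) P.tab = encPair G0 G1 ∧
      Nonempty (G0 ≃g (N.sys ν).Gr 0) ∧ Nonempty (G1 ≃g (N.sys ν).Gr 1) := by
  have h3 := P.inc_len
  obtain ⟨ν, hν⟩ := P.exists_num
  have hl : ∀ c : ZMod 2, (vertsD p (blocksD p (allVec b) P.tab) (decide (c = 1))).length =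
      Fintype.card ((N.sys ν).Vtx c) := by
    intro c
    have h : (vertsD p (blocksD p (allVec b) P.tab) (decide (c = 1))).toFinset =
        Finset.univ.image (P.toVert ν (c := c)) := by
      ext x
      simp [P.mem_vertsD ν hν h3]
    rw [← List.toFinset_card_of_nodup (P.vertsD_nodup _), h,
      Finset.card_image_of_injective _ (P.toVert_inj ν)]
    rfl
  have hcard := (N.sys ν).card_vtx_eq (fun e => varL_nonempty e)
  have hd0 : decide ((0 : ZMod 2) = 1) = false := by decide
  have hd1 : decide ((1 : ZMod 2) = 1) = true := by decide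
  have hl0 := hl 0
  have hl1 := hl 1
  rw [hd0] at hl0
  rw [hd1] at hl1
  obtain ⟨G0, hG0, hi0⟩ := exists_graph (vertsD p (blocksD p (allVec b) P.tab) false)
    (P.toVert ν (c := 0)) ((N.sys ν).Gr 0) (P.toVert_inj ν)
    (fun x => by simpa [hd0] using P.mem_vertsD ν hν h3 0 x) (P.vertsD_nodup _)
    (P.adjD_toVert ν) (Fintype.card ((N.sys ν).Vtx 0)) hl0
  obtain ⟨G1, hG1, hi1⟩ := exists_graph (vertsD p (blocksD p (allVec b) P.tab) true)
    (P.toVert ν (c := 1)) ((N.sys ν).Gr 1) (P.toVert_inj ν)
    (fun x => by simpa [hd1] using P.mem_vertsD ν hν h3 1 x) (P.vertsD_nodup _)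
    (P.adjD_toVert ν) (Fintype.card ((N.sys ν).Vtx 0)) (by rw [hl1, hcard])
  refine ⟨ν, _, G0, G1, ?_, ?_, hi0, hi1⟩
  · obtain ⟨e⟩ := ‹Nonempty N.Bk›
    have : 0 < Fintype.card ((N.sys ν).Vtx 0) :=
      Fintype.card_pos_iff.2 ⟨Sum.inl ⟨e, fun _ => 0, fun _ _ => rfl, by simp⟩⟩
    exact this
  · unfold graphBits encPair
    rw [hG0, hG1]

end NetPres

end

end Vale.Agent.Lib.P310.M
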