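import Vale.Agent.Lib.P310.M.PT

/-!
(module T4) Arithmetic and Boolean connectives, derived from the closure properties of `PT`.
-/

namespace Vale.Agent.Lib.P310.M

variable {α β γ δ : Type} [Enc α] [Enc β] [Enc γ] [Enc δ]

namespace PT

/-- A polynomial time function has polynomially bounded output. -/
theorem size_bound {f : α → β} (h : PT f) :
    ∃ c d, ∀ a, sz (enc (f a)) ≤ c * (sz (enc a) + 1) ^ d := by
  obtain ⟨g, ⟨d, d', code, c, c', hs, _⟩, hg⟩ := h
  exact ⟨c', d', fun a => by rw [← hg a]; exact hs _⟩

lemma sz_enc_nat (n : ℕ) : sz (enc n) = 2 * n + 1 := by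
  induction n with
  | zero => rfl
  | succ n ih =>
    have h : (enc (n + 1) : T) = T.node T.leaf (enc n) := rfl
    rw [h, sz_node, sz_leaf, ih]
    ring

lemma enc_replicate_unit (n : ℕ) : (enc (List.replicate n ()) : T) = enc n := by
  induction n with
  | zero => rfl
  | succ n ih =>
    have h1 : (enc (List.replicate (n + 1) ()) : T) = T.node T.leaf (enc (List.replicate n ())) := rfl
    have h2 : (enc (n + 1) : T) = T.node T.leaf (enc n) := rfl
    rw [h1, h2, ih]

lemma enc_unit_list (l : List Unit) : (enc l : T) = enc l.length := by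
  have h : l = List.replicate l.length () := by
    apply List.eq_replicate_iff.mpr
    exact ⟨rfl, fun b _ => rfl⟩
  conv_lhs => rw [h]
  exact enc_replicate_unit _

lemma sz_enc_unit_list (l : List Unit) : sz (enc l) = 2 * l.length + 1 := by
  rw [enc_unit_list, sz_enc_nat]

/-- Unary numbers are lists of units. -/
theorem replicate_unit : PT (fun n : ℕ => List.replicate n ()) :=
  ⟨fun x => x, PTraw.id, fun a => (enc_replicate_unit a).symm⟩

lemma pow_aux (A L d : ℕ) : (A + 1) ^ d ≤ (A + L + 1) ^ (d + 1) := by
  have h1 : (A + 1) ^ d ≤ (A + L + 1) ^ d := Nat.pow_le_pow_left (by omega) d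
  have h2 : (A + L + 1) ^ d ≤ (A + L + 1) ^ (d + 1) :=
    Nat.pow_le_pow_right (by omega) (by omega)
  exact h1.trans h2

lemma pow_aux' (A L d : ℕ) : L ≤ (A + L + 1) ^ (d + 1) := by
  have h1 : (A + L + 1) ^ 1 ≤ (A + L + 1) ^ (d + 1) :=
    Nat.pow_le_pow_right (by omega) (by omega)
  rw [pow_one] at h1
  omega

lemma mul_pow_aux (A L d : ℕ) : L * (A + 1) ^ d ≤ (A + L + 1) ^ (d + 1) := by
  have h1 : (A + 1) ^ d ≤ (A + L + 1) ^ d := Nat.pow_le_pow_left (by omega) d
  calc L * (A + 1) ^ d ≤ (A + L + 1) * (A + L + 1) ^ d :=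
        Nat.mul_le_mul (by omega) h1
    _ = (A + L + 1) ^ (d + 1) := by ring

lemma foldr_add_one (l : List Unit) (n : ℕ) :
    l.foldr (fun _ acc => acc + 1) n = n + l.length := by
  induction l with
  | nil => rfl
  | cons x l ih =>
    simp only [List.foldr_cons, List.length_cons, ih]
    ring

theorem add {f g : α → ℕ} (hf : PT f) (hg : PT g) : PT (fun a => f a + g a) := by
  obtain ⟨c, d, hc⟩ := size_bound hg
  have H := list_foldr (f := fun a => List.replicate (f a) ()) (b := g)
    (s := fun x : α × Unit × ℕ => x.2.2 + 1) (replicate_unit.comp hf) hg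
    (succ.comp (snd.comp snd))
    ⟨c + 1, d + 1, by
      intro a l
      have h0 : l.foldr (fun y acc => (fun x : α × Unit × ℕ => x.2.2 + 1) (a, y, acc)) (g a)
          = g a + l.length := foldr_add_one l (g a)
      rw [h0, sz_enc_nat]
      have h1 := hc a
      rw [sz_enc_nat] at h1
      rw [sz_enc_unit_list]
      have h2 := pow_aux (sz (enc a)) (2 * l.length + 1) d
      have h3 := pow_aux' (sz (enc a)) (2 * l.length + 1) d
      have h4 : c * (sz (enc a) + 1) ^ d
          ≤ c * (sz (enc a) + (2 * l.length + 1) + 1) ^ (d + 1) := Nat.mul_le_mul_left c h2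
      have h5 : (c + 1) * (sz (enc a) + (2 * l.length + 1) + 1) ^ (d + 1)
          = c * (sz (enc a) + (2 * l.length + 1) + 1) ^ (d + 1)
            + (sz (enc a) + (2 * l.length + 1) + 1) ^ (d + 1) := by ring
      rw [h5]
      omega⟩
  refine (funext fun a => ?_ : (fun a => f a + g a) = _) ▸ H
  have h0 := foldr_add_one (List.replicate (f a) ()) (g a)
  simp only [List.length_replicate] at h0
  rw [h0]
  ring

lemma foldr_add_const (l : List Unit) (G : ℕ) :
    l.foldr (fun _ acc => acc + G) 0 = l.length * G := by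
  induction l with
  | nil => simp
  | cons x l ih =>
    simp only [List.foldr_cons, List.length_cons, ih]
    ring

theorem mul {f g : α → ℕ} (hf : PT f) (hg : PT g) : PT (fun a => f a * g a) := by
  obtain ⟨c, d, hc⟩ := size_bound hg
  have Hs : PT (fun x : α × Unit × ℕ => x.2.2 + g x.1) :=
    add (snd.comp snd) (hg.comp fst)
  have H := list_foldr (f := fun a => List.replicate (f a) ()) (b := fun _ : α => (0 : ℕ))
    (s := fun x : α × Unit × ℕ => x.2.2 + g x.1) (replicate_unit.comp hf) (const 0) Hs
    ⟨c + 1, d + 1, by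
      intro a l
      have h0 : l.foldr (fun y acc => (fun x : α × Unit × ℕ => x.2.2 + g x.1) (a, y, acc)) 0
          = l.length * g a := foldr_add_const l (g a)
      rw [h0, sz_enc_nat]
      have h1 := hc a
      rw [sz_enc_nat] at h1
      rw [sz_enc_unit_list]
      have h2 := mul_pow_aux (sz (enc a)) (2 * l.length + 1) d
      have h3 : (2 * l.length + 1) * (2 * g a + 1)
          ≤ (2 * l.length + 1) * (c * (sz (enc a) + 1) ^ d) := Nat.mul_le_mul_left _ h1
      have h4 : (2 * l.length + 1) * (c * (sz (enc a) + 1) ^ d)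
          = c * ((2 * l.length + 1) * (sz (enc a) + 1) ^ d) := by ring
      have h5 : c * ((2 * l.length + 1) * (sz (enc a) + 1) ^ d)
          ≤ c * (sz (enc a) + (2 * l.length + 1) + 1) ^ (d + 1) := Nat.mul_le_mul_left c h2
      have h6 : (c + 1) * (sz (enc a) + (2 * l.length + 1) + 1) ^ (d + 1)
          = c * (sz (enc a) + (2 * l.length + 1) + 1) ^ (d + 1)
            + (sz (enc a) + (2 * l.length + 1) + 1) ^ (d + 1) := by ring
      have h7 : 2 * (l.length * g a) + 1 ≤ (2 * l.length + 1) * (2 * g a + 1) := by nlinarith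
      rw [h6]
      omega⟩
  refine (funext fun a => ?_ : (fun a => f a * g a) = _) ▸ H
  have h0 := foldr_add_const (List.replicate (f a) ()) (g a)
  simp only [List.length_replicate] at h0
  rw [h0]

/-- The predecessor. -/
theorem pred : PT (fun n : ℕ => n - 1) := by
  have H := nat_case (α := ℕ) (f := fun n => n) (g := fun _ => (0 : ℕ)) (h := fun x => x.2)
    PT.id (const 0) snd
  refine (funext fun a => ?_ : (fun n : ℕ => n - 1) = _) ▸ H
  cases a <;> rfl

lemma foldr_pred (l : List Unit) (n : ℕ) :
    l.foldr (fun _ acc => acc - 1) n = n - l.length := by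
  induction l with
  | nil => rfl
  | cons x l ih =>
    simp only [List.foldr_cons, List.length_cons, ih]
    omega

theorem sub {f g : α → ℕ} (hf : PT f) (hg : PT g) : PT (fun a => f a - g a) := by
  obtain ⟨c, d, hc⟩ := size_bound hf
  have H := list_foldr (f := fun a => List.replicate (g a) ()) (b := f)
    (s := fun x : α × Unit × ℕ => x.2.2 - 1) (replicate_unit.comp hg) hf
    (pred.comp (snd.comp snd))
    ⟨c, d + 1, by
      intro a l
      have h0 : l.foldr (fun y acc => (fun x : α × Unit × ℕ => x.2.2 - 1) (a, y, acc)) (f a)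
          = f a - l.length := foldr_pred l (f a)
      rw [h0, sz_enc_nat]
      have h1 := hc a
      rw [sz_enc_nat] at h1
      have h2 := pow_aux (sz (enc a)) (sz (enc l)) d
      have h4 : c * (sz (enc a) + 1) ^ d
          ≤ c * (sz (enc a) + sz (enc l) + 1) ^ (d + 1) := Nat.mul_le_mul_left c h2
      omega⟩
  refine (funext fun a => ?_ : (fun a => f a - g a) = _) ▸ H
  have h0 := foldr_pred (List.replicate (g a) ()) (f a)
  simp only [List.length_replicate] at h0
  rw [h0]

theorem ble {f g : α → ℕ} (hf : PT f) (hg : PT g) : PT (fun a => decide (f a ≤ g a)) := by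
  have H := PT.eq (sub hf hg) (const (α := α) (0 : ℕ))
  refine (funext fun a => ?_ : (fun a => decide (f a ≤ g a)) = _) ▸ H
  simp [Nat.sub_eq_zero_iff_le]

theorem band {f g : α → Bool} (hf : PT f) (hg : PT g) : PT (fun a => f a && g a) := by
  have H := PT.ite hf hg (const (α := α) false)
  refine (funext fun a => ?_ : (fun a => f a && g a) = _) ▸ H
  cases f a <;> simp

theorem bor {f g : α → Bool} (hf : PT f) (hg : PT g) : PT (fun a => f a || g a) := by
  have H := PT.ite hf (const (α := α) true) hg
  refine (funext fun a => ?_ : (fun a => f a || g a) = _) ▸ H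
  cases f a <;> simp

theorem bnot {f : α → Bool} (hf : PT f) : PT (fun a => !(f a)) := by
  have H := PT.ite hf (const (α := α) false) (const (α := α) true)
  refine (funext fun a => ?_ : (fun a => !(f a)) = _) ▸ H
  cases f a <;> simp

theorem bxor {f g : α → Bool} (hf : PT f) (hg : PT g) : PT (fun a => xor (f a) (g a)) := by
  have H := PT.ite hf (bnot hg) hg
  refine (funext fun a => ?_ : (fun a => xor (f a) (g a)) = _) ▸ H
  cases f a <;> cases g a <;> simp

theorem blt {f g : α → ℕ} (hf : PT f) (hg : PT g) : PT (fun a => decide (f a < g a)) := by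
  have H := bnot (ble hg hf)
  refine (funext fun a => ?_ : (fun a => decide (f a < g a)) = _) ▸ H
  show decide (f a < g a) = !decide (g a ≤ f a)
  by_cases h : g a ≤ f a
  · have h' : ¬ f a < g a := by omega
    simp [h, h']
  · have h' : f a < g a := by omega
    simp [h, h']

end PT

end Vale.Agent.Lib.P310.M
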