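import Vale.Agent.Lib.P310.M.Models
import Vale.Agent.Lib.P310.M.Sim
import Vale.Agent.Lib.P310.M.PTFun

/-!
(module X-RAM) Random access machines are simulated by one-tape machines with polynomial overhead,
with an absolute exponent: a universal interpreter with numbers in binary and the registers as an
association list. See notes/P310_machine.md.
-/

namespace Vale.Agent.Lib.P310.M

namespace RamU

variable {α : Type} [Enc α]

/-- The value of a list of bits, most significant bit first. -/
def valB : List Bool → ℕ
  | [] => 0
  | x :: l => (if x then 2 ^ l.length else 0) + valB l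

lemma valB_nil : valB [] = 0 := rfl

lemma valB_cons (x : Bool) (l : List Bool) :
    valB (x :: l) = (if x then 2 ^ l.length else 0) + valB l := rfl

lemma valB_lt (l : List Bool) : valB l < 2 ^ l.length := by
  induction l with
  | nil => simp [valB]
  | cons x l ih =>
    rw [valB_cons, List.length_cons, pow_succ]
    split_ifs <;> omega

lemma valB_pad (n : ℕ) (l : List Bool) : valB (List.replicate n false ++ l) = valB l := by
  induction n with
  | zero => simp
  | succ n ih =>
    rw [List.replicate_succ, List.cons_append, valB_cons]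
    simp [ih]

def maj3 (x y c : Bool) : Bool := (x && y) || (x && c) || (y && c)
def xor3 (x y c : Bool) : Bool := xor x (xor y c)
def bor3 (x y c : Bool) : Bool := (!x && y) || (!x && c) || (y && c)

/-- One step of the addition. -/
def addS (p : Bool × Bool) (st : Bool × List Bool) : Bool × List Bool :=
  (maj3 p.1 p.2 st.1, xor3 p.1 p.2 st.1 :: st.2)

/-- One step of the subtraction. -/
def subS (p : Bool × Bool) (st : Bool × List Bool) : Bool × List Bool :=
  (bor3 p.1 p.2 st.1, xor3 p.1 p.2 st.1 :: st.2)

def addAux (z : List (Bool × Bool)) : Bool × List Bool := z.foldr addS (false, [])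

def subAux (z : List (Bool × Bool)) : Bool × List Bool := z.foldr subS (false, [])

lemma addAux_len (z : List (Bool × Bool)) : (addAux z).2.length = z.length := by
  induction z with
  | nil => rfl
  | cons p z ih =>
    have : addAux (p :: z) = addS p (addAux z) := rfl
    rw [this]
    simp [addS, ih]

lemma subAux_len (z : List (Bool × Bool)) : (subAux z).2.length = z.length := by
  induction z with
  | nil => rfl
  | cons p z ih =>
    have : subAux (p :: z) = subS p (subAux z) := rfl
    rw [this]
    simp [subS, ih]

lemma addAux_val (z : List (Bool × Bool)) :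
    valB (addAux z).2 + (if (addAux z).1 then 2 ^ z.length else 0) =
      valB (z.map Prod.fst) + valB (z.map Prod.snd) := by
  induction z with
  | nil => rfl
  | cons p z ih =>
    obtain ⟨x, y⟩ := p
    have h0 : addAux ((x, y) :: z) = addS (x, y) (addAux z) := rfl
    rw [h0]
    generalize hr : addAux z = r at ih ⊢
    obtain ⟨c, out⟩ := r
    have hlen : out.length = z.length := by
      have := addAux_len z
      rw [hr] at this
      exact this
    simp only [addS, List.map_cons, valB_cons, List.length_cons, List.length_map, hlen] at ih ⊢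
    rw [pow_succ]
    generalize 2 ^ z.length = N at ih ⊢
    cases x <;> cases y <;> cases c <;> simp [maj3, xor3] at ih ⊢ <;> omega

lemma subAux_val (z : List (Bool × Bool)) :
    valB (subAux z).2 + valB (z.map Prod.snd) =
      valB (z.map Prod.fst) + (if (subAux z).1 then 2 ^ z.length else 0) := by
  induction z with
  | nil => rfl
  | cons p z ih =>
    obtain ⟨x, y⟩ := p
    have h0 : subAux ((x, y) :: z) = subS (x, y) (subAux z) := rfl
    rw [h0]
    generalize hr : subAux z = r at ih ⊢
    obtain ⟨c, out⟩ := r
    have hlen : out.length = z.length := by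
      have := subAux_len z
      rw [hr] at this
      exact this
    simp only [subS, List.map_cons, valB_cons, List.length_cons, List.length_map, hlen] at ih ⊢
    rw [pow_succ]
    generalize 2 ^ z.length = N at ih ⊢
    cases x <;> cases y <;> cases c <;> simp [bor3, xor3] at ih ⊢ <;> omega

/-- The two numbers padded to equal length, as a list of pairs of digits. -/
def zipPad (a b : List Bool) : List (Bool × Bool) :=
  List.zip (List.replicate (b.length - a.length) false ++ a)
    (List.replicate (a.length - b.length) false ++ b)

lemma zipPad_len (a b : List Bool) : (zipPad a b).length = max a.length b.length := by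
  simp only [zipPad, List.length_zip, List.length_append, List.length_replicate]
  omega

lemma zipPad_fst (a b : List Bool) : valB ((zipPad a b).map Prod.fst) = valB a := by
  unfold zipPad
  rw [List.map_fst_zip (by simp only [List.length_append, List.length_replicate]; omega), valB_pad]

lemma zipPad_snd (a b : List Bool) : valB ((zipPad a b).map Prod.snd) = valB b := by
  unfold zipPad
  rw [List.map_snd_zip (by simp only [List.length_append, List.length_replicate]; omega), valB_pad]

/-- Addition. -/
def addB (a b : List Bool) : List Bool := (addAux (zipPad a b)).1 :: (addAux (zipPad a b)).2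

/-- Truncated subtraction. -/
def subB (a b : List Bool) : List Bool :=
  if (subAux (zipPad a b)).1 then [] else (subAux (zipPad a b)).2

lemma val_addB (a b : List Bool) : valB (addB a b) = valB a + valB b := by
  have h := addAux_val (zipPad a b)
  rw [zipPad_fst, zipPad_snd] at h
  unfold addB
  rw [valB_cons, addAux_len]
  omega

lemma addB_len (a b : List Bool) : (addB a b).length = max a.length b.length + 1 := by
  unfold addB
  rw [List.length_cons, addAux_len, zipPad_len]

lemma val_subB (a b : List Bool) : valB (subB a b) = valB a - valB b := by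
  have h := subAux_val (zipPad a b)
  rw [zipPad_fst, zipPad_snd] at h
  unfold subB
  split_ifs with hc
  · have h1 := valB_lt (subAux (zipPad a b)).2
    rw [subAux_len] at h1
    rw [if_pos hc] at h
    simp only [valB_nil]
    omega
  · rw [if_neg hc] at h
    omega

lemma subB_len (a b : List Bool) : (subB a b).length ≤ max a.length b.length := by
  unfold subB
  split_ifs
  · simp
  · rw [subAux_len, zipPad_len]

/-- The test for the value zero. -/
def isZ (l : List Bool) : Bool := l.all (fun x => !x)

lemma isZ_iff (l : List Bool) : isZ l = true ↔ valB l = 0 := by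
  induction l with
  | nil => simp [isZ, valB]
  | cons x l ih =>
    have e : isZ (x :: l) = (!x && isZ l) := by simp [isZ]
    rw [e, valB_cons]
    have hp : 0 < 2 ^ l.length := by positivity
    cases x
    · simpa using ih
    · simp only [Bool.not_true, Bool.false_and, Bool.false_eq_true, if_true, false_iff]
      omega

/-- Equality of values. -/
def eqB (a b : List Bool) : Bool := isZ (subB a b) && isZ (subB b a)

lemma eqB_iff (a b : List Bool) : eqB a b = true ↔ valB a = valB b := by
  unfold eqB
  rw [Bool.and_eq_true, isZ_iff, isZ_iff, val_subB, val_subB]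
  omega

/-- The registers: an association list, the first entry counts. -/
abbrev Regs := List (List Bool × List Bool)

/-- Looking up a register. -/
def look (k : List Bool) (L : Regs) : List Bool :=
  ((L.filter (fun e => eqB k e.1)).map Prod.snd).getD 0 []

lemma look_nil (k : List Bool) : look k [] = [] := rfl

lemma look_cons (k : List Bool) (e : List Bool × List Bool) (L : Regs) :
    look k (e :: L) = if eqB k e.1 = true then e.2 else look k L := by
  unfold look
  by_cases h : eqB k e.1 = true
  · simp [h]
  · simp [h]

/-- The registers of the list represent the memory. -/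
def Models (L : Regs) (m : ℕ → ℕ) : Prop := ∀ k, valB (look k L) = m (valB k)

lemma models_nil : Models [] (fun _ => 0) := fun _ => rfl

lemma models_cons {L : Regs} {m : ℕ → ℕ} (h : Models L m) (k v : List Bool) :
    Models ((k, v) :: L) (Function.update m (valB k) (valB v)) := by
  intro k'
  rw [look_cons]
  by_cases hk : eqB k' k = true
  · rw [if_pos hk]
    have := (eqB_iff _ _).1 hk
    simp only [this, Function.update_self]
  · rw [if_neg hk]
    have hne : valB k' ≠ valB k := fun e => hk ((eqB_iff _ _).2 e)
    rw [Function.update_of_ne hne]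
    exact h k'

lemma look_len {L : Regs} {n : ℕ} (h : ∀ e ∈ L, e.2.length ≤ n) (k : List Bool) :
    (look k L).length ≤ n := by
  induction L with
  | nil => simp [look_nil]
  | cons e L ih =>
    rw [look_cons]
    split_ifs
    · exact h e (by simp)
    · exact ih (fun e' he' => h e' (by simp [he']))

/-- A number in binary. -/
def natB (n : ℕ) : List Bool := (List.replicate n ()).foldr (fun _ acc => addB [true] acc) []

lemma natB_zero : natB 0 = [] := rfl

lemma natB_succ (n : ℕ) : natB (n + 1) = addB [true] (natB n) := by
  simp only [natB, List.replicate_succ, List.foldr_cons]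

lemma val_natB (n : ℕ) : valB (natB n) = n := by
  induction n with
  | zero => rfl
  | succ n ih =>
    rw [natB_succ, val_addB, ih]
    simp [valB]
    omega

lemma natB_len (n : ℕ) : (natB n).length ≤ n + 1 := by
  induction n with
  | zero => simp [natB_zero]
  | succ n ih =>
    rw [natB_succ, addB_len]
    simp only [List.length_cons, List.length_nil]
    omega

/-! The functions are computed in polynomial time. -/

lemma sz_enc_bits (l : List Bool) : sz (enc l) ≤ 4 * l.length + 1 := by
  induction l with
  | nil => simp [PT.sz_enc_nil]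
  | cons y l ih =>
    rw [PT.sz_enc_cons, List.length_cons]
    have := PT.sz_enc_bool y
    omega

lemma foldr_bound (l : List (Bool × Bool)) (r : Bool × List Bool) (hr : r.2.length = l.length) (a : α) :
    sz (enc r) ≤ 6 * (sz (enc a) + sz (enc l) + 1) ^ 1 := by
  rw [PT.sz_enc_pair, pow_one]
  have h1 := PT.sz_enc_bool r.1
  have h2 := sz_enc_bits r.2
  have h3 := PT.length_le_sz l
  omega

theorem addAux_pt : PT addAux := by
  have hs : PT (fun x : List (Bool × Bool) × (Bool × Bool) × (Bool × List Bool) =>
      addS x.2.1 x.2.2) := by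
    unfold addS maj3 xor3
    fun_prop
  refine PT.list_foldr (f := fun z : List (Bool × Bool) => z)
    (b := fun _ => ((false, []) : Bool × List Bool)) PT.id (PT.const _) hs ⟨6, 1, ?_⟩
  intro a l
  exact foldr_bound l _ (addAux_len l) a

theorem subAux_pt : PT subAux := by
  have hs : PT (fun x : List (Bool × Bool) × (Bool × Bool) × (Bool × List Bool) =>
      subS x.2.1 x.2.2) := by
    unfold subS bor3 xor3
    fun_prop
  refine PT.list_foldr (f := fun z : List (Bool × Bool) => z)
    (b := fun _ => ((false, []) : Bool × List Bool)) PT.id (PT.const _) hs ⟨6, 1, ?_⟩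
  intro a l
  exact foldr_bound l _ (subAux_len l) a

@[fun_prop] theorem addAux_pt' {f : α → List (Bool × Bool)} (hf : PT f) : PT (fun a => addAux (f a)) :=
  addAux_pt.comp hf

@[fun_prop] theorem subAux_pt' {f : α → List (Bool × Bool)} (hf : PT f) : PT (fun a => subAux (f a)) :=
  subAux_pt.comp hf

@[fun_prop] theorem zipPad_pt {f g : α → List Bool} (hf : PT f) (hg : PT g) :
    PT (fun a => zipPad (f a) (g a)) := by
  unfold zipPad
  fun_prop

@[fun_prop] theorem addB_pt {f g : α → List Bool} (hf : PT f) (hg : PT g) :
    PT (fun a => addB (f a) (g a)) := by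
  unfold addB
  fun_prop

@[fun_prop] theorem subB_pt {f g : α → List Bool} (hf : PT f) (hg : PT g) :
    PT (fun a => subB (f a) (g a)) := by
  unfold subB
  fun_prop

@[fun_prop] theorem isZ_pt {f : α → List Bool} (hf : PT f) : PT (fun a => isZ (f a)) := by
  unfold isZ
  fun_prop

@[fun_prop] theorem eqB_pt {f g : α → List Bool} (hf : PT f) (hg : PT g) :
    PT (fun a => eqB (f a) (g a)) := by
  unfold eqB
  fun_prop

@[fun_prop] theorem look_pt {f : α → List Bool} {g : α → Regs} (hf : PT f) (hg : PT g) :
    PT (fun a => look (f a) (g a)) := by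
  unfold look
  fun_prop

theorem natB_pt0 : PT natB := by
  have hs : PT (fun x : ℕ × Unit × List Bool => addB [true] x.2.2) := by fun_prop
  refine PT.list_foldr (f := fun n : ℕ => List.replicate n ())
    (b := fun _ => ([] : List Bool)) (by fun_prop) (PT.const _) hs ⟨6, 1, ?_⟩
  intro a l
  have key : ∀ l : List Unit, (l.foldr (fun _ acc => addB [true] acc) []).length ≤ l.length + 1 := by
    intro l
    induction l with
    | nil => simp
    | cons y l ih =>
      rw [List.foldr_cons, addB_len]
      simp only [List.length_cons, List.length_nil]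
      omega
  have h1 := sz_enc_bits (l.foldr (fun _ acc => addB [true] acc) [])
  have h2 := key l
  have h3 := PT.length_le_sz l
  rw [pow_one]
  show sz (enc (List.foldr (fun _ acc => addB [true] acc) [] l)) ≤ _
  omega

@[fun_prop] theorem natB_pt {f : α → ℕ} (hf : PT f) : PT (fun a => natB (f a)) := natB_pt0.comp hf


/-! The interpreter. -/

/-- An instruction: opcode, three numbers, jump target. -/
abbrev Ins := ℕ × List Bool × List Bool × List Bool × ℕ

/-- The code of an instruction. -/
def encIns : RIns → Ins
  | RIns.const r v => (0, natB r, natB v, [], 0)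
  | RIns.add r a b => (1, natB r, natB a, natB b, 0)
  | RIns.sub r a b => (2, natB r, natB a, natB b, 0)
  | RIns.load r a => (3, natB r, natB a, [], 0)
  | RIns.store a b => (4, [], natB a, natB b, 0)
  | RIns.jz r l => (5, natB r, [], [], l)
  | RIns.accept => (6, [], [], [], 0)
  | RIns.reject => (7, [], [], [], 0)

/-- The default instruction. -/
def dflt : Ins := (7, [], [], [], 0)

/-- The configurations of the interpreter. -/
abbrev ICf := ℕ × Regs

/-- The current instruction. -/
def curI (x : List Ins × ICf) : Ins := x.1.getD x.2.1 dflt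

@[fun_prop] theorem curI_pt {f : α → List Ins × ICf} (hf : PT f) : PT (fun a => curI (f a)) := by
  unfold curI
  fun_prop

/-- One step of the interpreter. -/
def stp (x : List Ins × ICf) : ICf :=
  if (curI x).1 = 0 then (x.2.1 + 1, ((curI x).2.1, (curI x).2.2.1) :: x.2.2)
  else if (curI x).1 = 1 then
    (x.2.1 + 1, ((curI x).2.1,
      addB (look (curI x).2.2.1 x.2.2) (look (curI x).2.2.2.1 x.2.2)) :: x.2.2)
  else if (curI x).1 = 2 then
    (x.2.1 + 1, ((curI x).2.1,
      subB (look (curI x).2.2.1 x.2.2) (look (curI x).2.2.2.1 x.2.2)) :: x.2.2)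
  else if (curI x).1 = 3 then
    (x.2.1 + 1, ((curI x).2.1, look (look (curI x).2.2.1 x.2.2) x.2.2) :: x.2.2)
  else if (curI x).1 = 4 then
    (x.2.1 + 1, (look (curI x).2.2.1 x.2.2, look (curI x).2.2.2.1 x.2.2) :: x.2.2)
  else if (curI x).1 = 5 then
    (if isZ (look (curI x).2.1 x.2.2) = true then (curI x).2.2.2.2 else x.2.1 + 1, x.2.2)
  else x.2

/-- The input entries, from the highest register down. -/
def inpE (w : List Bool) (n : ℕ) : Regs :=
  (List.range n).map (fun i => (natB (n - 1 - i + 1), [w.getD (n - 1 - i) false]))

/-- The start of the interpreter. -/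
def ini (x : List Ins × List Bool) : ICf :=
  (0, ([], natB x.2.length) :: inpE x.2 x.2.length)

/-- Halting test. -/
def hlt (x : List Ins × ICf) : Bool := decide (6 ≤ (curI x).1)

/-- The answer. -/
def ans (x : List Ins × ICf) : Bool := decide ((curI x).1 = 6)

theorem stp_pt : PT stp := by
  unfold stp
  fun_prop

theorem ini_pt : PT ini := by
  unfold ini inpE
  fun_prop

theorem hlt_pt : PT hlt := by
  unfold hlt
  fun_prop

theorem ans_pt : PT ans := by
  unfold ans
  fun_prop

/-! Correctness. -/

lemma inpE_succ (w : List Bool) (n : ℕ) :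
    inpE w (n + 1) = (natB (n + 1), [w.getD n false]) :: inpE w n := by
  unfold inpE
  rw [List.range_succ_eq_map, List.map_cons, List.map_map]
  refine congrArg₂ List.cons (by simp) ?_
  apply List.map_congr_left
  intro i _
  simp only [Function.comp]
  have e : n + 1 - 1 - (i + 1) = n - 1 - i := by omega
  simp only [e]

/-- The memory given by the input entries. -/
def inpM (w : List Bool) (n : ℕ) (k : ℕ) : ℕ :=
  if k = 0 ∨ n < k then 0 else if w.getD (k - 1) false = true then 1 else 0

lemma models_inpE (w : List Bool) (n : ℕ) : Models (inpE w n) (inpM w n) := by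
  induction n with
  | zero =>
    have e : inpE w 0 = [] := rfl
    rw [e]
    have : inpM w 0 = fun _ => 0 := by
      funext k
      unfold inpM
      by_cases h : k = 0
      · simp [h]
      · rw [if_pos (Or.inr (by omega))]
    rw [this]
    exact models_nil
  | succ n ih =>
    rw [inpE_succ]
    have h := models_cons ih (natB (n + 1)) [w.getD n false]
    have e : Function.update (inpM w n) (valB (natB (n + 1))) (valB [w.getD n false]) =
        inpM w (n + 1) := by
      rw [val_natB]
      funext k
      by_cases hk : k = n + 1
      · subst hk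
        rw [Function.update_self]
        unfold inpM
        simp only [Nat.add_sub_cancel, lt_self_iff_false, or_false]
        rw [if_neg (by omega)]
        cases w.getD n false <;> simp [valB]
      · rw [Function.update_of_ne hk]
        unfold inpM
        by_cases h0 : k = 0
        · simp [h0]
        · by_cases h1 : n < k
          · rw [if_pos (Or.inr h1), if_pos (Or.inr (by omega))]
          · have a1 : ¬ (k = 0 ∨ n < k) := by omega
            have a2 : ¬ (k = 0 ∨ n + 1 < k) := by omega
            rw [if_neg a1, if_neg a2]
    rw [e] at h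
    exact h

lemma models_ini (w : List Bool) : Models (([], natB w.length) :: inpE w w.length) (RAM.init w).mem := by
  have h := models_cons (models_inpE w w.length) [] (natB w.length)
  have e : Function.update (inpM w w.length) (valB []) (valB (natB w.length)) = (RAM.init w).mem := by
    rw [val_natB]
    funext k
    cases k with
    | zero => simp [valB, RAM.init]
    | succ i =>
      rw [valB_nil, Function.update_of_ne (by omega)]
      unfold inpM
      simp only [RAM.init, Nat.add_sub_cancel]
      by_cases hi : i < w.length
      · rw [if_neg (by omega)]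
        rw [List.getD_eq_getElem _ _ hi, List.getElem?_eq_getElem hi]
        cases w[i] <;> rfl
      · rw [if_pos (Or.inr (by omega)), List.getElem?_eq_none (by omega)]
  rw [e] at h
  exact h

/-- The relation between the machine and the interpreter. -/
def Rel (c : RAM.Cfg) (x : ICf) : Prop := x.1 = c.pc ∧ Models x.2 c.mem

lemma curI_eq (P : RAM) {c : RAM.Cfg} {x : ICf} (h : Rel c x) :
    curI (P.map encIns, x) = encIns (P.cur c) := by
  unfold curI RAM.cur
  simp only
  rw [h.1]
  exact List.getD_map P RIns.reject encIns

lemma rel_step (P : RAM) {c : RAM.Cfg} {x : ICf} (h : Rel c x) :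
    Rel (P.step c) (stp (P.map encIns, x)) := by
  have hc := curI_eq P h
  obtain ⟨x1, L⟩ := x
  obtain ⟨h1, hL⟩ := h
  simp only at h1 hL
  unfold stp RAM.step
  rw [hc]
  simp only
  cases P.cur c with
  | const r v =>
    simp only [encIns]
    refine ⟨by simp [h1], ?_⟩
    have := models_cons hL (natB r) (natB v)
    simpa [val_natB] using this
  | add r a b =>
    simp only [encIns]
    refine ⟨by simp [h1], ?_⟩
    have := models_cons hL (natB r) (addB (look (natB a) L) (look (natB b) L))
    simpa [val_natB, val_addB, hL _] using this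
  | sub r a b =>
    simp only [encIns]
    refine ⟨by simp [h1], ?_⟩
    have := models_cons hL (natB r) (subB (look (natB a) L) (look (natB b) L))
    simpa [val_natB, val_subB, hL _] using this
  | load r a =>
    simp only [encIns]
    refine ⟨by simp [h1], ?_⟩
    have := models_cons hL (natB r) (look (look (natB a) L) L)
    simpa [val_natB, hL _] using this
  | store a b =>
    simp only [encIns]
    refine ⟨by simp [h1], ?_⟩
    have := models_cons hL (look (natB a) L) (look (natB b) L)
    simpa [val_natB, hL _] using this
  | jz r l =>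
    simp only [encIns]
    refine ⟨?_, hL⟩
    have e : isZ (look (natB r) L) = true ↔ c.mem r = 0 := by
      rw [isZ_iff, hL, val_natB]
    by_cases h0 : c.mem r = 0
    · simp [h0, e]
    · simp [h0, e, h1]
  | accept =>
    simp only [encIns]
    exact ⟨by simpa using h1, hL⟩
  | reject =>
    simp only [encIns]
    exact ⟨by simpa using h1, hL⟩

/-- The run of the interpreter follows the run of the machine. -/
lemma rel_run (P : RAM) (w : List Bool) (i : ℕ) :
    Rel (P.run w i) (iter ini stp (P.map encIns) w i) := by
  induction i with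
  | zero => exact ⟨rfl, models_ini w⟩
  | succ i ih => exact rel_step P ih

/-- Halted configurations stay. -/
lemma step_halted (P : RAM) {c : RAM.Cfg} (h : P.cur c = RIns.accept ∨ P.cur c = RIns.reject) :
    P.step c = c := by
  unfold RAM.step
  rcases h with h | h <;> rw [h]

lemma run_halted (P : RAM) (w : List Bool) {t0 : ℕ}
    (h : P.cur (P.run w t0) = RIns.accept ∨ P.cur (P.run w t0) = RIns.reject) (i : ℕ) :
    P.run w (t0 + i) = P.run w t0 := by
  induction i with
  | zero => rfl
  | succ i ih =>
    have e : P.run w (t0 + (i + 1)) = P.step (P.run w (t0 + i)) := rfl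
    rw [e, ih, step_halted P h]

/-! Sizes. -/

/-- The bound on the lengths in an instruction. -/
def insB (I : Ins) : ℕ := I.2.1.length + I.2.2.1.length + I.2.2.2.1.length

/-- The bound on the pieces of the configurations. -/
structure Bd (J N l0 i : ℕ) (x : ICf) : Prop where
  pc : x.1 ≤ J + i
  len : x.2.length ≤ l0 + i
  ent : ∀ e ∈ x.2, e.1.length ≤ N + i ∧ e.2.length ≤ N + i

lemma ins_bound (code : List Ins) (pc : ℕ) :
    insB (code.getD pc dflt) ≤ (code.map insB).sum ∧
      (code.getD pc dflt).2.2.2.2 ≤ (code.map (fun I => I.2.2.2.2)).sum := by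
  by_cases h : pc < code.length
  · rw [List.getD_eq_getElem _ _ h]
    have hm := List.getElem_mem h
    exact ⟨List.single_le_sum (by simp) _ (List.mem_map.2 ⟨_, hm, rfl⟩),
      List.single_le_sum (by simp) _ (List.mem_map.2 ⟨_, hm, rfl⟩)⟩
  · rw [List.getD_eq_default _ _ (by omega)]
    simp [dflt, insB]

lemma bd_step (code : List Ins) {J N l0 i : ℕ} {x : ICf} (hJ : (code.map (fun I => I.2.2.2.2)).sum ≤ J)
    (hN : (code.map insB).sum ≤ N) (h : Bd J N l0 i x) :
    Bd J N l0 (i + 1) (stp (code, x)) := by
  obtain ⟨x1, L⟩ := x
  obtain ⟨h1, h2, h3⟩ := h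
  simp only at h1 h2 h3
  have hI := ins_bound code x1
  have hv : ∀ k, (look k L).length ≤ N + i := fun k => look_len (fun e he => (h3 e he).2) k
  have hI' : curI (code, (x1, L)) = code.getD x1 dflt := rfl
  have mk : ∀ (pc' : ℕ) (e : List Bool × List Bool), pc' ≤ J + (i + 1) → e.1.length ≤ N + (i + 1) →
      e.2.length ≤ N + (i + 1) → Bd J N l0 (i + 1) (pc', e :: L) := by
    intro pc' e a1 a2 a3
    refine ⟨a1, ?_, ?_⟩
    · simp only [List.length_cons]
      omega
    · intro e' he'
      rcases List.mem_cons.1 he' with rfl | he'
      · exact ⟨a2, a3⟩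
      · have := h3 e' he'
        omega
  have keep : ∀ pc' : ℕ, pc' ≤ J + (i + 1) → Bd J N l0 (i + 1) (pc', L) := by
    intro pc' a1
    refine ⟨a1, by simp only; omega, ?_⟩
    intro e' he'
    have := h3 e' he'
    omega
  unfold stp
  simp only
  rw [hI']
  generalize code.getD x1 dflt = I at hI
  obtain ⟨hb, hj⟩ := hI
  have hb' : I.2.1.length + I.2.2.1.length + I.2.2.2.1.length ≤ (code.map insB).sum := hb
  split_ifs with c0 c1 c2 c3 c4 c5
  · exact mk _ _ (by omega) (by simp only; omega) (by simp only; omega)
  · refine mk _ _ (by omega) (by simp only; omega) ?_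
    simp only
    rw [addB_len]
    have a1 := hv I.2.2.1
    have a2 := hv I.2.2.2.1
    omega
  · refine mk _ _ (by omega) (by simp only; omega) ?_
    simp only
    have a0 := subB_len (look I.2.2.1 L) (look I.2.2.2.1 L)
    have a1 := hv I.2.2.1
    have a2 := hv I.2.2.2.1
    omega
  · refine mk _ _ (by omega) (by simp only; omega) ?_
    simp only
    have a1 := hv (look I.2.2.1 L)
    omega
  · refine mk _ _ (by omega) ?_ ?_
    · simp only
      have a1 := hv I.2.2.1
      omega
    · simp only
      have a1 := hv I.2.2.2.1
      omega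
  · exact keep _ (by omega)
  · exact keep _ (by omega)
  · exact keep _ (by omega)

lemma bd_ini (code : List Ins) (w : List Bool) {J N : ℕ} (hN : w.length + 3 ≤ N) :
    Bd J N (w.length + 1) 0 (ini (code, w)) := by
  refine ⟨by simp [ini], ?_, ?_⟩
  · simp [ini, inpE]
  · intro e he
    simp only [ini, List.mem_cons] at he
    rcases he with rfl | he
    · have := natB_len w.length
      simp only [List.length_nil]
      omega
    · simp only [inpE, List.mem_map, List.mem_range] at he
      obtain ⟨i, hi, rfl⟩ := he
      have := natB_len (w.length - 1 - i + 1)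
      simp only [List.length_cons, List.length_nil]
      omega

lemma bd_iter (code : List Ins) (w : List Bool) (i : ℕ) :
    Bd (code.map (fun I => I.2.2.2.2)).sum ((code.map insB).sum + w.length + 3) (w.length + 1) i
      (iter ini stp code w i) := by
  induction i with
  | zero => exact bd_ini code w (by omega)
  | succ i ih => exact bd_step code le_rfl (by omega) ih

lemma size_of_bd {J N l0 i : ℕ} {x : ICf} (h : Bd J N l0 i x) :
    sz (enc x) ≤ 2 * (J + i) + 4 + (8 * (N + i) + 4) * (l0 + i) := by
  obtain ⟨h1, h2, h3⟩ := h
  have e1 : sz (enc x) = sz (enc x.1) + sz (enc x.2) + 1 := PT.sz_enc_pair x.1 x.2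
  have e2 : sz (enc x.1) = 2 * x.1 + 1 := PT.sz_natEnc x.1
  have e3 : sz (enc x.2) ≤ (8 * (N + i) + 3 + 1) * x.2.length + 1 := by
    apply PT.sz_list_le
    intro y hy
    have a0 := h3 y hy
    have a1 := sz_enc_bits y.1
    have a2 := sz_enc_bits y.2
    have a3 : sz (enc y) = sz (enc y.1) + sz (enc y.2) + 1 := PT.sz_enc_pair y.1 y.2
    omega
  have e4 : (8 * (N + i) + 3 + 1) * x.2.length ≤ (8 * (N + i) + 4) * (l0 + i) :=
    Nat.mul_le_mul_left _ h2
  omega

lemma size_arith (J B t0 i L : ℕ) (hi : i ≤ t0) :
    2 * (J + i) + 4 + (8 * (B + L + 3 + i) + 4) * (L + 1 + i) ≤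
      (2 * J + 8 * B + 42) * (t0 + L + 1) ^ 2 := by
  set X := t0 + L + 1 with hX
  have h1 : 1 ≤ X := by omega
  have h2 : L + 1 + i ≤ X := by omega
  have h3 : B + L + 3 + i ≤ B + 3 + X := by omega
  have h4 : i ≤ X := by omega
  calc 2 * (J + i) + 4 + (8 * (B + L + 3 + i) + 4) * (L + 1 + i)
      ≤ 2 * (J + X) + 4 + (8 * (B + 3 + X) + 4) * X := by
        gcongr
    _ ≤ (2 * J + 8 * B + 42) * X ^ 2 := by
        have h5 : X ≤ X ^ 2 := by nlinarith
        have h6 : 1 ≤ X ^ 2 := by nlinarith
        nlinarith

end RamU

open RamU in
/-- (module X-RAM) -/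
theorem ram_sim : ∃ E : ℕ, ∀ P : RAM, ∃ (M1 : TM) (K : ℕ), ∀ (w : List Bool) (t : ℕ),
    P.HaltsIn w t → ∃ T0 ≤ K * (t + w.length + 1) ^ E, M1.HaltsIn w T0 ∧
      (M1.Accepts w ↔ P.Accepts w) := by
  obtain ⟨E, hE⟩ := sim_machine ini_pt stp_pt hlt_pt ans_pt
  refine ⟨2 * E, fun P => ?_⟩
  obtain ⟨M1, K, hM⟩ := hE (P.map encIns)
  set code := P.map encIns with hcode
  set B := (code.map insB).sum with hB
  set J := (code.map (fun I => I.2.2.2.2)).sum with hJ
  set A := 2 * J + 8 * B + 42 with hA
  refine ⟨M1, K * (A + 1) ^ E, fun w t ht => ?_⟩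
  classical
  have hex : ∃ s, P.HaltsIn w s := ⟨t, ht⟩
  have h0 : P.HaltsIn w (Nat.find hex) := Nat.find_spec hex
  have hle : Nat.find hex ≤ t := Nat.find_min' hex ht
  have hmin : ∀ i < Nat.find hex, ¬ P.HaltsIn w i := fun i hi => Nat.find_min hex hi
  generalize Nat.find hex = t0 at h0 hle hmin
  have hcur : ∀ i, curI (code, iter ini stp code w i) = encIns (P.cur (P.run w i)) := fun i =>
    curI_eq P (rel_run P w i)
  have hlt_iff : ∀ i, hlt (code, iter ini stp code w i) = true ↔ P.HaltsIn w i := by
    intro i
    unfold hlt RAM.HaltsIn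
    rw [hcur i]
    cases P.cur (P.run w i) <;> simp [encIns]
  have ans_iff : ∀ i, ans (code, iter ini stp code w i) = true ↔
      P.cur (P.run w i) = RIns.accept := by
    intro i
    unfold ans
    rw [hcur i]
    cases P.cur (P.run w i) <;> simp [encIns]
  have hS : ∀ i ≤ t0, sz (enc (iter ini stp code w i)) ≤ A * (t0 + w.length + 1) ^ 2 := by
    intro i hi
    exact (size_of_bd (bd_iter code w i)).trans (size_arith J B t0 i w.length hi)
  obtain ⟨T0, hT0, hh, ha⟩ := hM w t0 _ hS
    (fun i hi => by
      have := hmin i hi
      rw [← hlt_iff i] at this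
      simpa using this)
    ((hlt_iff t0).2 h0)
  refine ⟨T0, ?_, hh, ?_⟩
  · refine hT0.trans ?_
    rw [mul_assoc]
    apply Nat.mul_le_mul_left
    set X := t + w.length + 1 with hX
    have h1 : t0 + w.length + 1 ≤ X := by omega
    have h2 : 1 ≤ X := by omega
    have h3 : A * (t0 + w.length + 1) ^ 2 + t0 + w.length + 1 ≤ (A + 1) * X ^ 2 := by
      have h4 : (t0 + w.length + 1) ^ 2 ≤ X ^ 2 := Nat.pow_le_pow_left h1 2
      have h5 : X ≤ X ^ 2 := by nlinarith
      have h6 : A * (t0 + w.length + 1) ^ 2 ≤ A * X ^ 2 := Nat.mul_le_mul_left _ h4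
      nlinarith
    calc (A * (t0 + w.length + 1) ^ 2 + t0 + w.length + 1) ^ E
        ≤ ((A + 1) * X ^ 2) ^ E := Nat.pow_le_pow_left h3 E
      _ = (A + 1) ^ E * X ^ (2 * E) := by
          rw [mul_pow, ← pow_mul]
  · rw [ha, ans_iff]
    constructor
    · intro h
      exact ⟨t0, h⟩
    · rintro ⟨t', ht'⟩
      by_cases hlt' : t' < t0
      · exact absurd (Or.inl ht') (hmin t' hlt')
      · obtain ⟨i, rfl⟩ := Nat.exists_eq_add_of_le (Nat.le_of_not_lt hlt')
        rw [run_halted P w h0 i] at ht'
        exact ht'

end Vale.Agent.Lib.P310.M
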