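import Vale.Agent.Lib.P310.M.RawPrim

/-!
Functions on trees computed by programs in polynomial time: the untyped closure properties.
A program for `f` replaces the top value `x` of stack `sA` by `f x`; the rest of `sA` and the
stacks `sE`, `sF`, `sI`, `sO` stay untouched, the stacks `sW`, `sD` are empty before and after.
-/

namespace Vale.Agent.Lib.P310.M

/-- `code` computes `f` within the time `τ`. -/
def Comp (code : Cmd) (f : T → T) (τ : ℕ → ℕ) : Prop :=
  ∀ (x : T) (σ : St) (l : List Sym), σ sA = word x ++ l → σ sW = [] → σ sD = [] →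
    ∃ t ≤ τ (sz x), Eval code σ (St.set σ sA (word (f x) ++ l)) t

/-- `f` is computed in time `O((n+1)^d)` with output size `O((n+1)^d')`. -/
def PTe (f : T → T) (d d' : ℕ) : Prop :=
  ∃ (code : Cmd) (c c' : ℕ), (∀ x, sz (f x) ≤ c' * (sz x + 1) ^ d') ∧
    Comp code f (fun n => c * (n + 1) ^ d)

/-- `f` is computed in polynomial time. -/
def PTraw (f : T → T) : Prop := ∃ d d', PTe f d d'

/-- The left subtree. -/
def car : T → T
  | T.leaf => T.leaf
  | T.node l _ => l

/-- The right subtree. -/
def cdr : T → T
  | T.leaf => T.leaf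
  | T.node _ r => r

/-- The tree of a truth value. -/
def tBool : Bool → T
  | false => T.leaf
  | true => T.node T.leaf T.leaf

/-- The tree of a list of bits. -/
def bitsT : List Bool → T
  | [] => T.leaf
  | a :: l => T.node (tBool a) (bitsT l)

/-- Fold along the right spine, with a parameter. -/
def foldT (b s : T → T) (a : T) : T → T
  | T.leaf => b a
  | T.node y r => s (T.node a (T.node y (foldT b s a r)))

/-! (module R1) Basic programs. Each closure lemma below is one program. -/

/-- Polynomially bounded functions. -/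
def PolyBd (τ : ℕ → ℕ) : Prop := ∃ c d, ∀ n, τ n ≤ c * (n + 1) ^ d

lemma PolyBd.const (k : ℕ) : PolyBd (fun _ => k) := ⟨k, 0, fun n => by simp⟩

lemma PolyBd.id : PolyBd (fun n => n) := ⟨1, 1, fun n => by simp⟩

lemma PolyBd.mono_pow (c d : ℕ) : PolyBd (fun n => c * (n + 1) ^ d) := ⟨c, d, fun _ => le_rfl⟩

lemma PolyBd.add {τ1 τ2 : ℕ → ℕ} (h1 : PolyBd τ1) (h2 : PolyBd τ2) :
    PolyBd (fun n => τ1 n + τ2 n) := by
  obtain ⟨c1, d1, h1⟩ := h1
  obtain ⟨c2, d2, h2⟩ := h2
  refine ⟨c1 + c2, max d1 d2, fun n => ?_⟩
  have e1 : (n + 1) ^ d1 ≤ (n + 1) ^ (max d1 d2) :=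
    Nat.pow_le_pow_right (by omega) (le_max_left _ _)
  have e2 : (n + 1) ^ d2 ≤ (n + 1) ^ (max d1 d2) :=
    Nat.pow_le_pow_right (by omega) (le_max_right _ _)
  calc τ1 n + τ2 n ≤ c1 * (n + 1) ^ d1 + c2 * (n + 1) ^ d2 := Nat.add_le_add (h1 n) (h2 n)
    _ ≤ c1 * (n + 1) ^ (max d1 d2) + c2 * (n + 1) ^ (max d1 d2) :=
        Nat.add_le_add (Nat.mul_le_mul_left _ e1) (Nat.mul_le_mul_left _ e2)
    _ = (c1 + c2) * (n + 1) ^ (max d1 d2) := by ring

lemma PolyBd.mul_const (k : ℕ) {τ : ℕ → ℕ} (h : PolyBd τ) : PolyBd (fun n => k * τ n) := by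
  obtain ⟨c, d, h⟩ := h
  refine ⟨k * c, d, fun n => ?_⟩
  calc k * τ n ≤ k * (c * (n + 1) ^ d) := Nat.mul_le_mul_left _ (h n)
    _ = k * c * (n + 1) ^ d := by ring

lemma PolyBd.compPow (c d : ℕ) {τ : ℕ → ℕ} (h : PolyBd τ) :
    PolyBd (fun n => c * (τ n + 1) ^ d) := by
  obtain ⟨c1, d1, h1⟩ := h
  refine ⟨c * (c1 + 1) ^ d, d1 * d, fun n => ?_⟩
  have hle : τ n + 1 ≤ (c1 + 1) * (n + 1) ^ d1 := by
    have h2 := h1 n
    have hp : 1 ≤ (n + 1) ^ d1 := Nat.one_le_pow _ _ (by omega)
    nlinarith
  calc c * (τ n + 1) ^ d ≤ c * ((c1 + 1) * (n + 1) ^ d1) ^ d :=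
        Nat.mul_le_mul_left _ (Nat.pow_le_pow_left hle d)
    _ = c * (c1 + 1) ^ d * (n + 1) ^ (d1 * d) := by rw [mul_pow, ← pow_mul]; ring

/-- A program with polynomial time and output size bounds gives `PTraw`. -/
theorem PTraw.mk' {f : T → T} (code : Cmd) (τ s : ℕ → ℕ) (hτ : PolyBd τ) (hs : PolyBd s)
    (h1 : ∀ x, sz (f x) ≤ s (sz x)) (h2 : Comp code f τ) : PTraw f := by
  obtain ⟨c, d, hc⟩ := hτ
  obtain ⟨c', d', hc'⟩ := hs
  refine ⟨d, d', code, c, c', fun x => (h1 x).trans (hc' _), ?_⟩
  intro x σ l hA hW hD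
  obtain ⟨t, ht, h⟩ := h2 x σ l hA hW hD
  exact ⟨t, ht.trans (hc _), h⟩

lemma St.set_set_same (σ : St) (s : Stk) (l l' : List Sym) :
    St.set (St.set σ s l) s l' = St.set σ s l' := by
  simp [St.set]

theorem PTraw.id : PTraw (fun x => x) := by
  refine PTraw.mk' Cmd.skip (fun _ => 0) (fun n => n) (PolyBd.const 0) PolyBd.id
    (fun _ => le_rfl) ?_
  intro x σ l hA _ _
  refine ⟨0, le_rfl, (Eval.skip σ).cast ?_⟩
  rw [← hA, St.set_self]

theorem PTraw.const (a : T) : PTraw (fun _ => a) := by
  refine PTraw.mk' (Cmd.seq (del sA sD) (pushWord sA (word a))) (fun n => 8 * n + 2 + sz a)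
    (fun _ => sz a) ?_ (PolyBd.const _) (fun _ => le_rfl) ?_
  · exact ((PolyBd.id.mul_const 8).add (PolyBd.const 2)).add (PolyBd.const _)
  · intro x σ l hA _ hD
    obtain ⟨t1, ht1, h1⟩ := del_spec (by decide) x σ l hA hD
    refine ⟨t1 + (word a).length, ?_, (Eval.seq h1 (pushWord_spec sA (word a) _)).cast ?_⟩
    · rw [word_length]
      simp only
      omega
    · simp [St.set_set_same]

theorem PTraw.comp {f g : T → T} (hf : PTraw f) (hg : PTraw g) : PTraw (fun x => f (g x)) := by
  obtain ⟨df, df', cf, kf, kf', hsf, hcf⟩ := hf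
  obtain ⟨dg, dg', cg, kg, kg', hsg, hcg⟩ := hg
  refine PTraw.mk' (Cmd.seq cg cf)
    (fun n => kg * (n + 1) ^ dg + kf * (kg' * (n + 1) ^ dg' + 1) ^ df)
    (fun n => kf' * (kg' * (n + 1) ^ dg' + 1) ^ df') ?_ ?_ ?_ ?_
  · exact (PolyBd.mono_pow _ _).add (PolyBd.compPow _ _ (PolyBd.mono_pow _ _))
  · exact PolyBd.compPow _ _ (PolyBd.mono_pow _ _)
  · intro x
    refine (hsf _).trans (Nat.mul_le_mul_left _ (Nat.pow_le_pow_left ?_ _))
    exact Nat.succ_le_succ (hsg x)
  · intro x σ l hA hW hD
    obtain ⟨t1, ht1, h1⟩ := hcg x σ l hA hW hD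
    obtain ⟨t2, ht2, h2⟩ := hcf (g x) (St.set σ sA (word (g x) ++ l)) l (by simp)
      (by rw [St.set_ne _ (by decide)]; exact hW) (by rw [St.set_ne _ (by decide)]; exact hD)
    refine ⟨t1 + t2, ?_, (Eval.seq h1 h2).cast (St.set_set_same _ _ _ _)⟩
    refine Nat.add_le_add ht1 (ht2.trans (Nat.mul_le_mul_left _ (Nat.pow_le_pow_left ?_ _)))
    exact Nat.succ_le_succ (hsg x)

theorem PTraw.pair {f g : T → T} (hf : PTraw f) (hg : PTraw g) :
    PTraw (fun x => T.node (f x) (g x)) := by
  obtain ⟨df, df', cf, kf, kf', hsf, hcf⟩ := hf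
  obtain ⟨dg, dg', cg, kg, kg', hsg, hcg⟩ := hg
  refine PTraw.mk' (Cmd.seq (cpy sA sE sW sD) (Cmd.seq cg (Cmd.seq (mov sE sA sW sD)
      (Cmd.seq cf (Cmd.push sA Sym.b1)))))
    (fun n => ((12 * n + 3) + kg * (n + 1) ^ dg) + (((11 * n + 3) + kf * (n + 1) ^ df) + 1))
    (fun n => kf' * (n + 1) ^ df' + kg' * (n + 1) ^ dg' + 1) ?_ ?_ ?_ ?_
  · exact (((PolyBd.id.mul_const 12).add (PolyBd.const 3)).add (PolyBd.mono_pow _ _)).add
      ((((PolyBd.id.mul_const 11).add (PolyBd.const 3)).add (PolyBd.mono_pow _ _)).add
        (PolyBd.const 1))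
  · exact ((PolyBd.mono_pow _ _).add (PolyBd.mono_pow _ _)).add (PolyBd.const 1)
  · intro x
    rw [sz_node]
    exact Nat.add_le_add_right (Nat.add_le_add (hsf x) (hsg x)) 1
  · intro x σ l hA hW hD
    obtain ⟨t1, ht1, h1⟩ := cpy_spec (X := sA) (Y := sE) (W := sW) (D := sD) (by decide) (by decide)
      (by decide) (by decide) (by decide) x σ l hA hW hD
    set σ1 := St.set σ sE (word x ++ σ sE) with hσ1
    obtain ⟨t2, ht2, h2⟩ := hcg x σ1 l (by rw [hσ1, St.set_ne _ (by decide)]; exact hA)
      (by rw [hσ1, St.set_ne _ (by decide)]; exact hW)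
      (by rw [hσ1, St.set_ne _ (by decide)]; exact hD)
    set σ2 := St.set σ1 sA (word (g x) ++ l) with hσ2
    obtain ⟨t3, ht3, h3⟩ := mov_spec (X := sE) (Y := sA) (W := sW) (D := sD) (by decide) (by decide)
      (by decide) (by decide) (by decide) x σ2 (σ sE)
      (by rw [hσ2, St.set_ne _ (by decide), hσ1, St.set_same])
      (by rw [hσ2, St.set_ne _ (by decide), hσ1, St.set_ne _ (by decide)]; exact hW)
      (by rw [hσ2, St.set_ne _ (by decide), hσ1, St.set_ne _ (by decide)]; exact hD)
    set σ3 := St.set (St.set σ2 sE (σ sE)) sA (word x ++ σ2 sA) with hσ3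
    have hσ2A : σ2 sA = word (g x) ++ l := by rw [hσ2, St.set_same]
    obtain ⟨t4, ht4, h4⟩ := hcf x σ3 (word (g x) ++ l)
      (by rw [hσ3, St.set_same, hσ2A])
      (by rw [hσ3, St.set_ne _ (by decide), St.set_ne _ (by decide), hσ2, St.set_ne _ (by decide),
        hσ1, St.set_ne _ (by decide)]; exact hW)
      (by rw [hσ3, St.set_ne _ (by decide), St.set_ne _ (by decide), hσ2, St.set_ne _ (by decide),
        hσ1, St.set_ne _ (by decide)]; exact hD)
    refine ⟨t1 + (t2 + (t3 + (t4 + 1))), by beta_reduce at ht2 ht4 ⊢; omega,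
      (Eval.seq h1 (Eval.seq h2 (Eval.seq h3 (Eval.seq h4 (Eval.push _ sA Sym.b1))))).cast ?_⟩
    funext s
    simp only [St.set_apply, hσ3, hσ2, hσ1]
    split_ifs <;> simp_all [word_node]

/-- The program for `car`. -/
def carCode : Cmd :=
  Cmd.case sA (Cmd.push sA Sym.b0)
    (Cmd.seq (movR sA sW sD) (Cmd.seq (del sA sD) (dump sW sA))) Cmd.skip Cmd.skip

theorem PTraw.car : PTraw car := by
  refine PTraw.mk' carCode (fun n => 20 * n + 10) (fun n => n) ?_ PolyBd.id ?_ ?_
  · exact (PolyBd.id.mul_const 20).add (PolyBd.const 10)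
  · intro x
    cases x with
    | leaf => simp [M.car]
    | node a b => simp only [M.car, sz_node]; omega
  · intro x σ l hA hW hD
    cases x with
    | leaf =>
      have hA' : σ sA = Sym.b0 :: l := by simpa [word_leaf] using hA
      refine ⟨1 + 2, by simp [sz_leaf], (Eval.case0 hA' (Eval.push _ sA Sym.b0)).cast ?_⟩
      simp [St.set_set_same, M.car, word_leaf]
    | node a b =>
      have hA' : σ sA = Sym.b1 :: (word a ++ (word b ++ l)) := by
        simpa [word_node] using hA
      set σ0 := St.set σ sA (word a ++ (word b ++ l)) with hσ0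
      obtain ⟨t1, ht1, h1⟩ := movR_spec (X := sA) (W := sW) (D := sD) (by decide) (by decide)
        (by decide) a σ0 (word b ++ l) (by rw [hσ0, St.set_same])
        (by rw [hσ0, St.set_ne _ (by decide)]; exact hD)
      set σ1 := St.set (St.set σ0 sA (word b ++ l)) sW ((ser a).reverse.map bitS ++ σ0 sW) with hσ1
      obtain ⟨t2, ht2, h2⟩ := del_spec (X := sA) (D := sD) (by decide) b σ1 l
        (by rw [hσ1, St.set_ne _ (by decide), St.set_same])
        (by rw [hσ1, St.set_ne _ (by decide), St.set_ne _ (by decide), hσ0,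
          St.set_ne _ (by decide)]; exact hD)
      set σ2 := St.set σ1 sA l with hσ2
      obtain ⟨t3, ht3, h3⟩ := dump_spec (W := sW) (Y := sA) (by decide) (ser a).reverse σ2
        (by
          rw [hσ2, St.set_ne _ (by decide), hσ1, St.set_same, hσ0, St.set_ne _ (by decide), hW]
          simp)
      refine ⟨(t1 + (t2 + t3)) + 2, ?_, (Eval.case1 hA' (Eval.seq h1 (Eval.seq h2 h3))).cast ?_⟩
      · have : (ser a).reverse.length = sz a := by simp [sz]
        rw [this] at ht3
        simp only [sz_node]
        omega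
      · funext s
        simp only [St.set_apply, hσ2, hσ1, hσ0]
        split_ifs <;> simp_all [M.car, word]

/-- The program for `cdr`. -/
def cdrCode : Cmd := Cmd.case sA (Cmd.push sA Sym.b0) (del sA sD) Cmd.skip Cmd.skip

theorem PTraw.cdr : PTraw cdr := by
  refine PTraw.mk' cdrCode (fun n => 8 * n + 4) (fun n => n) ?_ PolyBd.id ?_ ?_
  · exact (PolyBd.id.mul_const 8).add (PolyBd.const 4)
  · intro x
    cases x with
    | leaf => simp [M.cdr]
    | node a b => simp only [M.cdr, sz_node]; omega
  · intro x σ l hA hW hD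
    cases x with
    | leaf =>
      have hA' : σ sA = Sym.b0 :: l := by simpa [word_leaf] using hA
      refine ⟨1 + 2, by simp [sz_leaf], (Eval.case0 hA' (Eval.push _ sA Sym.b0)).cast ?_⟩
      simp [St.set_set_same, M.cdr, word_leaf]
    | node a b =>
      have hA' : σ sA = Sym.b1 :: (word a ++ (word b ++ l)) := by
        simpa [word_node] using hA
      obtain ⟨t1, ht1, h1⟩ := del_spec (X := sA) (D := sD) (by decide) a
        (St.set σ sA (word a ++ (word b ++ l))) (word b ++ l) (by simp)
        (by rw [St.set_ne _ (by decide)]; exact hD)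
      refine ⟨t1 + 2, ?_, (Eval.case1 hA' h1).cast ?_⟩
      · simp only [sz_node]
        omega
      · simp [St.set_set_same, M.cdr]

/-- Branch on whether a value is a leaf. -/
theorem PTraw.ifLeaf {c f g : T → T} (hc : PTraw c) (hf : PTraw f) (hg : PTraw g) :
    PTraw (fun x => if c x = T.leaf then f x else g x) := by
  obtain ⟨dc, dc', cc, kc, kc', hsc, hcc⟩ := hc
  obtain ⟨df, df', cf, kf, kf', hsf, hcf⟩ := hf
  obtain ⟨dg, dg', cg, kg, kg', hsg, hcg⟩ := hg
  refine PTraw.mk' (Cmd.seq (cpy sA sE sW sD) (Cmd.seq cc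
      (Cmd.case sA (Cmd.seq (mov sE sA sW sD) cf)
        (Cmd.seq (del sA sD) (Cmd.seq (del sA sD) (Cmd.seq (mov sE sA sW sD) cg)))
        Cmd.skip Cmd.skip)))
    (fun n => (12 * n + 3) + kc * (n + 1) ^ dc + (8 * (kc' * (n + 1) ^ dc') + 4) +
      ((11 * n + 3) + kf * (n + 1) ^ df + kg * (n + 1) ^ dg) + 2)
    (fun n => kf' * (n + 1) ^ df' + kg' * (n + 1) ^ dg') ?_ ?_ ?_ ?_
  · exact ((((PolyBd.id.mul_const 12).add (PolyBd.const 3)).add (PolyBd.mono_pow _ _)).add
      (((PolyBd.mono_pow _ _).mul_const 8).add (PolyBd.const 4))).add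
      ((((PolyBd.id.mul_const 11).add (PolyBd.const 3)).add (PolyBd.mono_pow _ _)).add
        (PolyBd.mono_pow _ _)) |>.add (PolyBd.const 2)
  · exact (PolyBd.mono_pow _ _).add (PolyBd.mono_pow _ _)
  · intro x
    split_ifs
    · exact (hsf x).trans (Nat.le_add_right _ _)
    · exact (hsg x).trans (Nat.le_add_left _ _)
  · intro x σ l hA hW hD
    obtain ⟨t1, ht1, h1⟩ := cpy_spec (X := sA) (Y := sE) (W := sW) (D := sD) (by decide) (by decide)
      (by decide) (by decide) (by decide) x σ l hA hW hD
    set σ1 := St.set σ sE (word x ++ σ sE) with hσ1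
    have hW1 : σ1 sW = [] := by rw [hσ1, St.set_ne _ (by decide)]; exact hW
    have hD1 : σ1 sD = [] := by rw [hσ1, St.set_ne _ (by decide)]; exact hD
    obtain ⟨t2, ht2, h2⟩ := hcc x σ1 l (by rw [hσ1, St.set_ne _ (by decide)]; exact hA) hW1 hD1
    set σ2 := St.set σ1 sA (word (c x) ++ l) with hσ2
    have hW2 : σ2 sW = [] := by rw [hσ2, St.set_ne _ (by decide)]; exact hW1
    have hD2 : σ2 sD = [] := by rw [hσ2, St.set_ne _ (by decide)]; exact hD1
    have hE2 : σ2 sE = word x ++ σ sE := by
      rw [hσ2, St.set_ne _ (by decide), hσ1, St.set_same]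
    have hsc' := hsc x
    cases hcx : c x with
    | leaf =>
      have hA2 : σ2 sA = Sym.b0 :: l := by rw [hσ2, St.set_same, hcx, word_leaf]; rfl
      set σ3 := St.set σ2 sA l with hσ3
      obtain ⟨t3, ht3, h3⟩ := mov_spec (X := sE) (Y := sA) (W := sW) (D := sD) (by decide)
        (by decide) (by decide) (by decide) (by decide) x σ3 (σ sE)
        (by rw [hσ3, St.set_ne _ (by decide)]; exact hE2)
        (by rw [hσ3, St.set_ne _ (by decide)]; exact hW2)
        (by rw [hσ3, St.set_ne _ (by decide)]; exact hD2)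
      set σ4 := St.set (St.set σ3 sE (σ sE)) sA (word x ++ σ3 sA) with hσ4
      obtain ⟨t4, ht4, h4⟩ := hcf x σ4 l
        (by rw [hσ4, St.set_same, hσ3, St.set_same])
        (by rw [hσ4, St.set_ne _ (by decide), St.set_ne _ (by decide), hσ3,
          St.set_ne _ (by decide)]; exact hW2)
        (by rw [hσ4, St.set_ne _ (by decide), St.set_ne _ (by decide), hσ3,
          St.set_ne _ (by decide)]; exact hD2)
      refine ⟨t1 + (t2 + ((t3 + t4) + 2)), ?_,
        (Eval.seq h1 (Eval.seq h2 (Eval.case0 hA2 (Eval.seq h3 h4)))).cast ?_⟩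
      · beta_reduce at ht2 ht4 ⊢
        have : 0 ≤ kc' * (sz x + 1) ^ dc' := Nat.zero_le _
        have : 0 ≤ kg * (sz x + 1) ^ dg := Nat.zero_le _
        omega
      · funext s
        simp only [St.set_apply, hσ4, hσ3, hσ2, hσ1]
        split_ifs <;> simp_all
    | node a b =>
      have hA2 : σ2 sA = Sym.b1 :: (word a ++ (word b ++ l)) := by
        rw [hσ2, St.set_same, hcx, word_node]; simp
      set σ3 := St.set σ2 sA (word a ++ (word b ++ l)) with hσ3
      obtain ⟨t3a, ht3a, h3a⟩ := del_spec (X := sA) (D := sD) (by decide) a σ3 (word b ++ l)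
        (by rw [hσ3, St.set_same]) (by rw [hσ3, St.set_ne _ (by decide)]; exact hD2)
      set σ3a := St.set σ3 sA (word b ++ l) with hσ3a
      obtain ⟨t3b, ht3b, h3b⟩ := del_spec (X := sA) (D := sD) (by decide) b σ3a l
        (by rw [hσ3a, St.set_same])
        (by rw [hσ3a, St.set_ne _ (by decide), hσ3, St.set_ne _ (by decide)]; exact hD2)
      set σ3b := St.set σ3a sA l with hσ3b
      have hW3b : σ3b sW = [] := by
        rw [hσ3b, St.set_ne _ (by decide), hσ3a, St.set_ne _ (by decide), hσ3,
          St.set_ne _ (by decide)]; exact hW2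
      have hD3b : σ3b sD = [] := by
        rw [hσ3b, St.set_ne _ (by decide), hσ3a, St.set_ne _ (by decide), hσ3,
          St.set_ne _ (by decide)]; exact hD2
      obtain ⟨t3, ht3, h3⟩ := mov_spec (X := sE) (Y := sA) (W := sW) (D := sD) (by decide)
        (by decide) (by decide) (by decide) (by decide) x σ3b (σ sE)
        (by rw [hσ3b, St.set_ne _ (by decide), hσ3a, St.set_ne _ (by decide), hσ3,
          St.set_ne _ (by decide)]; exact hE2)
        hW3b hD3b
      set σ4 := St.set (St.set σ3b sE (σ sE)) sA (word x ++ σ3b sA) with hσ4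
      obtain ⟨t4, ht4, h4⟩ := hcg x σ4 l
        (by rw [hσ4, St.set_same, hσ3b, St.set_same])
        (by rw [hσ4, St.set_ne _ (by decide), St.set_ne _ (by decide)]; exact hW3b)
        (by rw [hσ4, St.set_ne _ (by decide), St.set_ne _ (by decide)]; exact hD3b)
      refine ⟨t1 + (t2 + ((t3a + (t3b + (t3 + t4))) + 2)), ?_,
        (Eval.seq h1 (Eval.seq h2 (Eval.case1 hA2
          (Eval.seq h3a (Eval.seq h3b (Eval.seq h3 h4)))))).cast ?_⟩
      · beta_reduce at ht2 ht4 ⊢
        rw [hcx, sz_node] at hsc'
        have : 0 ≤ kf * (sz x + 1) ^ df := Nat.zero_le _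
        omega
      · funext s
        simp only [St.set_apply, hσ4, hσ3b, hσ3a, hσ3, hσ2, hσ1]
        split_ifs <;> simp_all

/-! Equality test. -/

/-- Set the flag on `sF` to false. -/
def setFalse : Cmd := Cmd.case sF (Cmd.push sF Sym.b0) (Cmd.push sF Sym.b0) Cmd.skip Cmd.skip

lemma setFalse_spec (σ : St) (fl : Bool) (F0 : List Sym) (h : σ sF = bitS fl :: F0) :
    Eval setFalse σ (St.set σ sF (Sym.b0 :: F0)) 3 := by
  cases fl with
  | false =>
    refine (Eval.case0 (l := F0) h (Eval.push _ sF Sym.b0)).cast ?_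
    simp [St.set_set_same]
  | true =>
    refine (Eval.case1 (l := F0) h (Eval.push _ sF Sym.b0)).cast ?_
    simp [St.set_set_same]

/-- Two tokens. -/
def two (s : Stk) : Cmd := Cmd.seq (Cmd.push s Sym.b0) (Cmd.push s Sym.b0)

lemma two_spec (s : Stk) (σ : St) : Eval (two s) σ (St.set σ s (Sym.b0 :: Sym.b0 :: σ s)) 2 := by
  refine (Eval.seq (Eval.push σ s Sym.b0) (Eval.push _ s Sym.b0)).cast ?_
  simp [St.set_set_same]

/-- The first symbol was a leaf. -/
def eqA0 : Cmd :=
  Cmd.case sW (Cmd.case sA Cmd.skip (Cmd.seq setFalse (two sW)) Cmd.skip Cmd.skip)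
    Cmd.skip Cmd.skip setFalse

/-- The first symbol was a node. -/
def eqA1 : Cmd :=
  Cmd.case sW (Cmd.case sA (Cmd.seq setFalse (two sD)) (Cmd.seq (two sD) (two sW)) Cmd.skip Cmd.skip)
    Cmd.skip Cmd.skip (Cmd.seq setFalse (two sD))

/-- One step of the comparison. -/
def eqBody : Cmd := Cmd.case sE eqA0 eqA1 Cmd.skip Cmd.skip

/-- The comparison loop. -/
def eqLoop : Cmd := Cmd.loop sD eqBody eqBody

/-- The final store of the comparison. -/
def eqFinal (σ : St) (E0 A0 F0 : List Sym) (bs : List T) (fl : Bool) : St :=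
  St.set (St.set (St.set (St.set (St.set σ sE E0) sA ((fser bs).map bitS ++ A0)) sW
    (List.replicate bs.length Sym.b0)) sD []) sF (bitS fl :: F0)

lemma eqFinal_eq (σ σ' : St) (E0 A0 F0 : List Sym) (bs : List T) (fl : Bool)
    (h1 : σ sI = σ' sI) (h2 : σ sO = σ' sO) :
    eqFinal σ E0 A0 F0 bs fl = eqFinal σ' E0 A0 F0 bs fl := by
  funext s
  fin_cases s <;> simp (decide := true) [eqFinal, St.set_apply] <;> assumption

lemma eq_loop (n : ℕ) : ∀ (as bs : List T) (fl : Bool) (σ : St) (E0 A0 F0 : List Sym),
    (fser as).length ≤ n →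
    σ sE = (fser as).map bitS ++ E0 → σ sA = (fser bs).map bitS ++ A0 →
    σ sD = List.replicate as.length Sym.b0 → σ sW = List.replicate bs.length Sym.b0 →
    σ sF = bitS fl :: F0 →
    ∃ (bs' : List T) (fl' : Bool) (t : ℕ), ((fl' = true ∧ bs' = []) ↔ (fl = true ∧ as = bs)) ∧
      (fser bs').length ≤ (fser bs).length ∧ t ≤ 16 * (fser as).length + 1 ∧
      Eval eqLoop σ (eqFinal σ E0 A0 F0 bs' fl') t := by
  induction n with
  | zero =>
    intro as bs fl σ E0 A0 F0 hn hE hA hD hW hF
    have hf : fser as = [] := List.length_eq_zero_iff.mp (by omega)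
    have hxs : as = [] := by
      cases as with
      | nil => rfl
      | cons x ys =>
        exfalso
        cases x with
        | leaf => simp [fser_leaf] at hf
        | node a b => simp [fser_node] at hf
    subst hxs
    refine ⟨bs, fl, 1, ?_, le_rfl, by simp, (Eval.loopE (by simpa using hD)).cast ?_⟩
    · simp [eq_comm]
    · funext s
      simp only [eqFinal, St.set_apply]
      split_ifs <;> simp_all
  | succ n ih =>
    intro as bs fl σ E0 A0 F0 hn hE hA hD hW hF
    cases as with
    | nil =>
      refine ⟨bs, fl, 1, ?_, le_rfl, by simp, (Eval.loopE (by simpa using hD)).cast ?_⟩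
      · simp [eq_comm]
      · funext s
        simp only [eqFinal, St.set_apply]
        split_ifs <;> simp_all
    | cons x as' =>
      have hD' : σ sD = Sym.b0 :: List.replicate as'.length Sym.b0 := by
        simpa [List.replicate_succ] using hD
      set σ0 := St.set σ sD (List.replicate as'.length Sym.b0) with hσ0
      have hF0 : σ0 sF = bitS fl :: F0 := by rw [hσ0, St.set_ne _ (by decide)]; exact hF
      have hW0 : σ0 sW = List.replicate bs.length Sym.b0 := by
        rw [hσ0, St.set_ne _ (by decide)]; exact hW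
      have hA0 : σ0 sA = (fser bs).map bitS ++ A0 := by rw [hσ0, St.set_ne _ (by decide)]; exact hA
      cases x with
      | leaf =>
        have hlen : (fser (T.leaf :: as')).length = (fser as').length + 1 := by simp [fser_leaf]
        have hE0 : σ0 sE = Sym.b0 :: ((fser as').map bitS ++ E0) := by
          rw [hσ0, St.set_ne _ (by decide), hE]; simp [fser_leaf, bitS]
        set σ1 := St.set σ0 sE ((fser as').map bitS ++ E0) with hσ1
        have hF1 : σ1 sF = bitS fl :: F0 := by rw [hσ1, St.set_ne _ (by decide)]; exact hF0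
        have hW1 : σ1 sW = List.replicate bs.length Sym.b0 := by
          rw [hσ1, St.set_ne _ (by decide)]; exact hW0
        have hA1 : σ1 sA = (fser bs).map bitS ++ A0 := by
          rw [hσ1, St.set_ne _ (by decide)]; exact hA0
        have hE1 : σ1 sE = (fser as').map bitS ++ E0 := by rw [hσ1, St.set_same]
        have hD1 : σ1 sD = List.replicate as'.length Sym.b0 := by
          rw [hσ1, St.set_ne _ (by decide), hσ0, St.set_same]
        cases bs with
        | nil =>
          have hb : Eval eqBody σ0 (St.set σ1 sF (Sym.b0 :: F0)) (3 + 1 + 2) :=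
            Eval.case0 hE0 (Eval.case3 (by simpa using hW1) (setFalse_spec σ1 fl F0 hF1))
          obtain ⟨bs', fl', t, hiff, hl, ht, h⟩ := ih as' [] false (St.set σ1 sF (Sym.b0 :: F0))
            E0 A0 F0 (by omega)
            (by rw [St.set_ne _ (by decide)]; exact hE1)
            (by rw [St.set_ne _ (by decide)]; exact hA1)
            (by rw [St.set_ne _ (by decide)]; exact hD1)
            (by rw [St.set_ne _ (by decide)]; exact hW1)
            (by simp [bitS])
          refine ⟨bs', fl', (3 + 1 + 2) + t + 2, by simpa using hiff, hl, by rw [hlen]; omega,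
            (Eval.loop0 hD' hb h).cast ?_⟩
          exact eqFinal_eq _ _ _ _ _ _ _ (by simp (decide := true) [St.set_apply, hσ1, hσ0])
            (by simp (decide := true) [St.set_apply, hσ1, hσ0])
        | cons y bs2 =>
          have hW1' : σ1 sW = Sym.b0 :: List.replicate bs2.length Sym.b0 := by
            simpa [List.replicate_succ] using hW1
          set σ2 := St.set σ1 sW (List.replicate bs2.length Sym.b0) with hσ2
          cases y with
          | leaf =>
            have hA2 : σ2 sA = Sym.b0 :: ((fser bs2).map bitS ++ A0) := by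
              rw [hσ2, St.set_ne _ (by decide), hA1]; simp [fser_leaf, bitS]
            set σ3 := St.set σ2 sA ((fser bs2).map bitS ++ A0) with hσ3
            have hb : Eval eqBody σ0 σ3 (((0 + 2) + 2) + 2) :=
              Eval.case0 hE0 (Eval.case0 hW1' (Eval.case0 hA2 (Eval.skip σ3)))
            obtain ⟨bs', fl', t, hiff, hl, ht, h⟩ := ih as' bs2 fl σ3 E0 A0 F0 (by omega)
              (by simp (decide := true) [St.set_apply, hσ3, hσ2, hE1])
              (by simp (decide := true) [St.set_apply, hσ3])
              (by simp (decide := true) [St.set_apply, hσ3, hσ2, hD1])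
              (by simp (decide := true) [St.set_apply, hσ3, hσ2])
              (by simp (decide := true) [St.set_apply, hσ3, hσ2, hF1])
            refine ⟨bs', fl', ((0 + 2) + 2) + 2 + t + 2, by simpa using hiff, ?_,
              by rw [hlen]; omega, (Eval.loop0 hD' hb h).cast ?_⟩
            · simp only [fser_leaf, List.length_cons]; omega
            · exact eqFinal_eq _ _ _ _ _ _ _
                (by simp (decide := true) [St.set_apply, hσ3, hσ2, hσ1, hσ0])
                (by simp (decide := true) [St.set_apply, hσ3, hσ2, hσ1, hσ0])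
          | node c d =>
            have hA2 : σ2 sA = Sym.b1 :: ((fser (c :: d :: bs2)).map bitS ++ A0) := by
              rw [hσ2, St.set_ne _ (by decide), hA1]; simp [fser_node, bitS]
            set σ3 := St.set σ2 sA ((fser (c :: d :: bs2)).map bitS ++ A0) with hσ3
            have hF3 : σ3 sF = bitS fl :: F0 := by
              simp (decide := true) [St.set_apply, hσ3, hσ2, hF1]
            set σ4 := St.set σ3 sF (Sym.b0 :: F0) with hσ4
            set σ5 := St.set σ4 sW (Sym.b0 :: Sym.b0 :: σ4 sW) with hσ5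
            have hb : Eval eqBody σ0 σ5 (((3 + 2 + 2) + 2) + 2) :=
              Eval.case0 hE0 (Eval.case0 hW1' (Eval.case1 hA2
                (Eval.seq (setFalse_spec σ3 fl F0 hF3) (two_spec sW σ4))))
            obtain ⟨bs', fl', t, hiff, hl, ht, h⟩ := ih as' (c :: d :: bs2) false σ5 E0 A0 F0
              (by omega)
              (by simp (decide := true) [St.set_apply, hσ5, hσ4, hσ3, hσ2, hE1])
              (by simp (decide := true) [St.set_apply, hσ5, hσ4, hσ3])
              (by simp (decide := true) [St.set_apply, hσ5, hσ4, hσ3, hσ2, hD1])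
              (by simp (decide := true) [St.set_apply, hσ5, hσ4, hσ3, hσ2, List.replicate_succ])
              (by simp (decide := true) [St.set_apply, hσ5, hσ4, bitS])
            refine ⟨bs', fl', ((3 + 2 + 2) + 2) + 2 + t + 2, by simpa using hiff, ?_,
              by rw [hlen]; omega, (Eval.loop0 hD' hb h).cast ?_⟩
            · simp only [fser_node, List.length_cons]; omega
            · exact eqFinal_eq _ _ _ _ _ _ _
                (by simp (decide := true) [St.set_apply, hσ5, hσ4, hσ3, hσ2, hσ1, hσ0])
                (by simp (decide := true) [St.set_apply, hσ5, hσ4, hσ3, hσ2, hσ1, hσ0])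
      | node a1 a2 =>
        have hlen : (fser (T.node a1 a2 :: as')).length = (fser (a1 :: a2 :: as')).length + 1 := by
          simp [fser_node]
        have hE0 : σ0 sE = Sym.b1 :: ((fser (a1 :: a2 :: as')).map bitS ++ E0) := by
          rw [hσ0, St.set_ne _ (by decide), hE]; simp [fser_node, bitS]
        set σ1 := St.set σ0 sE ((fser (a1 :: a2 :: as')).map bitS ++ E0) with hσ1
        have hF1 : σ1 sF = bitS fl :: F0 := by rw [hσ1, St.set_ne _ (by decide)]; exact hF0
        have hW1 : σ1 sW = List.replicate bs.length Sym.b0 := by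
          rw [hσ1, St.set_ne _ (by decide)]; exact hW0
        have hA1 : σ1 sA = (fser bs).map bitS ++ A0 := by
          rw [hσ1, St.set_ne _ (by decide)]; exact hA0
        have hE1 : σ1 sE = (fser (a1 :: a2 :: as')).map bitS ++ E0 := by rw [hσ1, St.set_same]
        have hD1 : σ1 sD = List.replicate as'.length Sym.b0 := by
          rw [hσ1, St.set_ne _ (by decide), hσ0, St.set_same]
        cases bs with
        | nil =>
          set σ2 := St.set σ1 sF (Sym.b0 :: F0) with hσ2
          set σ3 := St.set σ2 sD (Sym.b0 :: Sym.b0 :: σ2 sD) with hσ3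
          have hb : Eval eqBody σ0 σ3 ((3 + 2) + 1 + 2) :=
            Eval.case1 hE0 (Eval.case3 (by simpa using hW1)
              (Eval.seq (setFalse_spec σ1 fl F0 hF1) (two_spec sD σ2)))
          obtain ⟨bs', fl', t, hiff, hl, ht, h⟩ := ih (a1 :: a2 :: as') [] false σ3
            E0 A0 F0 (by omega)
            (by simp (decide := true) [St.set_apply, hσ3, hσ2, hE1])
            (by simp (decide := true) [St.set_apply, hσ3, hσ2, hA1])
            (by simp (decide := true) [St.set_apply, hσ3, hσ2, hD1, List.replicate_succ])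
            (by simp (decide := true) [St.set_apply, hσ3, hσ2, hW1])
            (by simp (decide := true) [St.set_apply, hσ3, hσ2, bitS])
          refine ⟨bs', fl', (3 + 2) + 1 + 2 + t + 2, by simpa using hiff, hl, by rw [hlen]; omega,
            (Eval.loop0 hD' hb h).cast ?_⟩
          exact eqFinal_eq _ _ _ _ _ _ _
            (by simp (decide := true) [St.set_apply, hσ3, hσ2, hσ1, hσ0])
            (by simp (decide := true) [St.set_apply, hσ3, hσ2, hσ1, hσ0])
        | cons y bs2 =>
          have hW1' : σ1 sW = Sym.b0 :: List.replicate bs2.length Sym.b0 := by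
            simpa [List.replicate_succ] using hW1
          set σ2 := St.set σ1 sW (List.replicate bs2.length Sym.b0) with hσ2
          cases y with
          | leaf =>
            have hA2 : σ2 sA = Sym.b0 :: ((fser bs2).map bitS ++ A0) := by
              rw [hσ2, St.set_ne _ (by decide), hA1]; simp [fser_leaf, bitS]
            set σ3 := St.set σ2 sA ((fser bs2).map bitS ++ A0) with hσ3
            have hF3 : σ3 sF = bitS fl :: F0 := by
              simp (decide := true) [St.set_apply, hσ3, hσ2, hF1]
            set σ4 := St.set σ3 sF (Sym.b0 :: F0) with hσ4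
            set σ5 := St.set σ4 sD (Sym.b0 :: Sym.b0 :: σ4 sD) with hσ5
            have hb : Eval eqBody σ0 σ5 (((3 + 2) + 2 + 2) + 2) :=
              Eval.case1 hE0 (Eval.case0 hW1' (Eval.case0 hA2
                (Eval.seq (setFalse_spec σ3 fl F0 hF3) (two_spec sD σ4))))
            obtain ⟨bs', fl', t, hiff, hl, ht, h⟩ := ih (a1 :: a2 :: as') bs2 false σ5 E0 A0 F0
              (by omega)
              (by simp (decide := true) [St.set_apply, hσ5, hσ4, hσ3, hσ2, hE1])
              (by simp (decide := true) [St.set_apply, hσ5, hσ4, hσ3])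
              (by simp (decide := true) [St.set_apply, hσ5, hσ4, hσ3, hσ2, hD1, List.replicate_succ])
              (by simp (decide := true) [St.set_apply, hσ5, hσ4, hσ3, hσ2])
              (by simp (decide := true) [St.set_apply, hσ5, hσ4, bitS])
            refine ⟨bs', fl', ((3 + 2) + 2 + 2) + 2 + t + 2, by simpa using hiff, ?_,
              by rw [hlen]; omega, (Eval.loop0 hD' hb h).cast ?_⟩
            · simp only [fser_leaf, List.length_cons]; omega
            · exact eqFinal_eq _ _ _ _ _ _ _
                (by simp (decide := true) [St.set_apply, hσ5, hσ4, hσ3, hσ2, hσ1, hσ0])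
                (by simp (decide := true) [St.set_apply, hσ5, hσ4, hσ3, hσ2, hσ1, hσ0])
          | node c d =>
            have hA2 : σ2 sA = Sym.b1 :: ((fser (c :: d :: bs2)).map bitS ++ A0) := by
              rw [hσ2, St.set_ne _ (by decide), hA1]; simp [fser_node, bitS]
            set σ3 := St.set σ2 sA ((fser (c :: d :: bs2)).map bitS ++ A0) with hσ3
            set σ4 := St.set σ3 sD (Sym.b0 :: Sym.b0 :: σ3 sD) with hσ4
            set σ5 := St.set σ4 sW (Sym.b0 :: Sym.b0 :: σ4 sW) with hσ5
            have hb : Eval eqBody σ0 σ5 (((2 + 2) + 2 + 2) + 2) :=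
              Eval.case1 hE0 (Eval.case0 hW1' (Eval.case1 hA2
                (Eval.seq (two_spec sD σ3) (two_spec sW σ4))))
            obtain ⟨bs', fl', t, hiff, hl, ht, h⟩ := ih (a1 :: a2 :: as') (c :: d :: bs2) fl σ5
              E0 A0 F0 (by omega)
              (by simp (decide := true) [St.set_apply, hσ5, hσ4, hσ3, hσ2, hE1])
              (by simp (decide := true) [St.set_apply, hσ5, hσ4, hσ3])
              (by simp (decide := true) [St.set_apply, hσ5, hσ4, hσ3, hσ2, hD1, List.replicate_succ])
              (by simp (decide := true) [St.set_apply, hσ5, hσ4, hσ3, hσ2, List.replicate_succ])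
              (by simp (decide := true) [St.set_apply, hσ5, hσ4, hσ3, hσ2, hF1])
            refine ⟨bs', fl', ((2 + 2) + 2 + 2) + 2 + t + 2, ?_, ?_,
              by rw [hlen]; omega, (Eval.loop0 hD' hb h).cast ?_⟩
            · rw [hiff]
              simp [and_assoc]
            · simp only [fser_node, List.length_cons]; omega
            · exact eqFinal_eq _ _ _ _ _ _ _
                (by simp (decide := true) [St.set_apply, hσ5, hσ4, hσ3, hσ2, hσ1, hσ0])
                (by simp (decide := true) [St.set_apply, hσ5, hσ4, hσ3, hσ2, hσ1, hσ0])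

/-- One step of the cleanup of the second forest. -/
def cleanBody : Cmd := Cmd.seq setFalse (delBody sA sW)

lemma clean_loop (n : ℕ) : ∀ (bs : List T) (fl : Bool) (σ : St) (A0 F0 : List Sym),
    (fser bs).length ≤ n →
    σ sA = (fser bs).map bitS ++ A0 → σ sW = List.replicate bs.length Sym.b0 →
    σ sF = bitS fl :: F0 →
    ∃ (fl' : Bool) (t : ℕ), (fl' = true ↔ (fl = true ∧ bs = [])) ∧
      t ≤ 12 * (fser bs).length + 1 ∧
      Eval (Cmd.loop sW cleanBody cleanBody) σ
        (St.set (St.set (St.set σ sA A0) sW []) sF (bitS fl' :: F0)) t := by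
  induction n with
  | zero =>
    intro bs fl σ A0 F0 hn hA hW hF
    have hf : fser bs = [] := List.length_eq_zero_iff.mp (by omega)
    have hxs : bs = [] := by
      cases bs with
      | nil => rfl
      | cons x ys =>
        exfalso
        cases x with
        | leaf => simp [fser_leaf] at hf
        | node a b => simp [fser_node] at hf
    subst hxs
    refine ⟨fl, 1, by simp, by simp, (Eval.loopE (by simpa using hW)).cast ?_⟩
    funext s
    simp only [St.set_apply]
    split_ifs <;> simp_all
  | succ n ih =>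
    intro bs fl σ A0 F0 hn hA hW hF
    cases bs with
    | nil =>
      refine ⟨fl, 1, by simp, by simp, (Eval.loopE (by simpa using hW)).cast ?_⟩
      funext s
      simp only [St.set_apply]
      split_ifs <;> simp_all
    | cons y bs2 =>
      have hW' : σ sW = Sym.b0 :: List.replicate bs2.length Sym.b0 := by
        simpa [List.replicate_succ] using hW
      set σ0 := St.set σ sW (List.replicate bs2.length Sym.b0) with hσ0
      have hF0 : σ0 sF = bitS fl :: F0 := by rw [hσ0, St.set_ne _ (by decide)]; exact hF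
      set σ1 := St.set σ0 sF (Sym.b0 :: F0) with hσ1
      cases y with
      | leaf =>
        have hlen : (fser (T.leaf :: bs2)).length = (fser bs2).length + 1 := by simp [fser_leaf]
        have hA1 : σ1 sA = Sym.b0 :: ((fser bs2).map bitS ++ A0) := by
          rw [hσ1, St.set_ne _ (by decide), hσ0, St.set_ne _ (by decide), hA]
          simp [fser_leaf, bitS]
        set σ2 := St.set σ1 sA ((fser bs2).map bitS ++ A0) with hσ2
        have hb : Eval cleanBody σ0 σ2 (3 + ((0) + 2)) :=
          Eval.seq (setFalse_spec σ0 fl F0 hF0) (Eval.case0 hA1 (Eval.skip σ2))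
        obtain ⟨fl', t, hiff, ht, h⟩ := ih bs2 false σ2 A0 F0 (by omega)
          (by rw [hσ2, St.set_same])
          (by simp (decide := true) [St.set_apply, hσ2, hσ1, hσ0])
          (by simp (decide := true) [St.set_apply, hσ2, hσ1, bitS])
        refine ⟨fl', 3 + (0 + 2) + t + 2, by simpa using hiff, by rw [hlen]; omega,
          (Eval.loop0 hW' hb h).cast ?_⟩
        funext s
        simp only [St.set_apply, hσ2, hσ1, hσ0]
        split_ifs <;> simp_all
      | node c d =>
        have hlen : (fser (T.node c d :: bs2)).length = (fser (c :: d :: bs2)).length + 1 := by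
          simp [fser_node]
        have hA1 : σ1 sA = Sym.b1 :: ((fser (c :: d :: bs2)).map bitS ++ A0) := by
          rw [hσ1, St.set_ne _ (by decide), hσ0, St.set_ne _ (by decide), hA]
          simp [fser_node, bitS]
        set σ2 := St.set σ1 sA ((fser (c :: d :: bs2)).map bitS ++ A0) with hσ2
        set σ3 := St.set σ2 sW (Sym.b0 :: σ2 sW) with hσ3
        set σ4 := St.set σ3 sW (Sym.b0 :: σ3 sW) with hσ4
        have hb : Eval cleanBody σ0 σ4 (3 + ((1 + 1) + 2)) :=
          Eval.seq (setFalse_spec σ0 fl F0 hF0) (Eval.case1 hA1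
            (Eval.seq (Eval.push σ2 sW Sym.b0) (Eval.push σ3 sW Sym.b0)))
        obtain ⟨fl', t, hiff, ht, h⟩ := ih (c :: d :: bs2) false σ4 A0 F0 (by omega)
          (by simp (decide := true) [St.set_apply, hσ4, hσ3, hσ2])
          (by simp (decide := true) [St.set_apply, hσ4, hσ3, hσ2, hσ1, hσ0, List.replicate_succ])
          (by simp (decide := true) [St.set_apply, hσ4, hσ3, hσ2, hσ1, bitS])
        refine ⟨fl', 3 + ((1 + 1) + 2) + t + 2, by simpa using hiff, by rw [hlen]; omega,
          (Eval.loop0 hW' hb h).cast ?_⟩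
        funext s
        simp only [St.set_apply, hσ4, hσ3, hσ2, hσ1, hσ0]
        split_ifs <;> simp_all

/-- The comparison of the two components of a node. -/
def eqMain : Cmd :=
  Cmd.seq (mov sA sE sW sD) (Cmd.seq (Cmd.push sF Sym.b1) (Cmd.seq (Cmd.push sW Sym.b0)
    (Cmd.seq (Cmd.push sD Sym.b0) (Cmd.seq eqLoop (Cmd.seq (Cmd.loop sW cleanBody cleanBody)
      (Cmd.case sF (pushWord sA (word (tBool false))) (pushWord sA (word (tBool true)))
        Cmd.skip Cmd.skip))))))

lemma tBool_length (b : Bool) : (word (tBool b)).length ≤ 3 := by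
  cases b <;> simp [tBool, word, ser]

/-- Equality test of the two components. -/
theorem PTraw.eqT : PTraw (fun x => tBool (decide (M.car x = M.cdr x))) := by
  refine PTraw.mk' (Cmd.case sA (pushWord sA (word (tBool true))) eqMain Cmd.skip Cmd.skip)
    (fun n => 50 * n + 30) (fun _ => 3) ?_ (PolyBd.const 3) ?_ ?_
  · exact (PolyBd.id.mul_const 50).add (PolyBd.const 30)
  · intro x
    have := tBool_length (decide (M.car x = M.cdr x))
    rwa [word_length] at this
  · intro x σ l hA hW hD
    cases x with
    | leaf =>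
      have hA' : σ sA = Sym.b0 :: l := by simpa [word_leaf] using hA
      refine ⟨(word (tBool true)).length + 2, ?_, (Eval.case0 hA' (pushWord_spec _ _ _)).cast ?_⟩
      · have := tBool_length true
        simp only
        omega
      · simp [St.set_set_same, M.car, M.cdr]
    | node a b =>
      have hA' : σ sA = Sym.b1 :: (word a ++ (word b ++ l)) := by
        simpa [word_node] using hA
      set σ0 := St.set σ sA (word a ++ (word b ++ l)) with hσ0
      obtain ⟨t1, ht1, h1⟩ := mov_spec (X := sA) (Y := sE) (W := sW) (D := sD) (by decide)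
        (by decide) (by decide) (by decide) (by decide) a σ0 (word b ++ l)
        (by rw [hσ0, St.set_same])
        (by rw [hσ0, St.set_ne _ (by decide)]; exact hW)
        (by rw [hσ0, St.set_ne _ (by decide)]; exact hD)
      set σ1 := St.set (St.set σ0 sA (word b ++ l)) sE (word a ++ σ0 sE) with hσ1
      set σ2 := St.set σ1 sF (Sym.b1 :: σ1 sF) with hσ2
      set σ3 := St.set σ2 sW (Sym.b0 :: σ2 sW) with hσ3
      set σ4 := St.set σ3 sD (Sym.b0 :: σ3 sD) with hσ4
      obtain ⟨bs', fl', t2, hiff, hl, ht2, h2⟩ := eq_loop _ [a] [b] true σ4 (σ sE) l (σ sF) le_rfl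
        (by simp (decide := true) [St.set_apply, hσ4, hσ3, hσ2, hσ1, hσ0, fser, word])
        (by simp (decide := true) [St.set_apply, hσ4, hσ3, hσ2, hσ1, fser, word])
        (by simp (decide := true) [St.set_apply, hσ4, hσ3, hσ2, hσ1, hσ0, hD])
        (by simp (decide := true) [St.set_apply, hσ4, hσ3, hσ2, hσ1, hσ0, hW])
        (by simp (decide := true) [St.set_apply, hσ4, hσ3, hσ2, hσ1, hσ0, bitS])
      set σ5 := eqFinal σ4 (σ sE) l (σ sF) bs' fl' with hσ5
      obtain ⟨fl'', t3, hiff2, ht3, h3⟩ := clean_loop _ bs' fl' σ5 l (σ sF) le_rfl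
        (by simp (decide := true) [hσ5, eqFinal, St.set_apply])
        (by simp (decide := true) [hσ5, eqFinal, St.set_apply])
        (by simp (decide := true) [hσ5, eqFinal, St.set_apply])
      set σ6 := St.set (St.set (St.set σ5 sA l) sW []) sF (bitS fl'' :: σ sF) with hσ6
      have hfl : fl'' = decide (a = b) := by
        have : fl'' = true ↔ a = b := by
          rw [hiff2]
          constructor
          · rintro ⟨h4, h5⟩
            have := hiff.mp ⟨h4, h5⟩
            simpa using this.2
          · intro h4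
            have := hiff.mpr ⟨rfl, by rw [h4]⟩
            exact this
        by_cases hab : a = b
        · simp [hab, this.mpr hab]
        · simp only [hab, decide_false]
          cases hfl : fl''
          · rfl
          · exact absurd (this.mp hfl) hab
      have hlen1 : (fser [a]).length = sz a := by simp [fser, sz]
      have hlen2 : (fser [b]).length = sz b := by simp [fser, sz]
      have htot : ∀ t4, t4 ≤ 3 → t1 + (1 + (1 + (1 + (t2 + (t3 + (t4 + 2)))))) + 2 ≤
          50 * sz (T.node a b) + 30 := by
        intro t4 ht4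
        rw [sz_node]
        rw [hlen1] at ht2
        have hb' : t3 ≤ 12 * sz b + 1 := by
          rw [hlen2] at hl
          have := Nat.mul_le_mul_left 12 hl
          omega
        omega
      have hpre : ∀ {σf : St} {t4 : ℕ},
          Eval (Cmd.case sF (pushWord sA (word (tBool false))) (pushWord sA (word (tBool true)))
            Cmd.skip Cmd.skip) σ6 σf t4 →
          Eval (Cmd.case sA (pushWord sA (word (tBool true))) eqMain Cmd.skip Cmd.skip) σ σf
            (t1 + (1 + (1 + (1 + (t2 + (t3 + t4))))) + 2) := by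
        intro σf t4 h4
        refine Eval.case1 hA' ?_
        exact Eval.seq h1 (Eval.seq (Eval.push σ1 sF Sym.b1) (Eval.seq (Eval.push σ2 sW Sym.b0)
          (Eval.seq (Eval.push σ3 sD Sym.b0) (Eval.seq h2 (Eval.seq h3 h4)))))
      cases fl'' with
      | false =>
        have hF6 : σ6 sF = Sym.b0 :: σ sF := by
          simp (decide := true) [hσ6, St.set_apply, bitS]
        have h4 := Eval.case0 (c1 := pushWord sA (word (tBool true))) (c2 := Cmd.skip)
          (c3 := Cmd.skip) hF6 (pushWord_spec sA (word (tBool false)) _)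
        refine ⟨_, htot _ (tBool_length _), (hpre h4).cast ?_⟩
        funext s
        have hdec : decide (M.car (T.node a b) = M.cdr (T.node a b)) = false := hfl.symm
        simp only [hdec]
        fin_cases s <;>
          simp (decide := true) [St.set_apply, hσ6, hσ5, eqFinal, hσ4, hσ3, hσ2, hσ1, hσ0, hW, hD]
      | true =>
        have hF6 : σ6 sF = Sym.b1 :: σ sF := by
          simp (decide := true) [hσ6, St.set_apply, bitS]
        have h4 := Eval.case1 (c0 := pushWord sA (word (tBool false))) (c2 := Cmd.skip)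
          (c3 := Cmd.skip) hF6 (pushWord_spec sA (word (tBool true)) _)
        refine ⟨_, htot _ (tBool_length _), (hpre h4).cast ?_⟩
        funext s
        have hdec : decide (M.car (T.node a b) = M.cdr (T.node a b)) = true := hfl.symm
        simp only [hdec]
        fin_cases s <;>
          simp (decide := true) [St.set_apply, hσ6, hσ5, eqFinal, hσ4, hσ3, hσ2, hσ1, hσ0, hW, hD]

/-- The code of a bit in the list of bits, first symbol first. -/
def encBit (a : Bool) : List Sym := Sym.b1 :: word (tBool a)

lemma word_bitsT (w : List Bool) : word (bitsT w) = w.flatMap encBit ++ [Sym.b0] := by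
  induction w with
  | nil => rfl
  | cons a w ih =>
    simp [bitsT, word_node, ih, encBit]

lemma ser_loop (u : List Bool) (σ : St) (hW : σ sW = u.map bitS) :
    ∃ t, t ≤ 7 * u.length + 1 ∧
      Eval (Cmd.loop sW (pushWord sA (encBit false)) (pushWord sA (encBit true))) σ
        (St.set (St.set σ sW []) sA (u.reverse.flatMap encBit ++ σ sA)) t := by
  induction u generalizing σ with
  | nil =>
    refine ⟨1, by simp, (Eval.loopE (by simpa using hW)).cast ?_⟩
    funext s
    fin_cases s <;> simp (decide := true) [St.set_apply, hW]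
  | cons a u ih =>
    cases a with
    | false =>
      have hW' : σ sW = Sym.b0 :: u.map bitS := by simpa [bitS] using hW
      set σ0 := St.set σ sW (u.map bitS) with hσ0
      have h1 := pushWord_spec sA (encBit false) σ0
      obtain ⟨t, ht, h⟩ := ih (St.set σ0 sA (encBit false ++ σ0 sA))
        (by rw [St.set_ne _ (by decide), hσ0, St.set_same])
      have hl : (encBit false).length ≤ 5 := by simp [encBit, tBool, word, ser]
      refine ⟨(encBit false).length + t + 2, by simp only [List.length_cons]; omega,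
        (Eval.loop0 hW' h1 h).cast ?_⟩
      funext s
      fin_cases s <;> simp (decide := true) [St.set_apply, hσ0]
    | true =>
      have hW' : σ sW = Sym.b1 :: u.map bitS := by simpa [bitS] using hW
      set σ0 := St.set σ sW (u.map bitS) with hσ0
      have h1 := pushWord_spec sA (encBit true) σ0
      obtain ⟨t, ht, h⟩ := ih (St.set σ0 sA (encBit true ++ σ0 sA))
        (by rw [St.set_ne _ (by decide), hσ0, St.set_same])
      have hl : (encBit true).length ≤ 5 := by simp [encBit, tBool, word, ser]
      refine ⟨(encBit true).length + t + 2, by simp only [List.length_cons]; omega,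
        (Eval.loop1 hW' h1 h).cast ?_⟩
      funext s
      fin_cases s <;> simp (decide := true) [St.set_apply, hσ0]

/-- The bits of the serialisation of a tree, as a list. -/
theorem PTraw.serT : PTraw (fun x => bitsT (ser x)) := by
  refine PTraw.mk' (Cmd.seq (movR sA sW sD) (Cmd.seq (Cmd.push sA Sym.b0)
      (Cmd.loop sW (pushWord sA (encBit false)) (pushWord sA (encBit true)))))
    (fun n => 15 * n + 4) (fun n => 4 * n + 1) ?_ ?_ ?_ ?_
  · exact (PolyBd.id.mul_const 15).add (PolyBd.const 4)
  · exact (PolyBd.id.mul_const 4).add (PolyBd.const 1)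
  · intro x
    rw [← word_length, word_bitsT]
    have key : ∀ w : List Bool, (w.flatMap encBit).length ≤ 4 * w.length := by
      intro w
      induction w with
      | nil => simp
      | cons a w ih =>
        have : (encBit a).length ≤ 4 := by
          cases a <;> simp [encBit, tBool, word, ser]
        simp only [List.flatMap_cons, List.length_append, List.length_cons]
        omega
    have := key (ser x)
    simp only [List.length_append, List.length_cons, List.length_nil]
    simp only [sz]
    omega
  · intro x σ l hA hW hD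
    obtain ⟨t1, ht1, h1⟩ := movR_spec (X := sA) (W := sW) (D := sD) (by decide) (by decide)
      (by decide) x σ l hA hD
    set σ1 := St.set (St.set σ sA l) sW ((ser x).reverse.map bitS ++ σ sW) with hσ1
    set σ2 := St.set σ1 sA (Sym.b0 :: σ1 sA) with hσ2
    obtain ⟨t2, ht2, h2⟩ := ser_loop (ser x).reverse σ2
      (by simp (decide := true) [hσ2, hσ1, St.set_apply, hW])
    refine ⟨t1 + (1 + t2), ?_, (Eval.seq h1 (Eval.seq (Eval.push σ1 sA Sym.b0) h2)).cast ?_⟩
    · have : (ser x).reverse.length = sz x := by simp [sz]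
      rw [this] at ht2
      beta_reduce
      omega
    · funext s
      fin_cases s <;> simp (decide := true) [St.set_apply, hσ2, hσ1, word_bitsT, hW]

/-! (module R2) is in `RawFold.lean`: `PTraw.fold`. -/

/-! (module R3) is in `RawWrap.lean`: `PTe.fix`, `PTe.wrapper`. -/

end Vale.Agent.Lib.P310.M
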