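import Vale.Agent.Lib.P310.M.Raw

/-!
(module R2) The fold along the right spine of a tree, as a stack program.
-/

namespace Vale.Agent.Lib.P310.M

namespace FoldProg

/-- Stores are equal if they agree on the seven stacks. -/
lemma store_ext {σ σ' : St} (h0 : σ sA = σ' sA) (h1 : σ sE = σ' sE) (h2 : σ sF = σ' sF)
    (h3 : σ sW = σ' sW) (h4 : σ sD = σ' sD) (h5 : σ sI = σ' sI) (h6 : σ sO = σ' sO) : σ = σ' := by
  funext s
  fin_cases s
  · exact h0
  · exact h1
  · exact h2
  · exact h3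
  · exact h4
  · exact h5
  · exact h6

/-- The values of the right spine, deepest first, as a stack word. -/
def rw : T → List Sym
  | T.leaf => []
  | T.node y r => rw r ++ word y

/-- One step along the spine: the next value goes to `sF`. -/
def spineBody : Cmd :=
  Cmd.case sA Cmd.skip (Cmd.seq (mov sA sF sW sD) (Cmd.push sD Sym.b0)) Cmd.skip Cmd.skip

/-- The walk along the spine; `sD` holds one token while the walk goes on. -/
def spineLoop : Cmd := Cmd.loop sD spineBody Cmd.skip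

theorem spine_run (l : T) : ∀ (σ : St) (rest : List Sym), σ sA = word l ++ rest →
    σ sD = [Sym.b0] → σ sW = [] →
    ∃ t, t ≤ 16 * sz l ∧
      Eval spineLoop σ (St.set (St.set (St.set σ sA rest) sF (rw l ++ σ sF)) sD []) t := by
  induction l with
  | leaf =>
    intro σ rest hA hD hW
    set σ0 := St.set σ sD [] with hσ0
    have h1 : Eval spineBody σ0 (St.set σ0 sA rest) (0 + 2) :=
      Eval.case0 (l := rest) (by rw [hσ0, St.set_ne _ (by decide), hA]; rfl) (Eval.skip _)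
    have h2 : Eval spineLoop (St.set σ0 sA rest) (St.set σ0 sA rest) 1 :=
      Eval.loopE (by rw [St.set_ne _ (by decide), hσ0, St.set_same])
    refine ⟨(0 + 2) + 1 + 2, by simp [sz_leaf], (Eval.loop0 hD h1 h2).cast ?_⟩
    refine store_ext ?_ ?_ ?_ ?_ ?_ ?_ ?_ <;>
      simp [St.set_apply, hσ0, rw, sA, sE, sF, sW, sD, sI, sO]
  | node y r _ ih =>
    intro σ rest hA hD hW
    set σ0 := St.set σ sD [] with hσ0
    set σ1 := St.set σ0 sA (word y ++ word r ++ rest) with hσ1
    have hA1 : σ1 sA = word y ++ (word r ++ rest) := by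
      rw [hσ1, St.set_same, List.append_assoc]
    have hW1 : σ1 sW = [] := by
      rw [hσ1, St.set_ne _ (by decide), hσ0, St.set_ne _ (by decide), hW]
    have hD1 : σ1 sD = [] := by
      rw [hσ1, St.set_ne _ (by decide), hσ0, St.set_same]
    obtain ⟨tm, htm, hm⟩ := mov_spec (X := sA) (Y := sF) (W := sW) (D := sD) (by decide) (by decide)
      (by decide) (by decide) (by decide) y σ1 (word r ++ rest) hA1 hW1 hD1
    set σ2 := St.set (St.set σ1 sA (word r ++ rest)) sF (word y ++ σ1 sF) with hσ2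
    set σ3 := St.set σ2 sD (Sym.b0 :: σ2 sD) with hσ3
    have hbody : Eval spineBody σ0 σ3 ((tm + 1) + 2) :=
      Eval.case1 (l := word y ++ word r ++ rest)
        (by rw [hσ0, St.set_ne _ (by decide), hA, word_node]; simp)
        (Eval.seq hm (Eval.push σ2 sD Sym.b0))
    have hA3 : σ3 sA = word r ++ rest := by
      rw [hσ3, St.set_ne _ (by decide), hσ2, St.set_ne _ (by decide), St.set_same]
    have hD3 : σ3 sD = [Sym.b0] := by
      rw [hσ3, St.set_same, hσ2, St.set_ne _ (by decide), St.set_ne _ (by decide), hD1]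
    have hW3 : σ3 sW = [] := by
      rw [hσ3, St.set_ne _ (by decide), hσ2, St.set_ne _ (by decide), St.set_ne _ (by decide), hW1]
    obtain ⟨tr, htr, hr⟩ := ih σ3 rest hA3 hD3 hW3
    refine ⟨((tm + 1) + 2) + tr + 2, ?_, (Eval.loop0 hD hbody hr).cast ?_⟩
    · rw [sz_node]; omega
    · refine store_ext ?_ ?_ ?_ ?_ ?_ ?_ ?_ <;>
        simp [St.set_apply, hσ3, hσ2, hσ1, hσ0, rw, sA, sE, sF, sW, sD, sI, sO]

/-- One value is combined with the accumulator. -/
def buildBody (cs : Cmd) : Cmd :=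
  Cmd.seq (mov sF sA sW sD) (Cmd.seq (Cmd.push sA Sym.b1)
    (Cmd.seq (cpy sE sA sW sD) (Cmd.seq (Cmd.push sA Sym.b1) cs)))

/-- The loop over the saved values, until the mark on `sF`. -/
def buildLoop (cs : Cmd) : Cmd :=
  Cmd.loop sF (Cmd.seq (Cmd.push sF Sym.b0) (buildBody cs)) (Cmd.seq (Cmd.push sF Sym.b1) (buildBody cs))

theorem body_run {cs : Cmd} {s : T → T} {τ : ℕ → ℕ} (hs : Comp cs s τ) (σ : St) (y a acc : T)
    (X Z rest : List Sym) (hF : σ sF = word y ++ X) (hA : σ sA = word acc ++ rest)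
    (hE : σ sE = word a ++ Z) (hW : σ sW = []) (hD : σ sD = []) :
    ∃ t, t ≤ 11 * sz y + 12 * sz a + 8 + τ (sz (T.node a (T.node y acc))) ∧
      Eval (buildBody cs) σ
        (St.set (St.set σ sF X) sA (word (s (T.node a (T.node y acc))) ++ rest)) t := by
  obtain ⟨t1, ht1, h1⟩ := mov_spec (X := sF) (Y := sA) (W := sW) (D := sD) (by decide) (by decide)
    (by decide) (by decide) (by decide) y σ X hF hW hD
  set σ1 := St.set (St.set σ sF X) sA (word y ++ σ sA) with hσ1
  set σ2 := St.set σ1 sA (Sym.b1 :: σ1 sA) with hσ2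
  have hE2 : σ2 sE = word a ++ Z := by
    simp [hσ2, hσ1, St.set_apply, sA, sE, sF, sW, sD, hE]
  have hW2 : σ2 sW = [] := by
    simp [hσ2, hσ1, St.set_apply, sA, sE, sF, sW, sD, hW]
  have hD2 : σ2 sD = [] := by
    simp [hσ2, hσ1, St.set_apply, sA, sE, sF, sW, sD, hD]
  obtain ⟨t2, ht2, h2⟩ := cpy_spec (X := sE) (Y := sA) (W := sW) (D := sD) (by decide) (by decide)
    (by decide) (by decide) (by decide) a σ2 Z hE2 hW2 hD2
  set σ3 := St.set σ2 sA (word a ++ σ2 sA) with hσ3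
  set σ4 := St.set σ3 sA (Sym.b1 :: σ3 sA) with hσ4
  have hA4 : σ4 sA = word (T.node a (T.node y acc)) ++ rest := by
    simp [hσ4, hσ3, hσ2, hσ1, hA, word_node]
  have hW4 : σ4 sW = [] := by
    simp [hσ4, hσ3, hσ2, hσ1, St.set_apply, sA, sE, sF, sW, sD, hW]
  have hD4 : σ4 sD = [] := by
    simp [hσ4, hσ3, hσ2, hσ1, St.set_apply, sA, sE, sF, sW, sD, hD]
  obtain ⟨t3, ht3, h3⟩ := hs (T.node a (T.node y acc)) σ4 rest hA4 hW4 hD4
  refine ⟨t1 + (1 + (t2 + (1 + t3))), by omega,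
    (Eval.seq h1 (Eval.seq (Eval.push σ1 sA Sym.b1) (Eval.seq h2 (Eval.seq (Eval.push σ3 sA Sym.b1) h3)))).cast ?_⟩
  refine store_ext ?_ ?_ ?_ ?_ ?_ ?_ ?_ <;>
    simp [St.set_apply, hσ4, hσ3, hσ2, hσ1, sA, sE, sF, sW, sD, sI, sO]

lemma push_back (σ : St) (c : Sym) (l : List Sym) (hF : σ sF = c :: l) :
    Eval (Cmd.push sF c) (St.set σ sF l) σ 1 := by
  have hp := Eval.push (St.set σ sF l) sF c
  have e : St.set (St.set σ sF l) sF (c :: St.set σ sF l sF) = σ := by
    simp only [St.set_same]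
    funext u
    by_cases hu : u = sF
    · subst hu; simp [St.set, hF]
    · simp [St.set, Function.update_of_ne hu]
  rwa [e] at hp

theorem iter_run {cs : Cmd} {s : T → T} {τ : ℕ → ℕ} (hs : Comp cs s τ) (σ : St) (y a acc : T)
    (X Z rest : List Sym) (hF : σ sF = word y ++ X) (hA : σ sA = word acc ++ rest)
    (hE : σ sE = word a ++ Z) (hW : σ sW = []) (hD : σ sD = []) :
    ∃ t, t ≤ 11 * sz y + 12 * sz a + 11 + τ (sz (T.node a (T.node y acc))) ∧
      ∀ (σ' : St) (t' : ℕ),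
        Eval (buildLoop cs)
          (St.set (St.set σ sF X) sA (word (s (T.node a (T.node y acc))) ++ rest)) σ' t' →
        Eval (buildLoop cs) σ σ' (t' + t) := by
  obtain ⟨tb, htb, hb⟩ := body_run hs σ y a acc X Z rest hF hA hE hW hD
  refine ⟨(1 + tb) + 2, by omega, fun σ' t' h => ?_⟩
  have e : t' + ((1 + tb) + 2) = (1 + tb) + t' + 2 := by ring
  rw [e]
  cases y with
  | leaf =>
    have hF' : σ sF = Sym.b0 :: X := by simpa [word_leaf] using hF
    exact Eval.loop0 hF' (Eval.seq (push_back σ _ _ hF') hb) h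
  | node u v =>
    have hF' : σ sF = Sym.b1 :: (word u ++ (word v ++ X)) := by
      simpa [word_node] using hF
    exact Eval.loop1 hF' (Eval.seq (push_back σ _ _ hF') hb) h

/-- The whole loop over the saved values, from the end of the spine upwards. -/
theorem build_run {cs : Cmd} {b s : T → T} {τ : ℕ → ℕ} (hs : Comp cs s τ) (a : T)
    (Z rest : List Sym) (S P : ℕ)
    (hP : ∀ y r, sz y ≤ S → sz r ≤ S →
      11 * sz y + 12 * sz a + 11 + τ (sz (T.node a (T.node y (foldT b s a r)))) ≤ P) (l : T) :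
    ∀ (σ : St) (X : List Sym) (σ' : St) (t' : ℕ), σ sF = rw l ++ X → σ sA = word (b a) ++ rest →
      σ sE = word a ++ Z → σ sW = [] → σ sD = [] → sz l ≤ S →
      Eval (buildLoop cs) (St.set (St.set σ sF X) sA (word (foldT b s a l) ++ rest)) σ' t' →
      ∃ t, t ≤ sz l * P ∧ Eval (buildLoop cs) σ σ' (t' + t) := by
  induction l with
  | leaf =>
    intro σ X σ' t' hF hA hE hW hD _ h
    refine ⟨0, by simp, ?_⟩
    have e : St.set (St.set σ sF X) sA (word (foldT b s a T.leaf) ++ rest) = σ := by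
      refine store_ext ?_ ?_ ?_ ?_ ?_ ?_ ?_ <;>
        simp [St.set_apply, sA, sE, sF, sW, sD, sI, sO, foldT]
      · exact hA.symm
      · simpa [rw] using hF.symm
    rw [e] at h
    exact h
  | node y r _ ih =>
    intro σ X σ' t' hF hA hE hW hD hS h
    set acc := foldT b s a r with hacc
    set τ0 := St.set (St.set σ sF (word y ++ X)) sA (word acc ++ rest) with hτ0
    have hS' : sz y + sz r + 1 ≤ S := by rwa [sz_node] at hS
    obtain ⟨t1, ht1, h1⟩ := iter_run hs τ0 y a acc X Z rest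
      (by simp [hτ0, St.set_apply, sA, sF])
      (by simp [hτ0])
      (by simpa [hτ0, St.set_apply, sA, sE, sF] using hE)
      (by simpa [hτ0, St.set_apply, sA, sW, sF] using hW)
      (by simpa [hτ0, St.set_apply, sA, sD, sF] using hD)
    have e : St.set (St.set τ0 sF X) sA (word (s (T.node a (T.node y acc))) ++ rest) =
        St.set (St.set σ sF X) sA (word (foldT b s a (T.node y r)) ++ rest) := by
      refine store_ext ?_ ?_ ?_ ?_ ?_ ?_ ?_ <;>
        simp [St.set_apply, hτ0, sA, sE, sF, sW, sD, sI, sO, foldT, hacc]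
    rw [e] at h1
    have h2 := h1 σ' t' h
    obtain ⟨t2, ht2, h3⟩ := ih σ (word y ++ X) σ' (t' + t1)
      (by rw [hF]; simp [rw]) hA hE hW hD (by omega) h2
    refine ⟨t1 + t2, ?_, by rw [← Nat.add_assoc]; exact h3⟩
    have hP' := hP y r (by omega) (by omega)
    have h4 : t1 ≤ P := le_trans ht1 hP'
    calc t1 + t2 ≤ P + sz r * P := by omega
      _ = (sz r + 1) * P := by ring
      _ ≤ sz (T.node y r) * P := by
        apply Nat.mul_le_mul_right
        rw [sz_node]; omega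

/-- The fold on a proper pair: save `a`, walk along the spine, compute the base value, combine. -/
def mainC (cb cs : Cmd) : Cmd :=
  Cmd.seq (mov sA sE sW sD) (Cmd.seq (Cmd.push sF Sym.hash) (Cmd.seq (Cmd.push sD Sym.b0)
    (Cmd.seq spineLoop (Cmd.seq (cpy sE sA sW sD) (Cmd.seq cb
      (Cmd.seq (buildLoop cs) (del sE sD)))))))

theorem main_run {cb cs : Cmd} {b s : T → T} {τb τ : ℕ → ℕ} (hb : Comp cb b τb) (hs : Comp cs s τ)
    (a l : T) (rest : List Sym) (σ : St) (P : ℕ)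
    (hP : ∀ y r, sz y ≤ sz l → sz r ≤ sz l →
      11 * sz y + 12 * sz a + 11 + τ (sz (T.node a (T.node y (foldT b s a r)))) ≤ P)
    (hA : σ sA = word a ++ word l ++ rest) (hW : σ sW = []) (hD : σ sD = []) :
    ∃ t, t ≤ 31 * sz a + 16 * sz l + τb (sz a) + sz l * P + 11 ∧
      Eval (mainC cb cs) σ (St.set σ sA (word (foldT b s a l) ++ rest)) t := by
  obtain ⟨t1, ht1, h1⟩ := mov_spec (X := sA) (Y := sE) (W := sW) (D := sD) (by decide) (by decide)
    (by decide) (by decide) (by decide) a σ (word l ++ rest) (by simpa using hA) hW hD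
  set σ1 := St.set (St.set σ sA (word l ++ rest)) sE (word a ++ σ sE) with hσ1
  set σ2 := St.set σ1 sF (Sym.hash :: σ1 sF) with hσ2
  set σ3 := St.set σ2 sD (Sym.b0 :: σ2 sD) with hσ3
  have hA3 : σ3 sA = word l ++ rest := by
    simp [hσ3, hσ2, hσ1, St.set_apply, sA, sD, sF, sE]
  have hD3 : σ3 sD = [Sym.b0] := by
    simpa [hσ3, hσ2, hσ1, St.set_apply, sA, sD, sF, sE] using hD
  have hW3 : σ3 sW = [] := by
    simpa [hσ3, hσ2, hσ1, St.set_apply, sA, sD, sF, sE, sW] using hW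
  obtain ⟨t2, ht2, h2⟩ := spine_run l σ3 rest hA3 hD3 hW3
  set σ4 := St.set (St.set (St.set σ3 sA rest) sF (rw l ++ σ3 sF)) sD [] with hσ4
  have hE4 : σ4 sE = word a ++ σ sE := by
    simp [hσ4, hσ3, hσ2, hσ1, St.set_apply, sA, sD, sF, sE]
  have hW4 : σ4 sW = [] := by
    simpa [hσ4, hσ3, hσ2, hσ1, St.set_apply, sA, sD, sF, sE, sW] using hW
  have hD4 : σ4 sD = [] := by
    simp [hσ4]
  obtain ⟨t3, ht3, h3⟩ := cpy_spec (X := sE) (Y := sA) (W := sW) (D := sD) (by decide) (by decide)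
    (by decide) (by decide) (by decide) a σ4 (σ sE) hE4 hW4 hD4
  set σ5 := St.set σ4 sA (word a ++ σ4 sA) with hσ5
  have hA5 : σ5 sA = word a ++ rest := by
    simp [hσ5, hσ4, St.set_apply, sA, sD, sF]
  have hW5 : σ5 sW = [] := by
    simpa [hσ5, St.set_apply, sA, sW] using hW4
  have hD5 : σ5 sD = [] := by
    simpa [hσ5, St.set_apply, sA, sD] using hD4
  obtain ⟨t4, ht4, h4⟩ := hb a σ5 rest hA5 hW5 hD5
  set σ6 := St.set σ5 sA (word (b a) ++ rest) with hσ6
  -- the final store of the loop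
  set σ8 := St.set (St.set σ6 sF (σ sF)) sA (word (foldT b s a l) ++ rest) with hσ8
  have hlast : Eval (buildLoop cs) (St.set (St.set σ6 sF (Sym.hash :: σ sF)) sA
      (word (foldT b s a l) ++ rest)) σ8 1 := by
    have e : σ8 = St.set (St.set (St.set σ6 sF (Sym.hash :: σ sF)) sA
        (word (foldT b s a l) ++ rest)) sF (σ sF) := by
      refine store_ext ?_ ?_ ?_ ?_ ?_ ?_ ?_ <;>
        simp [hσ8, St.set_apply, sA, sE, sF, sW, sD, sI, sO]
    rw [e]
    exact Eval.loopH (l := σ sF) (by simp [St.set_apply, sA, sF])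
  obtain ⟨t5, ht5, h5⟩ := build_run (b := b) hs a (σ sE) rest (sz l) P hP l σ6 (Sym.hash :: σ sF) σ8 1
    (by simp [hσ6, hσ5, hσ4, hσ3, hσ2, hσ1, St.set_apply, sA, sD, sF, sE])
    (by simp [hσ6])
    (by simpa [hσ6, hσ5, St.set_apply, sA, sE] using hE4)
    (by simpa [hσ6, St.set_apply, sA, sW] using hW5)
    (by simpa [hσ6, St.set_apply, sA, sD] using hD5)
    le_rfl hlast
  obtain ⟨t6, ht6, h6⟩ := del_spec (X := sE) (D := sD) (by decide) a σ8 (σ sE)
    (by simpa [hσ8, hσ6, hσ5, St.set_apply, sA, sE, sF] using hE4)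
    (by simpa [hσ8, hσ6, hσ5, St.set_apply, sA, sD, sF] using hD4)
  refine ⟨t1 + (1 + (1 + (t2 + (t3 + (t4 + ((1 + t5) + t6)))))), ?_,
    (Eval.seq h1 (Eval.seq (Eval.push σ1 sF Sym.hash) (Eval.seq (Eval.push σ2 sD Sym.b0)
      (Eval.seq h2 (Eval.seq h3 (Eval.seq h4 (Eval.seq h5 h6))))))).cast ?_⟩
  · omega
  · refine store_ext ?_ ?_ ?_ ?_ ?_ ?_ ?_ <;>
      simp [hσ8, hσ6, hσ5, hσ4, hσ3, hσ2, hσ1, St.set_apply, sA, sE, sF, sW, sD, sI, sO]
    exact hD

/-- The fold on all trees: on a leaf, both components are a leaf. -/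
def foldC (cb cs : Cmd) : Cmd :=
  Cmd.case sA (Cmd.seq (Cmd.push sA Sym.b0) cb) (mainC cb cs) Cmd.skip Cmd.skip

/-- Polynomially bounded functions. -/
def PB (g : ℕ → ℕ) : Prop := ∃ C D : ℕ, ∀ N, 1 ≤ N → g N ≤ C * N ^ D

lemma PB.const (k : ℕ) : PB (fun _ => k) := ⟨k, 0, by simp⟩

lemma PB.id : PB (fun N => N) := ⟨1, 1, by simp⟩

lemma PB.mul {f g : ℕ → ℕ} (hf : PB f) (hg : PB g) : PB (fun N => f N * g N) := by
  obtain ⟨C1, D1, h1⟩ := hf
  obtain ⟨C2, D2, h2⟩ := hg
  refine ⟨C1 * C2, D1 + D2, fun N hN => ?_⟩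
  calc f N * g N ≤ (C1 * N ^ D1) * (C2 * N ^ D2) := Nat.mul_le_mul (h1 N hN) (h2 N hN)
    _ = C1 * C2 * N ^ (D1 + D2) := by rw [pow_add]; ring

lemma PB.add {f g : ℕ → ℕ} (hf : PB f) (hg : PB g) : PB (fun N => f N + g N) := by
  obtain ⟨C1, D1, h1⟩ := hf
  obtain ⟨C2, D2, h2⟩ := hg
  refine ⟨C1 + C2, max D1 D2, fun N hN => ?_⟩
  have e1 : N ^ D1 ≤ N ^ max D1 D2 := Nat.pow_le_pow_right hN (le_max_left _ _)
  have e2 : N ^ D2 ≤ N ^ max D1 D2 := Nat.pow_le_pow_right hN (le_max_right _ _)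
  calc f N + g N ≤ C1 * N ^ D1 + C2 * N ^ D2 := Nat.add_le_add (h1 N hN) (h2 N hN)
    _ ≤ C1 * N ^ max D1 D2 + C2 * N ^ max D1 D2 :=
        Nat.add_le_add (Nat.mul_le_mul_left _ e1) (Nat.mul_le_mul_left _ e2)
    _ = (C1 + C2) * N ^ max D1 D2 := by ring

lemma PB.pow {f : ℕ → ℕ} (hf : PB f) (k : ℕ) : PB (fun N => f N ^ k) := by
  obtain ⟨C, D, h⟩ := hf
  refine ⟨C ^ k, D * k, fun N hN => ?_⟩
  calc f N ^ k ≤ (C * N ^ D) ^ k := Nat.pow_le_pow_left (h N hN) k
    _ = C ^ k * N ^ (D * k) := by rw [mul_pow, pow_mul]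

end FoldProg

open FoldProg in
/-- (module R2) Fold along a list, given a polynomial bound on the sizes of the intermediate results. -/
theorem PTraw.fold {b s : T → T} (hb : PTraw b) (hs : PTraw s)
    (hB : ∃ c d, ∀ a l, sz (foldT b s a l) ≤ c * (sz a + sz l + 1) ^ d) :
    PTraw (fun x => foldT b s (M.car x) (M.cdr x)) := by
  obtain ⟨db, _, cb, cB, _, _, hbc⟩ := hb
  obtain ⟨ds, _, cs, cS, _, _, hsc⟩ := hs
  obtain ⟨c, e, hsz⟩ := hB
  have hPB : PB (fun N => 47 * N + cB * (N + 1) ^ db +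
      N * (23 * N + 11 + cS * (2 * N + c * N ^ e + 3) ^ ds) + 13) := by
    refine PB.add (PB.add (PB.add (PB.mul (PB.const 47) PB.id)
      (PB.mul (PB.const cB) (PB.pow (PB.add PB.id (PB.const 1)) db)))
      (PB.mul PB.id (PB.add (PB.add (PB.mul (PB.const 23) PB.id) (PB.const 11))
        (PB.mul (PB.const cS) (PB.pow (PB.add (PB.add (PB.mul (PB.const 2) PB.id)
          (PB.mul (PB.const c) (PB.pow PB.id e))) (PB.const 3)) ds))))) (PB.const 13)
  obtain ⟨C, D, hCD⟩ := hPB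
  refine ⟨D, e, foldC cb cs, C, c * 3 ^ e, fun x => ?_, fun x σ l hA hW hD => ?_⟩
  · -- the size of the output
    have h1 := hsz (M.car x) (M.cdr x)
    have h2 : sz (M.car x) + sz (M.cdr x) + 1 ≤ 3 * (sz x + 1) := by
      cases x with
      | leaf => simp [M.car, M.cdr, sz_leaf]
      | node a r => simp only [M.car, M.cdr, sz_node]; omega
    calc sz (foldT b s (M.car x) (M.cdr x)) ≤ c * (sz (M.car x) + sz (M.cdr x) + 1) ^ e := h1
      _ ≤ c * (3 * (sz x + 1)) ^ e := Nat.mul_le_mul_left _ (Nat.pow_le_pow_left h2 e)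
      _ = c * 3 ^ e * (sz x + 1) ^ e := by rw [mul_pow]; ring
  · set N := sz x + 1 with hN
    have hCD' := hCD N (by omega)
    simp only at hCD'
    refine Exists.imp (fun t ht => ?_) (?_ : ∃ t, t ≤ 47 * N + cB * (N + 1) ^ db +
      N * (23 * N + 11 + cS * (2 * N + c * N ^ e + 3) ^ ds) + 13 ∧
      Eval (foldC cb cs) σ (St.set σ sA (word (foldT b s (M.car x) (M.cdr x)) ++ l)) t)
    · exact ⟨le_trans ht.1 hCD', ht.2⟩
    cases x with
    | leaf =>
      have hA' : σ sA = Sym.b0 :: l := by simpa [word_leaf] using hA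
      set σ1 := St.set σ sA l with hσ1
      set σ2 := St.set σ1 sA (Sym.b0 :: σ1 sA) with hσ2
      obtain ⟨t, ht, h⟩ := hbc T.leaf σ2 l (by simp [hσ2, hσ1, word_leaf])
        (by simpa [hσ2, hσ1, St.set_apply, sA, sW] using hW)
        (by simpa [hσ2, hσ1, St.set_apply, sA, sD] using hD)
      refine ⟨(1 + t) + 2, ?_, (Eval.case0 hA' (Eval.seq (Eval.push σ1 sA Sym.b0) h)).cast ?_⟩
      · have hN2 : N = 2 := by simp [hN, sz_leaf]
        have h3 : cB * (sz T.leaf + 1) ^ db ≤ cB * (N + 1) ^ db := by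
          apply Nat.mul_le_mul_left
          apply Nat.pow_le_pow_left
          rw [hN2, sz_leaf]; omega
        have h4 : t ≤ cB * (N + 1) ^ db := le_trans ht h3
        omega
      · simp [hσ2, hσ1, foldT, M.car, M.cdr, St.set]
    | node a r =>
      have hN' : N = sz a + sz r + 2 := by simp [hN, sz_node]
      have hA' : σ sA = Sym.b1 :: (word a ++ word r ++ l) := by
        simpa [word_node] using hA
      set σ1 := St.set σ sA (word a ++ word r ++ l) with hσ1
      have hP : ∀ y u, sz y ≤ sz r → sz u ≤ sz r →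
          11 * sz y + 12 * sz a + 11 + (fun n => cS * (n + 1) ^ ds)
            (sz (T.node a (T.node y (foldT b s a u)))) ≤
            23 * N + 11 + cS * (2 * N + c * N ^ e + 3) ^ ds := by
        intro y u hy hu
        have h1 := hsz a u
        have h2 : c * (sz a + sz u + 1) ^ e ≤ c * N ^ e := by
          apply Nat.mul_le_mul_left
          apply Nat.pow_le_pow_left
          omega
        have h3 : sz (T.node a (T.node y (foldT b s a u))) + 1 ≤ 2 * N + c * N ^ e + 3 := by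
          simp only [sz_node]
          omega
        have h4 : cS * (sz (T.node a (T.node y (foldT b s a u))) + 1) ^ ds ≤
            cS * (2 * N + c * N ^ e + 3) ^ ds :=
          Nat.mul_le_mul_left _ (Nat.pow_le_pow_left h3 ds)
        beta_reduce
        omega
      obtain ⟨t, ht, h⟩ := main_run hbc hsc a r l σ1 _ hP (by simp [hσ1])
        (by simpa [hσ1, St.set_apply, sA, sW] using hW)
        (by simpa [hσ1, St.set_apply, sA, sD] using hD)
      refine ⟨t + 2, ?_, (Eval.case1 hA' h).cast ?_⟩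
      · have h1 : sz r * (23 * N + 11 + cS * (2 * N + c * N ^ e + 3) ^ ds) ≤
            N * (23 * N + 11 + cS * (2 * N + c * N ^ e + 3) ^ ds) :=
          Nat.mul_le_mul_right _ (by omega)
        have h2 : cB * (sz a + 1) ^ db ≤ cB * (N + 1) ^ db :=
          Nat.mul_le_mul_left _ (Nat.pow_le_pow_left (by omega) db)
        omega
      · simp [hσ1, foldT, M.car, M.cdr, St.set]

end Vale.Agent.Lib.P310.M
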