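import Vale.Agent.Lib.P310.M.Cmd

/-!
Primitive stack programs: move, copy and delete one value (a tree in prefix code) from a stack, with
a counter stack of unary tokens, and their exact specifications.
-/

namespace Vale.Agent.Lib.P310.M

lemma St.set_apply (σ : St) (s : Stk) (l : List Sym) (s' : Stk) :
    St.set σ s l s' = if s' = s then l else σ s' := by
  simp [St.set, Function.update_apply]

@[simp] lemma St.set_same (σ : St) (s : Stk) (l : List Sym) : St.set σ s l s = l := by
  simp [St.set]

lemma St.set_ne {σ : St} {s s' : Stk} (l : List Sym) (h : s' ≠ s) : St.set σ s l s' = σ s' := by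
  simp [St.set_apply, h]

lemma St.set_self (σ : St) (s : Stk) : St.set σ s (σ s) = σ := by
  simp [St.set]

/-- Change the final store along an equality. -/
lemma Eval.cast {c : Cmd} {σ σ' σ'' : St} {t : ℕ} (h : Eval c σ σ' t) (e : σ' = σ'') :
    Eval c σ σ'' t := e ▸ h

/-- The concatenated serialisations of a forest. -/
def fser (xs : List T) : List Bool := xs.flatMap ser

@[simp] lemma fser_nil : fser [] = [] := rfl

lemma fser_cons (x : T) (xs : List T) : fser (x :: xs) = ser x ++ fser xs := by
  simp [fser]

lemma fser_leaf (xs : List T) : fser (T.leaf :: xs) = false :: fser xs := by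
  simp [fser, ser]

lemma fser_node (a b : T) (xs : List T) :
    fser (T.node a b :: xs) = true :: fser (a :: b :: xs) := by
  simp [fser, ser]

lemma word_eq_map (x : T) : word x = (ser x).map bitS := rfl

/-! ### Moving a value, reversed -/

/-- One step of the move of a value from `X` to `W`, with the counter `D`. -/
def movBody (X W D : Stk) : Cmd :=
  Cmd.case X (Cmd.push W Sym.b0)
    (Cmd.seq (Cmd.push W Sym.b1) (Cmd.seq (Cmd.push D Sym.b0) (Cmd.push D Sym.b0)))
    Cmd.skip Cmd.skip

lemma mov_loop {X W D : Stk} (hXW : X ≠ W) (hXD : X ≠ D) (hWD : W ≠ D) (n : ℕ) :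
    ∀ (xs : List T) (σ : St) (rest : List Sym), (fser xs).length ≤ n →
      σ X = (fser xs).map bitS ++ rest → σ D = List.replicate xs.length Sym.b0 →
      ∃ t, t ≤ 8 * (fser xs).length + 1 ∧ Eval (Cmd.loop D (movBody X W D) (movBody X W D)) σ
        (St.set (St.set (St.set σ X rest) W ((fser xs).reverse.map bitS ++ σ W)) D []) t := by
  induction n with
  | zero =>
    intro xs σ rest hn hX hD
    have hf : fser xs = [] := List.length_eq_zero_iff.mp (by omega)
    have hxs : xs = [] := by
      cases xs with
      | nil => rfl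
      | cons x ys =>
        exfalso
        cases x with
        | leaf => simp [fser_leaf] at hf
        | node a b => simp [fser_node] at hf
    subst hxs
    refine ⟨1, by simp, (Eval.loopE (by simpa using hD)).cast ?_⟩
    funext s
    simp only [St.set_apply]
    split_ifs <;> simp_all
  | succ n ih =>
    intro xs σ rest hn hX hD
    cases xs with
    | nil =>
      refine ⟨1, by simp, (Eval.loopE (by simpa using hD)).cast ?_⟩
      funext s
      simp only [St.set_apply]
      split_ifs <;> simp_all
    | cons x ys =>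
      cases x with
      | leaf =>
        have hlen : (fser (T.leaf :: ys)).length = (fser ys).length + 1 := by simp [fser_leaf]
        have hD' : σ D = Sym.b0 :: List.replicate ys.length Sym.b0 := by
          simpa [List.replicate_succ] using hD
        have hX' : σ X = Sym.b0 :: ((fser ys).map bitS ++ rest) := by
          simpa [fser_leaf, bitS] using hX
        set σ0 := St.set σ D (List.replicate ys.length Sym.b0) with hσ0
        set σ1 := St.set σ0 X ((fser ys).map bitS ++ rest) with hσ1
        have h1 : Eval (movBody X W D) σ0 (St.set σ1 W (Sym.b0 :: σ1 W)) (1 + 2) := by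
          refine Eval.case0 (l := (fser ys).map bitS ++ rest) ?_ (Eval.push σ1 W Sym.b0)
          rw [hσ0, St.set_ne _ hXD, hX']
        obtain ⟨t, ht, h2⟩ := ih ys (St.set σ1 W (Sym.b0 :: σ1 W)) rest (by omega)
          (by rw [St.set_ne _ hXW, hσ1, St.set_same])
          (by rw [St.set_ne _ hWD.symm, hσ1, St.set_ne _ hXD.symm, hσ0, St.set_same])
        refine ⟨(1 + 2) + t + 2, by rw [hlen]; omega, ?_⟩
        refine (Eval.loop0 hD' h1 h2).cast ?_
        funext s
        simp only [St.set_apply, hσ1, hσ0]
        split_ifs <;> simp_all [fser_leaf, bitS]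
      | node a b =>
        have hlen : (fser (T.node a b :: ys)).length = (fser (a :: b :: ys)).length + 1 := by
          simp [fser_node]
        have hD' : σ D = Sym.b0 :: List.replicate ys.length Sym.b0 := by
          simpa [List.replicate_succ] using hD
        have hX' : σ X = Sym.b1 :: ((fser (a :: b :: ys)).map bitS ++ rest) := by
          simpa [fser_node, bitS] using hX
        set σ0 := St.set σ D (List.replicate ys.length Sym.b0) with hσ0
        set σ1 := St.set σ0 X ((fser (a :: b :: ys)).map bitS ++ rest) with hσ1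
        set σ2 := St.set σ1 W (Sym.b1 :: σ1 W) with hσ2
        set σ3 := St.set σ2 D (Sym.b0 :: σ2 D) with hσ3
        set σ4 := St.set σ3 D (Sym.b0 :: σ3 D) with hσ4
        have h1 : Eval (movBody X W D) σ0 σ4 ((1 + (1 + 1)) + 2) := by
          refine Eval.case1 (l := (fser (a :: b :: ys)).map bitS ++ rest) ?_
            (Eval.seq (Eval.push σ1 W Sym.b1) (Eval.seq (Eval.push σ2 D Sym.b0) (Eval.push σ3 D Sym.b0)))
          rw [hσ0, St.set_ne _ hXD, hX']
        have hD4 : σ4 D = List.replicate (a :: b :: ys).length Sym.b0 := by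
          rw [hσ4, St.set_same, hσ3, St.set_same, hσ2, St.set_ne _ hWD.symm, hσ1,
            St.set_ne _ hXD.symm, hσ0, St.set_same]
          simp [List.replicate_succ]
        have hX4 : σ4 X = (fser (a :: b :: ys)).map bitS ++ rest := by
          rw [hσ4, St.set_ne _ hXD, hσ3, St.set_ne _ hXD, hσ2, St.set_ne _ hXW, hσ1, St.set_same]
        obtain ⟨t, ht, h2⟩ := ih (a :: b :: ys) σ4 rest (by omega) hX4 hD4
        refine ⟨((1 + (1 + 1)) + 2) + t + 2, by rw [hlen]; omega, ?_⟩
        refine (Eval.loop0 hD' h1 h2).cast ?_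
        funext s
        simp only [St.set_apply, hσ4, hσ3, hσ2, hσ1, hσ0]
        split_ifs <;> simp_all [fser_node, bitS]

/-- Move a value from `X` to `W`, reversed, with the counter `D`. -/
def movR (X W D : Stk) : Cmd :=
  Cmd.seq (Cmd.push D Sym.b0) (Cmd.loop D (movBody X W D) (movBody X W D))

theorem movR_spec {X W D : Stk} (hXW : X ≠ W) (hXD : X ≠ D) (hWD : W ≠ D) (x : T) (σ : St)
    (rest : List Sym) (hX : σ X = word x ++ rest) (hD : σ D = []) :
    ∃ t, t ≤ 8 * sz x + 2 ∧ Eval (movR X W D) σ
      (St.set (St.set σ X rest) W ((ser x).reverse.map bitS ++ σ W)) t := by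
  have hlen : (fser [x]).length = sz x := by simp [fser, sz]
  obtain ⟨t, ht, h⟩ := mov_loop hXW hXD hWD _ [x] (St.set σ D (Sym.b0 :: σ D)) rest le_rfl
    (by rw [St.set_ne _ hXD, hX]; simp [fser, word])
    (by simp [hD])
  refine ⟨1 + t, by rw [hlen] at ht; omega, ?_⟩
  refine (Eval.seq (Eval.push σ D Sym.b0) h).cast ?_
  funext s
  simp only [St.set_apply]
  split_ifs <;> simp_all [fser]

/-! ### Unloading a stack -/

/-- Pop all of `W`, pushing onto `Y`. -/
def dump (W Y : Stk) : Cmd := Cmd.loop W (Cmd.push Y Sym.b0) (Cmd.push Y Sym.b1)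

theorem dump_spec {W Y : Stk} (hWY : W ≠ Y) (u : List Bool) (σ : St) (hW : σ W = u.map bitS) :
    ∃ t, t ≤ 3 * u.length + 1 ∧ Eval (dump W Y) σ
      (St.set (St.set σ W []) Y (u.reverse.map bitS ++ σ Y)) t := by
  induction u generalizing σ with
  | nil =>
    refine ⟨1, by simp, (Eval.loopE (by simpa using hW)).cast ?_⟩
    funext s
    simp only [St.set_apply]
    split_ifs <;> simp_all
  | cons a u ih =>
    cases a with
    | false =>
      have hW' : σ W = Sym.b0 :: u.map bitS := by simpa [bitS] using hW
      set σ0 := St.set σ W (u.map bitS) with hσ0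
      obtain ⟨t, ht, h⟩ := ih (St.set σ0 Y (Sym.b0 :: σ0 Y))
        (by rw [St.set_ne _ hWY, hσ0, St.set_same])
      refine ⟨1 + t + 2, by simp only [List.length_cons]; omega, ?_⟩
      refine (Eval.loop0 hW' (Eval.push σ0 Y Sym.b0) h).cast ?_
      funext s
      simp only [St.set_apply, hσ0]
      split_ifs <;> simp_all [bitS]
    | true =>
      have hW' : σ W = Sym.b1 :: u.map bitS := by simpa [bitS] using hW
      set σ0 := St.set σ W (u.map bitS) with hσ0
      obtain ⟨t, ht, h⟩ := ih (St.set σ0 Y (Sym.b1 :: σ0 Y))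
        (by rw [St.set_ne _ hWY, hσ0, St.set_same])
      refine ⟨1 + t + 2, by simp only [List.length_cons]; omega, ?_⟩
      refine (Eval.loop1 hW' (Eval.push σ0 Y Sym.b1) h).cast ?_
      funext s
      simp only [St.set_apply, hσ0]
      split_ifs <;> simp_all [bitS]

/-- Pop all of `W`, pushing onto `Y` and `Z`. -/
def dump2 (W Y Z : Stk) : Cmd :=
  Cmd.loop W (Cmd.seq (Cmd.push Y Sym.b0) (Cmd.push Z Sym.b0))
    (Cmd.seq (Cmd.push Y Sym.b1) (Cmd.push Z Sym.b1))

theorem dump2_spec {W Y Z : Stk} (hWY : W ≠ Y) (hWZ : W ≠ Z) (hYZ : Y ≠ Z) (u : List Bool) (σ : St)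
    (hW : σ W = u.map bitS) :
    ∃ t, t ≤ 4 * u.length + 1 ∧ Eval (dump2 W Y Z) σ
      (St.set (St.set (St.set σ W []) Y (u.reverse.map bitS ++ σ Y)) Z
        (u.reverse.map bitS ++ σ Z)) t := by
  induction u generalizing σ with
  | nil =>
    refine ⟨1, by simp, (Eval.loopE (by simpa using hW)).cast ?_⟩
    funext s
    simp only [St.set_apply]
    split_ifs <;> simp_all
  | cons a u ih =>
    cases a with
    | false =>
      have hW' : σ W = Sym.b0 :: u.map bitS := by simpa [bitS] using hW
      set σ0 := St.set σ W (u.map bitS) with hσ0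
      set σ1 := St.set σ0 Y (Sym.b0 :: σ0 Y) with hσ1
      set σ2 := St.set σ1 Z (Sym.b0 :: σ1 Z) with hσ2
      obtain ⟨t, ht, h⟩ := ih σ2
        (by rw [hσ2, St.set_ne _ hWZ, hσ1, St.set_ne _ hWY, hσ0, St.set_same])
      refine ⟨(1 + 1) + t + 2, by simp only [List.length_cons]; omega, ?_⟩
      refine (Eval.loop0 hW' (Eval.seq (Eval.push σ0 Y Sym.b0) (Eval.push σ1 Z Sym.b0)) h).cast ?_
      funext s
      simp only [St.set_apply, hσ2, hσ1, hσ0]
      split_ifs <;> simp_all [bitS]
    | true =>
      have hW' : σ W = Sym.b1 :: u.map bitS := by simpa [bitS] using hW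
      set σ0 := St.set σ W (u.map bitS) with hσ0
      set σ1 := St.set σ0 Y (Sym.b1 :: σ0 Y) with hσ1
      set σ2 := St.set σ1 Z (Sym.b1 :: σ1 Z) with hσ2
      obtain ⟨t, ht, h⟩ := ih σ2
        (by rw [hσ2, St.set_ne _ hWZ, hσ1, St.set_ne _ hWY, hσ0, St.set_same])
      refine ⟨(1 + 1) + t + 2, by simp only [List.length_cons]; omega, ?_⟩
      refine (Eval.loop1 hW' (Eval.seq (Eval.push σ0 Y Sym.b1) (Eval.push σ1 Z Sym.b1)) h).cast ?_
      funext s
      simp only [St.set_apply, hσ2, hσ1, hσ0]
      split_ifs <;> simp_all [bitS]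

/-! ### Moving and copying, order kept -/

/-- Move a value from `X` onto `Y`, order kept; `W` and `D` are temporary and empty. -/
def mov (X Y W D : Stk) : Cmd := Cmd.seq (movR X W D) (dump W Y)

theorem mov_spec {X Y W D : Stk} (hXY : X ≠ Y) (hXW : X ≠ W) (hXD : X ≠ D) (hYW : Y ≠ W)
    (hWD : W ≠ D) (x : T) (σ : St) (rest : List Sym) (hX : σ X = word x ++ rest)
    (hW : σ W = []) (hD : σ D = []) :
    ∃ t, t ≤ 11 * sz x + 3 ∧ Eval (mov X Y W D) σ (St.set (St.set σ X rest) Y (word x ++ σ Y)) t := by
  obtain ⟨t1, ht1, h1⟩ := movR_spec hXW hXD hWD x σ rest hX hD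
  set σ1 := St.set (St.set σ X rest) W ((ser x).reverse.map bitS ++ σ W) with hσ1
  have hW1 : σ1 W = (ser x).reverse.map bitS := by simp [hσ1, hW]
  obtain ⟨t2, ht2, h2⟩ := dump_spec hYW.symm _ σ1 hW1
  refine ⟨t1 + t2, ?_, (Eval.seq h1 h2).cast ?_⟩
  · have : (ser x).reverse.length = sz x := by simp [sz]
    rw [this] at ht2
    omega
  · funext s
    simp only [St.set_apply, hσ1]
    split_ifs <;> simp_all [word]

/-- Copy the top value of `X` onto `Y`; `W` and `D` are temporary and empty. -/
def cpy (X Y W D : Stk) : Cmd := Cmd.seq (movR X W D) (dump2 W X Y)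

theorem cpy_spec {X Y W D : Stk} (hXY : X ≠ Y) (hXW : X ≠ W) (hXD : X ≠ D) (hYW : Y ≠ W)
    (hWD : W ≠ D) (x : T) (σ : St) (rest : List Sym) (hX : σ X = word x ++ rest)
    (hW : σ W = []) (hD : σ D = []) :
    ∃ t, t ≤ 12 * sz x + 3 ∧ Eval (cpy X Y W D) σ (St.set σ Y (word x ++ σ Y)) t := by
  obtain ⟨t1, ht1, h1⟩ := movR_spec hXW hXD hWD x σ rest hX hD
  set σ1 := St.set (St.set σ X rest) W ((ser x).reverse.map bitS ++ σ W) with hσ1
  have hW1 : σ1 W = (ser x).reverse.map bitS := by simp [hσ1, hW]
  obtain ⟨t2, ht2, h2⟩ := dump2_spec hXW.symm hYW.symm hXY _ σ1 hW1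
  refine ⟨t1 + t2, ?_, (Eval.seq h1 h2).cast ?_⟩
  · have : (ser x).reverse.length = sz x := by simp [sz]
    rw [this] at ht2
    omega
  · funext s
    simp only [St.set_apply, hσ1]
    split_ifs <;> simp_all [word]

/-! ### Deleting a value -/

/-- One step of the deletion of a value from `X`, with the counter `D`. -/
def delBody (X D : Stk) : Cmd :=
  Cmd.case X Cmd.skip (Cmd.seq (Cmd.push D Sym.b0) (Cmd.push D Sym.b0)) Cmd.skip Cmd.skip

lemma del_loop {X D : Stk} (hXD : X ≠ D) (n : ℕ) :
    ∀ (xs : List T) (σ : St) (rest : List Sym), (fser xs).length ≤ n →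
      σ X = (fser xs).map bitS ++ rest → σ D = List.replicate xs.length Sym.b0 →
      ∃ t, t ≤ 8 * (fser xs).length + 1 ∧ Eval (Cmd.loop D (delBody X D) (delBody X D)) σ
        (St.set (St.set σ X rest) D []) t := by
  induction n with
  | zero =>
    intro xs σ rest hn hX hD
    have hf : fser xs = [] := List.length_eq_zero_iff.mp (by omega)
    have hxs : xs = [] := by
      cases xs with
      | nil => rfl
      | cons x ys =>
        exfalso
        cases x with
        | leaf => simp [fser_leaf] at hf
        | node a b => simp [fser_node] at hf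
    subst hxs
    refine ⟨1, by simp, (Eval.loopE (by simpa using hD)).cast ?_⟩
    funext s
    simp only [St.set_apply]
    split_ifs <;> simp_all
  | succ n ih =>
    intro xs σ rest hn hX hD
    cases xs with
    | nil =>
      refine ⟨1, by simp, (Eval.loopE (by simpa using hD)).cast ?_⟩
      funext s
      simp only [St.set_apply]
      split_ifs <;> simp_all
    | cons x ys =>
      cases x with
      | leaf =>
        have hlen : (fser (T.leaf :: ys)).length = (fser ys).length + 1 := by simp [fser_leaf]
        have hD' : σ D = Sym.b0 :: List.replicate ys.length Sym.b0 := by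
          simpa [List.replicate_succ] using hD
        have hX' : σ X = Sym.b0 :: ((fser ys).map bitS ++ rest) := by
          simpa [fser_leaf, bitS] using hX
        set σ0 := St.set σ D (List.replicate ys.length Sym.b0) with hσ0
        set σ1 := St.set σ0 X ((fser ys).map bitS ++ rest) with hσ1
        have h1 : Eval (delBody X D) σ0 σ1 (0 + 2) := by
          refine Eval.case0 (l := (fser ys).map bitS ++ rest) ?_ (Eval.skip σ1)
          rw [hσ0, St.set_ne _ hXD, hX']
        obtain ⟨t, ht, h2⟩ := ih ys σ1 rest (by omega)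
          (by rw [hσ1, St.set_same])
          (by rw [hσ1, St.set_ne _ hXD.symm, hσ0, St.set_same])
        refine ⟨(0 + 2) + t + 2, by rw [hlen]; omega, ?_⟩
        refine (Eval.loop0 hD' h1 h2).cast ?_
        funext s
        simp only [St.set_apply, hσ1, hσ0]
        split_ifs <;> simp_all
      | node a b =>
        have hlen : (fser (T.node a b :: ys)).length = (fser (a :: b :: ys)).length + 1 := by
          simp [fser_node]
        have hD' : σ D = Sym.b0 :: List.replicate ys.length Sym.b0 := by
          simpa [List.replicate_succ] using hD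
        have hX' : σ X = Sym.b1 :: ((fser (a :: b :: ys)).map bitS ++ rest) := by
          simpa [fser_node, bitS] using hX
        set σ0 := St.set σ D (List.replicate ys.length Sym.b0) with hσ0
        set σ1 := St.set σ0 X ((fser (a :: b :: ys)).map bitS ++ rest) with hσ1
        set σ3 := St.set σ1 D (Sym.b0 :: σ1 D) with hσ3
        set σ4 := St.set σ3 D (Sym.b0 :: σ3 D) with hσ4
        have h1 : Eval (delBody X D) σ0 σ4 ((1 + 1) + 2) := by
          refine Eval.case1 (l := (fser (a :: b :: ys)).map bitS ++ rest) ?_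
            (Eval.seq (Eval.push σ1 D Sym.b0) (Eval.push σ3 D Sym.b0))
          rw [hσ0, St.set_ne _ hXD, hX']
        have hD4 : σ4 D = List.replicate (a :: b :: ys).length Sym.b0 := by
          rw [hσ4, St.set_same, hσ3, St.set_same, hσ1, St.set_ne _ hXD.symm, hσ0, St.set_same]
          simp [List.replicate_succ]
        have hX4 : σ4 X = (fser (a :: b :: ys)).map bitS ++ rest := by
          rw [hσ4, St.set_ne _ hXD, hσ3, St.set_ne _ hXD, hσ1, St.set_same]
        obtain ⟨t, ht, h2⟩ := ih (a :: b :: ys) σ4 rest (by omega) hX4 hD4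
        refine ⟨((1 + 1) + 2) + t + 2, by rw [hlen]; omega, ?_⟩
        refine (Eval.loop0 hD' h1 h2).cast ?_
        funext s
        simp only [St.set_apply, hσ4, hσ3, hσ1, hσ0]
        split_ifs <;> simp_all

/-- Delete a value from `X`, with the empty counter `D`. -/
def del (X D : Stk) : Cmd := Cmd.seq (Cmd.push D Sym.b0) (Cmd.loop D (delBody X D) (delBody X D))

theorem del_spec {X D : Stk} (hXD : X ≠ D) (x : T) (σ : St) (rest : List Sym)
    (hX : σ X = word x ++ rest) (hD : σ D = []) :
    ∃ t, t ≤ 8 * sz x + 2 ∧ Eval (del X D) σ (St.set σ X rest) t := by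
  have hlen : (fser [x]).length = sz x := by simp [fser, sz]
  obtain ⟨t, ht, h⟩ := del_loop hXD _ [x] (St.set σ D (Sym.b0 :: σ D)) rest le_rfl
    (by rw [St.set_ne _ hXD, hX]; simp [fser, word])
    (by simp [hD])
  refine ⟨1 + t, by rw [hlen] at ht; omega, ?_⟩
  refine (Eval.seq (Eval.push σ D Sym.b0) h).cast ?_
  funext s
  simp only [St.set_apply]
  split_ifs <;> simp_all

/-! ### Pushing a fixed word -/

/-- Push a fixed word on `s`: the first symbol ends up on top. -/
def pushWord (s : Stk) : List Sym → Cmd
  | [] => Cmd.skip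
  | a :: l => Cmd.seq (pushWord s l) (Cmd.push s a)

theorem pushWord_spec (s : Stk) (w : List Sym) (σ : St) :
    Eval (pushWord s w) σ (St.set σ s (w ++ σ s)) w.length := by
  induction w generalizing σ with
  | nil => exact (Eval.skip σ).cast (by simp [St.set_self])
  | cons a l ih =>
    refine (Eval.seq (ih σ) (Eval.push _ s a)).cast ?_
    funext s'
    simp only [St.set_apply]
    split_ifs <;> simp_all

end Vale.Agent.Lib.P310.M
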