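import Vale.Agent.Lib.P310.M.Tab

/-!
The digit program of the tableau. Digit columns: time digits `T j = j`, position digits
`S j = m + j` (`j < m`), cell symbol `A = 2 m`, cell head `H = 2 m + 1`, digits below `q`.
`check` at a digit state with time `i`, position `s`, cell `(a, h)` accepts iff the cell `s` at
time `i` is `(a, h)`: either it is the wall, or the time is decreased; at time `0` the input is
looked up; otherwise a triple of neighbour cells with the right local rule is guessed and verified.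
-/

namespace Vale.Agent.Lib.P310.M

/-- The parameters: code, number of digit values, digits per number, input word, number of digit
columns used by the chains. -/
abbrev TPar := NCode × ℕ × ℕ × List Bool × ℕ

namespace TPar

variable (P : TPar)

def nc : NCode := P.1
def q : ℕ := P.2.1
def m : ℕ := P.2.2.1
def w : List Bool := P.2.2.2.1
def ncol : ℕ := P.2.2.2.2

def colA : ℕ := 2 * P.m
def colH : ℕ := 2 * P.m + 1
def colS (j : ℕ) : ℕ := P.m + j

/-- The start digits: time `q ^ (m - 1) - 1`, position `0`, cell `(0, 0)`. -/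
def dg0 (c : ℕ) : ℕ := if c + 1 < P.m then P.q - 1 else 0

/-- All triples of cells, as lists `[al, hl, a0, h0, ar, hr]`. -/
def triples : List (List ℕ) :=
  (List.range (P.nc.nG + 1)).flatMap fun al =>
  (List.range (P.nc.nQ + 1)).flatMap fun hl =>
  (List.range P.nc.nG).flatMap fun a0 =>
  (List.range (P.nc.nQ + 1)).flatMap fun h0 =>
  (List.range P.nc.nG).flatMap fun ar =>
  (List.range (P.nc.nQ + 1)).map fun hr => [al, hl, a0 + 1, h0, ar + 1, hr]

/-- The value of the local rule on a triple. -/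
def Ft (t : List ℕ) : ℕ × ℕ :=
  P.nc.F (t.getD 0 0) (t.getD 1 0) (t.getD 2 0) (t.getD 3 0) (t.getD 4 0) (t.getD 5 0)

/-- The expected cell at time `0` at position `s`. -/
def cell0 (s : ℕ) : ℕ × ℕ :=
  (P.nc.inputTape P.w (s - 1) + 1, if s = 1 then P.nc.q0 + 1 else 0)

end TPar

namespace L

def check : Lab := (0, [])
def wallE : Lab := (1, [])
def szero (j : ℕ) : Lab := (2, [j])
def decT (j : ℕ) : Lab := (3, [j])
def decTv (j v : ℕ) : Lab := (4, [j, v])
def pick : Lab := (5, [])
def pickT (t : List ℕ) : Lab := (6, t)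
def split (t : List ℕ) : Lab := (7, t)
def split' (t : List ℕ) : Lab := (8, t)
def brL (t : List ℕ) : Lab := (9, t)
def brC (t : List ℕ) : Lab := (10, t)
def brR (t : List ℕ) : Lab := (11, t)
def decS (j : ℕ) : Lab := (12, [j])
def decSv (j v : ℕ) : Lab := (13, [j, v])
def incS (j : ℕ) : Lab := (14, [j])
def incSv (j v : ℕ) : Lab := (15, [j, v])
def ovf : Lab := (16, [])
def acc : Lab := (17, [])
def fail : Lab := (18, [])
def init : Lab := (19, [])
def initP (v0 v1 : ℕ) : Lab := (20, [v0, v1])
def initH (j v : ℕ) : Lab := (21, [j, v])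
def start : Lab := (22, [])
def gS (j : ℕ) : Lab := (23, [j])
def gSv (j v : ℕ) : Lab := (24, [j, v])
def gA : Lab := (25, [])
def gAv (a : ℕ) : Lab := (26, [a])
def chain1 (c : ℕ) : Lab := (27, [c])
def chain2 (c : ℕ) : Lab := (28, [c])

end L

/-- The instructions of all tags, eagerly computed from the arguments of a label. -/
def tabTable (P : TPar) (l : Lab) : List DIns :=
  let a0 := l.2.getD 0 0
  let a1 := l.2.getD 1 0
  let t := l.2
  let F := P.Ft t
  [ -- 0: check
    DIns.or [L.wallE, L.decT 0],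
    -- 1: wallE
    DIns.seq [Op.test P.colA 0, Op.test P.colH 0] (L.szero 0),
    -- 2: szero j
    if a0 < P.m then DIns.seq [Op.test (P.colS a0) 0] (L.szero (a0 + 1)) else DIns.acc,
    -- 3: decT j
    if a0 < P.m then DIns.or ((List.range P.q).map fun v => L.decTv a0 v) else DIns.or [L.init],
    -- 4: decTv j v
    if a1 = 0 then DIns.seq [Op.set a0 0 (P.q - 1)] (L.decT (a0 + 1))
    else DIns.seq [Op.set a0 a1 (a1 - 1)] L.pick,
    -- 5: pick
    DIns.or (P.triples.map L.pickT),
    -- 6: pickT t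
    DIns.seq [Op.test P.colA F.1, Op.test P.colH F.2] (L.split t),
    -- 7: split t
    DIns.and (L.brL t) (L.split' t),
    -- 8: split' t
    DIns.and (L.brC t) (L.brR t),
    -- 9: brL t
    DIns.seq [Op.set P.colA F.1 (t.getD 0 0), Op.set P.colH F.2 (t.getD 1 0)] (L.decS 0),
    -- 10: brC t
    DIns.seq [Op.set P.colA F.1 (t.getD 2 0), Op.set P.colH F.2 (t.getD 3 0)] L.check,
    -- 11: brR t
    DIns.seq [Op.set P.colA F.1 (t.getD 4 0), Op.set P.colH F.2 (t.getD 5 0)] (L.incS 0),
    -- 12: decS j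
    if a0 < P.m then DIns.or ((List.range P.q).map fun v => L.decSv a0 v) else DIns.or [],
    -- 13: decSv j v
    if a1 = 0 then DIns.seq [Op.set (P.colS a0) 0 (P.q - 1)] (L.decS (a0 + 1))
    else DIns.seq [Op.set (P.colS a0) a1 (a1 - 1)] L.check,
    -- 14: incS j
    if a0 < P.m then DIns.or ((List.range P.q).map fun v => L.incSv a0 v) else DIns.or [L.ovf],
    -- 15: incSv j v
    if a1 + 1 < P.q then DIns.seq [Op.set (P.colS a0) a1 (a1 + 1)] L.check
    else DIns.seq [Op.set (P.colS a0) a1 0] (L.incS (a0 + 1)),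
    -- 16: ovf
    DIns.seq [Op.test P.colA (P.nc.bl + 1), Op.test P.colH 0] L.acc,
    -- 17: acc
    DIns.acc,
    -- 18: fail
    DIns.or [],
    -- 19: init
    DIns.or (((List.range P.q).flatMap fun v0 => (List.range P.q).map fun v1 => L.initP v0 v1) ++
      ((List.range P.m).flatMap fun j => (List.range P.q).map fun v => L.initH j v)),
    -- 20: initP v0 v1
    if a0 + P.q * a1 = 0 then DIns.or []
    else
      DIns.seq [Op.test (P.colS 0) a0, Op.test (P.colS 1) a1,
        Op.test P.colA (P.cell0 (a0 + P.q * a1)).1, Op.test P.colH (P.cell0 (a0 + P.q * a1)).2]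
        (L.szero 2),
    -- 21: initH j v
    if 2 ≤ a0 ∧ a1 ≠ 0 then
      DIns.seq [Op.test (P.colS a0) a1, Op.test P.colA (P.nc.bl + 1), Op.test P.colH 0] L.acc
    else DIns.or [],
    -- 22: start
    DIns.or [L.gS 0],
    -- 23: gS j
    if a0 < P.m then DIns.or ((List.range P.q).map fun v => L.gSv a0 v) else DIns.or [L.gA],
    -- 24: gSv j v
    DIns.seq [Op.set (P.colS a0) 0 a1] (L.gS (a0 + 1)),
    -- 25: gA
    DIns.or ((List.range P.nc.nG).map fun a => L.gAv (a + 1)),
    -- 26: gAv a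
    DIns.seq [Op.set P.colA 0 a0, Op.set P.colH 0 (P.nc.qa + 1)] L.check,
    -- 27: chain1 c
    if a0 < P.ncol then DIns.seq [Op.test a0 (P.dg0 a0)] (L.chain1 (a0 + 1)) else DIns.or [L.start],
    -- 28: chain2 c
    if a0 < P.ncol then DIns.seq [Op.test a0 (P.dg0 a0)] (L.chain2 (a0 + 1)) else DIns.acc ]

/-- The instruction of a label. -/
def tabIns (P : TPar) (l : Lab) : DIns := (tabTable P l).getD l.1 (DIns.or [])

/-- The list of all labels. -/
def tabLabs (P : TPar) : List Lab :=
  [L.check, L.wallE, L.pick, L.ovf, L.acc, L.fail, L.init, L.start, L.gA] ++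
    ((List.range (P.m + 1)).flatMap fun j => [L.szero j, L.decT j, L.decS j, L.incS j, L.gS j]) ++
    ((List.range P.m).flatMap fun j => (List.range P.q).flatMap fun v =>
      [L.decTv j v, L.decSv j v, L.incSv j v, L.gSv j v, L.initH j v]) ++
    (P.triples.flatMap fun t => [L.pickT t, L.split t, L.split' t, L.brL t, L.brC t, L.brR t]) ++
    ((List.range P.q).flatMap fun v0 => (List.range P.q).map fun v1 => L.initP v0 v1) ++
    ((List.range P.nc.nG).map fun a => L.gAv (a + 1)) ++
    ((List.range (P.ncol + 1)).flatMap fun c => [L.chain1 c, L.chain2 c])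

/-- The conditions on the parameters. -/
structure TPar.Good (P : TPar) : Prop where
  wf : P.nc.WF
  hm : 3 ≤ P.m
  hq : 2 ≤ P.q
  hnG : P.nc.nG + 2 ≤ P.q
  hnQ : P.nc.nQ + 2 ≤ P.q
  hw : P.w.length + 2 ≤ P.q * P.q
  hcol : 2 * P.m + 2 ≤ P.ncol

namespace TabProof

section Basic

variable {ins : Lab → DIns} {l l' : Lab} {dg : ℕ → ℕ}

lemma dacc_or {ls : List Lab} (h : ins l = DIns.or ls) :
    DAcc ins l dg ↔ ∃ l' ∈ ls, DAcc ins l' dg := by
  constructor
  · intro hd
    cases hd with
    | acc h' => rw [h] at h'; cases h'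
    | or h' hm h2 =>
      rw [h] at h'
      cases h'
      exact ⟨_, hm, h2⟩
    | and h' _ _ => rw [h] at h'; cases h'
    | seq h' _ _ => rw [h] at h'; cases h'
  · rintro ⟨l', hm, h'⟩
    exact DAcc.or h hm h'

lemma dacc_and {a b : Lab} (h : ins l = DIns.and a b) :
    DAcc ins l dg ↔ DAcc ins a dg ∧ DAcc ins b dg := by
  constructor
  · intro hd
    cases hd with
    | acc h' => rw [h] at h'; cases h'
    | or h' _ _ => rw [h] at h'; cases h'
    | and h' h1 h2 =>
      rw [h] at h'
      cases h'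
      exact ⟨h1, h2⟩
    | seq h' _ _ => rw [h] at h'; cases h'
  · rintro ⟨h1, h2⟩
    exact DAcc.and h h1 h2

lemma dacc_seq {ops : List Op} (h : ins l = DIns.seq ops l') :
    DAcc ins l dg ↔ ∃ dg', applyOps ops dg = some dg' ∧ DAcc ins l' dg' := by
  constructor
  · intro hd
    cases hd with
    | acc h' => rw [h] at h'; cases h'
    | or h' _ _ => rw [h] at h'; cases h'
    | and h' _ _ => rw [h] at h'; cases h'
    | seq h' ho h2 =>
      rw [h] at h'
      cases h'
      exact ⟨_, ho, h2⟩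
  · rintro ⟨dg', ho, h'⟩
    exact DAcc.seq h ho h'

lemma dacc_acc (h : ins l = DIns.acc) : DAcc ins l dg := DAcc.acc h

lemma dacc_nil (h : ins l = DIns.or []) : ¬ DAcc ins l dg := by
  rw [dacc_or h]
  simp

lemma applyOps_test (c v : ℕ) (ops : List Op) :
    applyOps (Op.test c v :: ops) dg = if dg c = v then applyOps ops dg else none := by
  by_cases h : dg c = v <;> simp [applyOps, applyOp, h]

lemma applyOps_set (c v v' : ℕ) (ops : List Op) :
    applyOps (Op.set c v v' :: ops) dg =
      if dg c = v then applyOps ops (Function.update dg c v') else none := by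
  by_cases h : dg c = v <;> simp [applyOps, applyOp, h]

lemma seq_t1 {c v : ℕ} (h : ins l = DIns.seq [Op.test c v] l') :
    DAcc ins l dg ↔ dg c = v ∧ DAcc ins l' dg := by
  rw [dacc_seq h, applyOps_test]
  by_cases hc : dg c = v <;> simp [hc, applyOps]

lemma seq_t2 {c v c' v' : ℕ} (h : ins l = DIns.seq [Op.test c v, Op.test c' v'] l') :
    DAcc ins l dg ↔ dg c = v ∧ dg c' = v' ∧ DAcc ins l' dg := by
  rw [dacc_seq h, applyOps_test, applyOps_test]
  by_cases hc : dg c = v <;> by_cases hc' : dg c' = v' <;> simp [hc, hc', applyOps]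

lemma seq_t3 {c v c' v' c'' v'' : ℕ}
    (h : ins l = DIns.seq [Op.test c v, Op.test c' v', Op.test c'' v''] l') :
    DAcc ins l dg ↔ dg c = v ∧ dg c' = v' ∧ dg c'' = v'' ∧ DAcc ins l' dg := by
  rw [dacc_seq h, applyOps_test, applyOps_test, applyOps_test]
  by_cases hc : dg c = v <;> by_cases hc' : dg c' = v' <;> by_cases hc'' : dg c'' = v'' <;>
    simp [hc, hc', hc'', applyOps]

lemma seq_t4 {c v c' v' c'' v'' c3 v3 : ℕ}
    (h : ins l = DIns.seq [Op.test c v, Op.test c' v', Op.test c'' v'', Op.test c3 v3] l') :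
    DAcc ins l dg ↔ dg c = v ∧ dg c' = v' ∧ dg c'' = v'' ∧ dg c3 = v3 ∧ DAcc ins l' dg := by
  rw [dacc_seq h, applyOps_test, applyOps_test, applyOps_test, applyOps_test]
  by_cases hc : dg c = v <;> by_cases hc' : dg c' = v' <;> by_cases hc'' : dg c'' = v'' <;>
    by_cases hc3 : dg c3 = v3 <;> simp [hc, hc', hc'', hc3, applyOps]

lemma seq_s1 {c v w : ℕ} (h : ins l = DIns.seq [Op.set c v w] l') :
    DAcc ins l dg ↔ dg c = v ∧ DAcc ins l' (Function.update dg c w) := by
  rw [dacc_seq h, applyOps_set]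
  by_cases hc : dg c = v <;> simp [hc, applyOps]

lemma seq_s2 {c v w c' v' w' : ℕ} (hne : c' ≠ c)
    (h : ins l = DIns.seq [Op.set c v w, Op.set c' v' w'] l') :
    DAcc ins l dg ↔ dg c = v ∧ dg c' = v' ∧
      DAcc ins l' (Function.update (Function.update dg c w) c' w') := by
  rw [dacc_seq h, applyOps_set, applyOps_set]
  by_cases hc : dg c = v <;> by_cases hc' : dg c' = v' <;>
    simp [hc, hc', applyOps, Function.update_of_ne hne]

/-- The value of the digits in the columns `b, ..., b + n - 1`, the lowest digit first. -/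
def val (q : ℕ) (dg : ℕ → ℕ) (b : ℕ) : ℕ → ℕ
  | 0 => 0
  | n + 1 => dg b + q * val q dg (b + 1) n

lemma val_zero (q : ℕ) (dg : ℕ → ℕ) (b : ℕ) : val q dg b 0 = 0 := rfl

lemma val_succ (q : ℕ) (dg : ℕ → ℕ) (b n : ℕ) :
    val q dg b (n + 1) = dg b + q * val q dg (b + 1) n := rfl

lemma val_congr {q : ℕ} {dg dg' : ℕ → ℕ} {b n : ℕ}
    (h : ∀ c, b ≤ c → c < b + n → dg c = dg' c) : val q dg b n = val q dg' b n := by
  induction n generalizing b with
  | zero => rfl
  | succ n ih =>
    rw [val_succ, val_succ, h b le_rfl (by omega), ih (b := b + 1)]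
    intro c h1 h2
    exact h c (by omega) (by omega)

/-- All digits in the columns `b, ..., b + n - 1` are below `q`. -/
def Dig (q : ℕ) (dg : ℕ → ℕ) (b n : ℕ) : Prop := ∀ c, b ≤ c → c < b + n → dg c < q

lemma Dig.tail {q : ℕ} {dg : ℕ → ℕ} {b n : ℕ} (h : Dig q dg b (n + 1)) : Dig q dg (b + 1) n :=
  fun c h1 h2 => h c (by omega) (by omega)

lemma Dig.head {q : ℕ} {dg : ℕ → ℕ} {b n : ℕ} (h : Dig q dg b (n + 1)) : dg b < q :=
  h b le_rfl (by omega)

lemma Dig.congr {q : ℕ} {dg dg' : ℕ → ℕ} {b n : ℕ} (h : Dig q dg b n)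
    (he : ∀ c, b ≤ c → c < b + n → dg' c = dg c) : Dig q dg' b n := by
  intro c h1 h2
  rw [he c h1 h2]
  exact h c h1 h2

lemma val_lt {q : ℕ} (hq : 1 ≤ q) {dg : ℕ → ℕ} {b n : ℕ} (h : Dig q dg b n) :
    val q dg b n < q ^ n := by
  induction n generalizing b with
  | zero => simp [val]
  | succ n ih =>
    have h1 := ih h.tail
    have h2 := h.head
    rw [val_succ, pow_succ']
    have h3 : q * (val q dg (b + 1) n + 1) ≤ q * q ^ n := Nat.mul_le_mul_left _ h1
    have h4 : q * (val q dg (b + 1) n + 1) = q * val q dg (b + 1) n + q := by ring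
    omega

lemma val_eq_zero_iff {q : ℕ} (hq : 1 ≤ q) {dg : ℕ → ℕ} {b n : ℕ} :
    val q dg b n = 0 ↔ ∀ c, b ≤ c → c < b + n → dg c = 0 := by
  induction n generalizing b with
  | zero =>
    simp only [val_zero, true_iff]
    intro c h1 h2
    omega
  | succ n ih =>
    rw [val_succ]
    constructor
    · intro h c h1 h2
      have h3 : dg b = 0 := by omega
      have h4 : q * val q dg (b + 1) n = 0 := by omega
      have h5 : val q dg (b + 1) n = 0 := by
        rcases Nat.mul_eq_zero.1 h4 with h6 | h6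
        · omega
        · exact h6
      by_cases hc : c = b
      · rw [hc, h3]
      · exact ih.1 h5 c (by omega) (by omega)
    · intro h
      have h3 : dg b = 0 := h b le_rfl (by omega)
      have h5 : val q dg (b + 1) n = 0 := ih.2 fun c h1 h2 => h c (by omega) (by omega)
      rw [h3, h5]
      simp

lemma exists_digits {q : ℕ} (hq : 1 ≤ q) (n b s : ℕ) (hs : s < q ^ n) :
    ∃ d : ℕ → ℕ, (∀ c, d c < q) ∧ val q d b n = s := by
  induction n generalizing b s with
  | zero =>
    refine ⟨fun _ => 0, fun _ => hq, ?_⟩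
    simp only [pow_zero] at hs
    simp only [val_zero]
    omega
  | succ n ih =>
    have h1 : s / q < q ^ n := by
      rw [pow_succ'] at hs
      exact Nat.div_lt_of_lt_mul hs
    obtain ⟨d, hd, hv⟩ := ih (b + 1) (s / q) h1
    refine ⟨Function.update d b (s % q), ?_, ?_⟩
    · intro c
      by_cases hc : c = b
      · rw [hc, Function.update_self]
        exact Nat.mod_lt _ (by omega)
      · rw [Function.update_of_ne hc]
        exact hd c
    · rw [val_succ, Function.update_self, val_congr (dg' := d), hv]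
      · exact Nat.mod_add_div s q
      · intro c h2 _
        exact Function.update_of_ne (by omega) _ _

end Basic

section Gadget

variable {ins : Lab → DIns} {q m b : ℕ} {labD : ℕ → Lab} {labV : ℕ → ℕ → Lab} {succ : Lab}

/-- The form of a decrement chain. -/
structure DecGadget (ins : Lab → DIns) (q m b : ℕ) (labD : ℕ → Lab) (labV : ℕ → ℕ → Lab)
    (succ : Lab) : Prop where
  hD : ∀ j, j < m → ins (labD j) = DIns.or ((List.range q).map (labV j))
  hV0 : ∀ j, ins (labV j 0) = DIns.seq [Op.set (b + j) 0 (q - 1)] (labD (j + 1))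
  hV : ∀ j v, v ≠ 0 → ins (labV j v) = DIns.seq [Op.set (b + j) v (v - 1)] succ

lemma DecGadget.step (G : DecGadget ins q m b labD labV succ) {j : ℕ} {dg : ℕ → ℕ} (hj : j < m)
    (hd : dg (b + j) < q) :
    DAcc ins (labD j) dg ↔
      if dg (b + j) = 0 then DAcc ins (labD (j + 1)) (Function.update dg (b + j) (q - 1))
      else DAcc ins succ (Function.update dg (b + j) (dg (b + j) - 1)) := by
  rw [dacc_or (G.hD j hj)]
  constructor
  · rintro ⟨l', hl', h⟩
    obtain ⟨v, -, rfl⟩ := List.mem_map.1 hl'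
    by_cases hv : v = 0
    · subst hv
      obtain ⟨h1, h2⟩ := (seq_s1 (G.hV0 j)).1 h
      rw [if_pos h1]
      exact h2
    · obtain ⟨h1, h2⟩ := (seq_s1 (G.hV j v hv)).1 h
      rw [if_neg (by omega), h1]
      exact h2
  · intro h
    refine ⟨labV j (dg (b + j)), List.mem_map.2 ⟨_, List.mem_range.2 hd, rfl⟩, ?_⟩
    by_cases hv : dg (b + j) = 0
    · rw [if_pos hv] at h
      rw [hv]
      exact (seq_s1 (G.hV0 j)).2 ⟨hv, h⟩
    · rw [if_neg hv] at h
      exact (seq_s1 (G.hV j _ hv)).2 ⟨rfl, h⟩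

lemma DecGadget.zero (G : DecGadget ins q m b labD labV succ) (hq : 1 ≤ q) :
    ∀ (n j : ℕ), j + n = m → ∀ dg : ℕ → ℕ, val q dg (b + j) n = 0 →
      ∃ dg' : ℕ → ℕ, (∀ c, (c < b + j ∨ b + m ≤ c) → dg' c = dg c) ∧
        (DAcc ins (labD j) dg ↔ DAcc ins (labD m) dg') := by
  intro n
  induction n with
  | zero =>
    intro j hj dg _
    obtain rfl : j = m := by omega
    exact ⟨dg, fun _ _ => rfl, Iff.rfl⟩
  | succ n ih =>
    intro j hj dg hv
    rw [val_succ] at hv
    have h0 : dg (b + j) = 0 := by omega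
    have h1 : q * val q dg (b + j + 1) n = 0 := by omega
    have h2 : val q dg (b + j + 1) n = 0 := by
      rcases Nat.mul_eq_zero.1 h1 with h6 | h6
      · omega
      · exact h6
    have h3 : val q (Function.update dg (b + j) (q - 1)) (b + (j + 1)) n = 0 := by
      rw [← h2]
      apply val_congr
      intro c h4 _
      exact Function.update_of_ne (by omega) _ _
    obtain ⟨dg', hf, hd⟩ := ih (j + 1) (by omega) _ h3
    refine ⟨dg', ?_, ?_⟩
    · intro c hc
      rw [hf c (by omega)]
      exact Function.update_of_ne (by omega) _ _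
    · rw [G.step (by omega) (by omega), if_pos h0, hd]

lemma DecGadget.pos (G : DecGadget ins q m b labD labV succ) (hq : 1 ≤ q) :
    ∀ (n j : ℕ), j + n = m → ∀ dg : ℕ → ℕ, Dig q dg (b + j) n → val q dg (b + j) n ≠ 0 →
      ∃ dg' : ℕ → ℕ, (∀ c, (c < b + j ∨ b + m ≤ c) → dg' c = dg c) ∧ Dig q dg' (b + j) n ∧
        val q dg' (b + j) n + 1 = val q dg (b + j) n ∧
        (DAcc ins (labD j) dg ↔ DAcc ins succ dg') := by
  intro n
  induction n with
  | zero =>
    intro j _ dg _ hv
    exact absurd rfl hv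
  | succ n ih =>
    intro j hj dg hD hv
    have hd := hD.head
    by_cases h0 : dg (b + j) = 0
    · rw [val_succ, h0, Nat.zero_add] at hv
      have h2 : val q dg (b + j + 1) n ≠ 0 := by
        intro h
        rw [h] at hv
        simp at hv
      have hfr : val q (Function.update dg (b + j) (q - 1)) (b + (j + 1)) n
          = val q dg (b + j + 1) n := by
        apply val_congr
        intro c h4 _
        exact Function.update_of_ne (by omega) _ _
      have hD1 : Dig q (Function.update dg (b + j) (q - 1)) (b + (j + 1)) n := by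
        apply hD.tail.congr
        intro c h4 _
        exact Function.update_of_ne (by omega) _ _
      obtain ⟨dg', hf, hD', hv', hd'⟩ := ih (j + 1) (by omega) _ hD1 (by rw [hfr]; exact h2)
      have hbj : dg' (b + j) = q - 1 := by
        rw [hf _ (Or.inl (by omega))]
        exact Function.update_self _ _ _
      refine ⟨dg', ?_, ?_, ?_, ?_⟩
      · intro c hc
        rw [hf c (by omega)]
        exact Function.update_of_ne (by omega) _ _
      · intro c h1 h2
        by_cases hc : c = b + j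
        · rw [hc, hbj]
          omega
        · exact hD' c (by omega) (by omega)
      · rw [val_succ, val_succ, h0, hbj]
        rw [hfr] at hv'
        have e : val q dg' (b + (j + 1)) n = val q dg' (b + j + 1) n := rfl
        rw [e] at hv'
        rw [← hv']
        have : q * (val q dg' (b + j + 1) n + 1) = q * val q dg' (b + j + 1) n + q := by ring
        omega
      · rw [G.step (by omega) hd, if_pos h0, hd']
    · refine ⟨Function.update dg (b + j) (dg (b + j) - 1), ?_, ?_, ?_, ?_⟩
      · intro c hc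
        exact Function.update_of_ne (by omega) _ _
      · intro c h1 h2
        by_cases hc : c = b + j
        · rw [hc, Function.update_self]
          omega
        · rw [Function.update_of_ne hc]
          exact hD c h1 h2
      · rw [val_succ, val_succ, Function.update_self]
        have e : val q (Function.update dg (b + j) (dg (b + j) - 1)) (b + j + 1) n
            = val q dg (b + j + 1) n := by
          apply val_congr
          intro c h4 _
          exact Function.update_of_ne (by omega) _ _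
        rw [e]
        omega
      · rw [G.step (by omega) hd, if_neg h0]

variable {labI : ℕ → Lab} {labW : ℕ → ℕ → Lab}

/-- The form of an increment chain. -/
structure IncGadget (ins : Lab → DIns) (q m b : ℕ) (labI : ℕ → Lab) (labW : ℕ → ℕ → Lab)
    (succ : Lab) : Prop where
  hI : ∀ j, j < m → ins (labI j) = DIns.or ((List.range q).map (labW j))
  hW1 : ∀ j v, v + 1 < q → ins (labW j v) = DIns.seq [Op.set (b + j) v (v + 1)] succ
  hW2 : ∀ j v, ¬ v + 1 < q → ins (labW j v) = DIns.seq [Op.set (b + j) v 0] (labI (j + 1))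

lemma IncGadget.step (G : IncGadget ins q m b labI labW succ) {j : ℕ} {dg : ℕ → ℕ} (hj : j < m)
    (hd : dg (b + j) < q) :
    DAcc ins (labI j) dg ↔
      if dg (b + j) + 1 < q then DAcc ins succ (Function.update dg (b + j) (dg (b + j) + 1))
      else DAcc ins (labI (j + 1)) (Function.update dg (b + j) 0) := by
  rw [dacc_or (G.hI j hj)]
  constructor
  · rintro ⟨l', hl', h⟩
    obtain ⟨v, -, rfl⟩ := List.mem_map.1 hl'
    by_cases hv : v + 1 < q
    · obtain ⟨h1, h2⟩ := (seq_s1 (G.hW1 j v hv)).1 h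
      rw [if_pos (by omega), h1]
      exact h2
    · obtain ⟨h1, h2⟩ := (seq_s1 (G.hW2 j v hv)).1 h
      rw [if_neg (by omega)]
      exact h2
  · intro h
    refine ⟨labW j (dg (b + j)), List.mem_map.2 ⟨_, List.mem_range.2 hd, rfl⟩, ?_⟩
    by_cases hv : dg (b + j) + 1 < q
    · rw [if_pos hv] at h
      exact (seq_s1 (G.hW1 j _ hv)).2 ⟨rfl, h⟩
    · rw [if_neg hv] at h
      exact (seq_s1 (G.hW2 j _ hv)).2 ⟨rfl, h⟩

/-- The arithmetic of a carry. -/
lemma carry_arith {q d V Q : ℕ} (hd : d < q) (hV : V < Q) (h : d + q * V + 1 = q * Q) :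
    d + 1 = q ∧ V + 1 = Q := by
  have h1 : q * (V + 1) ≤ q * Q := Nat.mul_le_mul_left _ hV
  have h2 : q * (V + 1) = q * V + q := by ring
  have h3 : d + 1 = q := by
    by_contra hne
    have h4 : d + 1 < q := by omega
    have h5 : q * V < q * Q := by omega
    have h6 : V < Q := Nat.lt_of_mul_lt_mul_left h5
    have h7 : q * (V + 1) ≤ q * Q := Nat.mul_le_mul_left _ h6
    omega
  refine ⟨h3, ?_⟩
  have h8 : q * (V + 1) = q * Q := by omega
  exact Nat.eq_of_mul_eq_mul_left (by omega) h8

lemma IncGadget.full (G : IncGadget ins q m b labI labW succ) (hq : 1 ≤ q) :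
    ∀ (n j : ℕ), j + n = m → ∀ dg : ℕ → ℕ, Dig q dg (b + j) n → val q dg (b + j) n + 1 = q ^ n →
      ∃ dg' : ℕ → ℕ, (∀ c, (c < b + j ∨ b + m ≤ c) → dg' c = dg c) ∧
        (DAcc ins (labI j) dg ↔ DAcc ins (labI m) dg') := by
  intro n
  induction n with
  | zero =>
    intro j hj dg _ _
    obtain rfl : j = m := by omega
    exact ⟨dg, fun _ _ => rfl, Iff.rfl⟩
  | succ n ih =>
    intro j hj dg hD hv
    have hd := hD.head
    have hV := val_lt hq hD.tail
    rw [val_succ, pow_succ'] at hv
    obtain ⟨h1, h2⟩ := carry_arith hd hV hv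
    have hD1 : Dig q (Function.update dg (b + j) 0) (b + (j + 1)) n := by
      apply hD.tail.congr
      intro c h4 _
      exact Function.update_of_ne (by omega) _ _
    have hfr : val q (Function.update dg (b + j) 0) (b + (j + 1)) n
        = val q dg (b + j + 1) n := by
      apply val_congr
      intro c h4 _
      exact Function.update_of_ne (by omega) _ _
    obtain ⟨dg', hf, hd'⟩ := ih (j + 1) (by omega) _ hD1 (by rw [hfr]; exact h2)
    refine ⟨dg', ?_, ?_⟩
    · intro c hc
      rw [hf c (by omega)]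
      exact Function.update_of_ne (by omega) _ _
    · rw [G.step (by omega) hd, if_neg (by omega), hd']

lemma IncGadget.ok (G : IncGadget ins q m b labI labW succ) (hq : 1 ≤ q) :
    ∀ (n j : ℕ), j + n = m → ∀ dg : ℕ → ℕ, Dig q dg (b + j) n → val q dg (b + j) n + 1 < q ^ n →
      ∃ dg' : ℕ → ℕ, (∀ c, (c < b + j ∨ b + m ≤ c) → dg' c = dg c) ∧ Dig q dg' (b + j) n ∧
        val q dg' (b + j) n = val q dg (b + j) n + 1 ∧
        (DAcc ins (labI j) dg ↔ DAcc ins succ dg') := by
  intro n
  induction n with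
  | zero =>
    intro j _ dg _ hv
    simp [val] at hv
  | succ n ih =>
    intro j hj dg hD hv
    have hd := hD.head
    by_cases h1 : dg (b + j) + 1 < q
    · refine ⟨Function.update dg (b + j) (dg (b + j) + 1), ?_, ?_, ?_, ?_⟩
      · intro c hc
        exact Function.update_of_ne (by omega) _ _
      · intro c h3 h2
        by_cases hc : c = b + j
        · rw [hc, Function.update_self]
          exact h1
        · rw [Function.update_of_ne hc]
          exact hD c h3 h2
      · rw [val_succ, val_succ, Function.update_self]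
        have e : val q (Function.update dg (b + j) (dg (b + j) + 1)) (b + j + 1) n
            = val q dg (b + j + 1) n := by
          apply val_congr
          intro c h4 _
          exact Function.update_of_ne (by omega) _ _
        rw [e]
        omega
      · rw [G.step (by omega) hd, if_pos h1]
    · have h3 : dg (b + j) + 1 = q := by omega
      rw [val_succ, pow_succ'] at hv
      have h4 : val q dg (b + j + 1) n + 1 < q ^ n := by
        have h5 : q * (val q dg (b + j + 1) n + 1) < q * q ^ n := by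
          have : q * (val q dg (b + j + 1) n + 1) = q * val q dg (b + j + 1) n + q := by ring
          omega
        exact Nat.lt_of_mul_lt_mul_left h5
      have hD1 : Dig q (Function.update dg (b + j) 0) (b + (j + 1)) n := by
        apply hD.tail.congr
        intro c h6 _
        exact Function.update_of_ne (by omega) _ _
      have hfr : val q (Function.update dg (b + j) 0) (b + (j + 1)) n
          = val q dg (b + j + 1) n := by
        apply val_congr
        intro c h6 _
        exact Function.update_of_ne (by omega) _ _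
      obtain ⟨dg', hf, hD', hv', hd'⟩ := ih (j + 1) (by omega) _ hD1 (by rw [hfr]; exact h4)
      have hbj : dg' (b + j) = 0 := by
        rw [hf _ (Or.inl (by omega))]
        exact Function.update_self _ _ _
      refine ⟨dg', ?_, ?_, ?_, ?_⟩
      · intro c hc
        rw [hf c (by omega)]
        exact Function.update_of_ne (by omega) _ _
      · intro c h5 h6
        by_cases hc : c = b + j
        · rw [hc, hbj]
          omega
        · exact hD' c (by omega) (by omega)
      · rw [val_succ, val_succ, hbj]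
        rw [hfr] at hv'
        have e : val q dg' (b + (j + 1)) n = val q dg' (b + j + 1) n := rfl
        rw [e] at hv'
        rw [hv']
        have : q * (val q dg (b + j + 1) n + 1) = q * val q dg (b + j + 1) n + q := by ring
        omega
      · rw [G.step (by omega) hd, if_neg h1, hd']

end Gadget

section Ins

variable (P : TPar)

lemma ins_check : tabIns P L.check = DIns.or [L.wallE, L.decT 0] := rfl
lemma ins_wallE :
    tabIns P L.wallE = DIns.seq [Op.test P.colA 0, Op.test P.colH 0] (L.szero 0) := rfl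
lemma ins_szero (j : ℕ) : tabIns P (L.szero j) =
    if j < P.m then DIns.seq [Op.test (P.colS j) 0] (L.szero (j + 1)) else DIns.acc := rfl
lemma ins_decT (j : ℕ) : tabIns P (L.decT j) =
    if j < P.m then DIns.or ((List.range P.q).map fun v => L.decTv j v)
    else DIns.or [L.init] := rfl
lemma ins_decTv (j v : ℕ) : tabIns P (L.decTv j v) =
    if v = 0 then DIns.seq [Op.set j 0 (P.q - 1)] (L.decT (j + 1))
    else DIns.seq [Op.set j v (v - 1)] L.pick := rfl
lemma ins_pick : tabIns P L.pick = DIns.or (P.triples.map L.pickT) := rfl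
lemma ins_pickT (t : List ℕ) : tabIns P (L.pickT t) =
    DIns.seq [Op.test P.colA (P.Ft t).1, Op.test P.colH (P.Ft t).2] (L.split t) := rfl
lemma ins_split (t : List ℕ) : tabIns P (L.split t) = DIns.and (L.brL t) (L.split' t) := rfl
lemma ins_split' (t : List ℕ) : tabIns P (L.split' t) = DIns.and (L.brC t) (L.brR t) := rfl
lemma ins_brL (t : List ℕ) : tabIns P (L.brL t) =
    DIns.seq [Op.set P.colA (P.Ft t).1 (t.getD 0 0), Op.set P.colH (P.Ft t).2 (t.getD 1 0)]
      (L.decS 0) := rfl
lemma ins_brC (t : List ℕ) : tabIns P (L.brC t) =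
    DIns.seq [Op.set P.colA (P.Ft t).1 (t.getD 2 0), Op.set P.colH (P.Ft t).2 (t.getD 3 0)]
      L.check := rfl
lemma ins_brR (t : List ℕ) : tabIns P (L.brR t) =
    DIns.seq [Op.set P.colA (P.Ft t).1 (t.getD 4 0), Op.set P.colH (P.Ft t).2 (t.getD 5 0)]
      (L.incS 0) := rfl
lemma ins_decS (j : ℕ) : tabIns P (L.decS j) =
    if j < P.m then DIns.or ((List.range P.q).map fun v => L.decSv j v) else DIns.or [] := rfl
lemma ins_decSv (j v : ℕ) : tabIns P (L.decSv j v) =
    if v = 0 then DIns.seq [Op.set (P.colS j) 0 (P.q - 1)] (L.decS (j + 1))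
    else DIns.seq [Op.set (P.colS j) v (v - 1)] L.check := rfl
lemma ins_incS (j : ℕ) : tabIns P (L.incS j) =
    if j < P.m then DIns.or ((List.range P.q).map fun v => L.incSv j v) else DIns.or [L.ovf] := rfl
lemma ins_incSv (j v : ℕ) : tabIns P (L.incSv j v) =
    if v + 1 < P.q then DIns.seq [Op.set (P.colS j) v (v + 1)] L.check
    else DIns.seq [Op.set (P.colS j) v 0] (L.incS (j + 1)) := rfl
lemma ins_ovf : tabIns P L.ovf =
    DIns.seq [Op.test P.colA (P.nc.bl + 1), Op.test P.colH 0] L.acc := rfl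
lemma ins_acc : tabIns P L.acc = DIns.acc := rfl
lemma ins_fail : tabIns P L.fail = DIns.or [] := rfl
lemma ins_init : tabIns P L.init =
    DIns.or (((List.range P.q).flatMap fun v0 => (List.range P.q).map fun v1 => L.initP v0 v1) ++
      ((List.range P.m).flatMap fun j => (List.range P.q).map fun v => L.initH j v)) := rfl
lemma ins_initP (a0 a1 : ℕ) : tabIns P (L.initP a0 a1) =
    if a0 + P.q * a1 = 0 then DIns.or []
    else
      DIns.seq [Op.test (P.colS 0) a0, Op.test (P.colS 1) a1,
        Op.test P.colA (P.cell0 (a0 + P.q * a1)).1, Op.test P.colH (P.cell0 (a0 + P.q * a1)).2]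
        (L.szero 2) := rfl
lemma ins_initH (a0 a1 : ℕ) : tabIns P (L.initH a0 a1) =
    if 2 ≤ a0 ∧ a1 ≠ 0 then
      DIns.seq [Op.test (P.colS a0) a1, Op.test P.colA (P.nc.bl + 1), Op.test P.colH 0] L.acc
    else DIns.or [] := rfl
lemma ins_start : tabIns P L.start = DIns.or [L.gS 0] := rfl
lemma ins_gS (j : ℕ) : tabIns P (L.gS j) =
    if j < P.m then DIns.or ((List.range P.q).map fun v => L.gSv j v) else DIns.or [L.gA] := rfl
lemma ins_gSv (j v : ℕ) : tabIns P (L.gSv j v) =
    DIns.seq [Op.set (P.colS j) 0 v] (L.gS (j + 1)) := rfl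
lemma ins_gA : tabIns P L.gA = DIns.or ((List.range P.nc.nG).map fun a => L.gAv (a + 1)) := rfl
lemma ins_gAv (a : ℕ) : tabIns P (L.gAv a) =
    DIns.seq [Op.set P.colA 0 a, Op.set P.colH 0 (P.nc.qa + 1)] L.check := rfl
lemma ins_chain1 (c : ℕ) : tabIns P (L.chain1 c) =
    if c < P.ncol then DIns.seq [Op.test c (P.dg0 c)] (L.chain1 (c + 1)) else DIns.or [L.start] := rfl
lemma ins_chain2 (c : ℕ) : tabIns P (L.chain2 c) =
    if c < P.ncol then DIns.seq [Op.test c (P.dg0 c)] (L.chain2 (c + 1)) else DIns.acc := rfl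

lemma mem_triples {t : List ℕ} : t ∈ P.triples ↔
    ∃ al hl a0 h0 ar hr, al ≤ P.nc.nG ∧ hl ≤ P.nc.nQ ∧ a0 < P.nc.nG ∧ h0 ≤ P.nc.nQ ∧
      ar < P.nc.nG ∧ hr ≤ P.nc.nQ ∧ t = [al, hl, a0 + 1, h0, ar + 1, hr] := by
  simp only [TPar.triples, List.mem_flatMap, List.mem_map, List.mem_range, Nat.lt_succ_iff]
  constructor
  · rintro ⟨al, h1, hl, h2, a0, h3, h0, h4, ar, h5, hr, h6, rfl⟩
    exact ⟨al, hl, a0, h0, ar, hr, h1, h2, h3, h4, h5, h6, rfl⟩
  · rintro ⟨al, hl, a0, h0, ar, hr, h1, h2, h3, h4, h5, h6, rfl⟩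
    exact ⟨al, h1, hl, h2, a0, h3, h0, h4, ar, h5, hr, h6, rfl⟩

variable {P}

lemma szero_iff (hq : 1 ≤ P.q) : ∀ (n j : ℕ), j + n = P.m → ∀ dg : ℕ → ℕ,
    (DAcc (tabIns P) (L.szero j) dg ↔ val P.q dg (P.m + j) n = 0) := by
  intro n
  induction n with
  | zero =>
    intro j hj dg
    have h1 : tabIns P (L.szero j) = DIns.acc := by
      rw [ins_szero, if_neg (by omega)]
    simp only [val_zero, iff_true]
    exact dacc_acc h1
  | succ n ih =>
    intro j hj dg
    have h1 : tabIns P (L.szero j) = DIns.seq [Op.test (P.colS j) 0] (L.szero (j + 1)) := by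
      rw [ins_szero, if_pos (by omega)]
    rw [seq_t1 h1, ih (j + 1) (by omega) dg, val_succ]
    have e : P.colS j = P.m + j := rfl
    rw [e]
    have e2 : P.m + (j + 1) = P.m + j + 1 := rfl
    rw [e2]
    constructor
    · rintro ⟨h2, h3⟩
      rw [h2, h3]
      rfl
    · intro h
      have h2 : dg (P.m + j) = 0 := by omega
      have h3 : P.q * val P.q dg (P.m + j + 1) n = 0 := by omega
      refine ⟨h2, ?_⟩
      rcases Nat.mul_eq_zero.1 h3 with h6 | h6
      · omega
      · exact h6

/-- The digit value of the position. -/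
def sval (P : TPar) (dg : ℕ → ℕ) : ℕ := val P.q dg P.m P.m

/-- The digit value of the time. -/
def tval (P : TPar) (dg : ℕ → ℕ) : ℕ := val P.q dg 0 P.m

lemma wallE_iff (hq : 1 ≤ P.q) (dg : ℕ → ℕ) :
    DAcc (tabIns P) L.wallE dg ↔ dg P.colA = 0 ∧ dg P.colH = 0 ∧ sval P dg = 0 := by
  rw [seq_t2 (ins_wallE P), szero_iff hq P.m 0 (by omega) dg]
  rfl

lemma decT_gadget : DecGadget (tabIns P) P.q P.m 0 L.decT L.decTv L.pick where
  hD j hj := by rw [ins_decT, if_pos hj]
  hV0 j := by rw [ins_decTv, if_pos rfl, Nat.zero_add]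
  hV j v hv := by rw [ins_decTv, if_neg hv, Nat.zero_add]

lemma decS_gadget : DecGadget (tabIns P) P.q P.m P.m L.decS L.decSv L.check where
  hD j hj := by rw [ins_decS, if_pos hj]
  hV0 j := by rw [ins_decSv, if_pos rfl]; rfl
  hV j v hv := by rw [ins_decSv, if_neg hv]; rfl

lemma incS_gadget : IncGadget (tabIns P) P.q P.m P.m L.incS L.incSv L.check where
  hI j hj := by rw [ins_incS, if_pos hj]
  hW1 j v hv := by rw [ins_incSv, if_pos hv]; rfl
  hW2 j v hv := by rw [ins_incSv, if_neg hv]; rfl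

lemma decT_end (dg : ℕ → ℕ) : DAcc (tabIns P) (L.decT P.m) dg ↔ DAcc (tabIns P) L.init dg := by
  have h : tabIns P (L.decT P.m) = DIns.or [L.init] := by
    rw [ins_decT, if_neg (lt_irrefl _)]
  rw [dacc_or h]
  simp

lemma decS_end (dg : ℕ → ℕ) : ¬ DAcc (tabIns P) (L.decS P.m) dg := by
  have h : tabIns P (L.decS P.m) = DIns.or [] := by
    rw [ins_decS, if_neg (lt_irrefl _)]
  exact dacc_nil h

lemma ovf_iff (dg : ℕ → ℕ) :
    DAcc (tabIns P) L.ovf dg ↔ dg P.colA = P.nc.bl + 1 ∧ dg P.colH = 0 := by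
  rw [seq_t2 (ins_ovf P)]
  have : DAcc (tabIns P) L.acc dg := dacc_acc (ins_acc P)
  simp [this]

lemma incS_end (dg : ℕ → ℕ) :
    DAcc (tabIns P) (L.incS P.m) dg ↔ dg P.colA = P.nc.bl + 1 ∧ dg P.colH = 0 := by
  have h : tabIns P (L.incS P.m) = DIns.or [L.ovf] := by
    rw [ins_incS, if_neg (lt_irrefl _)]
  rw [dacc_or h, ← ovf_iff]
  simp

end Ins

section Main

variable {P : TPar}

lemma val_two (q : ℕ) (dg : ℕ → ℕ) (b N : ℕ) (h : 2 ≤ N) :
    val q dg b N = dg b + q * (dg (b + 1) + q * val q dg (b + 2) (N - 2)) := by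
  obtain ⟨n, rfl⟩ : ∃ n, N = n + 2 := ⟨N - 2, by omega⟩
  rfl

lemma cell_zero_of_ne {s : ℕ} (hs : s ≠ 0) : P.nc.cell P.w 0 s = P.cell0 s := by
  obtain ⟨s', rfl⟩ := Nat.exists_eq_succ_of_ne_zero hs
  simp only [NCode.cell, NCode.run, TPar.cell0, Nat.succ_eq_add_one, Nat.add_sub_cancel]
  by_cases h : s' = 0
  · subst h
    simp
  · have h1 : ¬ (0 = s') := fun e => h e.symm
    simp [h1, h]

lemma cell0_far (hP : P.Good) {s : ℕ} (hs : P.q * P.q ≤ s) : P.cell0 s = (P.nc.bl + 1, 0) := by
  have hw := hP.hw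
  have h1 : ¬ (s = 1) := by omega
  have h2 : ¬ (s - 1 < P.w.length) := by omega
  simp [TPar.cell0, NCode.inputTape, h1, h2]

lemma initP_iff (hq : 1 ≤ P.q) (v0 v1 : ℕ) (dg : ℕ → ℕ) (hm : 2 ≤ P.m) :
    DAcc (tabIns P) (L.initP v0 v1) dg ↔ v0 + P.q * v1 ≠ 0 ∧ dg P.m = v0 ∧ dg (P.m + 1) = v1 ∧
      dg P.colA = (P.cell0 (v0 + P.q * v1)).1 ∧ dg P.colH = (P.cell0 (v0 + P.q * v1)).2 ∧
      val P.q dg (P.m + 2) (P.m - 2) = 0 := by
  by_cases h : v0 + P.q * v1 = 0
  · have h1 : tabIns P (L.initP v0 v1) = DIns.or [] := by rw [ins_initP, if_pos h]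
    constructor
    · intro hd
      exact absurd hd (dacc_nil h1)
    · rintro ⟨h2, -⟩
      exact absurd h h2
  · have h1 : tabIns P (L.initP v0 v1) = DIns.seq [Op.test (P.colS 0) v0, Op.test (P.colS 1) v1,
        Op.test P.colA (P.cell0 (v0 + P.q * v1)).1, Op.test P.colH (P.cell0 (v0 + P.q * v1)).2]
        (L.szero 2) := by rw [ins_initP, if_neg h]
    rw [seq_t4 h1, szero_iff hq (P.m - 2) 2 (by omega) dg]
    have e1 : P.colS 0 = P.m := rfl
    have e2 : P.colS 1 = P.m + 1 := rfl
    rw [e1, e2]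
    exact ⟨fun h' => ⟨h, h'⟩, fun h' => h'.2⟩

lemma initH_iff (j v : ℕ) (dg : ℕ → ℕ) :
    DAcc (tabIns P) (L.initH j v) dg ↔ 2 ≤ j ∧ v ≠ 0 ∧ dg (P.m + j) = v ∧
      dg P.colA = P.nc.bl + 1 ∧ dg P.colH = 0 := by
  by_cases h : 2 ≤ j ∧ v ≠ 0
  · have h1 : tabIns P (L.initH j v) = DIns.seq [Op.test (P.colS j) v,
        Op.test P.colA (P.nc.bl + 1), Op.test P.colH 0] L.acc := by rw [ins_initH, if_pos h]
    rw [seq_t3 h1]
    have : DAcc (tabIns P) L.acc dg := dacc_acc (ins_acc P)
    have e1 : P.colS j = P.m + j := rfl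
    rw [e1]
    simp [this, h.1, h.2]
  · have h1 : tabIns P (L.initH j v) = DIns.or [] := by rw [ins_initH, if_neg h]
    constructor
    · intro hd
      exact absurd hd (dacc_nil h1)
    · rintro ⟨h2, h3, -⟩
      exact absurd ⟨h2, h3⟩ h

lemma init_iff (hP : P.Good) (dg : ℕ → ℕ) (hS : Dig P.q dg P.m P.m) :
    DAcc (tabIns P) L.init dg ↔
      sval P dg ≠ 0 ∧ P.nc.cell P.w 0 (sval P dg) = (dg P.colA, dg P.colH) := by
  have hq : 1 ≤ P.q := by have := hP.hq; omega
  have hm2 : 2 ≤ P.m := by have := hP.hm; omega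
  have hs : sval P dg = dg P.m + P.q * (dg (P.m + 1) + P.q * val P.q dg (P.m + 2) (P.m - 2)) :=
    val_two _ _ _ _ hm2
  rw [dacc_or (ins_init P)]
  constructor
  · rintro ⟨l', hl', hd⟩
    rcases List.mem_append.1 hl' with h1 | h1
    · obtain ⟨v0, -, h2⟩ := List.mem_flatMap.1 h1
      obtain ⟨v1, -, rfl⟩ := List.mem_map.1 h2
      obtain ⟨h3, h4, h5, h6, h7, h8⟩ := (initP_iff hq v0 v1 dg hm2).1 hd
      have hs' : sval P dg = v0 + P.q * v1 := by
        rw [hs, h4, h5, h8]
        simp
      rw [hs']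
      refine ⟨h3, ?_⟩
      rw [cell_zero_of_ne h3, h6, h7]
    · obtain ⟨j, hj, h2⟩ := List.mem_flatMap.1 h1
      obtain ⟨v, -, rfl⟩ := List.mem_map.1 h2
      obtain ⟨h3, h4, h5, h6, h7⟩ := (initH_iff j v dg).1 hd
      have hj' : j < P.m := List.mem_range.1 hj
      have hr : val P.q dg (P.m + 2) (P.m - 2) ≠ 0 := by
        intro h0
        have := (val_eq_zero_iff hq).1 h0 (P.m + j) (by omega) (by omega)
        omega
      have hr' : 1 ≤ val P.q dg (P.m + 2) (P.m - 2) := Nat.one_le_iff_ne_zero.2 hr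
      have hge : P.q * P.q ≤ sval P dg := by
        rw [hs]
        have h8 : P.q * 1 ≤ P.q * val P.q dg (P.m + 2) (P.m - 2) := Nat.mul_le_mul_left _ hr'
        have h9 : P.q * (P.q * 1) ≤
            P.q * (dg (P.m + 1) + P.q * val P.q dg (P.m + 2) (P.m - 2)) :=
          Nat.mul_le_mul_left _ (by omega)
        simp only [Nat.mul_one] at h9
        omega
      have hqq : 1 ≤ P.q * P.q := Nat.mul_pos hq hq
      refine ⟨by omega, ?_⟩
      rw [cell_zero_of_ne (by omega), cell0_far hP hge, h6, h7]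
  · rintro ⟨h1, h2⟩
    by_cases hr : val P.q dg (P.m + 2) (P.m - 2) = 0
    · have hs' : sval P dg = dg P.m + P.q * dg (P.m + 1) := by
        rw [hs, hr]
        simp
      rw [hs'] at h1 h2
      rw [cell_zero_of_ne h1] at h2
      refine ⟨L.initP (dg P.m) (dg (P.m + 1)), ?_, ?_⟩
      · apply List.mem_append_left
        refine List.mem_flatMap.2 ⟨dg P.m, List.mem_range.2 (hS _ le_rfl (by omega)), ?_⟩
        exact List.mem_map.2 ⟨_, List.mem_range.2 (hS _ (by omega) (by omega)), rfl⟩
      · refine (initP_iff hq _ _ dg hm2).2 ⟨h1, rfl, rfl, ?_, ?_, hr⟩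
        · rw [h2]
        · rw [h2]
    · have hnot : ¬ ∀ c, P.m + 2 ≤ c → c < P.m + 2 + (P.m - 2) → dg c = 0 := by
        intro h
        exact hr ((val_eq_zero_iff hq).2 h)
      push Not at hnot
      obtain ⟨c, hc1, hc2, hc3⟩ := hnot
      have hr' : 1 ≤ val P.q dg (P.m + 2) (P.m - 2) := Nat.one_le_iff_ne_zero.2 hr
      have hge : P.q * P.q ≤ sval P dg := by
        rw [hs]
        have h8 : P.q * 1 ≤ P.q * val P.q dg (P.m + 2) (P.m - 2) := Nat.mul_le_mul_left _ hr'
        have h9 : P.q * (P.q * 1) ≤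
            P.q * (dg (P.m + 1) + P.q * val P.q dg (P.m + 2) (P.m - 2)) :=
          Nat.mul_le_mul_left _ (by omega)
        simp only [Nat.mul_one] at h9
        omega
      rw [cell_zero_of_ne h1, cell0_far hP hge] at h2
      have h3 := (Prod.mk.inj h2).1
      have h4 := (Prod.mk.inj h2).2
      obtain ⟨j, rfl⟩ : ∃ j, c = P.m + j := ⟨c - P.m, by omega⟩
      refine ⟨L.initH j (dg (P.m + j)), ?_, ?_⟩
      · apply List.mem_append_right
        refine List.mem_flatMap.2 ⟨j, List.mem_range.2 (by omega), ?_⟩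
        exact List.mem_map.2 ⟨_, List.mem_range.2 (hS _ (by omega) (by omega)), rfl⟩
      · exact (initH_iff j _ dg).2 ⟨by omega, hc3, rfl, h3.symm, h4.symm⟩

/-- The hypothesis of induction: the correctness of `check` at time `i`. -/
def CheckAt (P : TPar) (i : ℕ) : Prop :=
  ∀ dg : ℕ → ℕ, Dig P.q dg 0 P.m → Dig P.q dg P.m P.m → tval P dg = i →
    (DAcc (tabIns P) L.check dg ↔ P.nc.cell P.w i (sval P dg) = (dg P.colA, dg P.colH))

lemma colA_eq : P.colA = P.m + P.m := by
  show 2 * P.m = P.m + P.m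
  omega

lemma colH_eq : P.colH = P.m + P.m + 1 := by
  show 2 * P.m + 1 = P.m + P.m + 1
  omega

lemma decS0_iff (hP : P.Good) {i : ℕ} (IH : CheckAt P i) (dg : ℕ → ℕ) (hT : Dig P.q dg 0 P.m)
    (hS : Dig P.q dg P.m P.m) (hv : tval P dg = i) :
    DAcc (tabIns P) (L.decS 0) dg ↔
      sval P dg ≠ 0 ∧ P.nc.cell P.w i (sval P dg - 1) = (dg P.colA, dg P.colH) := by
  have hq : 1 ≤ P.q := by have := hP.hq; omega
  by_cases h0 : sval P dg = 0
  · obtain ⟨dg', -, hd⟩ := decS_gadget.zero hq P.m 0 (by omega) dg h0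
    rw [hd]
    constructor
    · intro h
      exact absurd h (decS_end dg')
    · rintro ⟨h, -⟩
      exact absurd h0 h
  · obtain ⟨dg', hf, hD', hv', hd⟩ := decS_gadget.pos hq P.m 0 (by omega) dg hS h0
    rw [hd]
    have hTe : ∀ c, c < P.m → dg' c = dg c := fun c hc => hf c (Or.inl (by omega))
    have hA : dg' P.colA = dg P.colA := hf _ (Or.inr (by rw [colA_eq]))
    have hH : dg' P.colH = dg P.colH := hf _ (Or.inr (by rw [colH_eq]; omega))
    have hT' : Dig P.q dg' 0 P.m := hT.congr fun c _ h2 => hTe c (by omega)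
    have hv2 : tval P dg' = i := by
      rw [← hv]
      exact val_congr fun c _ h2 => hTe c (by omega)
    have hs' : sval P dg' + 1 = sval P dg := hv'
    rw [IH dg' hT' hD' hv2, hA, hH]
    have e : sval P dg - 1 = sval P dg' := by omega
    rw [e]
    simp [h0]

lemma incS0_iff (hP : P.Good) {i : ℕ} (IH : CheckAt P i) (hi : i + P.w.length + 1 < P.q ^ P.m)
    (dg : ℕ → ℕ) (hT : Dig P.q dg 0 P.m) (hS : Dig P.q dg P.m P.m) (hv : tval P dg = i) :
    DAcc (tabIns P) (L.incS 0) dg ↔
      P.nc.cell P.w i (sval P dg + 1) = (dg P.colA, dg P.colH) := by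
  have hq : 1 ≤ P.q := by have := hP.hq; omega
  have hlt : sval P dg < P.q ^ P.m := val_lt hq hS
  by_cases h0 : sval P dg + 1 = P.q ^ P.m
  · obtain ⟨dg', hf, hd⟩ := incS_gadget.full hq P.m 0 (by omega) dg hS h0
    rw [hd, incS_end, h0, P.nc.cell_far hP.wf P.w i (P.q ^ P.m) hi]
    have hA : dg' P.colA = dg P.colA := hf _ (Or.inr (by rw [colA_eq]))
    have hH : dg' P.colH = dg P.colH := hf _ (Or.inr (by rw [colH_eq]; omega))
    rw [hA, hH]
    constructor
    · rintro ⟨h1, h2⟩
      rw [h1, h2]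
    · intro h
      have h3 := (Prod.mk.inj h).1
      have h4 := (Prod.mk.inj h).2
      exact ⟨h3.symm, h4.symm⟩
  · obtain ⟨dg', hf, hD', hv', hd⟩ := incS_gadget.ok hq P.m 0 (by omega) dg hS (by
      have : sval P dg + 1 < P.q ^ P.m := by omega
      exact this)
    rw [hd]
    have hTe : ∀ c, c < P.m → dg' c = dg c := fun c hc => hf c (Or.inl (by omega))
    have hA : dg' P.colA = dg P.colA := hf _ (Or.inr (by rw [colA_eq]))
    have hH : dg' P.colH = dg P.colH := hf _ (Or.inr (by rw [colH_eq]; omega))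
    have hT' : Dig P.q dg' 0 P.m := hT.congr fun c _ h2 => hTe c (by omega)
    have hv2 : tval P dg' = i := by
      rw [← hv]
      exact val_congr fun c _ h2 => hTe c (by omega)
    have hs' : sval P dg' = sval P dg + 1 := hv'
    rw [IH dg' hT' hD' hv2, hA, hH, hs']

/-- Facts on setting the two cell digits. -/
lemma upd_facts (dg : ℕ → ℕ) (hm : 1 ≤ P.m) (x y : ℕ) :
    let u := Function.update (Function.update dg P.colA x) P.colH y
    (∀ c, c < P.m + P.m → u c = dg c) ∧ u P.colA = x ∧ u P.colH = y := by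
  intro u
  have hne : P.colA ≠ P.colH := by
    rw [colA_eq, colH_eq]
    omega
  refine ⟨?_, ?_, ?_⟩
  · intro c hc
    have h1 : c ≠ P.colH := by rw [colH_eq]; omega
    have h2 : c ≠ P.colA := by rw [colA_eq]; omega
    simp only [u]
    rw [Function.update_of_ne h1, Function.update_of_ne h2]
  · simp only [u]
    rw [Function.update_of_ne hne, Function.update_self]
  · simp only [u]
    rw [Function.update_self]

lemma pick_iff (hP : P.Good) {i : ℕ} (IH : CheckAt P i) (hi : i + P.w.length + 1 < P.q ^ P.m)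
    (dg : ℕ → ℕ) (hT : Dig P.q dg 0 P.m) (hS : Dig P.q dg P.m P.m) (hv : tval P dg = i) :
    DAcc (tabIns P) L.pick dg ↔
      sval P dg ≠ 0 ∧ P.nc.cell P.w (i + 1) (sval P dg) = (dg P.colA, dg P.colH) := by
  have hm1 : 1 ≤ P.m := by have := hP.hm; omega
  have hneAH : P.colH ≠ P.colA := by
    rw [colA_eq, colH_eq]
    omega
  -- the three branches
  have key : ∀ x y : ℕ,
      let u := Function.update (Function.update dg P.colA x) P.colH y
      Dig P.q u 0 P.m ∧ Dig P.q u P.m P.m ∧ tval P u = i ∧ sval P u = sval P dg ∧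
        u P.colA = x ∧ u P.colH = y := by
    intro x y u
    obtain ⟨h1, h2, h3⟩ := upd_facts dg hm1 x y
    refine ⟨hT.congr fun c _ h5 => h1 c (by omega), hS.congr fun c _ h5 => h1 c (by omega), ?_, ?_,
      h2, h3⟩
    · rw [← hv]
      exact val_congr fun c _ h5 => h1 c (by omega)
    · exact val_congr fun c _ h5 => h1 c (by omega)
  have hbrL : ∀ t, DAcc (tabIns P) (L.brL t) dg ↔ dg P.colA = (P.Ft t).1 ∧
      dg P.colH = (P.Ft t).2 ∧ (sval P dg ≠ 0 ∧
        P.nc.cell P.w i (sval P dg - 1) = (t.getD 0 0, t.getD 1 0)) := by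
    intro t
    rw [seq_s2 hneAH (ins_brL P t)]
    obtain ⟨h1, h2, h3, h4, h5, h6⟩ := key (t.getD 0 0) (t.getD 1 0)
    rw [decS0_iff hP IH _ h1 h2 h3, h4, h5, h6]
  have hbrC : ∀ t, DAcc (tabIns P) (L.brC t) dg ↔ dg P.colA = (P.Ft t).1 ∧
      dg P.colH = (P.Ft t).2 ∧
        P.nc.cell P.w i (sval P dg) = (t.getD 2 0, t.getD 3 0) := by
    intro t
    rw [seq_s2 hneAH (ins_brC P t)]
    obtain ⟨h1, h2, h3, h4, h5, h6⟩ := key (t.getD 2 0) (t.getD 3 0)
    rw [IH _ h1 h2 h3, h4, h5, h6]
  have hbrR : ∀ t, DAcc (tabIns P) (L.brR t) dg ↔ dg P.colA = (P.Ft t).1 ∧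
      dg P.colH = (P.Ft t).2 ∧
        P.nc.cell P.w i (sval P dg + 1) = (t.getD 4 0, t.getD 5 0) := by
    intro t
    rw [seq_s2 hneAH (ins_brR P t)]
    obtain ⟨h1, h2, h3, h4, h5, h6⟩ := key (t.getD 4 0) (t.getD 5 0)
    rw [incS0_iff hP IH hi _ h1 h2 h3, h4, h5, h6]
  have hpickT : ∀ t, DAcc (tabIns P) (L.pickT t) dg ↔ dg P.colA = (P.Ft t).1 ∧
      dg P.colH = (P.Ft t).2 ∧ sval P dg ≠ 0 ∧
        P.nc.cell P.w i (sval P dg - 1) = (t.getD 0 0, t.getD 1 0) ∧
        P.nc.cell P.w i (sval P dg) = (t.getD 2 0, t.getD 3 0) ∧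
        P.nc.cell P.w i (sval P dg + 1) = (t.getD 4 0, t.getD 5 0) := by
    intro t
    rw [seq_t2 (ins_pickT P t), dacc_and (ins_split P t), dacc_and (ins_split' P t), hbrL, hbrC,
      hbrR]
    tauto
  rw [dacc_or (ins_pick P)]
  constructor
  · rintro ⟨l', hl', hd⟩
    obtain ⟨t, -, rfl⟩ := List.mem_map.1 hl'
    obtain ⟨h1, h2, h3, h4, h5, h6⟩ := (hpickT t).1 hd
    refine ⟨h3, ?_⟩
    obtain ⟨s', hs'⟩ := Nat.exists_eq_succ_of_ne_zero h3
    rw [hs'] at h4 h5 h6 ⊢
    rw [Nat.succ_eq_add_one, Nat.add_sub_cancel] at h4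
    rw [Nat.succ_eq_add_one] at h5 h6 ⊢
    rw [P.nc.cell_succ, h4, h5, h6, h1, h2]
    rfl
  · rintro ⟨h3, hc⟩
    obtain ⟨s', hs'⟩ := Nat.exists_eq_succ_of_ne_zero h3
    rw [Nat.succ_eq_add_one] at hs'
    rw [hs', P.nc.cell_succ] at hc
    have l1 := P.nc.cell_lt hP.wf P.w i s'
    have l2 := P.nc.cell_lt hP.wf P.w i (s' + 1)
    have l3 := P.nc.cell_lt hP.wf P.w i (s' + 2)
    have l2' := l2.2.2 (by omega)
    have l3' := l3.2.2 (by omega)
    set c1 := P.nc.cell P.w i s' with hc1
    set c2 := P.nc.cell P.w i (s' + 1) with hc2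
    set c3 := P.nc.cell P.w i (s' + 2) with hc3
    let t : List ℕ := [c1.1, c1.2, c2.1, c2.2, c3.1, c3.2]
    have ht : t ∈ P.triples := by
      refine (mem_triples P).2 ⟨c1.1, c1.2, c2.1 - 1, c2.2, c3.1 - 1, c3.2, l1.1, l1.2.1,
        by omega, l2.2.1, by omega, l3.2.1, ?_⟩
      have e1 : c2.1 - 1 + 1 = c2.1 := by omega
      have e2 : c3.1 - 1 + 1 = c3.1 := by omega
      rw [e1, e2]
    have hFt : P.Ft t = (dg P.colA, dg P.colH) := hc
    refine ⟨L.pickT t, List.mem_map.2 ⟨t, ht, rfl⟩, (hpickT t).2 ⟨?_, ?_, h3, ?_, ?_, ?_⟩⟩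
    · rw [hFt]
    · rw [hFt]
    · rw [hs']
      show P.nc.cell P.w i (s' + 1 - 1) = (c1.1, c1.2)
      rw [Nat.add_sub_cancel]
    · rw [hs']
      rfl
    · rw [hs']
      rfl

theorem check_iff (hP : P.Good) (i : ℕ) (hi : i + P.w.length + 1 < P.q ^ P.m) : CheckAt P i := by
  have hq : 1 ≤ P.q := by have := hP.hq; omega
  induction i with
  | zero =>
    intro dg hT hS hv
    rw [dacc_or (ins_check P)]
    have hcases : (∃ l' ∈ [L.wallE, L.decT 0], DAcc (tabIns P) l' dg) ↔
        DAcc (tabIns P) L.wallE dg ∨ DAcc (tabIns P) (L.decT 0) dg := by simp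
    rw [hcases, wallE_iff hq]
    obtain ⟨dg', hf, hd⟩ := decT_gadget.zero hq P.m 0 (by omega) dg hv
    rw [hd, decT_end]
    have hSe : ∀ c, P.m ≤ c → dg' c = dg c := fun c hc => hf c (Or.inr (by omega))
    have hS' : Dig P.q dg' P.m P.m := hS.congr fun c h1 _ => hSe c h1
    have hse : sval P dg' = sval P dg := val_congr fun c h1 _ => hSe c h1
    have hA : dg' P.colA = dg P.colA := hSe _ (by rw [colA_eq]; omega)
    have hH : dg' P.colH = dg P.colH := hSe _ (by rw [colH_eq]; omega)
    rw [init_iff hP dg' hS', hse, hA, hH]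
    by_cases h0 : sval P dg = 0
    · rw [h0]
      have e : P.nc.cell P.w 0 0 = (0, 0) := rfl
      rw [e]
      constructor
      · rintro (⟨h1, h2, -⟩ | ⟨h1, -⟩)
        · rw [h1, h2]
        · exact absurd rfl h1
      · intro h
        have h3 := (Prod.mk.inj h).1
        have h4 := (Prod.mk.inj h).2
        exact Or.inl ⟨h3.symm, h4.symm, rfl⟩
    · constructor
      · rintro (⟨-, -, h1⟩ | ⟨-, h1⟩)
        · exact absurd h1 h0
        · exact h1
      · intro h
        exact Or.inr ⟨h0, h⟩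
  | succ i ih =>
    have IH : CheckAt P i := ih (by omega)
    intro dg hT hS hv
    rw [dacc_or (ins_check P)]
    have hcases : (∃ l' ∈ [L.wallE, L.decT 0], DAcc (tabIns P) l' dg) ↔
        DAcc (tabIns P) L.wallE dg ∨ DAcc (tabIns P) (L.decT 0) dg := by simp
    rw [hcases, wallE_iff hq]
    have hne : val P.q dg (0 + 0) P.m ≠ 0 := by
      have : val P.q dg 0 P.m = i + 1 := hv
      simpa using (by omega : val P.q dg 0 P.m ≠ 0)
    obtain ⟨dg', hf, hD', hv', hd⟩ := decT_gadget.pos hq P.m 0 (by omega) dg hT hne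
    rw [hd]
    have hSe : ∀ c, P.m ≤ c → dg' c = dg c := fun c hc => hf c (Or.inr (by omega))
    have hS' : Dig P.q dg' P.m P.m := hS.congr fun c h1 _ => hSe c h1
    have hse : sval P dg' = sval P dg := val_congr fun c h1 _ => hSe c h1
    have hA : dg' P.colA = dg P.colA := hSe _ (by rw [colA_eq]; omega)
    have hH : dg' P.colH = dg P.colH := hSe _ (by rw [colH_eq]; omega)
    have hv2 : tval P dg' = i := by
      have h1 : tval P dg' + 1 = tval P dg := hv'
      omega
    rw [pick_iff hP IH (by omega) dg' hD' hS' hv2, hse, hA, hH]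
    by_cases h0 : sval P dg = 0
    · rw [h0]
      have e : P.nc.cell P.w (i + 1) 0 = (0, 0) := rfl
      rw [e]
      constructor
      · rintro (⟨h1, h2, -⟩ | ⟨h1, -⟩)
        · rw [h1, h2]
        · exact absurd rfl h1
      · intro h
        have h3 := (Prod.mk.inj h).1
        have h4 := (Prod.mk.inj h).2
        exact Or.inl ⟨h3.symm, h4.symm, rfl⟩
    · constructor
      · rintro (⟨-, -, h1⟩ | ⟨-, h1⟩)
        · exact absurd h1 h0
        · exact h1
      · intro h
        exact Or.inr ⟨h0, h⟩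

end Main

section Top

variable {P : TPar}

lemma dg0_val (hq : 1 ≤ P.q) : ∀ n j, j + n + 1 = P.m → val P.q P.dg0 j (n + 1) + 1 = P.q ^ n := by
  intro n
  induction n with
  | zero =>
    intro j hj
    have e : P.dg0 j = 0 := if_neg (by omega)
    rw [val_succ, e]
    simp [val]
  | succ n ih =>
    intro j hj
    have h1 := ih (j + 1) (by omega)
    have e : P.dg0 j = P.q - 1 := if_pos (by omega)
    rw [val_succ, e, pow_succ', ← h1]
    have : P.q * (val P.q P.dg0 (j + 1) (n + 1) + 1)
        = P.q * val P.q P.dg0 (j + 1) (n + 1) + P.q := by ring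
    omega

lemma tval_dg0 (hq : 1 ≤ P.q) (hm : 1 ≤ P.m) : tval P P.dg0 = P.q ^ (P.m - 1) - 1 := by
  have h := dg0_val (P := P) hq (P.m - 1) 0 (by omega)
  have e : P.m - 1 + 1 = P.m := by omega
  rw [e] at h
  have h2 : tval P P.dg0 + 1 = P.q ^ (P.m - 1) := h
  omega

lemma dg0_high {c : ℕ} (hc : P.m ≤ c) : P.dg0 c = 0 := if_neg (by omega)

lemma dg0_lt (hq : 1 ≤ P.q) (c : ℕ) : P.dg0 c < P.q := by
  unfold TPar.dg0
  split_ifs <;> omega

lemma gS_iff : ∀ (n j : ℕ), j + n = P.m → ∀ dg : ℕ → ℕ,
    (∀ c, j ≤ c → c < P.m → dg (P.m + c) = 0) →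
    (DAcc (tabIns P) (L.gS j) dg ↔
      ∃ dg' : ℕ → ℕ, (∀ c, (c < P.m + j ∨ P.m + P.m ≤ c) → dg' c = dg c) ∧
        Dig P.q dg' (P.m + j) n ∧ DAcc (tabIns P) L.gA dg') := by
  intro n
  induction n with
  | zero =>
    intro j hj dg _
    obtain rfl : j = P.m := by omega
    have h : tabIns P (L.gS P.m) = DIns.or [L.gA] := by
      rw [ins_gS, if_neg (lt_irrefl _)]
    rw [dacc_or h]
    constructor
    · rintro ⟨l', hl', hd⟩
      obtain rfl : l' = L.gA := by simpa using hl'
      exact ⟨dg, fun _ _ => rfl, fun c _ h2 => by omega, hd⟩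
    · rintro ⟨dg', hf, -, hd⟩
      have : dg' = dg := by
        funext c
        exact hf c (by omega)
      rw [this] at hd
      exact ⟨L.gA, by simp, hd⟩
  | succ n ih =>
    intro j hj dg h0
    have h : tabIns P (L.gS j) = DIns.or ((List.range P.q).map fun v => L.gSv j v) := by
      rw [ins_gS, if_pos (by omega)]
    have hz : ∀ v, ∀ c, j + 1 ≤ c → c < P.m →
        (Function.update dg (P.m + j) v) (P.m + c) = 0 := by
      intro v c h1 h2
      rw [Function.update_of_ne (by omega)]
      exact h0 c (by omega) h2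
    rw [dacc_or h]
    constructor
    · rintro ⟨l', hl', hd⟩
      obtain ⟨v, hv, rfl⟩ := List.mem_map.1 hl'
      have hv' : v < P.q := List.mem_range.1 hv
      obtain ⟨-, h2⟩ := (seq_s1 (ins_gSv P j v)).1 hd
      obtain ⟨dg', hf, hD, hA⟩ := (ih (j + 1) (by omega) _ (hz v)).1 h2
      have hbj : dg' (P.m + j) = v := by
        rw [hf _ (Or.inl (by omega))]
        exact Function.update_self _ _ _
      refine ⟨dg', ?_, ?_, hA⟩
      · intro c hc
        rw [hf c (by omega)]
        exact Function.update_of_ne (by omega) _ _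
      · intro c h3 h4
        by_cases hc : c = P.m + j
        · rw [hc, hbj]
          exact hv'
        · exact hD c (by omega) (by omega)
    · rintro ⟨dg', hf, hD, hA⟩
      have hv : dg' (P.m + j) < P.q := hD.head
      refine ⟨L.gSv j (dg' (P.m + j)), List.mem_map.2 ⟨_, List.mem_range.2 hv, rfl⟩, ?_⟩
      refine (seq_s1 (ins_gSv P j _)).2 ⟨h0 j le_rfl (by omega), ?_⟩
      refine (ih (j + 1) (by omega) _ (hz _)).2 ⟨dg', ?_, hD.tail, hA⟩
      intro c hc
      by_cases hc' : c = P.m + j
      · rw [hc', Function.update_self]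
      · rw [Function.update_of_ne hc']
        exact hf c (by omega)

lemma gA_iff (hne : P.colH ≠ P.colA) (dg : ℕ → ℕ) : DAcc (tabIns P) L.gA dg ↔
    ∃ a, a < P.nc.nG ∧ dg P.colA = 0 ∧ dg P.colH = 0 ∧
      DAcc (tabIns P) L.check
        (Function.update (Function.update dg P.colA (a + 1)) P.colH (P.nc.qa + 1)) := by
  rw [dacc_or (ins_gA P)]
  constructor
  · rintro ⟨l', hl', hd⟩
    obtain ⟨a, ha, rfl⟩ := List.mem_map.1 hl'
    exact ⟨a, List.mem_range.1 ha, (seq_s2 hne (ins_gAv P (a + 1))).1 hd⟩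
  · rintro ⟨a, ha, h⟩
    exact ⟨L.gAv (a + 1), List.mem_map.2 ⟨a, List.mem_range.2 ha, rfl⟩,
      (seq_s2 hne (ins_gAv P (a + 1))).2 h⟩

lemma time_bound (hP : P.Good) : P.q ^ (P.m - 1) - 1 + P.w.length + 1 < P.q ^ P.m := by
  have hq := hP.hq
  have hm := hP.hm
  have hw := hP.hw
  have h1 : P.q ^ 2 ≤ P.q ^ (P.m - 1) := Nat.pow_le_pow_right (by omega) (by omega)
  have h2 : P.q ^ P.m = P.q * P.q ^ (P.m - 1) := by
    rw [← pow_succ']
    congr 1
    omega
  have h3 : 2 * P.q ^ (P.m - 1) ≤ P.q * P.q ^ (P.m - 1) := Nat.mul_le_mul_right _ hq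
  have h4 : P.q ^ 2 = P.q * P.q := by ring
  have h5 : 1 ≤ P.q ^ (P.m - 1) := Nat.one_le_pow _ _ (by omega)
  omega

/-- (module M-TAB) The correctness of the tableau program: the chain node reads the start digits,
then a position and a cell symbol are guessed with head in the accepting state, and the cell is
verified. The result: accepted at `start` iff the machine is in the accepting state at time
`q ^ (m - 1) - 1`. -/
theorem tab_correct' (hP : P.Good) :
    DAcc (tabIns P) L.start P.dg0 ↔ (P.nc.run P.w (P.q ^ (P.m - 1) - 1)).st = P.nc.qa := by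
  have hq : 1 ≤ P.q := by have := hP.hq; omega
  have hm : 1 ≤ P.m := by have := hP.hm; omega
  have hne : P.colH ≠ P.colA := by
    rw [colA_eq, colH_eq]
    omega
  have ht := time_bound hP
  have hcheck := check_iff hP _ ht
  have hT0 : Dig P.q P.dg0 0 P.m := fun c _ _ => dg0_lt hq c
  have htv := tval_dg0 (P := P) hq hm
  have h1 : DAcc (tabIns P) L.start P.dg0 ↔ DAcc (tabIns P) (L.gS 0) P.dg0 := by
    rw [dacc_or (ins_start P)]
    simp
  rw [h1, gS_iff P.m 0 (by omega) P.dg0 (fun c _ _ => dg0_high (by omega))]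
  constructor
  · rintro ⟨dg', hf, hD, hA⟩
    obtain ⟨a, _, _, _, hc⟩ := (gA_iff hne dg').1 hA
    obtain ⟨u1, u2, u3⟩ := upd_facts (P := P) dg' hm (a + 1) (P.nc.qa + 1)
    set u := Function.update (Function.update dg' P.colA (a + 1)) P.colH (P.nc.qa + 1) with hu
    have hTu : Dig P.q u 0 P.m := fun c _ h2 => by
      rw [u1 c (by omega), hf c (Or.inl (by omega))]
      exact dg0_lt hq c
    have hSu : Dig P.q u P.m P.m := hD.congr fun c _ h2 => u1 c (by omega)
    have htu : tval P u = P.q ^ (P.m - 1) - 1 := by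
      rw [← htv]
      apply val_congr
      intro c _ h2
      rw [u1 c (by omega), hf c (Or.inl (by omega))]
    have := (hcheck u hTu hSu htu).1 hc
    rw [u2, u3] at this
    exact (P.nc.accept_iff_cell P.w _).2 ⟨_, _, this⟩
  · intro hacc
    obtain ⟨s, a, hc⟩ := (P.nc.accept_iff_cell P.w _).1 hacc
    have hs0 : s ≠ 0 := by
      rintro rfl
      have e : P.nc.cell P.w (P.q ^ (P.m - 1) - 1) 0 = (0, 0) := rfl
      rw [e] at hc
      have := (Prod.mk.inj hc).2
      omega
    have hslt : s < P.q ^ P.m := by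
      by_contra hge
      rw [P.nc.cell_far hP.wf P.w _ s (by omega)] at hc
      have := (Prod.mk.inj hc).2
      omega
    have hl := P.nc.cell_lt hP.wf P.w (P.q ^ (P.m - 1) - 1) s
    rw [hc] at hl
    obtain ⟨hl1, -, hl3⟩ := hl
    have hl4 := hl3 hs0
    simp only at hl1 hl4
    obtain ⟨a', rfl⟩ : ∃ a', a = a' + 1 := ⟨a - 1, by omega⟩
    obtain ⟨d, hd, hdv⟩ := exists_digits hq P.m P.m s hslt
    let dg' : ℕ → ℕ := fun c => if P.m ≤ c ∧ c < P.m + P.m then d c else P.dg0 c
    have hfr : ∀ c, (c < P.m ∨ P.m + P.m ≤ c) → dg' c = P.dg0 c := by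
      intro c hc'
      exact if_neg (by omega)
    have hin : ∀ c, P.m ≤ c → c < P.m + P.m → dg' c = d c := by
      intro c h3 h4
      exact if_pos ⟨h3, h4⟩
    have hDg : Dig P.q dg' P.m P.m := fun c h3 h4 => by
      rw [hin c h3 h4]
      exact hd c
    refine ⟨dg', hfr, hDg, (gA_iff hne dg').2 ⟨a', by omega, ?_, ?_, ?_⟩⟩
    · rw [hfr _ (Or.inr (by rw [colA_eq]))]
      exact dg0_high (by rw [colA_eq]; omega)
    · rw [hfr _ (Or.inr (by rw [colH_eq]; omega))]
      exact dg0_high (by rw [colH_eq]; omega)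
    · obtain ⟨u1, u2, u3⟩ := upd_facts (P := P) dg' hm (a' + 1) (P.nc.qa + 1)
      set u := Function.update (Function.update dg' P.colA (a' + 1)) P.colH (P.nc.qa + 1) with hu
      have hTu : Dig P.q u 0 P.m := fun c _ h2 => by
        rw [u1 c (by omega), hfr c (Or.inl (by omega))]
        exact dg0_lt hq c
      have hSu : Dig P.q u P.m P.m := hDg.congr fun c _ h2 => u1 c (by omega)
      have htu : tval P u = P.q ^ (P.m - 1) - 1 := by
        rw [← htv]
        apply val_congr
        intro c _ h2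
        rw [u1 c (by omega), hfr c (Or.inl (by omega))]
      have hsu : sval P u = s := by
        rw [← hdv]
        apply val_congr
        intro c h3 h4
        rw [u1 c (by omega), hin c h3 h4]
      rw [hcheck u hTu hSu htu, hsu, u2, u3]
      exact hc

lemma chain1_iff : ∀ (n c0 : ℕ), c0 + n = P.ncol → ∀ dg : ℕ → ℕ,
    (DAcc (tabIns P) (L.chain1 c0) dg ↔
      (∀ c, c0 ≤ c → c < P.ncol → dg c = P.dg0 c) ∧ DAcc (tabIns P) L.start dg) := by
  intro n
  induction n with
  | zero =>
    intro c0 hc dg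
    have h : tabIns P (L.chain1 c0) = DIns.or [L.start] := by
      rw [ins_chain1, if_neg (by omega)]
    rw [dacc_or h]
    constructor
    · rintro ⟨l', hl', hd⟩
      obtain rfl : l' = L.start := by simpa using hl'
      exact ⟨fun c h1 h2 => by omega, hd⟩
    · rintro ⟨-, hd⟩
      exact ⟨L.start, by simp, hd⟩
  | succ n ih =>
    intro c0 hc dg
    have h : tabIns P (L.chain1 c0) = DIns.seq [Op.test c0 (P.dg0 c0)] (L.chain1 (c0 + 1)) := by
      rw [ins_chain1, if_pos (by omega)]
    rw [seq_t1 h, ih (c0 + 1) (by omega) dg]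
    constructor
    · rintro ⟨h1, h2, h3⟩
      refine ⟨?_, h3⟩
      intro c h4 h5
      by_cases hc' : c = c0
      · rw [hc']
        exact h1
      · exact h2 c (by omega) h5
    · rintro ⟨h2, h3⟩
      exact ⟨h2 c0 le_rfl (by omega), fun c h4 h5 => h2 c (by omega) h5, h3⟩

lemma chain2_iff : ∀ (n c0 : ℕ), c0 + n = P.ncol → ∀ dg : ℕ → ℕ,
    (DAcc (tabIns P) (L.chain2 c0) dg ↔ ∀ c, c0 ≤ c → c < P.ncol → dg c = P.dg0 c) := by
  intro n
  induction n with
  | zero =>
    intro c0 hc dg
    have h : tabIns P (L.chain2 c0) = DIns.acc := by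
      rw [ins_chain2, if_neg (by omega)]
    exact ⟨fun _ c h1 h2 => by omega, fun _ => dacc_acc h⟩
  | succ n ih =>
    intro c0 hc dg
    have h : tabIns P (L.chain2 c0) = DIns.seq [Op.test c0 (P.dg0 c0)] (L.chain2 (c0 + 1)) := by
      rw [ins_chain2, if_pos (by omega)]
    rw [seq_t1 h, ih (c0 + 1) (by omega) dg]
    constructor
    · rintro ⟨h1, h2⟩
      intro c h4 h5
      by_cases hc' : c = c0
      · rw [hc']
        exact h1
      · exact h2 c (by omega) h5
    · intro h2
      exact ⟨h2 c0 le_rfl (by omega), fun c h4 h5 => h2 c (by omega) h5⟩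

/-- (module M-TAB) The chain nodes. -/
theorem tab_chain1' (hP : P.Good) (dg : ℕ → ℕ) (h0 : ∀ c, P.ncol ≤ c → dg c = 0) :
    DAcc (tabIns P) (L.chain1 0) dg ↔ dg = P.dg0 ∧ DAcc (tabIns P) L.start P.dg0 := by
  have hcol := hP.hcol
  rw [chain1_iff P.ncol 0 (by omega) dg]
  constructor
  · rintro ⟨h1, h2⟩
    have : dg = P.dg0 := by
      funext c
      by_cases hc : c < P.ncol
      · exact h1 c (by omega) hc
      · rw [h0 c (by omega), dg0_high (by omega)]
    rw [this] at h2
    exact ⟨this, h2⟩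
  · rintro ⟨rfl, h2⟩
    exact ⟨fun _ _ _ => rfl, h2⟩

theorem tab_chain2' (hP : P.Good) (dg : ℕ → ℕ) (h0 : ∀ c, P.ncol ≤ c → dg c = 0) :
    DAcc (tabIns P) (L.chain2 0) dg ↔ dg = P.dg0 := by
  have hcol := hP.hcol
  rw [chain2_iff P.ncol 0 (by omega) dg]
  constructor
  · intro h1
    funext c
    by_cases hc : c < P.ncol
    · exact h1 c (by omega) hc
    · rw [h0 c (by omega), dg0_high (by omega)]
  · rintro rfl
    exact fun _ _ _ => rfl

end Top

section WF

variable {P : TPar}

lemma F_le (nc : NCode) (hwf : nc.WF) {al hl a0 h0 ar hr : ℕ} (hal : al ≤ nc.nG) (hhl : hl ≤ nc.nQ)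
    (ha0 : a0 ≤ nc.nG) (hh0 : h0 ≤ nc.nQ) (har : ar ≤ nc.nG) (hhr : hr ≤ nc.nQ) :
    (nc.F al hl a0 h0 ar hr).1 ≤ nc.nG ∧ (nc.F al hl a0 h0 ar hr).2 ≤ nc.nQ := by
  have hG : 0 < nc.nG := by have := hwf.bl_lt; omega
  have hnq : ∀ x y, x ≠ 0 → x ≤ nc.nQ → y ≤ nc.nG → (nc.next (x - 1) (y - 1)).1 + 1 ≤ nc.nQ := by
    intro x y h1 h2 h3
    have := hwf.next_q (x - 1) (y - 1) (by omega) (by omega)
    omega
  have hna : ∀ x y, x ≠ 0 → x ≤ nc.nQ → y ≤ nc.nG → (nc.next (x - 1) (y - 1)).2.1 + 1 ≤ nc.nG := by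
    intro x y h1 h2 h3
    have := hwf.next_a (x - 1) (y - 1) (by omega) (by omega)
    omega
  unfold NCode.F
  constructor
  · dsimp only
    split_ifs with h
    · have h1 : h0 ≠ 0 := by
        by_contra h2
        simp [h2] at h
      exact hna _ _ h1 hh0 ha0
    · exact ha0
  · dsimp only
    split_ifs with h1 h2 h3 h4
    · exact hh0
    · have h5 : h0 ≠ 0 := by
        by_contra h6
        simp [h6] at h2
      exact hnq _ _ h5 hh0 ha0
    · have h5 : hl ≠ 0 := by
        by_contra h6
        simp [h6] at h3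
      exact hnq _ _ h5 hhl hal
    · have h5 : hr ≠ 0 := by
        by_contra h6
        simp [h6] at h4
      exact hnq _ _ h5 hhr har
    · exact Nat.zero_le _

lemma Ft_le (hP : P.Good) {t : List ℕ} (ht : t ∈ P.triples) :
    (P.Ft t).1 ≤ P.nc.nG ∧ (P.Ft t).2 ≤ P.nc.nQ := by
  obtain ⟨al, hl, a0, h0, ar, hr, h1, h2, h3, h4, h5, h6, rfl⟩ := (mem_triples P).1 ht
  exact F_le P.nc hP.wf h1 h2 (show a0 + 1 ≤ _ by omega) h4 (show ar + 1 ≤ _ by omega) h6

lemma t_get (hP : P.Good) {t : List ℕ} (ht : t ∈ P.triples) :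
    t.getD 0 0 < P.q ∧ t.getD 1 0 < P.q ∧ t.getD 2 0 < P.q ∧ t.getD 3 0 < P.q ∧
      t.getD 4 0 < P.q ∧ t.getD 5 0 < P.q := by
  have h7 := hP.hnG
  have h8 := hP.hnQ
  obtain ⟨al, hl, a0, h0, ar, hr, h1, h2, h3, h4, h5, h6, rfl⟩ := (mem_triples P).1 ht
  refine ⟨?_, ?_, ?_, ?_, ?_, ?_⟩
  · show al < P.q
    omega
  · show hl < P.q
    omega
  · show a0 + 1 < P.q
    omega
  · show h0 < P.q
    omega
  · show ar + 1 < P.q
    omega
  · show hr < P.q
    omega

lemma cell0_lt (hP : P.Good) (s : ℕ) : (P.cell0 s).1 < P.q ∧ (P.cell0 s).2 < P.q := by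
  have h7 := hP.hnG
  have h8 := hP.hnQ
  have h1 := hP.wf.bl_lt
  have h2 := hP.wf.s0_lt
  have h3 := hP.wf.s1_lt
  have h4 := hP.wf.q0_lt
  constructor
  · show P.nc.inputTape P.w (s - 1) + 1 < P.q
    have : P.nc.inputTape P.w (s - 1) < P.nc.nG := by
      unfold NCode.inputTape
      split_ifs
      · unfold NCode.sBit
        split_ifs <;> omega
      · omega
    omega
  · show (if s = 1 then P.nc.q0 + 1 else 0) < P.q
    split_ifs <;> omega

/-- The property to be shown for each label. -/
def Cl (P : TPar) (l : Lab) : Prop :=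
  (∀ l' ∈ (tabIns P l).children, l' ∈ tabLabs P) ∧ (tabIns P l).opsOk P.ncol P.q

lemma cl_or {l : Lab} {ls : List Lab} (h : tabIns P l = DIns.or ls)
    (hls : ∀ l' ∈ ls, l' ∈ tabLabs P) : Cl P l := by
  unfold Cl
  rw [h]
  exact ⟨hls, trivial⟩

lemma cl_and {l a b : Lab} (h : tabIns P l = DIns.and a b) (ha : a ∈ tabLabs P)
    (hb : b ∈ tabLabs P) : Cl P l := by
  unfold Cl
  rw [h]
  refine ⟨?_, trivial⟩
  intro l' hl'
  have hl'' : l' ∈ [a, b] := hl'
  simp only [List.mem_cons, List.not_mem_nil, or_false] at hl''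
  rcases hl'' with rfl | rfl
  · exact ha
  · exact hb

/-- An operation in range. -/
def OpOk (nc q : ℕ) : Op → Prop
  | Sum.inl (c, v) => c < nc ∧ v < q
  | Sum.inr (c, v, v') => c < nc ∧ v < q ∧ v' < q

lemma cl_seq {l l' : Lab} {ops : List Op} (h : tabIns P l = DIns.seq ops l') (hne : ops ≠ [])
    (hops : ∀ o ∈ ops, OpOk P.ncol P.q o) (hl' : l' ∈ tabLabs P) : Cl P l := by
  unfold Cl
  rw [h]
  refine ⟨?_, hne, ?_⟩
  · intro l2 hl2
    have hl3 : l2 ∈ [l'] := hl2
    simp only [List.mem_cons, List.not_mem_nil, or_false] at hl3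
    rw [hl3]
    exact hl'
  · intro o ho
    have := hops o ho
    rcases o with ⟨c, v⟩ | ⟨c, v, v'⟩
    · exact this
    · exact this

lemma cl_acc {l : Lab} (h : tabIns P l = DIns.acc) : Cl P l := by
  unfold Cl
  rw [h]
  refine ⟨?_, trivial⟩
  intro l' hl'
  cases hl'

lemma opT {c v nc q : ℕ} (hc : c < nc) (hv : v < q) : OpOk nc q (Op.test c v) := by
  show c < nc ∧ v < q
  exact ⟨hc, hv⟩

lemma opS {c v v' nc q : ℕ} (hc : c < nc) (hv : v < q) (hv' : v' < q) :
    OpOk nc q (Op.set c v v') := by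
  show c < nc ∧ v < q ∧ v' < q
  exact ⟨hc, hv, hv'⟩

lemma opok1 {o : Op} {nc q : ℕ} (h : OpOk nc q o) : ∀ x ∈ [o], OpOk nc q x := by
  intro x hx
  simp only [List.mem_cons, List.not_mem_nil, or_false] at hx
  rw [hx]
  exact h

lemma opok2 {o o' : Op} {nc q : ℕ} (h : OpOk nc q o) (h' : OpOk nc q o') :
    ∀ x ∈ [o, o'], OpOk nc q x := by
  intro x hx
  simp only [List.mem_cons, List.not_mem_nil, or_false] at hx
  rcases hx with rfl | rfl
  · exact h
  · exact h'

lemma opok3 {o o' o'' : Op} {nc q : ℕ} (h : OpOk nc q o) (h' : OpOk nc q o') (h'' : OpOk nc q o'') :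
    ∀ x ∈ [o, o', o''], OpOk nc q x := by
  intro x hx
  simp only [List.mem_cons, List.not_mem_nil, or_false] at hx
  rcases hx with rfl | rfl | rfl
  · exact h
  · exact h'
  · exact h''

lemma opok4 {o o' o'' o3 : Op} {nc q : ℕ} (h : OpOk nc q o) (h' : OpOk nc q o')
    (h'' : OpOk nc q o'') (h3 : OpOk nc q o3) :
    ∀ x ∈ [o, o', o'', o3], OpOk nc q x := by
  intro x hx
  simp only [List.mem_cons, List.not_mem_nil, or_false] at hx
  rcases hx with rfl | rfl | rfl | rfl
  · exact h
  · exact h'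
  · exact h''
  · exact h3

lemma mem_A {l : Lab} (h : l ∈ [L.check, L.wallE, L.pick, L.ovf, L.acc, L.fail, L.init, L.start,
    L.gA]) : l ∈ tabLabs P := by
  unfold tabLabs
  simp only [List.mem_append]
  exact Or.inl (Or.inl (Or.inl (Or.inl (Or.inl (Or.inl h)))))

lemma mem_B {l : Lab} {j : ℕ} (hj : j ≤ P.m)
    (h : l ∈ [L.szero j, L.decT j, L.decS j, L.incS j, L.gS j]) : l ∈ tabLabs P := by
  unfold tabLabs
  simp only [List.mem_append]
  exact Or.inl (Or.inl (Or.inl (Or.inl (Or.inl (Or.inr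
    (List.mem_flatMap.2 ⟨j, List.mem_range.2 (by omega), h⟩))))))

lemma mem_C {l : Lab} {j v : ℕ} (hj : j < P.m) (hv : v < P.q)
    (h : l ∈ [L.decTv j v, L.decSv j v, L.incSv j v, L.gSv j v, L.initH j v]) : l ∈ tabLabs P := by
  unfold tabLabs
  simp only [List.mem_append]
  exact Or.inl (Or.inl (Or.inl (Or.inl (Or.inr
    (List.mem_flatMap.2 ⟨j, List.mem_range.2 hj,
      List.mem_flatMap.2 ⟨v, List.mem_range.2 hv, h⟩⟩)))))

lemma mem_D {l : Lab} {t : List ℕ} (ht : t ∈ P.triples)
    (h : l ∈ [L.pickT t, L.split t, L.split' t, L.brL t, L.brC t, L.brR t]) : l ∈ tabLabs P := by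
  unfold tabLabs
  simp only [List.mem_append]
  exact Or.inl (Or.inl (Or.inl (Or.inr (List.mem_flatMap.2 ⟨t, ht, h⟩))))

lemma mem_E {v0 v1 : ℕ} (h0 : v0 < P.q) (h1 : v1 < P.q) : L.initP v0 v1 ∈ tabLabs P := by
  unfold tabLabs
  simp only [List.mem_append]
  exact Or.inl (Or.inl (Or.inr (List.mem_flatMap.2 ⟨v0, List.mem_range.2 h0,
    List.mem_map.2 ⟨v1, List.mem_range.2 h1, rfl⟩⟩)))

lemma mem_F {a : ℕ} (h : a < P.nc.nG) : L.gAv (a + 1) ∈ tabLabs P := by
  unfold tabLabs
  simp only [List.mem_append]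
  exact Or.inl (Or.inr (List.mem_map.2 ⟨a, List.mem_range.2 h, rfl⟩))

lemma mem_G {l : Lab} {c : ℕ} (hc : c ≤ P.ncol) (h : l ∈ [L.chain1 c, L.chain2 c]) :
    l ∈ tabLabs P := by
  unfold tabLabs
  simp only [List.mem_append]
  exact Or.inr (List.mem_flatMap.2 ⟨c, List.mem_range.2 (by omega), h⟩)

/-- (module M-TAB) The list of labels is closed and operations are in range. -/
theorem tab_wf' (hP : P.Good) : DWF P.ncol P.q (tabLabs P) (tabIns P) := by
  have hq := hP.hq
  have hm := hP.hm
  have hcol := hP.hcol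
  have hnG := hP.hnG
  have hnQ := hP.hnQ
  have hbl := hP.wf.bl_lt
  have hqa := hP.wf.qa_lt
  have hA : P.colA < P.ncol := by
    show 2 * P.m < P.ncol
    omega
  have hH : P.colH < P.ncol := by
    show 2 * P.m + 1 < P.ncol
    omega
  have hSc : ∀ j, j < P.m → P.colS j < P.ncol := by
    intro j hj
    show P.m + j < P.ncol
    omega
  have hq0 : 0 < P.q := by omega
  have hq1 : P.q - 1 < P.q := by omega
  have hbl' : P.nc.bl + 1 < P.q := by omega
  have hqa' : P.nc.qa + 1 < P.q := by omega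
  have hFq : ∀ t ∈ P.triples, (P.Ft t).1 < P.q ∧ (P.Ft t).2 < P.q := by
    intro t ht
    have := Ft_le hP ht
    omega
  have hcl : ∀ l ∈ tabLabs P, Cl P l := by
    intro l hl
    unfold tabLabs at hl
    simp only [List.mem_append] at hl
    rcases hl with (((((hl | hl) | hl) | hl) | hl) | hl) | hl
    · simp only [List.mem_cons, List.not_mem_nil, or_false] at hl
      rcases hl with rfl | rfl | rfl | rfl | rfl | rfl | rfl | rfl | rfl
      · refine cl_or (ins_check P) ?_
        intro l' hl'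
        simp only [List.mem_cons, List.not_mem_nil, or_false] at hl'
        rcases hl' with rfl | rfl
        · exact mem_A (by simp)
        · exact mem_B (j := 0) (by omega) (by simp)
      · exact cl_seq (ins_wallE P) (by simp) (opok2 (opT hA hq0) (opT hH hq0))
          (mem_B (j := 0) (by omega) (by simp))
      · refine cl_or (ins_pick P) ?_
        intro l' hl'
        obtain ⟨t, ht, rfl⟩ := List.mem_map.1 hl'
        exact mem_D ht (by simp)
      · exact cl_seq (ins_ovf P) (by simp) (opok2 (opT hA hbl') (opT hH hq0)) (mem_A (by simp))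
      · exact cl_acc (ins_acc P)
      · exact cl_or (ins_fail P) (by simp)
      · refine cl_or (ins_init P) ?_
        intro l' hl'
        rcases List.mem_append.1 hl' with h1 | h1
        · obtain ⟨v0, h2, h3⟩ := List.mem_flatMap.1 h1
          obtain ⟨v1, h4, rfl⟩ := List.mem_map.1 h3
          exact mem_E (List.mem_range.1 h2) (List.mem_range.1 h4)
        · obtain ⟨j, h2, h3⟩ := List.mem_flatMap.1 h1
          obtain ⟨v, h4, rfl⟩ := List.mem_map.1 h3
          exact mem_C (List.mem_range.1 h2) (List.mem_range.1 h4) (by simp)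
      · refine cl_or (ins_start P) ?_
        intro l' hl'
        simp only [List.mem_cons, List.not_mem_nil, or_false] at hl'
        rw [hl']
        exact mem_B (j := 0) (by omega) (by simp)
      · refine cl_or (ins_gA P) ?_
        intro l' hl'
        obtain ⟨a, ha, rfl⟩ := List.mem_map.1 hl'
        exact mem_F (List.mem_range.1 ha)
    · obtain ⟨j, hj, hl⟩ := List.mem_flatMap.1 hl
      have hj' : j ≤ P.m := by
        have := List.mem_range.1 hj
        omega
      simp only [List.mem_cons, List.not_mem_nil, or_false] at hl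
      by_cases hjm : j < P.m
      · rcases hl with rfl | rfl | rfl | rfl | rfl
        · have h : tabIns P (L.szero j) = DIns.seq [Op.test (P.colS j) 0] (L.szero (j + 1)) := by
            rw [ins_szero, if_pos hjm]
          exact cl_seq h (by simp) (opok1 (opT (hSc j hjm) hq0))
            (mem_B (j := j + 1) (by omega) (by simp))
        · have h : tabIns P (L.decT j) = DIns.or ((List.range P.q).map fun v => L.decTv j v) := by
            rw [ins_decT, if_pos hjm]
          refine cl_or h ?_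
          intro l' hl'
          obtain ⟨v, hv, rfl⟩ := List.mem_map.1 hl'
          exact mem_C hjm (List.mem_range.1 hv) (by simp)
        · have h : tabIns P (L.decS j) = DIns.or ((List.range P.q).map fun v => L.decSv j v) := by
            rw [ins_decS, if_pos hjm]
          refine cl_or h ?_
          intro l' hl'
          obtain ⟨v, hv, rfl⟩ := List.mem_map.1 hl'
          exact mem_C hjm (List.mem_range.1 hv) (by simp)
        · have h : tabIns P (L.incS j) = DIns.or ((List.range P.q).map fun v => L.incSv j v) := by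
            rw [ins_incS, if_pos hjm]
          refine cl_or h ?_
          intro l' hl'
          obtain ⟨v, hv, rfl⟩ := List.mem_map.1 hl'
          exact mem_C hjm (List.mem_range.1 hv) (by simp)
        · have h : tabIns P (L.gS j) = DIns.or ((List.range P.q).map fun v => L.gSv j v) := by
            rw [ins_gS, if_pos hjm]
          refine cl_or h ?_
          intro l' hl'
          obtain ⟨v, hv, rfl⟩ := List.mem_map.1 hl'
          exact mem_C hjm (List.mem_range.1 hv) (by simp)
      · rcases hl with rfl | rfl | rfl | rfl | rfl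
        · have h : tabIns P (L.szero j) = DIns.acc := by
            rw [ins_szero, if_neg hjm]
          exact cl_acc h
        · have h : tabIns P (L.decT j) = DIns.or [L.init] := by
            rw [ins_decT, if_neg hjm]
          refine cl_or h ?_
          intro l' hl'
          simp only [List.mem_cons, List.not_mem_nil, or_false] at hl'
          rw [hl']
          exact mem_A (by simp)
        · have h : tabIns P (L.decS j) = DIns.or [] := by
            rw [ins_decS, if_neg hjm]
          exact cl_or h (by simp)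
        · have h : tabIns P (L.incS j) = DIns.or [L.ovf] := by
            rw [ins_incS, if_neg hjm]
          refine cl_or h ?_
          intro l' hl'
          simp only [List.mem_cons, List.not_mem_nil, or_false] at hl'
          rw [hl']
          exact mem_A (by simp)
        · have h : tabIns P (L.gS j) = DIns.or [L.gA] := by
            rw [ins_gS, if_neg hjm]
          refine cl_or h ?_
          intro l' hl'
          simp only [List.mem_cons, List.not_mem_nil, or_false] at hl'
          rw [hl']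
          exact mem_A (by simp)
    · obtain ⟨j, hj, hl⟩ := List.mem_flatMap.1 hl
      obtain ⟨v, hv, hl⟩ := List.mem_flatMap.1 hl
      have hj' : j < P.m := List.mem_range.1 hj
      have hv' : v < P.q := List.mem_range.1 hv
      have hjc : j < P.ncol := by omega
      simp only [List.mem_cons, List.not_mem_nil, or_false] at hl
      rcases hl with rfl | rfl | rfl | rfl | rfl
      · by_cases h0 : v = 0
        · have h : tabIns P (L.decTv j v) = DIns.seq [Op.set j 0 (P.q - 1)] (L.decT (j + 1)) := by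
            rw [ins_decTv, if_pos h0]
          exact cl_seq h (by simp) (opok1 (opS hjc hq0 hq1))
            (mem_B (j := j + 1) (by omega) (by simp))
        · have h : tabIns P (L.decTv j v) = DIns.seq [Op.set j v (v - 1)] L.pick := by
            rw [ins_decTv, if_neg h0]
          exact cl_seq h (by simp) (opok1 (opS hjc hv' (by omega))) (mem_A (by simp))
      · by_cases h0 : v = 0
        · have h : tabIns P (L.decSv j v) =
              DIns.seq [Op.set (P.colS j) 0 (P.q - 1)] (L.decS (j + 1)) := by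
            rw [ins_decSv, if_pos h0]
          exact cl_seq h (by simp) (opok1 (opS (hSc j hj') hq0 hq1))
            (mem_B (j := j + 1) (by omega) (by simp))
        · have h : tabIns P (L.decSv j v) = DIns.seq [Op.set (P.colS j) v (v - 1)] L.check := by
            rw [ins_decSv, if_neg h0]
          exact cl_seq h (by simp) (opok1 (opS (hSc j hj') hv' (by omega))) (mem_A (by simp))
      · by_cases h0 : v + 1 < P.q
        · have h : tabIns P (L.incSv j v) = DIns.seq [Op.set (P.colS j) v (v + 1)] L.check := by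
            rw [ins_incSv, if_pos h0]
          exact cl_seq h (by simp) (opok1 (opS (hSc j hj') hv' h0)) (mem_A (by simp))
        · have h : tabIns P (L.incSv j v) = DIns.seq [Op.set (P.colS j) v 0] (L.incS (j + 1)) := by
            rw [ins_incSv, if_neg h0]
          exact cl_seq h (by simp) (opok1 (opS (hSc j hj') hv' hq0))
            (mem_B (j := j + 1) (by omega) (by simp))
      · exact cl_seq (ins_gSv P j v) (by simp) (opok1 (opS (hSc j hj') hq0 hv'))
          (mem_B (j := j + 1) (by omega) (by simp))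
      · by_cases h0 : 2 ≤ j ∧ v ≠ 0
        · have h : tabIns P (L.initH j v) = DIns.seq [Op.test (P.colS j) v,
              Op.test P.colA (P.nc.bl + 1), Op.test P.colH 0] L.acc := by
            rw [ins_initH, if_pos h0]
          exact cl_seq h (by simp) (opok3 (opT (hSc j hj') hv') (opT hA hbl') (opT hH hq0))
            (mem_A (by simp))
        · have h : tabIns P (L.initH j v) = DIns.or [] := by
            rw [ins_initH, if_neg h0]
          exact cl_or h (by simp)
    · obtain ⟨t, ht, hl⟩ := List.mem_flatMap.1 hl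
      obtain ⟨g0, g1, g2, g3, g4, g5⟩ := t_get hP ht
      obtain ⟨f1, f2⟩ := hFq t ht
      simp only [List.mem_cons, List.not_mem_nil, or_false] at hl
      rcases hl with rfl | rfl | rfl | rfl | rfl | rfl
      · exact cl_seq (ins_pickT P t) (by simp) (opok2 (opT hA f1) (opT hH f2))
          (mem_D ht (by simp))
      · exact cl_and (ins_split P t) (mem_D ht (by simp)) (mem_D ht (by simp))
      · exact cl_and (ins_split' P t) (mem_D ht (by simp)) (mem_D ht (by simp))
      · exact cl_seq (ins_brL P t) (by simp) (opok2 (opS hA f1 g0) (opS hH f2 g1))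
          (mem_B (j := 0) (by omega) (by simp))
      · exact cl_seq (ins_brC P t) (by simp) (opok2 (opS hA f1 g2) (opS hH f2 g3))
          (mem_A (by simp))
      · exact cl_seq (ins_brR P t) (by simp) (opok2 (opS hA f1 g4) (opS hH f2 g5))
          (mem_B (j := 0) (by omega) (by simp))
    · obtain ⟨v0, h2, h3⟩ := List.mem_flatMap.1 hl
      obtain ⟨v1, h4, rfl⟩ := List.mem_map.1 h3
      have hv0 : v0 < P.q := List.mem_range.1 h2
      have hv1 : v1 < P.q := List.mem_range.1 h4
      by_cases h0 : v0 + P.q * v1 = 0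
      · have h : tabIns P (L.initP v0 v1) = DIns.or [] := by
          rw [ins_initP, if_pos h0]
        exact cl_or h (by simp)
      · have h : tabIns P (L.initP v0 v1) = DIns.seq [Op.test (P.colS 0) v0, Op.test (P.colS 1) v1,
            Op.test P.colA (P.cell0 (v0 + P.q * v1)).1,
            Op.test P.colH (P.cell0 (v0 + P.q * v1)).2] (L.szero 2) := by
          rw [ins_initP, if_neg h0]
        have hc := cell0_lt hP (v0 + P.q * v1)
        exact cl_seq h (by simp) (opok4 (opT (hSc 0 (by omega)) hv0) (opT (hSc 1 (by omega)) hv1)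
          (opT hA hc.1) (opT hH hc.2)) (mem_B (j := 2) (by omega) (by simp))
    · obtain ⟨a, ha, rfl⟩ := List.mem_map.1 hl
      have ha' : a < P.nc.nG := List.mem_range.1 ha
      exact cl_seq (ins_gAv P (a + 1)) (by simp)
        (opok2 (opS hA hq0 (by omega)) (opS hH hq0 hqa')) (mem_A (by simp))
    · obtain ⟨c, hc, hl⟩ := List.mem_flatMap.1 hl
      have hc' : c ≤ P.ncol := by
        have := List.mem_range.1 hc
        omega
      simp only [List.mem_cons, List.not_mem_nil, or_false] at hl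
      by_cases hcc : c < P.ncol
      · rcases hl with rfl | rfl
        · have h : tabIns P (L.chain1 c) =
              DIns.seq [Op.test c (P.dg0 c)] (L.chain1 (c + 1)) := by
            rw [ins_chain1, if_pos hcc]
          exact cl_seq h (by simp) (opok1 (opT hcc (dg0_lt hq0 c)))
            (mem_G (c := c + 1) (by omega) (by simp))
        · have h : tabIns P (L.chain2 c) =
              DIns.seq [Op.test c (P.dg0 c)] (L.chain2 (c + 1)) := by
            rw [ins_chain2, if_pos hcc]
          exact cl_seq h (by simp) (opok1 (opT hcc (dg0_lt hq0 c)))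
            (mem_G (c := c + 1) (by omega) (by simp))
      · rcases hl with rfl | rfl
        · have h : tabIns P (L.chain1 c) = DIns.or [L.start] := by
            rw [ins_chain1, if_neg hcc]
          refine cl_or h ?_
          intro l' hl'
          simp only [List.mem_cons, List.not_mem_nil, or_false] at hl'
          rw [hl']
          exact mem_A (by simp)
        · have h : tabIns P (L.chain2 c) = DIns.acc := by
            rw [ins_chain2, if_neg hcc]
          exact cl_acc h
  exact ⟨fun l hl => (hcl l hl).1, fun l hl => (hcl l hl).2⟩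

end WF

end TabProof


/-- (module M-TAB) The correctness of the tableau program: the chain node reads the start digits,
then a position and a cell symbol are guessed with head in the accepting state, and the cell is
verified. The result: accepted at `start` iff the machine is in the accepting state at time
`q ^ (m - 1) - 1`. -/
theorem tab_correct (P : TPar) (hP : P.Good) :
    DAcc (tabIns P) L.start P.dg0 ↔ (P.nc.run P.w (P.q ^ (P.m - 1) - 1)).st = P.nc.qa :=
  TabProof.tab_correct' hP

/-- (module M-TAB) The chain nodes. -/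
theorem tab_chain1 (P : TPar) (hP : P.Good) (dg : ℕ → ℕ) (h0 : ∀ c, P.ncol ≤ c → dg c = 0) :
    DAcc (tabIns P) (L.chain1 0) dg ↔ dg = P.dg0 ∧ DAcc (tabIns P) L.start P.dg0 :=
  TabProof.tab_chain1' hP dg h0

theorem tab_chain2 (P : TPar) (hP : P.Good) (dg : ℕ → ℕ) (h0 : ∀ c, P.ncol ≤ c → dg c = 0) :
    DAcc (tabIns P) (L.chain2 0) dg ↔ dg = P.dg0 :=
  TabProof.tab_chain2' hP dg h0

/-- (module M-TAB) The list of labels is closed and operations are in range. -/
theorem tab_wf (P : TPar) (hP : P.Good) : DWF P.ncol P.q (tabLabs P) (tabIns P) :=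
  TabProof.tab_wf' hP

end Vale.Agent.Lib.P310.M
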