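import Vale.Agent.Lib.P310.M.PTFun
import Vale.Agent.Lib.P310.M.TabProg

/-!
(module M-PT) The tableau program is computed in polynomial time.
-/

namespace Vale.Agent.Lib.P310.M

variable {α : Type} [Enc α]

namespace RedPT

@[fun_prop] theorem nQ_pt {n : α → NCode} (h : PT n) : PT (fun a => (n a).nQ) := by
  unfold NCode.nQ; fun_prop
@[fun_prop] theorem nG_pt {n : α → NCode} (h : PT n) : PT (fun a => (n a).nG) := by
  unfold NCode.nG; fun_prop
@[fun_prop] theorem q0_pt {n : α → NCode} (h : PT n) : PT (fun a => (n a).q0) := by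
  unfold NCode.q0; fun_prop
@[fun_prop] theorem qa_pt {n : α → NCode} (h : PT n) : PT (fun a => (n a).qa) := by
  unfold NCode.qa; fun_prop
@[fun_prop] theorem qr_pt {n : α → NCode} (h : PT n) : PT (fun a => (n a).qr) := by
  unfold NCode.qr; fun_prop
@[fun_prop] theorem bl_pt {n : α → NCode} (h : PT n) : PT (fun a => (n a).bl) := by
  unfold NCode.bl; fun_prop
@[fun_prop] theorem s0_pt {n : α → NCode} (h : PT n) : PT (fun a => (n a).s0) := by
  unfold NCode.s0; fun_prop
@[fun_prop] theorem s1_pt {n : α → NCode} (h : PT n) : PT (fun a => (n a).s1) := by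
  unfold NCode.s1; fun_prop
@[fun_prop] theorem tbl_pt {n : α → NCode} (h : PT n) : PT (fun a => (n a).tbl) := by
  unfold NCode.tbl; fun_prop
@[fun_prop] theorem sBit_pt {n : α → NCode} {b : α → Bool} (h : PT n) (hb : PT b) :
    PT (fun a => (n a).sBit (b a)) := by
  unfold NCode.sBit; fun_prop
@[fun_prop] theorem next_pt {n : α → NCode} {q x : α → ℕ} (h : PT n) (hq : PT q) (hx : PT x) :
    PT (fun a => (n a).next (q a) (x a)) := by
  unfold NCode.next; fun_prop
@[fun_prop] theorem halted_pt {n : α → NCode} {q : α → ℕ} (h : PT n) (hq : PT q) :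
    PT (fun a => (n a).halted (q a)) := by
  unfold NCode.halted; fun_prop
@[fun_prop] theorem inputTape_pt {n : α → NCode} {w : α → List Bool} {i : α → ℕ} (h : PT n)
    (hw : PT w) (hi : PT i) : PT (fun a => (n a).inputTape (w a) (i a)) := by
  unfold NCode.inputTape; fun_prop
@[fun_prop] theorem F_pt {n : α → NCode} {al hl a0 h0 ar hr : α → ℕ} (h : PT n) (h1 : PT al)
    (h2 : PT hl) (h3 : PT a0) (h4 : PT h0) (h5 : PT ar) (h6 : PT hr) :
    PT (fun a => (n a).F (al a) (hl a) (a0 a) (h0 a) (ar a) (hr a)) := by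
  unfold NCode.F; fun_prop

@[fun_prop] theorem tp_nc {P : α → TPar} (h : PT P) : PT (fun a => (P a).nc) := by
  unfold TPar.nc; fun_prop
@[fun_prop] theorem tp_q {P : α → TPar} (h : PT P) : PT (fun a => (P a).q) := by
  unfold TPar.q; fun_prop
@[fun_prop] theorem tp_m {P : α → TPar} (h : PT P) : PT (fun a => (P a).m) := by
  unfold TPar.m; fun_prop
@[fun_prop] theorem tp_w {P : α → TPar} (h : PT P) : PT (fun a => (P a).w) := by
  unfold TPar.w; fun_prop
@[fun_prop] theorem tp_ncol {P : α → TPar} (h : PT P) : PT (fun a => (P a).ncol) := by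
  unfold TPar.ncol; fun_prop
@[fun_prop] theorem tp_colA {P : α → TPar} (h : PT P) : PT (fun a => (P a).colA) := by
  unfold TPar.colA; fun_prop
@[fun_prop] theorem tp_colH {P : α → TPar} (h : PT P) : PT (fun a => (P a).colH) := by
  unfold TPar.colH; fun_prop
@[fun_prop] theorem tp_colS {P : α → TPar} {j : α → ℕ} (h : PT P) (hj : PT j) :
    PT (fun a => (P a).colS (j a)) := by
  unfold TPar.colS; fun_prop
@[fun_prop] theorem tp_dg0 {P : α → TPar} {j : α → ℕ} (h : PT P) (hj : PT j) :
    PT (fun a => (P a).dg0 (j a)) := by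
  unfold TPar.dg0; fun_prop
@[fun_prop] theorem tp_triples {P : α → TPar} (h : PT P) : PT (fun a => (P a).triples) := by
  unfold TPar.triples; fun_prop
@[fun_prop] theorem tp_Ft {P : α → TPar} {t : α → List ℕ} (h : PT P) (ht : PT t) :
    PT (fun a => (P a).Ft (t a)) := by
  unfold TPar.Ft; fun_prop
@[fun_prop] theorem tp_cell0 {P : α → TPar} {s : α → ℕ} (h : PT P) (hs : PT s) :
    PT (fun a => (P a).cell0 (s a)) := by
  unfold TPar.cell0; fun_prop

@[fun_prop] theorem L_szero {j : α → ℕ} (h : PT j) : PT (fun a => L.szero (j a)) := by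
  unfold L.szero; fun_prop
@[fun_prop] theorem L_decT {j : α → ℕ} (h : PT j) : PT (fun a => L.decT (j a)) := by
  unfold L.decT; fun_prop
@[fun_prop] theorem L_decS {j : α → ℕ} (h : PT j) : PT (fun a => L.decS (j a)) := by
  unfold L.decS; fun_prop
@[fun_prop] theorem L_incS {j : α → ℕ} (h : PT j) : PT (fun a => L.incS (j a)) := by
  unfold L.incS; fun_prop
@[fun_prop] theorem L_gS {j : α → ℕ} (h : PT j) : PT (fun a => L.gS (j a)) := by
  unfold L.gS; fun_prop
@[fun_prop] theorem L_gAv {j : α → ℕ} (h : PT j) : PT (fun a => L.gAv (j a)) := by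
  unfold L.gAv; fun_prop
@[fun_prop] theorem L_chain1 {j : α → ℕ} (h : PT j) : PT (fun a => L.chain1 (j a)) := by
  unfold L.chain1; fun_prop
@[fun_prop] theorem L_chain2 {j : α → ℕ} (h : PT j) : PT (fun a => L.chain2 (j a)) := by
  unfold L.chain2; fun_prop
@[fun_prop] theorem L_decTv {j v : α → ℕ} (h : PT j) (h' : PT v) : PT (fun a => L.decTv (j a) (v a)) := by
  unfold L.decTv; fun_prop
@[fun_prop] theorem L_decSv {j v : α → ℕ} (h : PT j) (h' : PT v) : PT (fun a => L.decSv (j a) (v a)) := by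
  unfold L.decSv; fun_prop
@[fun_prop] theorem L_incSv {j v : α → ℕ} (h : PT j) (h' : PT v) : PT (fun a => L.incSv (j a) (v a)) := by
  unfold L.incSv; fun_prop
@[fun_prop] theorem L_gSv {j v : α → ℕ} (h : PT j) (h' : PT v) : PT (fun a => L.gSv (j a) (v a)) := by
  unfold L.gSv; fun_prop
@[fun_prop] theorem L_initH {j v : α → ℕ} (h : PT j) (h' : PT v) : PT (fun a => L.initH (j a) (v a)) := by
  unfold L.initH; fun_prop
@[fun_prop] theorem L_initP {j v : α → ℕ} (h : PT j) (h' : PT v) : PT (fun a => L.initP (j a) (v a)) := by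
  unfold L.initP; fun_prop
@[fun_prop] theorem L_pickT {t : α → List ℕ} (h : PT t) : PT (fun a => L.pickT (t a)) := by
  unfold L.pickT; fun_prop
@[fun_prop] theorem L_split {t : α → List ℕ} (h : PT t) : PT (fun a => L.split (t a)) := by
  unfold L.split; fun_prop
@[fun_prop] theorem L_split' {t : α → List ℕ} (h : PT t) : PT (fun a => L.split' (t a)) := by
  unfold L.split'; fun_prop
@[fun_prop] theorem L_brL {t : α → List ℕ} (h : PT t) : PT (fun a => L.brL (t a)) := by
  unfold L.brL; fun_prop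
@[fun_prop] theorem L_brC {t : α → List ℕ} (h : PT t) : PT (fun a => L.brC (t a)) := by
  unfold L.brC; fun_prop
@[fun_prop] theorem L_brR {t : α → List ℕ} (h : PT t) : PT (fun a => L.brR (t a)) := by
  unfold L.brR; fun_prop

@[fun_prop] theorem tabTable_pt {P : α → TPar} {l : α → Lab} (h : PT P) (hl : PT l) :
    PT (fun a => tabTable (P a) (l a)) := by
  unfold tabTable; fun_prop

@[fun_prop] theorem tabIns_pt {P : α → TPar} {l : α → Lab} (h : PT P) (hl : PT l) :
    PT (fun a => tabIns (P a) (l a)) := by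
  unfold tabIns; fun_prop

@[fun_prop] theorem tabLabs_pt {P : α → TPar} (h : PT P) : PT (fun a => tabLabs (P a)) := by
  unfold tabLabs; fun_prop

end RedPT

end Vale.Agent.Lib.P310.M
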