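import Vale.Agent.Lib.P310.M.SpecTab
import Vale.Agent.Lib.P310.M.TabProg
import Vale.Agent.Lib.P310.M.Iso
import Vale.Agent.Lib.P310.N.ProgSem
import Vale.Agent.Lib.P310.M.RedTab

/-!
The reduction: from the code of a machine, with the table of all labels as padding, to the pair of
graphs.
-/

namespace Vale.Agent.Lib.P310.M

open Vale.Agent.Lib.P310.N

/-- The input of the reduction: the code of a machine and the list of all labels. -/
abbrev Inp := NCode × List (List Bool)

/-- The parameters of the tableau. -/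
def redPar (p m : ℕ) (x : Inp) : TPar := (x.1, x.2.length, m, ser (enc x), p - 1)

/-- The table of the digit program. -/
def redDTab (p m : ℕ) (x : Inp) : DTab := tabOf (tabLabs (redPar p m x)) (tabIns (redPar p m x))

/-- The word of the pair of graphs: `y = ((p, m), x)`. -/
def redBits (y : (ℕ × ℕ) × Inp) : List Bool :=
  let p := y.1.1
  let m := y.1.2
  let x := y.2
  let tab := redDTab p m x
  graphBits p x.2 (SP.specTab (npOf p x.2 tab, refN tab (L.chain1 0, 0), refN tab (L.chain2 0, 0), p) x.2)

namespace RedPT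

variable {α : Type} [Enc α]

@[fun_prop] theorem xorL_pt {f g : α → List Bool} (hf : PT f) (hg : PT g) :
    PT (fun a => xorL (f a) (g a)) := by
  have h : PT (fun x : α × Bool × Bool => xor x.2.1 x.2.2) := by fun_prop
  exact PT.zipWith hf hg h

lemma lookup_getD (tab : DTab) (l : Lab) (d : DIns) :
    (tab.lookup l).getD d = ((tab.filter (fun e => l == e.1)).map Prod.snd).getD 0 d := by
  induction tab with
  | nil => rfl
  | cons e tab ih =>
    obtain ⟨k, b⟩ := e
    cases h : (l == k) with
    | true => simp [List.lookup, h]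
    | false => simpa [List.lookup, h] using ih

@[fun_prop] theorem insOf_pt {t : α → DTab} {l : α → Lab} (ht : PT t) (hl : PT l) :
    PT (fun a => insOf (t a) (l a)) := by
  unfold insOf
  simp only [lookup_getD]
  fun_prop

@[fun_prop] theorem tabOf_pt {L : α → List Lab} {P : α → TPar} (hL : PT L) (hP : PT P) :
    PT (fun a => tabOf (L a) (tabIns (P a))) := by
  unfold tabOf; fun_prop

@[fun_prop] theorem primsOf_pt {o : α → List Op} (h : PT o) : PT (fun a => primsOf (o a)) := by
  unfold primsOf; fun_prop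

@[fun_prop] theorem nodeCount_pt {i : α → DIns} (h : PT i) : PT (fun a => nodeCount (i a)) := by
  unfold nodeCount; fun_prop

@[fun_prop] theorem nodesOf_pt {t : α → DTab} (h : PT t) : PT (fun a => nodesOf (t a)) := by
  unfold nodesOf; fun_prop

@[fun_prop] theorem kindOf_pt {t : α → DTab} {n : α → Lab × ℕ} (h : PT t) (hn : PT n) :
    PT (fun a => kindOf (t a) (n a)) := by
  unfold kindOf; fun_prop

@[fun_prop] theorem refN_pt {t : α → DTab} {n : α → Lab × ℕ} (h : PT t) (hn : PT n) :
    PT (fun a => refN (t a) (n a)) := by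
  unfold refN; fun_prop

@[fun_prop] theorem nextRef_pt {t : α → DTab} {l : α → Lab} {i : α → ℕ} {x : α → List Op × Lab}
    (h : PT t) (hl : PT l) (hi : PT i) (hx : PT x) :
    PT (fun a => nextRef (t a) (l a) (i a) (x a)) := by
  unfold nextRef; fun_prop

lemma orChildren_eq (t : DTab) (n : Lab × ℕ) (ls : List Lab) :
    orChildren t n ls = (nodesOf t).map fun n' =>
      if n'.2 = 0 ∧ n'.1 ∈ ls then refN t n'
      else (ls.map fun c => refN t (c, 0)).getD 0 (refN t n) := by
  unfold orChildren
  congr 1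
  funext n'
  cases ls <;> simp

@[fun_prop] theorem orChildren_pt {t : α → DTab} {n : α → Lab × ℕ} {ls : α → List Lab} (h : PT t)
    (hn : PT n) (hls : PT ls) : PT (fun a => orChildren (t a) (n a) (ls a)) := by
  simp only [orChildren_eq]
  fun_prop

@[fun_prop] theorem gateEntry_pt {t : α → DTab} {n : α → Lab × ℕ} (h : PT t) (hn : PT n) :
    PT (fun a => gateEntry (t a) (n a)) := by
  unfold gateEntry; fun_prop

@[fun_prop] theorem readEntry_pt {lb : α → List (List Bool)} {t : α → DTab} {n : α → Lab × ℕ}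
    (hl : PT lb) (h : PT t) (hn : PT n) : PT (fun a => readEntry (lb a) (t a) (n a)) := by
  unfold readEntry; fun_prop

@[fun_prop] theorem writeVec_pt {p : α → ℕ} {lb : α → List (List Bool)} {y : α → ℕ × ℕ × ℕ}
    (hp : PT p) (hl : PT lb) (hy : PT y) : PT (fun a => writeVec (p a) (lb a) (y a)) := by
  unfold writeVec; fun_prop

@[fun_prop] theorem writeEntry_pt {p : α → ℕ} {lb : α → List (List Bool)} {t : α → DTab}
    {n : α → Lab × ℕ} (hp : PT p) (hl : PT lb) (h : PT t) (hn : PT n) :
    PT (fun a => writeEntry (p a) (lb a) (t a) (n a)) := by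
  unfold writeEntry; fun_prop

@[fun_prop] theorem npOf_pt {p : α → ℕ} {lb : α → List (List Bool)} {t : α → DTab} (hp : PT p)
    (hl : PT lb) (h : PT t) : PT (fun a => npOf (p a) (lb a) (t a)) := by
  unfold npOf; fun_prop

@[fun_prop] theorem npN_pt {n : α → NP} (h : PT n) : PT (fun a => (n a).N) := by
  unfold NP.N; fun_prop
@[fun_prop] theorem npgates_pt {n : α → NP} (h : PT n) : PT (fun a => (n a).gates) := by
  unfold NP.gates; fun_prop
@[fun_prop] theorem npreads_pt {n : α → NP} (h : PT n) : PT (fun a => (n a).reads) := by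
  unfold NP.reads; fun_prop
@[fun_prop] theorem npwrites_pt {n : α → NP} (h : PT n) : PT (fun a => (n a).writes) := by
  unfold NP.writes; fun_prop
@[fun_prop] theorem gateL_pt {n : α → NP} {g i : α → ℕ} (h : PT n) (hg : PT g) (hi : PT i) :
    PT (fun a => (n a).gateL (g a) (i a)) := by
  unfold NP.gateL; fun_prop
@[fun_prop] theorem gateR_pt {n : α → NP} {g i : α → ℕ} (h : PT n) (hg : PT g) (hi : PT i) :
    PT (fun a => (n a).gateR (g a) (i a)) := by
  unfold NP.gateR; fun_prop

/-! The row table. -/

@[fun_prop] theorem sp_np {x : α → SP} (h : PT x) : PT (fun a => (x a).np) := by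
  unfold SP.np; fun_prop
@[fun_prop] theorem sp_s1 {x : α → SP} (h : PT x) : PT (fun a => (x a).s1) := by
  unfold SP.s1; fun_prop
@[fun_prop] theorem sp_s2 {x : α → SP} (h : PT x) : PT (fun a => (x a).s2) := by
  unfold SP.s2; fun_prop
@[fun_prop] theorem sp_p {x : α → SP} (h : PT x) : PT (fun a => (x a).p) := by
  unfold SP.p; fun_prop
@[fun_prop] theorem sp_topD {x : α → SP} {l : α → LnD} (h : PT x) (hl : PT l) :
    PT (fun a => (x a).topD (l a)) := by
  unfold SP.topD; fun_prop
@[fun_prop] theorem sp_botD {l : α → LnD} (hl : PT l) : PT (fun a => SP.botD (l a)) := by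
  unfold SP.botD; fun_prop
@[fun_prop] theorem sp_srcD {l : α → ℕ} (hl : PT l) : PT (fun a => SP.srcD (l a)) := by
  unfold SP.srcD; fun_prop
@[fun_prop] theorem sp_kD {l : α → TrD} (hl : PT l) : PT (fun a => SP.kD (l a)) := by
  unfold SP.kD; fun_prop
@[fun_prop] theorem sp_aD {l : α → TrD} (hl : PT l) : PT (fun a => SP.aD (l a)) := by
  unfold SP.aD; fun_prop
@[fun_prop] theorem sp_bD {l : α → TrD} (hl : PT l) : PT (fun a => SP.bD (l a)) := by
  unfold SP.bD; fun_prop
@[fun_prop] theorem sp_lenD {x : α → SP} (h : PT x) : PT (fun a => (x a).lenD) := by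
  unfold SP.lenD; fun_prop
@[fun_prop] theorem sp_scD {x : α → SP} {l : α → LnD} {t : α → ℕ} (h : PT x) (hl : PT l)
    (ht : PT t) : PT (fun a => (x a).scD (l a) (t a)) := by
  unfold SP.scD; fun_prop
@[fun_prop] theorem zeroOf_pt {lb : α → List (List Bool)} (h : PT lb) :
    PT (fun a => zeroOf (lb a)) := by
  unfold zeroOf; fun_prop
@[fun_prop] theorem sp_zeroVec {x : α → SP} {lb : α → List (List Bool)} (h : PT x) (hl : PT lb) :
    PT (fun a => (x a).zeroVec (lb a)) := by
  unfold SP.zeroVec; fun_prop
@[fun_prop] theorem sp_wrVec {x : α → SP} {lb : α → List (List Bool)} {l : α → LnD} (h : PT x)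
    (hb : PT lb) (hl : PT l) : PT (fun a => (x a).wrVec (lb a) (l a)) := by
  unfold SP.wrVec; fun_prop
@[fun_prop] theorem sp_rdD {x : α → SP} {l : α → LnD} {t : α → ℕ} (h : PT x) (hl : PT l)
    (ht : PT t) : PT (fun a => (x a).rdD (l a) (t a)) := by
  unfold SP.rdD; fun_prop
@[fun_prop] theorem sp_twD {l : α → LnD} (hl : PT l) : PT (fun a => SP.twD (l a)) := by
  unfold SP.twD; fun_prop
@[fun_prop] theorem sp_rowE {x : α → SP} {lb : α → List (List Bool)} {r : α → RowD} (h : PT x)
    (hb : PT lb) (hr : PT r) : PT (fun a => (x a).rowE (lb a) (r a)) := by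
  unfold SP.rowE; fun_prop
@[fun_prop] theorem sp_linesD {x : α → SP} (h : PT x) : PT (fun a => (x a).linesD) := by
  unfold SP.linesD; fun_prop
@[fun_prop] theorem sp_rowsD {x : α → SP} (h : PT x) : PT (fun a => (x a).rowsD) := by
  unfold SP.rowsD; fun_prop
@[fun_prop] theorem sp_specTab {x : α → SP} {lb : α → List (List Bool)} (h : PT x) (hb : PT lb) :
    PT (fun a => (x a).specTab (lb a)) := by
  unfold SP.specTab; fun_prop

/-! The graphs. -/

@[fun_prop] theorem okB_pt {p : α → ℕ} {lb : α → List (List Bool)} {re : α → RowE} {j : α → ℕ}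
    {st lab : α → List Bool} (hp : PT p) (hb : PT lb) (hr : PT re) (hj : PT j) (hs : PT st)
    (hl : PT lab) : PT (fun a => okB (p a) (lb a) (re a) (j a) (st a) (lab a)) := by
  unfold okB; fun_prop
@[fun_prop] theorem blocksD_pt {p : α → ℕ} {lb : α → List (List Bool)} {t : α → List RowE}
    (hp : PT p) (hb : PT lb) (ht : PT t) : PT (fun a => blocksD (p a) (lb a) (t a)) := by
  unfold blocksD; fun_prop
@[fun_prop] theorem varsD_pt {p : α → ℕ} {e : α → BkD} (hp : PT p) (he : PT e) :
    PT (fun a => varsD (p a) (e a)) := by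
  unfold varsD; fun_prop
@[fun_prop] theorem rhsD_pt {e : α → BkD} (he : PT e) : PT (fun a => rhsD (e a)) := by
  unfold rhsD; fun_prop
@[fun_prop] theorem parD_pt {l : α → List Bool} (hl : PT l) : PT (fun a => parD (l a)) := by
  have hs : PT (fun x : α × Bool × Bool => xor x.2.1 x.2.2) := by fun_prop
  have := PT.list_foldr (f := l) (b := fun _ : α => false)
    (s := fun x : α × Bool × Bool => xor x.2.1 x.2.2) hl (PT.const false) hs
    ⟨3, 0, fun a l => by simpa using PT.sz_enc_bool _⟩
  exact this
@[fun_prop] theorem baseD_pt {p : α → ℕ} {b : α → List BkD} {c : α → Bool} (hp : PT p) (hb : PT b)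
    (hc : PT c) : PT (fun a => baseD (p a) (b a) (c a)) := by
  unfold baseD; fun_prop
@[fun_prop] theorem multD_pt {b : α → List BkD} {m : α → ℕ} {e : α → BkD} (hb : PT b) (hm : PT m)
    (he : PT e) : PT (fun a => multD (b a) (m a) (e a)) := by
  unfold multD; fun_prop
@[fun_prop] theorem vertsD_pt {p : α → ℕ} {b : α → List BkD} {c : α → Bool} (hp : PT p) (hb : PT b)
    (hc : PT c) : PT (fun a => vertsD (p a) (b a) (c a)) := by
  unfold vertsD; fun_prop
instance lawfulSum {β γ : Type} [BEq β] [BEq γ] [LawfulBEq β] [LawfulBEq γ] :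
    LawfulBEq (β ⊕ γ) where
  rfl := by
    rintro (a | b)
    · exact (beq_self_eq_true a : (a == a) = true)
    · exact (beq_self_eq_true b : (b == b) = true)
  eq_of_beq := by
    rintro (a | b) (a' | b') h
    · have h' : (a == a') = true := h
      rw [eq_of_beq h']
    · cases h
    · cases h
    · have h' : (b == b') = true := h
      rw [eq_of_beq h']

@[fun_prop] theorem baseAdjD_pt {u v : α → VD} (hu : PT u) (hv : PT v) :
    PT (fun a => baseAdjD (u a) (v a)) := by
  unfold baseAdjD; fun_prop
@[fun_prop] theorem adjD_pt {x y : α → VertD} (hx : PT x) (hy : PT y) :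
    PT (fun a => adjD (x a) (y a)) := by
  unfold adjD; fun_prop
@[fun_prop] theorem matD_pt {v : α → List VertD} (hv : PT v) : PT (fun a => matD (v a)) := by
  unfold matD; fun_prop
@[fun_prop] theorem graphBits_pt {p : α → ℕ} {lb : α → List (List Bool)} {t : α → List RowE}
    (hp : PT p) (hb : PT lb) (ht : PT t) : PT (fun a => graphBits (p a) (lb a) (t a)) := by
  unfold graphBits; fun_prop

@[fun_prop] theorem redPar_pt {p m : α → ℕ} {x : α → Inp} (hp : PT p) (hm : PT m) (hx : PT x) :
    PT (fun a => redPar (p a) (m a) (x a)) := by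
  unfold redPar; fun_prop
@[fun_prop] theorem redDTab_pt {p m : α → ℕ} {x : α → Inp} (hp : PT p) (hm : PT m) (hx : PT x) :
    PT (fun a => redDTab (p a) (m a) (x a)) := by
  unfold redDTab; fun_prop

end RedPT

/-- (module M-PT) The reduction is computed in polynomial time. -/
theorem redBits_pt : PT redBits := by
  unfold redBits; fun_prop

end Vale.Agent.Lib.P310.M
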