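import Vale.Agent.Lib.P310.M.Red

/-!
The correctness of the reduction, from the correctness of its parts.
-/

namespace Vale.Agent.Lib.P310.M

open Vale.Agent.Lib.P310.N

open scoped Classical

/-- The reduction is correct: for a well-formed code and `b` large enough, the word is the encoding
of a pair of graphs which are `p`-WL equivalent iff the machine is not in its accepting state at
time `(2 ^ b) ^ (m - 1) - 1`. -/
theorem red_correct (p m : ℕ) (nc : NCode) (b : ℕ) (hm : 3 ≤ m) (hp : 2 * m + 3 ≤ p)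
    (hwf : nc.WF) (hG : nc.nG + 2 ≤ 2 ^ b) (hQ : nc.nQ + 2 ≤ 2 ^ b)
    (hw : (ser (enc ((nc, allVec b) : Inp))).length + 2 ≤ 2 ^ b * 2 ^ b) :
    ∃ (n : ℕ) (G H : SimpleGraph (Fin n)), 1 ≤ n ∧
      redBits ((p, m), (nc, allVec b)) = encPair G H ∧
      (WLEquiv p G H ↔
        (nc.run (ser (enc ((nc, allVec b) : Inp))) ((2 ^ b) ^ (m - 1) - 1)).st ≠ nc.qa) := by
  have hp2 : 2 ≤ p := by omega
  have hp0 : 0 < p := by omega
  set x : Inp := (nc, allVec b) with hx
  set P : TPar := redPar p m x with hP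
  have hq : P.q = 2 ^ b := allVec_length b
  have hPw : P.w = ser (enc x) := rfl
  have hPm : P.m = m := rfl
  have hPn : P.ncol = p - 1 := rfl
  have hgood : P.Good :=
    { wf := hwf
      hm := hm
      hq := by rw [hq]; omega
      hnG := by rw [hq]; exact hG
      hnQ := by rw [hq]; exact hQ
      hw := by rw [hq, hPw]; exact hw
      hcol := by rw [hPn, hPm]; omega }
  have hd : DWF (p - 1) (2 ^ b) (tabLabs P) (tabIns P) := by
    have := tab_wf P hgood
    rwa [hPn, hq] at this
  set tab : DTab := tabOf (tabLabs P) (tabIns P) with htab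
  set np : NP := npOf p (allVec b) tab with hnp
  have hnpwf : np.WF p b := npOf_wf hp2 hd
  have hl1 : L.chain1 0 ∈ tabLabs P := by
    simp only [tabLabs, List.mem_append]
    right
    exact List.mem_flatMap.2 ⟨0, by simp, by simp⟩
  have hl2 : L.chain2 0 ∈ tabLabs P := by
    simp only [tabLabs, List.mem_append]
    right
    exact List.mem_flatMap.2 ⟨0, by simp, by simp⟩
  have hr1 : (refN tab (L.chain1 0, 0)).2 < np.N := refN_lt hd hl1
  have hr2 : (refN tab (L.chain2 0, 0)).2 < np.N := refN_lt hd hl2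
  let d : Fin np.N := ⟨_, hr1⟩
  obtain ⟨Pres, hPres⟩ := specTab_pres hp2 np hnpwf (refN tab (L.chain1 0, 0))
    (refN tab (L.chain2 0, 0)) d hr1 hr2 (npOf_kinds p (allVec b) tab) (refN_kind tab _) (refN_kind tab _)
  let Q : Prog p b := np.toProg p b (by omega)
  let s1 : Q.Node := np.res d (refN tab (L.chain1 0, 0))
  let s2 : Q.Node := np.res d (refN tab (L.chain2 0, 0))
  have := Q.nonempty_bk hp2 s1 s2
  obtain ⟨ν, n, G0, G1, hn, hbits, ⟨e0⟩, ⟨e1⟩⟩ := Pres.iso hp2
  refine ⟨n, G0, G1, hn, ?_, ?_⟩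
  · rw [← hbits, hPres]
    rfl
  · rw [wlEquiv_iso p e0 e1]
    have hA1 := fun F => dp_acc_iff (p := p) (b := b) hp2 hd (L.chain1 0) hl1 d F
    have hA2 := fun F => dp_acc_iff (p := p) (b := b) hp2 hd (L.chain2 0) hl2 d F
    have hT : (P.q ^ (P.m - 1) - 1) = (2 ^ b) ^ (m - 1) - 1 := by rw [hq, hPm]
    have hC := tab_correct P hgood
    rw [hT, hPw] at hC
    have h1 := tab_chain1 P hgood
    have h2 := tab_chain2 P hgood
    have hdg0 : ∀ c, P.ncol ≤ c → P.dg0 c = 0 := by
      intro c hc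
      have : ¬ c + 1 < P.m := by rw [hPn] at hc; rw [hPm]; omega
      simp [TPar.dg0, this]
    have hnorm : NormDg p (2 ^ b) P.dg0 := by
      constructor
      · intro c _
        unfold TPar.dg0
        split_ifs
        · rw [hq]; have := Nat.pos_of_ne_zero (pow_ne_zero b (by norm_num : (2 : ℕ) ≠ 0)); omega
        · have := Nat.pos_of_ne_zero (pow_ne_zero b (by norm_num : (2 : ℕ) ≠ 0)); omega
      · intro c hc
        apply hdg0
        rw [hPn]; omega
    constructor
    · intro hW hst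
      have hs := hC.2 hst
      have a1 : DAcc (tabIns P) (L.chain1 0) P.dg0 := (h1 _ hdg0).2 ⟨rfl, hs⟩
      have a2 : DAcc (tabIns P) (L.chain2 0) P.dg0 := (h2 _ hdg0).2 rfl
      have b1 := (hA1 (frm (allVec b) P.dg0)).2 ⟨P.dg0, hnorm, rfl, a1⟩
      have b2 := (hA2 (frm (allVec b) P.dg0)).2 ⟨P.dg0, hnorm, rfl, a2⟩
      exact Q.not_wlEquiv_of_acc hp2 s1 s2 ν b1 b2 hW
    · intro hst
      refine Q.wlEquiv_of_not_acc hp2 s1 s2 ν ?_
      intro F hF
      obtain ⟨dg, hdg, _, hacc⟩ := (hA1 F).1 hF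
      have hz : ∀ c, P.ncol ≤ c → dg c = 0 := by
        intro c hc
        apply hdg.2
        rw [hPn] at hc
        omega
      exact hst (hC.1 ((h1 _ hz).1 hacc).2)

end Vale.Agent.Lib.P310.M
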