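import Vale.Agent.Lib.P310.M.DiagCore

/-!
(module M-DIAG) The correctness of the reduction `redBits`, assembled from the correctness of the
tableau, of the compilation of digit programs, of the tables of the specification and of the graphs.
-/

namespace Vale.Agent.Lib.P310.M

open Vale.Agent.Lib.P310 Vale.Agent.Lib.P310.N

/-- The correctness of the reduction. -/
theorem redSpec : RedSpec := by
  intro p m b nc hp hP
  obtain ⟨P, hPdef⟩ : ∃ P, P = redPar p m (nc, allVec b) := ⟨_, rfl⟩
  rw [← hPdef] at hP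
  have hq : P.q = 2 ^ b := by
    rw [hPdef]
    exact allVec_length b
  have hncol : P.ncol = p - 1 := by rw [hPdef]; rfl
  have hPm : P.m = m := by rw [hPdef]; rfl
  have hPnc : P.nc = nc := by rw [hPdef]; rfl
  have hPw : P.w = ser (enc ((nc, allVec b) : Inp)) := by rw [hPdef]; rfl
  have hwf : DWF (p - 1) (2 ^ b) (tabLabs P) (tabIns P) := by
    rw [← hq, ← hncol]
    exact tab_wf P hP
  have hl1 : L.chain1 0 ∈ tabLabs P := TabProof.mem_G (P := P) (c := 0) (Nat.zero_le _) (by simp)
  have hl2 : L.chain2 0 ∈ tabLabs P := TabProof.mem_G (P := P) (c := 0) (Nat.zero_le _) (by simp)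
  obtain ⟨tab, htab⟩ : ∃ tab, tab = tabOf (tabLabs P) (tabIns P) := ⟨_, rfl⟩
  have hWF : (npOf p (allVec b) tab).WF p b := by
    rw [htab]
    exact npOf_wf hp hwf
  have h1 : (refN tab (L.chain1 0, 0)).2 < (npOf p (allVec b) tab).N := by
    rw [htab]
    exact refN_lt hwf hl1
  have h2 : (refN tab (L.chain2 0, 0)).2 < (npOf p (allVec b) tab).N := by
    rw [htab]
    exact refN_lt hwf hl2
  let d : Fin (npOf p (allVec b) tab).N := ⟨_, h1⟩
  obtain ⟨P', hP'⟩ := specTab_pres hp (npOf p (allVec b) tab) hWF _ _ d h1 h2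
    (npOf_kinds p (allVec b) tab) (refN_kind tab _) (refN_kind tab _)
  have hBk := ((npOf p (allVec b) tab).toProg p b (by omega)).nonempty_bk hp
    ((npOf p (allVec b) tab).res d (refN tab (L.chain1 0, 0)))
    ((npOf p (allVec b) tab).res d (refN tab (L.chain2 0, 0)))
  obtain ⟨ν, n, G0, G1, hn, hbits, ⟨φ0⟩, ⟨φ1⟩⟩ := P'.iso hp
  refine ⟨n, G0, G1, hn, ?_, ?_⟩
  · rw [← hbits, hP', htab, hPdef]
    rfl
  · rw [wlEquiv_iso p φ0 φ1]
    have hacc : ∀ (l : Lab) (hl : l ∈ tabLabs P) (L0 : Frame p b),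
        ((npOf p (allVec b) tab).toProg p b (by omega)).Acc
          ((npOf p (allVec b) tab).res d (refN tab (l, 0))) L0 ↔
        ∃ dg, NormDg p (2 ^ b) dg ∧ L0 = frm (allVec b) dg ∧ DAcc (tabIns P) l dg := by
      intro l hl L0
      subst htab
      exact dp_acc_iff hp hwf l hl d L0
    have hcorr := tab_correct P hP
    rw [hq, hPm, hPnc, hPw] at hcorr
    constructor
    · intro hW hst
      have hstart := hcorr.2 hst
      have hN : NormDg p (2 ^ b) P.dg0 := by
        have hcol := hP.hcol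
        rw [hncol, hPm] at hcol
        constructor
        · intro c _
          rw [← hq]
          exact TabProof.dg0_lt (P := P) (by have := hP.hq; omega) c
        · intro c hc
          exact TabProof.dg0_high (P := P) (by rw [hPm]; omega)
      have hncoldg : ∀ c, P.ncol ≤ c → P.dg0 c = 0 := by
        intro c hc
        apply hN.2
        rw [hncol] at hc
        omega
      have a1 := (hacc (L.chain1 0) hl1 (frm (allVec b) P.dg0)).2
        ⟨P.dg0, hN, rfl, (tab_chain1 P hP P.dg0 hncoldg).2 ⟨rfl, hstart⟩⟩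
      have a2 := (hacc (L.chain2 0) hl2 (frm (allVec b) P.dg0)).2
        ⟨P.dg0, hN, rfl, (tab_chain2 P hP P.dg0 hncoldg).2 rfl⟩
      exact Prog.not_wlEquiv_of_acc _ hp _ _ ν a1 a2 hW
    · intro hna
      apply Prog.wlEquiv_of_not_acc _ hp _ _ ν
      intro L0 hL0
      obtain ⟨dg, hnorm, _, hd⟩ := (hacc (L.chain1 0) hl1 L0).1 hL0
      have h0 : ∀ c, P.ncol ≤ c → dg c = 0 := by
        intro c hc
        apply hnorm.2
        rw [hncol] at hc
        omega
      obtain ⟨_, hst⟩ := (tab_chain1 P hP dg h0).1 hd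
      exact hna (hcorr.1 hst)

/-- The lower bound: the full answer. -/
theorem lowerBound : LowerBound := lowerBound_of_spec redSpec

end Vale.Agent.Lib.P310.M
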