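import Vale.Agent.Lib.P310.M.DP2Prog
import Vale.Agent.Lib.P310.M.NetTabIso
import Vale.Agent.Lib.P310.N.ProgOk
import Vale.Agent.Lib.P310.N.ProgSem

/-!
(module M-G2) The row table of the compiled specification of a numeric program.
Data types mirroring the hubs, lines, T-rows, sections and rows of `Prog.spec`.
-/

namespace Vale.Agent.Lib.P310.M

open Vale.Agent.Lib.P310.N

abbrev HubD := NodeD ⊕ (ℕ × ℕ × Bool) ⊕ ℕ
abbrev LnD := ℕ ⊕ ℕ ⊕ (ℕ × ℕ × Bool) ⊕ Bool ⊕ Unit
abbrev TrD := (ℕ × ℕ) ⊕ Unit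
abbrev SecD := HubD ⊕ (LnD × ℕ)
abbrev RowD := ℕ ⊕ TrD ⊕ (LnD × ℕ)

/-- The parameters: program, the two distinguished nodes, the number of columns. -/
abbrev SP := NP × NodeD × NodeD × ℕ

namespace SP

variable (x : SP)

def np : NP := x.1
def s1 : NodeD := x.2.1
def s2 : NodeD := x.2.2.1
def p : ℕ := x.2.2.2

def topD : LnD → HubD :=
  Sum.elim (fun r => Sum.inl (x.np.reads.getD r (0, [], (0, 0))).2.2)
    (Sum.elim (fun w => Sum.inl (x.np.writes.getD w ([], (0, 0))).2)
      (Sum.elim (fun y => Sum.inl (cond y.2.2 (x.np.gateR y.1 y.2.1) (x.np.gateL y.1 y.2.1)))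
        (Sum.elim (fun _ => Sum.inl x.s1) (fun _ => Sum.inl x.s2))))

def botD : LnD → HubD :=
  Sum.elim (fun r => Sum.inl (1, r))
    (Sum.elim (fun w => Sum.inl (2, w))
      (Sum.elim (fun y => Sum.inr (Sum.inl y))
        (Sum.elim (fun c => Sum.inr (Sum.inr (cond c 2 1))) (fun _ => Sum.inr (Sum.inr 0)))))

def srcD (a : ℕ) : HubD := Sum.inl (3, a)

def kD : TrD → HubD := Sum.elim (fun y => Sum.inl (0, y.1)) (fun _ => Sum.inr (Sum.inr 0))
def aD : TrD → HubD := Sum.elim (fun y => Sum.inr (Sum.inl (y.1, y.2, false))) (fun _ => Sum.inr (Sum.inr 1))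
def bD : TrD → HubD := Sum.elim (fun y => Sum.inr (Sum.inl (y.1, y.2, true))) (fun _ => Sum.inr (Sum.inr 2))

/-- The number of rows of a line. -/
def lenD : ℕ := 5 * (x.p + 2)

/-- The section number `t` of a line. -/
def scD (l : LnD) (t : ℕ) : SecD :=
  if t = 0 then Sum.inl (x.topD l)
  else if t < x.lenD then Sum.inr (l, t - 1)
  else Sum.inl (botD l)

/-- The zero vector of a row entry. -/
def zeroVec (lb : List (List Bool)) : List (List Bool) :=
  (List.range x.p).map fun _ => zeroOf lb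

/-- The write vector of a line. -/
def wrVec (lb : List (List Bool)) : LnD → List (List Bool) :=
  Sum.elim (fun _ => x.zeroVec lb)
    (Sum.elim (fun w => (x.np.writes.getD w ([], (0, 0))).1) (fun _ => x.zeroVec lb))

/-- The reads of a line row, as a list with at most one entry. -/
def rdD (l : LnD) (t : ℕ) : List (ℕ × List Bool) :=
  Sum.elim
    (fun r =>
      if x.p + 2 ≤ t ∧ t < 4 * (x.p + 2) then
        [((x.np.reads.getD r (0, [], (0, 0))).1, (x.np.reads.getD r (0, [], (0, 0))).2.1)]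
      else [])
    (fun _ => []) l

/-- The twist of a line. -/
def twD : LnD → Bool :=
  Sum.elim (fun _ => false) (Sum.elim (fun _ => false) (Sum.elim (fun _ => false)
    (Sum.elim (fun _ => false) (fun _ => true))))

/-- The entry of a row. -/
def rowE (lb : List (List Bool)) : RowD → RowE := fun r =>
  Sum.elim
    (fun a => (enc r, [(enc (Sum.inl (srcD a) : SecD), x.zeroVec lb)], [], false))
    (Sum.elim
      (fun t => (enc r, [(enc (Sum.inl (kD t) : SecD), x.zeroVec lb),
        (enc (Sum.inl (aD t) : SecD), x.zeroVec lb),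
        (enc (Sum.inl (bD t) : SecD), x.zeroVec lb)], [], false))
      (fun y => (enc r, [(enc (x.scD y.1 y.2), x.zeroVec lb),
        (enc (x.scD y.1 (y.2 + 1)), if y.2 = x.p + 2 then x.wrVec lb y.1 else x.zeroVec lb)],
        x.rdD y.1 y.2, (y.2 + 1 == x.lenD) && twD y.1))) r

/-- The lines. -/
def linesD : List LnD :=
  let ns := List.range x.np.N
  ns.map Sum.inl ++ ns.map (fun w => Sum.inr (Sum.inl w)) ++
    (ns.flatMap fun g => ns.flatMap fun i =>
      [Sum.inr (Sum.inr (Sum.inl (g, i, false))), Sum.inr (Sum.inr (Sum.inl (g, i, true)))]) ++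
    [Sum.inr (Sum.inr (Sum.inr (Sum.inl false))), Sum.inr (Sum.inr (Sum.inr (Sum.inl true))),
      Sum.inr (Sum.inr (Sum.inr (Sum.inr ())))]

/-- The rows. -/
def rowsD : List RowD :=
  let ns := List.range x.np.N
  ns.map Sum.inl ++
    ((ns.flatMap fun g => ns.map fun i => Sum.inr (Sum.inl (Sum.inl (g, i)))) ++
      [Sum.inr (Sum.inl (Sum.inr ()))]) ++
    x.linesD.flatMap fun l => (List.range x.lenD).map fun t => Sum.inr (Sum.inr (l, t))

/-- The table of the rows. -/
def specTab (lb : List (List Bool)) : List RowE := x.rowsD.map (x.rowE lb)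

end SP

/-- The kinds of the node references of a numeric program are at most `3`. -/
structure NP.Kinds (np : NP) : Prop where
  gate : ∀ g < np.N, ∀ i < np.N, (np.gateL g i).1 ≤ 3 ∧ (np.gateR g i).1 ≤ 3
  read : ∀ r < np.N, (np.reads.getD r (0, [], (0, 0))).2.2.1 ≤ 3
  write : ∀ w < np.N, (np.writes.getD w ([], (0, 0))).2.1 ≤ 3

section Pres

variable {p b : ℕ} (np : NP)

/-- The code of a node. -/
def cNode (n : Fin np.N ⊕ Fin np.N ⊕ Fin np.N ⊕ Fin np.N) : NodeD :=
  Sum.elim (fun g => (0, g.val)) (Sum.elim (fun r => (1, r.val))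
    (Sum.elim (fun w => (2, w.val)) (fun a => (3, a.val)))) n

lemma cNode_inj : Function.Injective (cNode np) := by
  rintro (a | a | a | a) (c | c | c | c) h <;> simp_all [cNode, Fin.ext_iff]

lemma cNode_res (d : Fin np.N) (n : NodeD) (h : n.2 < np.N) (hk : n.1 ≤ 3) :
    cNode np (np.res d n) = n := by
  rcases n with ⟨k, i⟩
  simp only at h hk
  interval_cases k <;> simp [NP.res, cNode, h]

/-- The code of a hub. -/
def cH (h : (Fin np.N ⊕ Fin np.N ⊕ Fin np.N ⊕ Fin np.N) ⊕ (Fin np.N × Fin np.N × Bool) ⊕ Fin 3) :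
    HubD :=
  Sum.elim (fun n => Sum.inl (cNode np n))
    (Sum.elim (fun y => Sum.inr (Sum.inl (y.1.val, y.2.1.val, y.2.2)))
      (fun u => Sum.inr (Sum.inr u.val))) h

lemma cH_inj : Function.Injective (cH np) := by
  rintro (a | ⟨a, a', a''⟩ | a) (c | ⟨c, c', c''⟩ | c) h <;>
    simp_all [cH, Fin.ext_iff, (cNode_inj np).eq_iff]

/-- The code of a line. -/
def cL (l : Fin np.N ⊕ Fin np.N ⊕ (Fin np.N × Fin np.N × Bool) ⊕ Bool ⊕ Unit) : LnD :=
  Sum.elim (fun r => Sum.inl r.val) (Sum.elim (fun w => Sum.inr (Sum.inl w.val))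
    (Sum.elim (fun y => Sum.inr (Sum.inr (Sum.inl (y.1.val, y.2.1.val, y.2.2))))
      (Sum.elim (fun c => Sum.inr (Sum.inr (Sum.inr (Sum.inl c))))
        (fun _ => Sum.inr (Sum.inr (Sum.inr (Sum.inr ()))))))) l

lemma cL_inj : Function.Injective (cL np) := by
  rintro (a | a | ⟨a, a', a''⟩ | a | a) (c | c | ⟨c, c', c''⟩ | c | c) h <;>
    simp_all [cL, Fin.ext_iff]

/-- The code of a T-row. -/
def cT (t : (Fin np.N × Fin np.N) ⊕ Unit) : TrD :=
  Sum.elim (fun y => Sum.inl (y.1.val, y.2.val)) (fun _ => Sum.inr ()) t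

lemma cT_inj : Function.Injective (cT np) := by
  rintro (⟨a, a'⟩ | a) (⟨c, c'⟩ | c) h <;> simp_all [cT, Fin.ext_iff]

end Pres

section Lists

variable (x : SP)

lemma mem_linesD_of (l : Fin x.np.N ⊕ Fin x.np.N ⊕ (Fin x.np.N × Fin x.np.N × Bool) ⊕ Bool ⊕ Unit) :
    cL x.np l ∈ x.linesD := by
  rcases l with r | w | ⟨g, i, c⟩ | c | u
  · simp [SP.linesD, cL]
  · simp [SP.linesD, cL]
  · simp only [SP.linesD, cL, List.mem_append, List.mem_map, List.mem_flatMap, List.mem_range]
    left; right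
    exact ⟨g.val, g.isLt, i.val, i.isLt, by cases c <;> simp⟩
  · cases c <;> simp [SP.linesD, cL]
  · simp [SP.linesD, cL]

lemma linesD_surj {L : LnD} (h : L ∈ x.linesD) :
    ∃ l : Fin x.np.N ⊕ Fin x.np.N ⊕ (Fin x.np.N × Fin x.np.N × Bool) ⊕ Bool ⊕ Unit,
      cL x.np l = L := by
  simp only [SP.linesD, List.mem_append, List.mem_map, List.mem_flatMap, List.mem_range] at h
  rcases h with ((⟨r, hr, rfl⟩ | ⟨w, hw, rfl⟩) | ⟨g, hg, i, hi, h⟩) | h
  · exact ⟨Sum.inl ⟨r, hr⟩, rfl⟩
  · exact ⟨Sum.inr (Sum.inl ⟨w, hw⟩), rfl⟩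
  · simp only [List.mem_cons, List.not_mem_nil, or_false] at h
    rcases h with rfl | rfl
    · exact ⟨Sum.inr (Sum.inr (Sum.inl (⟨g, hg⟩, ⟨i, hi⟩, false))), rfl⟩
    · exact ⟨Sum.inr (Sum.inr (Sum.inl (⟨g, hg⟩, ⟨i, hi⟩, true))), rfl⟩
  · simp only [List.mem_cons, List.not_mem_nil, or_false] at h
    rcases h with rfl | rfl | rfl
    · exact ⟨Sum.inr (Sum.inr (Sum.inr (Sum.inl false))), rfl⟩
    · exact ⟨Sum.inr (Sum.inr (Sum.inr (Sum.inl true))), rfl⟩
    · exact ⟨Sum.inr (Sum.inr (Sum.inr (Sum.inr ()))), rfl⟩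

lemma linesD_nodup : x.linesD.Nodup := by
  simp only [SP.linesD]
  rw [List.nodup_append, List.nodup_append, List.nodup_append]
  refine ⟨⟨⟨?_, ?_, ?_⟩, ?_, ?_⟩, ?_, ?_⟩
  · exact (List.nodup_range).map (fun a c h => by simpa using h)
  · exact (List.nodup_range).map (fun a c h => by simpa using h)
  · simp
  · simp only [List.nodup_flatMap]
    constructor
    · intro g _
      constructor
      · intro i _
        simp
      · refine List.Pairwise.imp_of_mem ?_ List.nodup_range
        intro i i' _ _ hne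
        simp only [Function.onFun]
        simp [List.disjoint_left, hne]
    · refine List.Pairwise.imp_of_mem ?_ List.nodup_range
      intro g g' _ _ hne
      simp only [Function.onFun, List.disjoint_left]
      intro a ha ha'
      simp only [List.mem_flatMap, List.mem_cons, List.not_mem_nil, or_false] at ha ha'
      obtain ⟨i, _, h1⟩ := ha
      obtain ⟨i', _, h2⟩ := ha'
      rcases h1 with rfl | rfl <;> rcases h2 with h2 | h2 <;> simp_all
  · intro a ha c hc
    simp only [List.mem_append, List.mem_map, List.mem_flatMap, List.mem_cons, List.not_mem_nil,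
      or_false, List.mem_range] at ha hc
    rcases ha with ⟨_, _, rfl⟩ | ⟨_, _, rfl⟩ <;> obtain ⟨_, _, _, _, h⟩ := hc <;>
      rcases h with rfl | rfl <;> simp
  · simp
  · intro a ha c hc
    simp only [List.mem_append, List.mem_map, List.mem_flatMap, List.mem_cons, List.not_mem_nil,
      or_false, List.mem_range] at ha hc
    rcases hc with rfl | rfl | rfl <;>
      rcases ha with (⟨_, _, rfl⟩ | ⟨_, _, rfl⟩) | ⟨_, _, _, _, h⟩ <;>
      first
        | (simp; done)
        | (rcases h with rfl | rfl <;> simp)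

/-- The code of a row. -/
def cR0 (l : Fin x.np.N ⊕ ((Fin x.np.N × Fin x.np.N) ⊕ Unit) ⊕
    ((Fin x.np.N ⊕ Fin x.np.N ⊕ (Fin x.np.N × Fin x.np.N × Bool) ⊕ Bool ⊕ Unit) × Fin (len x.p))) :
    RowD :=
  Sum.elim (fun a => Sum.inl a.val)
    (Sum.elim (fun t => Sum.inr (Sum.inl (cT x.np t)))
      (fun y => Sum.inr (Sum.inr (cL x.np y.1, y.2.val)))) l

lemma cR0_inj : Function.Injective (cR0 x) := by
  rintro (a | a | ⟨a, a'⟩) (c | c | ⟨c, c'⟩) h
  · simp_all [cR0, Fin.ext_iff]
  · simp [cR0] at h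
  · simp [cR0] at h
  · simp [cR0] at h
  · simp only [cR0, Sum.elim_inr, Sum.elim_inl, Sum.inr.injEq, Sum.inl.injEq] at h
    rw [(cT_inj x.np) h]
  · simp [cR0] at h
  · simp [cR0] at h
  · simp [cR0] at h
  · simp only [cR0, Sum.elim_inr, Sum.inr.injEq, Prod.mk.injEq] at h
    rw [(cL_inj x.np) h.1, Fin.ext h.2]

lemma lenD_eq : x.lenD = len x.p := rfl

lemma mem_rowsD_of (l : Fin x.np.N ⊕ ((Fin x.np.N × Fin x.np.N) ⊕ Unit) ⊕
    ((Fin x.np.N ⊕ Fin x.np.N ⊕ (Fin x.np.N × Fin x.np.N × Bool) ⊕ Bool ⊕ Unit) × Fin (len x.p))) :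
    cR0 x l ∈ x.rowsD := by
  rcases l with a | (⟨g, i⟩ | u) | ⟨l, t⟩
  · simp [SP.rowsD, cR0]
  · simp [SP.rowsD, cR0, cT]
  · simp [SP.rowsD, cR0, cT]
  · simp only [SP.rowsD, cR0, List.mem_append, List.mem_flatMap, List.mem_map, List.mem_range]
    right
    exact ⟨cL x.np l, mem_linesD_of x l, t.val, t.isLt, by simp⟩

lemma rowsD_surj {r : RowD} (h : r ∈ x.rowsD) :
    ∃ l : Fin x.np.N ⊕ ((Fin x.np.N × Fin x.np.N) ⊕ Unit) ⊕
      ((Fin x.np.N ⊕ Fin x.np.N ⊕ (Fin x.np.N × Fin x.np.N × Bool) ⊕ Bool ⊕ Unit) × Fin (len x.p)),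
      cR0 x l = r := by
  simp only [SP.rowsD, List.mem_append, List.mem_map, List.mem_flatMap, List.mem_range,
    List.mem_cons, List.not_mem_nil, or_false] at h
  rcases h with (⟨a, ha, rfl⟩ | (⟨g, hg, i, hi, rfl⟩ | rfl)) | ⟨L, hL, t, ht, rfl⟩
  · exact ⟨Sum.inl ⟨a, ha⟩, rfl⟩
  · exact ⟨Sum.inr (Sum.inl (Sum.inl (⟨g, hg⟩, ⟨i, hi⟩))), rfl⟩
  · exact ⟨Sum.inr (Sum.inl (Sum.inr ())), rfl⟩
  · obtain ⟨l, rfl⟩ := linesD_surj x hL
    exact ⟨Sum.inr (Sum.inr (l, ⟨t, ht⟩)), rfl⟩

lemma rowsD_nodup : x.rowsD.Nodup := by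
  simp only [SP.rowsD]
  rw [List.nodup_append, List.nodup_append, List.nodup_append]
  refine ⟨⟨?_, ⟨?_, ?_, ?_⟩, ?_⟩, ?_, ?_⟩
  · exact (List.nodup_range).map (fun a c h => by simpa using h)
  · simp only [List.nodup_flatMap]
    constructor
    · intro g _
      exact (List.nodup_range).map (fun a c h => by simpa using h)
    · refine List.Pairwise.imp_of_mem ?_ List.nodup_range
      intro g g' _ _ hne
      simp only [Function.onFun, List.disjoint_left, List.mem_map, List.mem_range]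
      rintro _ ⟨i, _, rfl⟩ ⟨i', _, h⟩
      simp only [Sum.inr.injEq, Sum.inl.injEq, Prod.mk.injEq] at h
      exact hne h.1.symm
  · simp
  · intro a ha c hc
    simp only [List.mem_flatMap, List.mem_map, List.mem_cons, List.not_mem_nil, or_false] at ha hc
    obtain ⟨_, _, _, _, rfl⟩ := ha
    rcases hc with rfl
    simp
  · intro a ha c hc
    simp only [List.mem_map, List.mem_append, List.mem_flatMap, List.mem_cons, List.not_mem_nil,
      or_false] at ha hc
    obtain ⟨_, _, rfl⟩ := ha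
    rcases hc with ⟨_, _, _, _, rfl⟩ | rfl <;> simp
  · simp only [List.nodup_flatMap]
    refine ⟨?_, ?_⟩
    · intro l _
      exact (List.nodup_range).map (fun a c h => by simpa using h)
    · refine List.Pairwise.imp_of_mem ?_ (linesD_nodup x)
      intro l l' _ _ hne
      simp only [Function.onFun, List.disjoint_left, List.mem_map, List.mem_range]
      rintro _ ⟨t, _, rfl⟩ ⟨t', _, h⟩
      simp only [Sum.inr.injEq, Prod.mk.injEq] at h
      exact hne h.1.symm
  · intro a ha c hc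
    simp only [List.mem_append, List.mem_map, List.mem_flatMap, List.mem_cons, List.not_mem_nil,
      or_false] at ha hc
    obtain ⟨_, _, _, _, rfl⟩ := hc
    rcases ha with ⟨_, _, rfl⟩ | ⟨_, _, _, _, rfl⟩ | rfl <;> simp

end Lists

section Sem

variable {p b : ℕ} (hp : 2 ≤ p) (np : NP) (s1 s2 : NodeD) (d : Fin np.N)

/-- The program. -/
noncomputable abbrev PrQ : Prog p b := np.toProg p b (by omega)

/-- The specification. -/
noncomputable abbrev SpQ : Spec p b := (PrQ hp np).spec (np.res d s1) (np.res d s2)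

/-- The data. -/
abbrev xQ (p : ℕ) (np : NP) (s1 s2 : NodeD) : SP := (np, s1, s2, p)

lemma getD_indep {α : Type} (l : List α) (i : ℕ) (h : i < l.length) (u v : α) :
    l.getD i u = l.getD i v := by
  simp [List.getElem?_eq_getElem h]

variable {np} {s1 s2} {d}

lemma read_next (hw : np.WF p b) (hk : np.Kinds) (r : Fin np.N) :
    cNode np (np.res r (np.reads.getD r.val (0, [], (0, r.val))).2.2) =
      (np.reads.getD r.val (0, [], (0, 0))).2.2 := by
  have hr : r.val < np.reads.length := by rw [hw.read_len]; exact r.isLt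
  rw [getD_indep np.reads r.val hr (0, [], (0, r.val)) (0, [], (0, 0))]
  exact cNode_res np r _ (hw.read_lt r r.isLt) (hk.read r r.isLt)

lemma write_next (hw : np.WF p b) (hk : np.Kinds) (w : Fin np.N) :
    cNode np (np.res w (np.writes.getD w.val ([], (0, w.val))).2) =
      (np.writes.getD w.val ([], (0, 0))).2 := by
  have hr : w.val < np.writes.length := by rw [hw.write_len]; exact w.isLt
  rw [getD_indep np.writes w.val hr ([], (0, w.val)) ([], (0, 0))]
  exact cNode_res np w _ (hw.write_lt w w.isLt) (hk.write w w.isLt)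

open scoped Classical in
lemma top_code (hw : np.WF p b) (hk : np.Kinds) (h1 : s1.2 < np.N) (h2 : s2.2 < np.N) (h1k : s1.1 ≤ 3) (h2k : s2.1 ≤ 3)
    (l : Fin np.N ⊕ Fin np.N ⊕ (Fin np.N × Fin np.N × Bool) ⊕ Bool ⊕ Unit) :
    cH np ((SpQ (b := b) hp np s1 s2 d).top l) = (xQ p np s1 s2).topD (cL np l) := by
  rcases l with r | w | ⟨g, i, c⟩ | c | u
  · show Sum.inl (cNode np (np.res r (np.reads.getD r.val (0, [], (0, r.val))).2.2)) = _
    rw [read_next hw hk r]
    rfl
  · show Sum.inl (cNode np (np.res w (np.writes.getD w.val ([], (0, w.val))).2)) = _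
    rw [write_next hw hk w]
    rfl
  · have hok := hw.gate_ok g g.isLt
    obtain ⟨h3, h4⟩ := hw.gate_lt g g.isLt i i.isLt
    obtain ⟨h5, h6⟩ := hk.gate g g.isLt i i.isLt
    cases c
    · show Sum.inl (cNode np (if np.gateOk g.val then np.res g (np.gateL g.val i.val) else Sum.inl g)) = _
      rw [if_pos hok, cNode_res np g _ h3 h5]
      rfl
    · show Sum.inl (cNode np (if np.gateOk g.val then np.res g (np.gateR g.val i.val) else Sum.inl g)) = _
      rw [if_pos hok, cNode_res np g _ h4 h6]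
      rfl
  · show Sum.inl (cNode np (np.res d s1)) = _
    rw [cNode_res np d _ h1 h1k]
    rfl
  · show Sum.inl (cNode np (np.res d s2)) = _
    rw [cNode_res np d _ h2 h2k]
    rfl

lemma bot_code (l : Fin np.N ⊕ Fin np.N ⊕ (Fin np.N × Fin np.N × Bool) ⊕ Bool ⊕ Unit) :
    cH np ((SpQ (b := b) hp np s1 s2 d).bot l) = SP.botD (cL np l) := by
  rcases l with r | w | ⟨g, i, c⟩ | c | u
  · rfl
  · rfl
  · rfl
  · cases c <;> rfl
  · rfl

/-- The code of a section. -/
def cS0 (np : NP) (p : ℕ) (S : ((Fin np.N ⊕ Fin np.N ⊕ Fin np.N ⊕ Fin np.N) ⊕ (Fin np.N × Fin np.N × Bool) ⊕ Fin 3) ⊕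
    ((Fin np.N ⊕ Fin np.N ⊕ (Fin np.N × Fin np.N × Bool) ⊕ Bool ⊕ Unit) × Fin (len p - 1))) : SecD :=
  Sum.elim (fun h => Sum.inl (cH np h)) (fun y => Sum.inr (cL np y.1, y.2.val)) S

lemma cS0_inj : Function.Injective (cS0 np p) := by
  rintro (a | ⟨a, a'⟩) (c | ⟨c, c'⟩) h
  · simp only [cS0, Sum.elim_inl, Sum.inl.injEq] at h
    rw [(cH_inj np) h]
  · simp [cS0] at h
  · simp [cS0] at h
  · simp only [cS0, Sum.elim_inr, Sum.inr.injEq, Prod.mk.injEq] at h
    rw [(cL_inj np) h.1, Fin.ext h.2]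

lemma sc_code (hw : np.WF p b) (hk : np.Kinds) (h1 : s1.2 < np.N) (h2 : s2.2 < np.N) (h1k : s1.1 ≤ 3) (h2k : s2.1 ≤ 3)
    (l : Fin np.N ⊕ Fin np.N ⊕ (Fin np.N × Fin np.N × Bool) ⊕ Bool ⊕ Unit) (t : ℕ) :
    cS0 np p ((SpQ (b := b) hp np s1 s2 d).sc l t) = (xQ p np s1 s2).scD (cL np l) t := by
  unfold Spec.sc SP.scD
  have hl : (xQ p np s1 s2).lenD = len p := rfl
  rw [hl]
  by_cases h0 : t = 0
  · simp only [h0, dite_true, if_true]
    show Sum.inl (cH np ((SpQ (b := b) hp np s1 s2 d).top l)) = _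
    rw [top_code hp hw hk h1 h2 h1k h2k l]
  · by_cases ht : t < len p
    · simp only [h0, dite_false, if_false, ht, dite_true, if_true]
      rfl
    · simp only [h0, dite_false, if_false, ht]
      show Sum.inl (cH np ((SpQ (b := b) hp np s1 s2 d).bot l)) = _
      rw [bot_code hp l]

end Sem

section Entry

/-- The list of incident sections of a row. -/
def incQ {p b : ℕ} (Sp : Spec p b) : Sp.Row → List Sp.Sec
  | Sum.inl s => [Sum.inl (Sp.srcHub s)]
  | Sum.inr (Sum.inl t) => [Sum.inl (Sp.K t), Sum.inl (Sp.A t), Sum.inl (Sp.B t)]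
  | Sum.inr (Sum.inr (l, t)) => [Sp.sc l t.val, Sp.sc l (t.val + 1)]

lemma incQ_nodup {p b : ℕ} (Sp : Spec p b) [Sp.Ok] (ℓ : Sp.Row) : (incQ Sp ℓ).Nodup := by
  rcases ℓ with s | t | ⟨l, t⟩
  · simp [incQ]
  · simp [incQ, Spec.hKA, Spec.hKB, Spec.hAB]
  · have := Spec.sc_ne (Sp := Sp) l t.isLt
    simp [incQ, this]

lemma incQ_mem {p b : ℕ} (Sp : Spec p b) (ℓ : Sp.Row) (S : Sp.Sec) :
    S ∈ incQ Sp ℓ ↔ S ∈ Sp.rinc ℓ := by
  rcases ℓ with s | t | ⟨l, t⟩ <;> simp [incQ, Spec.rinc]

lemma incQ_len {p b : ℕ} (Sp : Spec p b) (ℓ : Sp.Row) : (incQ Sp ℓ).length ≤ 3 := by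
  rcases ℓ with s | t | ⟨l, t⟩ <;> simp [incQ]

lemma rdl_lower {p b : ℕ} (Sp : Spec p b) [Sp.Ok] (l : Sp.Ln) (t : Fin (len p)) (j : Fin p) :
    Sp.rdl (Sum.inr (Sum.inr (l, t))) (Sp.sc l t.val) j = 0 := by
  have hne := Spec.sc_ne (Sp := Sp) l t.isLt
  simp only [Spec.rdl]
  split
  · simp [hne]
  · rfl

lemma rdl_nonwr {p b : ℕ} (Sp : Spec p b) (l : Sp.Ln) (t : Fin (len p)) (S : Sp.Sec) (j : Fin p)
    (h : Sp.op l = LineOp.plain ∨ ∃ a c, Sp.op l = LineOp.rd a c) :
    Sp.rdl (Sum.inr (Sum.inr (l, t))) S j = 0 := by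
  simp only [Spec.rdl]
  rcases h with h | ⟨a, c, h⟩ <;> rw [h]

lemma rdl_wr {p b : ℕ} (Sp : Spec p b) (l : Sp.Ln) (t : Fin (len p)) (j : Fin p)
    (dv : Fin p → Sg b) (h : Sp.op l = LineOp.wr dv) :
    Sp.rdl (Sum.inr (Sum.inr (l, t))) (Sp.sc l (t.val + 1)) j =
      if t.val = dd p then dv j else 0 := by
  simp only [Spec.rdl]
  rw [h]
  simp

lemma labD_zero' {b : ℕ} : labD (0 : Sg b) = zeroOf (allVec b) := by
  have h0 : 0 < (allVec b).length := by rw [allVec_length]; positivity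
  have hm : (allVec b).getD 0 [] ∈ allVec b := by
    rw [List.getD_eq_getElem _ _ h0]
    exact List.getElem_mem h0
  have hl := mem_allVec.mp hm
  rw [List.getD_eq_getElem?_getD] at hl
  apply List.ext_getElem
  · simp [labD, zeroOf, hl]
  · intro i h1 h2
    simp [labD, zeroOf]

lemma zeroVec_eq {p b : ℕ} (x : SP) (hx : x.p = p) :
    (List.finRange p).map (fun _ => labD (0 : Sg b)) = x.zeroVec (allVec b) := by
  subst hx
  rw [labD_zero']
  simp [SP.zeroVec, List.map_const']

lemma map_finRange_getD {α : Type} {p : ℕ} (V : List α) (h : V.length = p) (u : α) :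
    (List.finRange p).map (fun j => V.getD j.val u) = V := by
  subst h
  apply List.ext_getElem
  · simp
  · intro i h1 h2
    simp [List.getElem?_eq_getElem h2]

/-- The list of a read. -/
def rdList {p b : ℕ} (o : Option (Fin p × Sg b)) : List (ℕ × List Bool) :=
  match o with
  | none => []
  | some x => [(x.1.val, labD x.2)]

variable {p b : ℕ} (hp : 2 ≤ p) {np : NP} {s1 s2 : NodeD} {d : Fin np.N}

open scoped Classical in
lemma wrD_eq (hw : np.WF p b) (w : Fin np.N) (j : Fin p) :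
    (PrQ (b := b) hp np).wrD w j = ofBits ((np.writes.getD w.val ([], (0, 0))).1.getD j.val []) := by
  have hwl : w.val < np.writes.length := by rw [hw.write_len]; exact w.isLt
  show (if np.writeOk p b w.val then ofBits (((np.writes.getD w.val ([], (0, w.val))).1).getD j.val [])
    else 0) = _
  rw [if_pos (hw.write_ok w w.isLt), getD_indep np.writes w.val hwl ([], (0, w.val)) ([], (0, 0))]

lemma reJ_val (hw : np.WF p b) (r : Fin np.N) :
    ((PrQ (b := b) hp np).reJ r).val = (np.reads.getD r.val (0, [], (0, 0))).1 := by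
  have hj := hw.read_col r r.isLt
  show (if h : (np.reads.getD r.val (0, [], (0, 0))).1 < p then
    (⟨(np.reads.getD r.val (0, [], (0, 0))).1, h⟩ : Fin p) else ⟨0, by omega⟩).val = _
  rw [dif_pos hj]

lemma reS_lab (hw : np.WF p b) (r : Fin np.N) :
    labD ((PrQ (b := b) hp np).reS r) = (np.reads.getD r.val (0, [], (0, 0))).2.1 :=
  labD_ofBits (hw.read_len' r r.isLt)

lemma upper_vec (hw : np.WF p b)
    (l : Fin np.N ⊕ Fin np.N ⊕ (Fin np.N × Fin np.N × Bool) ⊕ Bool ⊕ Unit) (t : Fin (len p)) :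
    (List.finRange p).map (fun j => labD ((SpQ (b := b) hp np s1 s2 d).rdl
      (Sum.inr (Sum.inr (l, t))) ((SpQ (b := b) hp np s1 s2 d).sc l (t.val + 1)) j)) =
    (if t.val = p + 2 then (xQ p np s1 s2).wrVec (allVec b) (cL np l)
      else (xQ p np s1 s2).zeroVec (allVec b)) := by
  have hz := zeroVec_eq (p := p) (b := b) (xQ p np s1 s2) rfl
  rcases l with r | w | y
  · have e : (List.finRange p).map (fun j => labD ((SpQ (b := b) hp np s1 s2 d).rdl
      (Sum.inr (Sum.inr (Sum.inl r, t))) ((SpQ (b := b) hp np s1 s2 d).sc (Sum.inl r) (t.val + 1)) j)) =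
        (List.finRange p).map (fun _ => labD (0 : Sg b)) :=
      List.map_congr_left fun j _ => congrArg labD
        (rdl_nonwr (SpQ (b := b) hp np s1 s2 d) (Sum.inl r) t _ j (Or.inr ⟨_, _, rfl⟩))
    refine e.trans ?_
    rw [hz]
    split <;> rfl
  · have e : (List.finRange p).map (fun j => labD ((SpQ (b := b) hp np s1 s2 d).rdl
      (Sum.inr (Sum.inr (Sum.inr (Sum.inl w), t))) ((SpQ (b := b) hp np s1 s2 d).sc (Sum.inr (Sum.inl w)) (t.val + 1)) j)) =
        (List.finRange p).map (fun j => labD (if t.val = p + 2 then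
          (ofBits ((np.writes.getD w.val ([], (0, 0))).1.getD j.val []) : Sg b) else 0)) :=
      List.map_congr_left fun j _ => congrArg labD
        ((rdl_wr (SpQ (b := b) hp np s1 s2 d) (Sum.inr (Sum.inl w)) t j ((PrQ (b := b) hp np).wrD w) rfl).trans
          (by rw [wrD_eq hp hw w j]; rfl))
    refine e.trans ?_
    by_cases ht : t.val = p + 2
    · have hV := hw.write_vec w w.isLt
      rw [if_pos ht]
      show _ = (np.writes.getD w.val ([], (0, 0))).1
      have hl : ∀ j : Fin p, labD (if t.val = p + 2 then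
          (ofBits ((np.writes.getD w.val ([], (0, 0))).1.getD j.val []) : Sg b) else 0) =
          (np.writes.getD w.val ([], (0, 0))).1.getD j.val [] := by
        intro j
        rw [if_pos ht]
        apply labD_ofBits
        apply hV.2
        have hj' : j.val < (np.writes.getD w.val ([], (0, 0))).1.length := by rw [hV.1]; exact j.isLt
        rw [List.getD_eq_getElem _ _ hj']
        exact List.getElem_mem hj'
      simp only [hl]
      exact map_finRange_getD _ hV.1 _
    · rw [if_neg ht, ← hz]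
      simp only [if_neg ht]
  · have e : (List.finRange p).map (fun j => labD ((SpQ (b := b) hp np s1 s2 d).rdl
      (Sum.inr (Sum.inr (Sum.inr (Sum.inr y), t))) ((SpQ (b := b) hp np s1 s2 d).sc (Sum.inr (Sum.inr y)) (t.val + 1)) j)) =
        (List.finRange p).map (fun _ => labD (0 : Sg b)) :=
      List.map_congr_left fun j _ => congrArg labD
        (rdl_nonwr (SpQ (b := b) hp np s1 s2 d) (Sum.inr (Sum.inr y)) t _ j (Or.inl rfl))
    refine e.trans ?_
    rw [hz]
    rcases y with y | c | u <;> split <;> rfl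

lemma rd_list (hw : np.WF p b)
    (l : Fin np.N ⊕ Fin np.N ⊕ (Fin np.N × Fin np.N × Bool) ⊕ Bool ⊕ Unit) (t : Fin (len p)) :
    rdList ((SpQ (b := b) hp np s1 s2 d).rrd (Sum.inr (Sum.inr (l, t)))) =
      (xQ p np s1 s2).rdD (cL np l) t.val := by
  rcases l with r | w | y
  · show rdList (if dd p ≤ t.val ∧ t.val < 4 * dd p then
      some ((PrQ (b := b) hp np).reJ r, (PrQ (b := b) hp np).reS r) else none) =
      (if p + 2 ≤ t.val ∧ t.val < 4 * (p + 2) then
        [((np.reads.getD r.val (0, [], (0, 0))).1, (np.reads.getD r.val (0, [], (0, 0))).2.1)] else [])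
    by_cases h : p + 2 ≤ t.val ∧ t.val < 4 * (p + 2)
    · have h' : dd p ≤ t.val ∧ t.val < 4 * dd p := h
      rw [if_pos h', if_pos h]
      simp only [rdList, reJ_val hp hw, reS_lab hp hw]
    · have h' : ¬ (dd p ≤ t.val ∧ t.val < 4 * dd p) := h
      rw [if_neg h', if_neg h]
      rfl
  · rfl
  · rcases y with y | c | u <;> rfl

lemma tw_bool
    (l : Fin np.N ⊕ Fin np.N ⊕ (Fin np.N × Fin np.N × Bool) ⊕ Bool ⊕ Unit) (t : Fin (len p)) :
    decide ((SpQ (b := b) hp np s1 s2 d).rtw (Sum.inr (Sum.inr (l, t))) = 1) =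
      ((t.val + 1 == (xQ p np s1 s2).lenD) && SP.twD (cL np l)) := by
  have hl : (xQ p np s1 s2).lenD = len p := rfl
  rw [hl]
  have hz : ¬ ((0 : ZMod 2) = 1) := by decide
  by_cases h : t.val + 1 = len p
  · rcases l with r | w | y | c | u
    · show decide ((if t.val + 1 = len p then (0 : ZMod 2) else 0) = 1) = _
      simp [h, SP.twD, cL, hz]
    · show decide ((if t.val + 1 = len p then (0 : ZMod 2) else 0) = 1) = _
      simp [h, SP.twD, cL, hz]
    · show decide ((if t.val + 1 = len p then (0 : ZMod 2) else 0) = 1) = _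
      simp [h, SP.twD, cL, hz]
    · show decide ((if t.val + 1 = len p then (0 : ZMod 2) else 0) = 1) = _
      simp [h, SP.twD, cL, hz]
    · show decide ((if t.val + 1 = len p then (1 : ZMod 2) else 0) = 1) = _
      simp [h, SP.twD, cL]
  · have e : (SpQ (b := b) hp np s1 s2 d).rtw (Sum.inr (Sum.inr (l, t))) = 0 := by
      show (if t.val + 1 = len p then _ else 0) = _
      rw [if_neg h]
    rw [e]
    simp [h, hz]

end Entry

section Assemble

variable {p b : ℕ} (hp : 2 ≤ p) {np : NP} {s1 s2 : NodeD} {d : Fin np.N}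

open scoped Classical in
lemma row_entry (hw : np.WF p b) (hk : np.Kinds) (h1 : s1.2 < np.N) (h2 : s2.2 < np.N)
    (h1k : s1.1 ≤ 3) (h2k : s2.1 ≤ 3)
    (ℓ : (SpQ (b := b) hp np s1 s2 d).Row) :
    (enc (cR0 (xQ p np s1 s2) ℓ),
      (incQ (SpQ (b := b) hp np s1 s2 d) ℓ).map (fun S => (enc (cS0 np p S),
        (List.finRange p).map fun j => labD ((SpQ (b := b) hp np s1 s2 d).rdl ℓ S j))),
      rdList ((SpQ (b := b) hp np s1 s2 d).rrd ℓ),
      decide ((SpQ (b := b) hp np s1 s2 d).rtw ℓ = 1)) =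
    (xQ p np s1 s2).rowE (allVec b) (cR0 (xQ p np s1 s2) ℓ) := by
  have hz := zeroVec_eq (p := p) (b := b) (xQ p np s1 s2) rfl
  have hzd : decide ((0 : ZMod 2) = 1) = false := by
    rw [decide_eq_false_iff_not]
    decide
  have hok : (SpQ (b := b) hp np s1 s2 d).Ok := Prog.spec_ok _ _ _
  rcases ℓ with a | t | ⟨l, t⟩
  · show (enc (cR0 (xQ p np s1 s2) (Sum.inl a)),
      [(enc (cS0 np p (Sum.inl (Sum.inl (Sum.inr (Sum.inr (Sum.inr a)))))), (List.finRange p).map fun _ => labD (0 : Sg b))], [],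
      decide ((0 : ZMod 2) = 1)) = _
    rw [hz, hzd]
    rfl
  · rcases t with ⟨g, i⟩ | u
    · show (enc (cR0 (xQ p np s1 s2) (Sum.inr (Sum.inl (Sum.inl (g, i))))),
        [(enc (cS0 np p (Sum.inl (Sum.inl (Sum.inl g)))), (List.finRange p).map fun _ => labD (0 : Sg b)),
         (enc (cS0 np p (Sum.inl (Sum.inr (Sum.inl (g, i, false))))), (List.finRange p).map fun _ => labD (0 : Sg b)),
         (enc (cS0 np p (Sum.inl (Sum.inr (Sum.inl (g, i, true))))), (List.finRange p).map fun _ => labD (0 : Sg b))], [],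
        decide ((0 : ZMod 2) = 1)) = _
      rw [hz, hzd]
      rfl
    · show (enc (cR0 (xQ p np s1 s2) (Sum.inr (Sum.inl (Sum.inr u)))),
        [(enc (cS0 np p (Sum.inl (Sum.inr (Sum.inr 0)))), (List.finRange p).map fun _ => labD (0 : Sg b)),
         (enc (cS0 np p (Sum.inl (Sum.inr (Sum.inr 1)))), (List.finRange p).map fun _ => labD (0 : Sg b)),
         (enc (cS0 np p (Sum.inl (Sum.inr (Sum.inr 2)))), (List.finRange p).map fun _ => labD (0 : Sg b))], [],
        decide ((0 : ZMod 2) = 1)) = _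
      rw [hz, hzd]
      rfl
  · have e1 : (List.finRange p).map (fun j => labD ((SpQ (b := b) hp np s1 s2 d).rdl
        (Sum.inr (Sum.inr (l, t))) ((SpQ (b := b) hp np s1 s2 d).sc l t.val) j)) =
        (xQ p np s1 s2).zeroVec (allVec b) := by
      rw [← hz]
      exact List.map_congr_left fun j _ => congrArg labD (rdl_lower _ l t j)
    show (enc (cR0 (xQ p np s1 s2) (Sum.inr (Sum.inr (l, t)))),
        [(enc (cS0 np p ((SpQ (b := b) hp np s1 s2 d).sc l t.val)), (List.finRange p).map fun j => labD ((SpQ (b := b) hp np s1 s2 d).rdl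
        (Sum.inr (Sum.inr (l, t))) ((SpQ (b := b) hp np s1 s2 d).sc l t.val) j)),
         (enc (cS0 np p ((SpQ (b := b) hp np s1 s2 d).sc l (t.val + 1))), (List.finRange p).map fun j => labD ((SpQ (b := b) hp np s1 s2 d).rdl
        (Sum.inr (Sum.inr (l, t))) ((SpQ (b := b) hp np s1 s2 d).sc l (t.val + 1)) j))],
        rdList ((SpQ (b := b) hp np s1 s2 d).rrd (Sum.inr (Sum.inr (l, t)))),
        decide ((SpQ (b := b) hp np s1 s2 d).rtw (Sum.inr (Sum.inr (l, t))) = 1)) = _
    rw [e1, upper_vec hp hw l t, rd_list hp hw l t, tw_bool hp l t, sc_code hp hw hk h1 h2 h1k h2k l t.val,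
      sc_code hp hw hk h1 h2 h1k h2k l (t.val + 1)]
    rfl

lemma exists_map_eq {α β : Type} (f : α → β) (l : List β) (h : ∀ y ∈ l, ∃ a, f a = y) :
    ∃ L : List α, L.map f = l := by
  induction l with
  | nil => exact ⟨[], rfl⟩
  | cons y l ih =>
    obtain ⟨a, ha⟩ := h y (by simp)
    obtain ⟨L, hL⟩ := ih (fun z hz => h z (by simp [hz]))
    exact ⟨a :: L, by simp [ha, hL]⟩

lemma rdList_eq {p b : ℕ} (o : Option (Fin p × Sg b)) :
    (match o with
      | none => []
      | some x => [(x.1.val, labD x.2)]) = rdList o := rfl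

end Assemble

open scoped Classical in
/-- (module M-G2) The table of the compiled specification presents its net. The hypotheses on kinds
are needed: the function `NP.res` sends all kinds above `3` to accept nodes, so that their codes
are not determined by the node. -/
theorem specTab_pres {p b : ℕ} (hp : 2 ≤ p) (np : NP) (hw : np.WF p b) (s1 s2 : NodeD)
    (d : Fin np.N) (h1 : s1.2 < np.N) (h2 : s2.2 < np.N) (hk : np.Kinds) (h1k : s1.1 ≤ 3)
    (h2k : s2.1 ≤ 3) :
    ∃ P : NetPres (((np.toProg p b (by omega)).spec (np.res d s1) (np.res d s2)).net),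
      P.tab = SP.specTab (np, s1, s2, p) (allVec b) := by
  let x : SP := (np, s1, s2, p)
  let Sp := SpQ (b := b) hp np s1 s2 d
  have hok : Sp.Ok := Prog.spec_ok _ _ _
  obtain ⟨L, hL⟩ := exists_map_eq (cR0 x) x.rowsD (fun y hy => rowsD_surj x hy)
  refine ⟨{ rowsL := L
            rows_nodup := ?_
            rows_mem := ?_
            incL := incQ Sp
            inc_nodup := incQ_nodup Sp
            inc_mem := incQ_mem Sp
            inc_len := incQ_len Sp
            cR := fun ℓ => enc (cR0 x ℓ)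
            cR_inj := fun a c h => cR0_inj x (Enc.inj h)
            cS := fun S => enc (cS0 np p S)
            cS_inj := fun a c h => cS0_inj (Enc.inj h) }, ?_⟩
  · exact List.Nodup.of_map (cR0 x) (by rw [hL]; exact rowsD_nodup x)
  · intro ℓ
    have hm := mem_rowsD_of x ℓ
    rw [← hL, List.mem_map] at hm
    obtain ⟨a, ha, he⟩ := hm
    rw [← cR0_inj x he]
    exact ha
  · refine Eq.trans ?_ (congrArg (List.map (x.rowE (allVec b))) hL)
    refine Eq.trans ?_ (List.map_map).symm
    exact List.map_congr_left fun ℓ _ => row_entry hp hw hk h1 h2 h1k h2k ℓ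

section Kinds

lemma getD_prop {α : Type} {P : α → Prop} {l : List α} (h : ∀ x ∈ l, P x) (i : ℕ) {u : α} (hu : P u) :
    P (l.getD i u) := by
  rw [List.getD_eq_getElem?_getD]
  cases hi : l[i]? with
  | none => simpa using hu
  | some y =>
    simpa using h y (List.mem_of_getElem? hi)

lemma kindOf_le (tab : DTab) (n : Lab × ℕ) : kindOf tab n ≤ 3 := by
  unfold kindOf
  rcases insOf tab n.1 with a | a | a | a
  · simp
  · simp
  · simp only [Sum.elim_inr, Sum.elim_inl]
    rcases ((primsOf a.1).getD n.2 (Sum.inl (0, 0))) with c | c <;> simp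
  · simp

lemma refN_kind (tab : DTab) (n : Lab × ℕ) : (refN tab n).1 ≤ 3 := kindOf_le tab n

lemma nextRef_kind (tab : DTab) (l : Lab) (i : ℕ) (x : List Op × Lab) : (nextRef tab l i x).1 ≤ 3 := by
  unfold nextRef
  split
  · exact refN_kind _ _
  · exact refN_kind _ _

lemma orChildren_kind (tab : DTab) (n : Lab × ℕ) (ls : List Lab) :
    ∀ x ∈ orChildren tab n ls, x.1 ≤ 3 := by
  intro x hx
  simp only [orChildren, List.mem_map] at hx
  obtain ⟨n', _, rfl⟩ := hx
  split
  · exact refN_kind _ _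
  · cases ls with
    | nil => exact refN_kind _ _
    | cons c _ => exact refN_kind _ _

lemma gateEntry_kind (tab : DTab) (n : Lab × ℕ) :
    (∀ x ∈ (gateEntry tab n).1, x.1 ≤ 3) ∧ (∀ x ∈ (gateEntry tab n).2, x.1 ≤ 3) := by
  unfold gateEntry
  rcases insOf tab n.1 with a | a | a
  · exact ⟨orChildren_kind tab n a, orChildren_kind tab n a⟩
  · constructor
    · intro x hx
      rw [List.eq_of_mem_replicate hx]
      exact refN_kind _ _
    · intro x hx
      rw [List.eq_of_mem_replicate hx]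
      exact refN_kind _ _
  · constructor
    · intro x hx
      rw [List.eq_of_mem_replicate hx]
      simp
    · intro x hx
      rw [List.eq_of_mem_replicate hx]
      simp

lemma readEntry_kind (lb : List (List Bool)) (tab : DTab) (n : Lab × ℕ) :
    (readEntry lb tab n).2.2.1 ≤ 3 := by
  unfold readEntry
  rcases insOf tab n.1 with a | a | a | a
  · simp
  · simp
  · simp only [Sum.elim_inr, Sum.elim_inl]
    rcases ((primsOf a.1).getD n.2 (Sum.inl (0, 0))) with c | c
    · exact nextRef_kind _ _ _ _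
    · simp
  · simp

lemma writeEntry_kind (p : ℕ) (lb : List (List Bool)) (tab : DTab) (n : Lab × ℕ) :
    (writeEntry p lb tab n).2.1 ≤ 3 := by
  unfold writeEntry
  rcases insOf tab n.1 with a | a | a | a
  · simp
  · simp
  · simp only [Sum.elim_inr, Sum.elim_inl]
    rcases ((primsOf a.1).getD n.2 (Sum.inl (0, 0))) with c | c
    · simp
    · exact nextRef_kind _ _ _ _
  · simp

/-- The numeric program of a table has node references of kinds at most `3`. -/
theorem npOf_kinds (p : ℕ) (lb : List (List Bool)) (tab : DTab) : (npOf p lb tab).Kinds where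
  gate := by
    intro g _ i _
    have hP : ∀ e ∈ (npOf p lb tab).gates, (∀ x ∈ e.1, x.1 ≤ 3) ∧ (∀ x ∈ e.2, x.1 ≤ 3) := by
      intro e he
      simp only [NP.gates, npOf, List.mem_map] at he
      obtain ⟨n, _, rfl⟩ := he
      exact gateEntry_kind tab n
    have hg := getD_prop (P := fun e : List NodeD × List NodeD =>
      (∀ x ∈ e.1, x.1 ≤ 3) ∧ (∀ x ∈ e.2, x.1 ≤ 3)) hP g (u := ([], [])) (by simp)
    exact ⟨getD_prop (P := fun x : NodeD => x.1 ≤ 3) hg.1 i (u := (0, g)) (by simp),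
      getD_prop (P := fun x : NodeD => x.1 ≤ 3) hg.2 i (u := (0, g)) (by simp)⟩
  read := by
    intro r _
    have hP : ∀ e ∈ (npOf p lb tab).reads, e.2.2.1 ≤ 3 := by
      intro e he
      simp only [NP.reads, npOf, List.mem_map] at he
      obtain ⟨n, _, rfl⟩ := he
      exact readEntry_kind lb tab n
    exact getD_prop (P := fun e : ℕ × List Bool × NodeD => e.2.2.1 ≤ 3) hP r (u := (0, [], (0, 0)))
      (by simp)
  write := by
    intro w _
    have hP : ∀ e ∈ (npOf p lb tab).writes, e.2.1 ≤ 3 := by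
      intro e he
      simp only [NP.writes, npOf, List.mem_map] at he
      obtain ⟨n, _, rfl⟩ := he
      exact writeEntry_kind p lb tab n
    exact getD_prop (P := fun e : List (List Bool) × NodeD => e.2.1 ≤ 3) hP w (u := ([], (0, 0)))
      (by simp)

end Kinds

end Vale.Agent.Lib.P310.M
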