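import Vale.Agent.Lib.P310.M.TM
import Vale.Agent.Lib.P310.M.DP

/-!
Numeric codes of Turing machines and the tableau of a computation: cells with a local rule.
-/

namespace Vale.Agent.Lib.P310.M

/-- The code of a Turing machine: `(nQ, nG)`, `(q0, qa, qr)`, `(bl, s0, s1)` and the table: row `q`,
column `a` holds the new state, the written symbol and the direction. -/
abbrev NCode := (ℕ × ℕ) × (ℕ × ℕ × ℕ) × (ℕ × ℕ × ℕ) × List (List (ℕ × ℕ × Bool))

namespace NCode

variable (nc : NCode)

def nQ : ℕ := nc.1.1
def nG : ℕ := nc.1.2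
def q0 : ℕ := nc.2.1.1
def qa : ℕ := nc.2.1.2.1
def qr : ℕ := nc.2.1.2.2
def bl : ℕ := nc.2.2.1.1
def s0 : ℕ := nc.2.2.1.2.1
def s1 : ℕ := nc.2.2.1.2.2
def tbl : List (List (ℕ × ℕ × Bool)) := nc.2.2.2

/-- The symbol of an input bit. -/
def sBit (a : Bool) : ℕ := if a then nc.s1 else nc.s0

/-- The transition. -/
def next (q a : ℕ) : ℕ × ℕ × Bool := (nc.tbl.getD q []).getD a (q, a, true)

/-- The halting states. -/
def halted (q : ℕ) : Bool := decide (q = nc.qa) || decide (q = nc.qr)

/-- Well-formed codes. -/
structure WF : Prop where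
  q0_lt : nc.q0 < nc.nQ
  qa_lt : nc.qa < nc.nQ
  qr_lt : nc.qr < nc.nQ
  bl_lt : nc.bl < nc.nG
  s0_lt : nc.s0 < nc.nG
  s1_lt : nc.s1 < nc.nG
  next_q : ∀ q a, q < nc.nQ → a < nc.nG → (nc.next q a).1 < nc.nQ
  next_a : ∀ q a, q < nc.nQ → a < nc.nG → (nc.next q a).2.1 < nc.nG

/-- Numeric configurations. -/
structure Cfg where
  st : ℕ
  pos : ℕ
  tape : ℕ → ℕ

/-- One numeric step. -/
def step (c : Cfg) : Cfg :=
  if nc.halted c.st then c
  else
    ⟨(nc.next c.st (c.tape c.pos)).1,
      if (nc.next c.st (c.tape c.pos)).2.2 then c.pos + 1 else c.pos - 1,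
      Function.update c.tape c.pos (nc.next c.st (c.tape c.pos)).2.1⟩

/-- The input tape. -/
def inputTape (w : List Bool) (i : ℕ) : ℕ :=
  if i < w.length then nc.sBit (w.getD i false) else nc.bl

/-- The numeric run. -/
def run (w : List Bool) : ℕ → Cfg
  | 0 => ⟨nc.q0, 0, nc.inputTape w⟩
  | t + 1 => nc.step (run w t)

/-- The cell `s` at time `i`: cell `0` is a wall `(0, 0)`; cell `s + 1` shows tape cell `s` as
`(symbol + 1, h)` with `h = state + 1` if the head is there and `h = 0` otherwise. -/
def cell (w : List Bool) (i s : ℕ) : ℕ × ℕ :=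
  match s with
  | 0 => (0, 0)
  | s' + 1 => ((nc.run w i).tape s' + 1,
      if (nc.run w i).pos = s' then (nc.run w i).st + 1 else 0)

/-- The local rule: the new value of a cell from its left neighbour, itself and its right
neighbour. -/
def F (al hl a0 h0 ar hr : ℕ) : ℕ × ℕ :=
  (if h0 != 0 && !(nc.halted (h0 - 1)) then (nc.next (h0 - 1) (a0 - 1)).2.1 + 1 else a0,
    if h0 != 0 && nc.halted (h0 - 1) then h0
    else if h0 != 0 && !(nc.next (h0 - 1) (a0 - 1)).2.2 && al == 0 then
      (nc.next (h0 - 1) (a0 - 1)).1 + 1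
    else if hl != 0 && !(nc.halted (hl - 1)) && (nc.next (hl - 1) (al - 1)).2.2 then
      (nc.next (hl - 1) (al - 1)).1 + 1
    else if hr != 0 && !(nc.halted (hr - 1)) && !(nc.next (hr - 1) (ar - 1)).2.2 then
      (nc.next (hr - 1) (ar - 1)).1 + 1
    else 0)

theorem run_succ (w : List Bool) (t : ℕ) : nc.run w (t + 1) = nc.step (nc.run w t) := rfl

theorem cell_zero (w : List Bool) (i : ℕ) : nc.cell w i 0 = (0, 0) := rfl

theorem cell_succ' (w : List Bool) (i s : ℕ) : nc.cell w i (s + 1) =
    ((nc.run w i).tape s + 1, if (nc.run w i).pos = s then (nc.run w i).st + 1 else 0) := rfl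

theorem step_of_halted (c : Cfg) (h : nc.halted c.st = true) : nc.step c = c := by
  unfold step
  rw [if_pos h]

theorem step_of_not_halted (c : Cfg) (h : ¬ nc.halted c.st = true) : nc.step c =
    ⟨(nc.next c.st (c.tape c.pos)).1,
      if (nc.next c.st (c.tape c.pos)).2.2 then c.pos + 1 else c.pos - 1,
      Function.update c.tape c.pos (nc.next c.st (c.tape c.pos)).2.1⟩ := by
  unfold step
  rw [if_neg h]

/-- (module M-CELL) The local rule is correct. -/
theorem cell_succ (w : List Bool) (i s : ℕ) :
    nc.cell w (i + 1) (s + 1) =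
      nc.F (nc.cell w i s).1 (nc.cell w i s).2 (nc.cell w i (s + 1)).1 (nc.cell w i (s + 1)).2
        (nc.cell w i (s + 2)).1 (nc.cell w i (s + 2)).2 := by
  rw [cell_succ', cell_succ', cell_succ', run_succ]
  cases s with
  | zero =>
    rw [cell_zero]
    generalize nc.run w i = c
    obtain ⟨st, p, tp⟩ := c
    by_cases hh : nc.halted st = true
    · rw [nc.step_of_halted _ hh]
      by_cases h0 : p = 0
      · subst h0
        simp [F, hh]
      · by_cases h1 : p = 1
        · subst h1
          simp [F, hh]
        · simp [F, h0, h1]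
    · rw [nc.step_of_not_halted _ hh]
      by_cases h0 : p = 0
      · subst h0
        by_cases hd : (nc.next st (tp 0)).2.2 = true
        · simp [F, hh, hd]
        · simp [F, hh, hd]
      · by_cases h1 : p = 1
        · subst h1
          by_cases hd : (nc.next st (tp 1)).2.2 = true
          · simp [F, hh, hd, Function.update_of_ne]
          · simp [F, hh, hd, Function.update_of_ne]
        · have h2 : p - 1 ≠ 0 := by omega
          by_cases hd : (nc.next st (tp p)).2.2 = true
          · simp [F, h0, h1, hd, Function.update_of_ne, Ne.symm h0]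
          · simp [F, h0, h1, h2, hd, Function.update_of_ne, Ne.symm h0]
  | succ s =>
    rw [cell_succ']
    generalize nc.run w i = c
    obtain ⟨st, p, tp⟩ := c
    have e1 : ¬ s = s + 1 := by omega
    have e2 : ¬ s = s + 1 + 1 := by omega
    have e3 : ¬ s + 1 = s := by omega
    have e4 : ¬ s + 1 = s + 1 + 1 := by omega
    have e5 : ¬ s + 1 + 1 = s := by omega
    have e6 : ¬ s + 1 + 1 = s + 1 := by omega
    by_cases hh : nc.halted st = true
    · rw [nc.step_of_halted _ hh]
      by_cases h0 : p = s
      · subst h0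
        simp [F, hh, e1, e2]
      · by_cases h1 : p = s + 1
        · subst h1
          simp [F, hh, e3, e4]
        · by_cases h3 : p = s + 1 + 1
          · subst h3
            simp [F, hh, e5, e6]
          · simp [F, h0, h1, h3]
    · rw [nc.step_of_not_halted _ hh]
      by_cases h0 : p = s
      · subst h0
        have e7 : ¬ p - 1 = p + 1 := by omega
        by_cases hd : (nc.next st (tp p)).2.2 = true
        · simp [F, hh, hd, e1, e2, Function.update_of_ne, Ne.symm e1]
        · simp [F, hh, hd, e1, e2, e7, Function.update_of_ne, Ne.symm e1]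
      · by_cases h1 : p = s + 1
        · subst h1
          have e7 : ¬ s + 1 + 1 = s + 1 := by omega
          by_cases hd : (nc.next st (tp (s + 1))).2.2 = true
          · simp [F, hh, hd, e3, e4, e7]
          · simp [F, hh, hd, e3, e4, e7]
        · by_cases h3 : p = s + 1 + 1
          · subst h3
            have e7 : ¬ s + 1 + 1 + 1 = s + 1 := by omega
            by_cases hd : (nc.next st (tp (s + 1 + 1))).2.2 = true
            · simp [F, hh, hd, e5, e6, e7, Function.update_of_ne]
            · simp [F, hh, hd, e5, e6, e7, Function.update_of_ne]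
          · have e8 : ¬ p + 1 = s + 1 := by omega
            have e9 : ¬ p - 1 = s + 1 := by omega
            by_cases hd : (nc.next st (tp p)).2.2 = true
            · simp [F, h0, h1, h3, hd, e8, Function.update_of_ne, Ne.symm h1]
            · simp [F, h0, h1, h3, hd, e9, Function.update_of_ne, Ne.symm h1]

/-- (module M-CELL) The run stays in the head position bound. -/
theorem pos_le (w : List Bool) (t : ℕ) : (nc.run w t).pos ≤ t := by
  induction t with
  | zero => exact le_refl _
  | succ t ih =>
    rw [run_succ]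
    by_cases h : nc.halted (nc.run w t).st = true
    · rw [nc.step_of_halted _ h]
      omega
    · rw [nc.step_of_not_halted _ h]
      dsimp only
      split_ifs <;> omega

theorem tape_far (w : List Bool) (t s : ℕ) (h : t + w.length ≤ s) :
    (nc.run w t).tape s = nc.bl := by
  induction t with
  | zero =>
    show nc.inputTape w s = nc.bl
    unfold inputTape
    rw [if_neg (by omega)]
  | succ t ih =>
    rw [run_succ]
    have hp := nc.pos_le w t
    by_cases h1 : nc.halted (nc.run w t).st = true
    · rw [nc.step_of_halted _ h1]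
      exact ih (by omega)
    · rw [nc.step_of_not_halted _ h1]
      dsimp only
      rw [Function.update_of_ne (by omega)]
      exact ih (by omega)

/-- (module M-CELL) Far cells are blank: the head moves by at most one cell per step and the input
occupies cells below `w.length`. -/
theorem cell_far (_hwf : nc.WF) (w : List Bool) (i s : ℕ) (h : i + w.length + 1 < s) :
    nc.cell w i s = (nc.bl + 1, 0) := by
  obtain ⟨s', rfl⟩ : ∃ s', s = s' + 1 := ⟨s - 1, by omega⟩
  rw [cell_succ', nc.tape_far w i s' (by omega), if_neg]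
  have := nc.pos_le w i
  omega

theorem run_lt (hwf : nc.WF) (w : List Bool) (t : ℕ) :
    (nc.run w t).st < nc.nQ ∧ ∀ s, (nc.run w t).tape s < nc.nG := by
  induction t with
  | zero =>
    refine ⟨hwf.q0_lt, fun s => ?_⟩
    show nc.inputTape w s < nc.nG
    unfold inputTape sBit
    split_ifs
    · exact hwf.s1_lt
    · exact hwf.s0_lt
    · exact hwf.bl_lt
  | succ t ih =>
    obtain ⟨h1, h2⟩ := ih
    rw [run_succ]
    by_cases h : nc.halted (nc.run w t).st = true
    · rw [nc.step_of_halted _ h]
      exact ⟨h1, h2⟩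
    · rw [nc.step_of_not_halted _ h]
      refine ⟨hwf.next_q _ _ h1 (h2 _), fun s => ?_⟩
      dsimp only
      by_cases hs : s = (nc.run w t).pos
      · subst hs
        rw [Function.update_self]
        exact hwf.next_a _ _ h1 (h2 _)
      · rw [Function.update_of_ne hs]
        exact h2 s

/-- (module M-CELL) The head is in range, symbols and states are in range. -/
theorem cell_lt (hwf : nc.WF) (w : List Bool) (i s : ℕ) :
    (nc.cell w i s).1 ≤ nc.nG ∧ (nc.cell w i s).2 ≤ nc.nQ ∧ (s ≠ 0 → 1 ≤ (nc.cell w i s).1) := by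
  obtain ⟨h1, h2⟩ := nc.run_lt hwf w i
  cases s with
  | zero =>
    rw [cell_zero]
    simp
  | succ s =>
    rw [cell_succ']
    refine ⟨?_, ?_, fun _ => ?_⟩
    · exact h2 s
    · show (if (nc.run w i).pos = s then (nc.run w i).st + 1 else 0) ≤ nc.nQ
      split_ifs
      · exact h1
      · exact Nat.zero_le _
    · exact Nat.le_add_left _ _

/-- (module M-CELL) The run is accepting at time `t` iff some cell shows the accepting state. -/
theorem accept_iff_cell (w : List Bool) (t : ℕ) :
    (nc.run w t).st = nc.qa ↔ ∃ s a, nc.cell w t s = (a, nc.qa + 1) := by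
  constructor
  · intro h
    refine ⟨(nc.run w t).pos + 1, (nc.run w t).tape (nc.run w t).pos + 1, ?_⟩
    rw [cell_succ', if_pos rfl, h]
  · rintro ⟨s, a, h⟩
    cases s with
    | zero =>
      rw [cell_zero] at h
      simp at h
    | succ s =>
      rw [cell_succ'] at h
      have h2 := congrArg Prod.snd h
      simp only at h2
      split_ifs at h2 with h3
      · omega

end NCode

open scoped Classical in
/-- (module M-CODE) The code of a Turing machine via numberings of its states and symbols. -/
noncomputable def codeOf (M : TM) : NCode :=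
  let nq := Fintype.equivFin M.Q
  let ng := Fintype.equivFin M.Γ
  ((Fintype.card M.Q, Fintype.card M.Γ), ((nq M.start).val, (nq M.acc).val, (nq M.rej).val),
    ((ng M.blank).val, (ng (M.bit false)).val, (ng (M.bit true)).val),
    (List.finRange (Fintype.card M.Q)).map fun q =>
      (List.finRange (Fintype.card M.Γ)).map fun a =>
        ((nq (M.δ (nq.symm q) (ng.symm a)).1).val, (ng (M.δ (nq.symm q) (ng.symm a)).2.1).val,
          (M.δ (nq.symm q) (ng.symm a)).2.2))

section
variable (M : TM)

lemma codeOf_next (q : M.Q) (a : M.Γ) :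
    (codeOf M).next (Fintype.equivFin M.Q q).val (Fintype.equivFin M.Γ a).val =
      ((Fintype.equivFin M.Q (M.δ q a).1).val, (Fintype.equivFin M.Γ (M.δ q a).2.1).val,
        (M.δ q a).2.2) := by
  have h1 : (Fintype.equivFin M.Q q).val <
      ((List.finRange (Fintype.card M.Q)).map fun q' =>
      (List.finRange (Fintype.card M.Γ)).map fun a' =>
        (((Fintype.equivFin M.Q) (M.δ ((Fintype.equivFin M.Q).symm q') ((Fintype.equivFin M.Γ).symm a')).1).val,
          ((Fintype.equivFin M.Γ) (M.δ ((Fintype.equivFin M.Q).symm q') ((Fintype.equivFin M.Γ).symm a')).2.1).val,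
          (M.δ ((Fintype.equivFin M.Q).symm q') ((Fintype.equivFin M.Γ).symm a')).2.2)).length := by
    simp
  have h2 : ∀ (r : Fin (Fintype.card M.Q)), (Fintype.equivFin M.Γ a).val <
      ((List.finRange (Fintype.card M.Γ)).map fun a' =>
        (((Fintype.equivFin M.Q) (M.δ ((Fintype.equivFin M.Q).symm r) ((Fintype.equivFin M.Γ).symm a')).1).val,
          ((Fintype.equivFin M.Γ) (M.δ ((Fintype.equivFin M.Q).symm r) ((Fintype.equivFin M.Γ).symm a')).2.1).val,
          (M.δ ((Fintype.equivFin M.Q).symm r) ((Fintype.equivFin M.Γ).symm a')).2.2)).length := by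
    intro r
    simp
  simp only [NCode.next, NCode.tbl, codeOf]
  rw [List.getD_eq_getElem _ _ h1, List.getElem_map, List.getD_eq_getElem _ _ (h2 _),
    List.getElem_map]
  simp

end

/-- The numeric configuration of a configuration of the machine. -/
noncomputable def numCfg (M : TM) (c : M.Cfg) : NCode.Cfg :=
  ⟨(Fintype.equivFin M.Q c.st).val, c.pos, fun i => (Fintype.equivFin M.Γ (c.tape i)).val⟩

lemma codeOf_halted (M : TM) (q : M.Q) :
    (codeOf M).halted (Fintype.equivFin M.Q q).val = true ↔ q = M.acc ∨ q = M.rej := by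
  have e1 : (codeOf M).qa = (Fintype.equivFin M.Q M.acc).val := rfl
  have e2 : (codeOf M).qr = (Fintype.equivFin M.Q M.rej).val := rfl
  unfold NCode.halted
  rw [e1, e2]
  simp only [Bool.or_eq_true, decide_eq_true_eq, Fin.val_inj, EmbeddingLike.apply_eq_iff_eq]

lemma codeOf_step (M : TM) (c : M.Cfg) :
    (codeOf M).step (numCfg M c) = numCfg M (M.step c) := by
  unfold NCode.step TM.step
  have hh : (numCfg M c).st = (Fintype.equivFin M.Q c.st).val := rfl
  have hh2 : (numCfg M c).tape (numCfg M c).pos = (Fintype.equivFin M.Γ (c.tape c.pos)).val := rfl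
  rw [hh2, hh]
  by_cases h : c.st = M.acc ∨ c.st = M.rej
  · rw [if_pos h, if_pos ((codeOf_halted M c.st).2 h)]
  · rw [if_neg h, if_neg (fun h' => h ((codeOf_halted M c.st).1 h'))]
    rw [codeOf_next]
    simp only [numCfg]
    congr 1
    funext i
    by_cases hi : i = c.pos
    · subst hi
      simp
    · simp [Function.update_of_ne hi]

lemma codeOf_input (M : TM) (w : List Bool) (i : ℕ) :
    (codeOf M).inputTape w i = (Fintype.equivFin M.Γ (M.inputTape w i)).val := by
  unfold NCode.inputTape TM.inputTape
  by_cases h : i < w.length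
  · rw [if_pos h, List.getElem?_eq_getElem h]
    rw [List.getD_eq_getElem _ _ h]
    cases w[i] <;> simp [NCode.sBit, NCode.s0, NCode.s1, codeOf]
  · rw [if_neg h, List.getElem?_eq_none (by omega)]
    simp [NCode.bl, codeOf]

lemma codeOf_run_eq (M : TM) (w : List Bool) (t : ℕ) :
    (codeOf M).run w t = numCfg M (M.run w t) := by
  induction t with
  | zero =>
    simp only [NCode.run, TM.run, TM.init, numCfg]
    congr 1
    funext i
    exact codeOf_input M w i
  | succ t ih =>
    simp only [NCode.run, TM.run]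
    rw [ih, codeOf_step]

/-- (module M-CODE) The code is well formed. -/
theorem codeOf_wf (M : TM) : (codeOf M).WF := by
  refine ⟨?_, ?_, ?_, ?_, ?_, ?_, ?_, ?_⟩
  · simp [NCode.q0, NCode.nQ, codeOf]
  · simp [NCode.qa, NCode.nQ, codeOf]
  · simp [NCode.qr, NCode.nQ, codeOf]
  · simp [NCode.bl, NCode.nG, codeOf]
  · simp [NCode.s0, NCode.nG, codeOf]
  · simp [NCode.s1, NCode.nG, codeOf]
  · intro q a hq ha
    have hq' : q < Fintype.card M.Q := hq
    have ha' : a < Fintype.card M.Γ := ha
    obtain ⟨q', rfl⟩ : ∃ q' : M.Q, (Fintype.equivFin M.Q q').val = q :=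
      ⟨(Fintype.equivFin M.Q).symm ⟨q, hq'⟩, by simp⟩
    obtain ⟨a', rfl⟩ : ∃ a' : M.Γ, (Fintype.equivFin M.Γ a').val = a :=
      ⟨(Fintype.equivFin M.Γ).symm ⟨a, ha'⟩, by simp⟩
    rw [codeOf_next]
    simp [NCode.nQ, codeOf]
  · intro q a hq ha
    have hq' : q < Fintype.card M.Q := hq
    have ha' : a < Fintype.card M.Γ := ha
    obtain ⟨q', rfl⟩ : ∃ q' : M.Q, (Fintype.equivFin M.Q q').val = q :=
      ⟨(Fintype.equivFin M.Q).symm ⟨q, hq'⟩, by simp⟩
    obtain ⟨a', rfl⟩ : ∃ a' : M.Γ, (Fintype.equivFin M.Γ a').val = a :=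
      ⟨(Fintype.equivFin M.Γ).symm ⟨a, ha'⟩, by simp⟩
    rw [codeOf_next]
    simp [NCode.nG, codeOf]

/-- (module M-CODE) The numeric run follows the run of the machine. -/
theorem codeOf_run (M : TM) (w : List Bool) (t : ℕ) :
    ((codeOf M).run w t).st = (Fintype.equivFin M.Q (M.run w t).st).val := by
  rw [codeOf_run_eq]
  rfl

/-- (module M-CODE) Acceptance at time `t`. -/
theorem codeOf_acc (M : TM) (w : List Bool) (t : ℕ) :
    ((codeOf M).run w t).st = (codeOf M).qa ↔ (M.run w t).st = M.acc := by
  rw [codeOf_run]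
  simp [NCode.qa, codeOf, Fin.val_inj]

end Vale.Agent.Lib.P310.M
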