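import Vale.Agent.Lib.P310.M.Diag
import Vale.Agent.Lib.P310.M.MtmU
import Vale.Agent.Lib.P310.M.RamU

/-!
The lower bound for multi-tape machines and random access machines, by the simulations.
-/

namespace Vale.Agent.Lib.P310.M

/-- The arithmetic of the transfer. -/
lemma transfer_arith {K E C e n t T0 : ℕ} (hn : 1 ≤ n) (he : 2 ≤ e) (ht : t ≤ C * n ^ e)
    (hT0 : T0 ≤ K * (t + 2 * (n * n) + 1) ^ E) : T0 ≤ K * (C + 3) ^ E * n ^ (e * E) := by
  have h1 : n * n ≤ n ^ e := by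
    rw [← pow_two]
    exact Nat.pow_le_pow_right hn he
  have h2 : 1 ≤ n ^ e := Nat.one_le_pow _ _ hn
  have h3 : t + 2 * (n * n) + 1 ≤ (C + 3) * n ^ e := by
    have : (C + 3) * n ^ e = C * n ^ e + 3 * n ^ e := by ring
    omega
  calc T0 ≤ K * (t + 2 * (n * n) + 1) ^ E := hT0
    _ ≤ K * ((C + 3) * n ^ e) ^ E := Nat.mul_le_mul_left _ (Nat.pow_le_pow_left h3 _)
    _ = K * (C + 3) ^ E * n ^ (e * E) := by
        rw [mul_pow, ← pow_mul]
        ring

/-- The length of the word of a pair of graphs. -/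
lemma encPair_length {n : ℕ} (G H : SimpleGraph (Fin n)) :
    (encPair G H).length = 2 * (n * n) := by
  unfold encPair
  simp only [List.length_append]
  have hlen : ∀ G' : SimpleGraph (Fin n), (adjBits G').length = n * n := by
    intro G'
    simp [adjBits]
  rw [hlen, hlen]
  ring

/-- The lower bound with a polynomial overhead. -/
lemma lower_overhead (E : ℕ) : ∃ c k0 : ℕ, 0 < c ∧ ∀ k ≥ k0, 2 ≤ k / c ∧
    ∀ M1 : TM, DecidesWL k M1 → ∀ C, ¬ TimeBound M1 C (k / c * E) := by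
  obtain ⟨c0, k0, hc0, hL⟩ := lowerBound
  refine ⟨c0 * (E + 1), k0 + 2 * (c0 * (E + 1)), by positivity, ?_⟩
  intro k hk
  have hcpos : 0 < c0 * (E + 1) := by positivity
  refine ⟨?_, ?_⟩
  · rw [Nat.le_div_iff_mul_le hcpos]
    omega
  · intro M1 hdec C hT
    refine hL k (by omega) M1 hdec C ?_
    intro n G H hn
    obtain ⟨t, ht, hh⟩ := hT n G H hn
    refine ⟨t, ht.trans (Nat.mul_le_mul_left _ (Nat.pow_le_pow_right hn ?_)), hh⟩
    rw [Nat.le_div_iff_mul_le hc0]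
    have h1 : k / (c0 * (E + 1)) * (c0 * (E + 1)) ≤ k := Nat.div_mul_le_self _ _
    have h2 : k / (c0 * (E + 1)) * E * c0 ≤ k / (c0 * (E + 1)) * (c0 * (E + 1)) := by
      have : k / (c0 * (E + 1)) * (c0 * (E + 1)) =
          k / (c0 * (E + 1)) * E * c0 + k / (c0 * (E + 1)) * c0 := by ring
      omega
    omega

/-- **The lower bound for multi-tape machines.** -/
theorem lowerBoundMTM : LowerBoundMTM := by
  obtain ⟨E, hE⟩ := mtm_sim
  obtain ⟨c, k0, hc, hL⟩ := lower_overhead E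
  refine ⟨c, k0, hc, ?_⟩
  intro k hk M hdec C hT
  obtain ⟨he, hL'⟩ := hL k hk
  obtain ⟨M1, K, hM1⟩ := hE M
  refine hL' M1 ?_ (K * (C + 3) ^ E) ?_
  · intro n G H
    obtain ⟨⟨t, ht⟩, hiff⟩ := hdec n G H
    obtain ⟨T0, _, hh, ha⟩ := hM1 _ t ht
    exact ⟨⟨T0, hh⟩, ha.trans hiff⟩
  · intro n G H hn
    obtain ⟨t, ht, hh⟩ := hT n G H hn
    obtain ⟨T0, hT0, hh1, _⟩ := hM1 _ t hh
    rw [encPair_length] at hT0
    exact ⟨T0, transfer_arith hn he ht hT0, hh1⟩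

/-- **The lower bound for random access machines.** -/
theorem lowerBoundRAM : LowerBoundRAM := by
  obtain ⟨E, hE⟩ := ram_sim
  obtain ⟨c, k0, hc, hL⟩ := lower_overhead E
  refine ⟨c, k0, hc, ?_⟩
  intro k hk M hdec C hT
  obtain ⟨he, hL'⟩ := hL k hk
  obtain ⟨M1, K, hM1⟩ := hE M
  refine hL' M1 ?_ (K * (C + 3) ^ E) ?_
  · intro n G H
    obtain ⟨⟨t, ht⟩, hiff⟩ := hdec n G H
    obtain ⟨T0, _, hh, ha⟩ := hM1 _ t ht
    exact ⟨⟨T0, hh⟩, ha.trans hiff⟩
  · intro n G H hn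
    obtain ⟨t, ht, hh⟩ := hT n G H hn
    obtain ⟨T0, hT0, hh1, _⟩ := hM1 _ t hh
    rw [encPair_length] at hT0
    exact ⟨T0, transfer_arith hn he ht hT0, hh1⟩

end Vale.Agent.Lib.P310.M
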