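import Mathlib

/-!
Binary trees as the universal data type, and their serialisation.
-/

namespace Vale.Agent.Lib.P310.M

/-- Binary trees. -/
inductive T
  | leaf
  | node (l r : T)
  deriving DecidableEq

/-- The symbols on the stacks of the machines. -/
inductive Sym
  | b0
  | b1
  | hash
  deriving DecidableEq

instance : Fintype Sym := ⟨{Sym.b0, Sym.b1, Sym.hash}, by intro x; cases x <;> simp⟩

/-- The symbol of a bit. -/
def bitS : Bool → Sym
  | false => Sym.b0
  | true => Sym.b1

/-- The serialisation of a tree: a prefix code (Lukasiewicz word). -/
def ser : T → List Bool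
  | T.leaf => [false]
  | T.node l r => true :: (ser l ++ ser r)

/-- The size of a tree: the length of its serialisation. -/
def sz (x : T) : ℕ := (ser x).length

lemma sz_leaf : sz T.leaf = 1 := rfl

lemma sz_node (l r : T) : sz (T.node l r) = sz l + sz r + 1 := by
  simp [sz, ser]

lemma sz_pos (x : T) : 1 ≤ sz x := by
  cases x <;> simp [sz, ser]

/-- The word of a tree on a stack: the first bit on top. -/
def word (x : T) : List Sym := (ser x).map bitS

lemma word_length (x : T) : (word x).length = sz x := by
  simp [word, sz]

lemma word_leaf : word T.leaf = [Sym.b0] := rfl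

lemma word_node (l r : T) : word (T.node l r) = Sym.b1 :: (word l ++ word r) := by
  simp [word, ser, bitS]

/-- The serialisation is injective, even when followed by anything (prefix code). -/
lemma ser_append_inj {x y : T} {l l' : List Bool} (h : ser x ++ l = ser y ++ l') :
    x = y ∧ l = l' := by
  induction x generalizing y l l' with
  | leaf =>
    cases y with
    | leaf =>
      simp [ser] at h
      exact ⟨rfl, h⟩
    | node a b => simp [ser] at h
  | node a b iha ihb =>
    cases y with
    | leaf => simp [ser] at h
    | node c d =>
      simp only [ser, List.cons_append, List.cons.injEq, true_and, List.append_assoc] at h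
      obtain ⟨rfl, h1⟩ := iha h
      obtain ⟨rfl, h2⟩ := ihb h1
      exact ⟨rfl, h2⟩

lemma ser_inj : Function.Injective ser := by
  intro x y h
  have : ser x ++ [] = ser y ++ [] := by simpa using h
  exact (ser_append_inj this).1

end Vale.Agent.Lib.P310.M
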