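import Vale.Agent.Lib.P310.M.ListGraph
import Vale.Agent.Lib.P310.M.Tree
import Vale.Agent.Lib.P310.N.XorCard

/-!
An XOR system given as list data: each equation is a list of at most five variable names with a
right-hand side, the numbering of the equations is the position in the list.  From the data we get
explicit lists of the vertices and the adjacency bits of the two graphs of the system.
-/

namespace Vale.Agent.Lib.P310.M

open Vale.Agent.Lib.P310 Vale.Agent.Lib.P310.N

/-- List data of an XOR system. -/
abbrev XD := List (List T × Bool)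

/-- All bit vectors of length five. -/
def masks : List (List Bool) :=
  [false, true].flatMap fun a => [false, true].flatMap fun b => [false, true].flatMap fun c =>
    [false, true].flatMap fun d => [false, true].map fun e => [a, b, c, d, e]

/-- The parity of a bit vector. -/
def parL (m : List Bool) : Bool := m.foldr xor false

/-- The value of a variable under a mask. -/
def valV (vs : List T) (m : List Bool) (v : T) : Bool := m.getD (vs.idxOf v) false

/-- The mask has its ones at the positions of the variables only. -/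
def okSupp (vs : List T) (m : List Bool) : Bool :=
  (List.range 5).all fun i => decide (i < vs.length) || !(m.getD i false)

/-- The equation at a position. -/
def eqAt (D : XD) (i : ℕ) : List T × Bool := D.getD i ([], false)

/-- The mask is an assignment of the equation `i` of the parity required in the graph `c`. -/
def okV (D : XD) (c : Bool) (i : ℕ) (m : List Bool) : Bool :=
  okSupp (eqAt D i).1 m && (parL m == (c && (eqAt D i).2))

/-- Base vertices in table form. -/
abbrev BV := ℕ × List Bool

/-- Vertices in table form. -/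
abbrev AV := BV ⊕ (BV × ℕ)

/-- The list of the base vertices of the graph `c`. -/
def baseL (D : XD) (c : Bool) : List BV :=
  (List.range D.length).flatMap fun i => (masks.filter fun m => okV D c i m).map fun m => (i, m)

/-- The number of pendant leaves at a base vertex of the fiber `i`. -/
def multT (D : XD) (i : ℕ) : ℕ := (i + 1) * ((baseL D false).length + 2)

/-- The list of the pendant leaves. -/
def leafL (D : XD) (c : Bool) : List (BV × ℕ) :=
  (baseL D c).flatMap fun u => (List.range (multT D u.1)).map fun j => (u, j)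

/-- The list of all vertices. -/
def allL (D : XD) (c : Bool) : List AV :=
  (baseL D c).map Sum.inl ++ (leafL D c).map Sum.inr

/-- Adjacency of base vertices. -/
def baseAdjB (D : XD) (u u' : BV) : Bool :=
  !(decide (u.1 = u'.1)) && (eqAt D u.1).1.all fun v =>
    !(decide (v ∈ (eqAt D u'.1).1)) ||
      (valV (eqAt D u.1).1 u.2 v == valV (eqAt D u'.1).1 u'.2 v)

/-- Adjacency of vertices. -/
def adjB (D : XD) : AV → AV → Bool
  | Sum.inl u, Sum.inl u' => baseAdjB D u u'
  | Sum.inl u, Sum.inr l => decide (l.1 = u)
  | Sum.inr l, Sum.inl u => decide (l.1 = u)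
  | Sum.inr _, Sum.inr _ => false

/-- The bits of an adjacency matrix of a list of vertices. -/
def bitsOf (D : XD) (L : List AV) : List Bool :=
  L.flatMap fun x => L.map fun y => adjB D x y

/-- The word of the two graphs of the system. -/
def encTable (D : XD) : List Bool :=
  bitsOf D (allL D false) ++ bitsOf D (allL D true)

/-! ### Graphs from lists -/

/-! ### Facts on masks -/

lemma mem_masks : ∀ m : List Bool, m.length = 5 → m ∈ masks := by
  intro m hm
  match m, hm with
  | [a, b, c, d, e], _ =>
    cases a <;> cases b <;> cases c <;> cases d <;> cases e <;> decide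

lemma masks_nodup : masks.Nodup := by decide

lemma masks_length : ∀ m ∈ masks, m.length = 5 := by decide

lemma parL_append (l l' : List Bool) : parL (l ++ l') = xor (parL l) (parL l') := by
  induction l with
  | nil => simp [parL]
  | cons a l ih =>
    simp only [List.cons_append, parL, List.foldr_cons] at ih ⊢
    rw [ih, Bool.xor_assoc]

/-- The element of `ZMod 2` of a truth value. -/
def zb (b : Bool) : ZMod 2 := if b then 1 else 0

lemma zb_xor (a b : Bool) : zb (xor a b) = zb a + zb b := by
  cases a <;> cases b <;> decide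

lemma zb_and (a b : Bool) : zb (a && b) = zb a * zb b := by
  cases a <;> cases b <;> decide

lemma zb_inj {a b : Bool} (h : zb a = zb b) : a = b := by
  revert h
  cases a <;> cases b <;> decide

lemma zb_decide (x : ZMod 2) : zb (decide (x = 1)) = x := by
  revert x
  decide

lemma sum_map_zb (l : List Bool) : (l.map zb).sum = zb (parL l) := by
  induction l with
  | nil => rfl
  | cons a l ih =>
    simp only [List.map_cons, List.sum_cons, ih, parL, List.foldr_cons, zb_xor]

lemma okSupp_getD {vs : List T} {m : List Bool} (h : okSupp vs m = true) {i : ℕ} (hi : i < 5)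
    (hv : vs.length ≤ i) : m.getD i false = false := by
  unfold okSupp at h
  rw [List.all_eq_true] at h
  have := h i (List.mem_range.2 hi)
  simp only [Bool.or_eq_true, decide_eq_true_eq, Bool.not_eq_eq_eq_not, Bool.not_true] at this
  rcases this with h1 | h1
  · omega
  · exact h1

lemma okSupp_of {vs : List T} {m : List Bool}
    (h : ∀ i, i < 5 → vs.length ≤ i → m.getD i false = false) : okSupp vs m = true := by
  unfold okSupp
  rw [List.all_eq_true]
  intro i hi
  have hi' := List.mem_range.1 hi
  by_cases h1 : i < vs.length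
  · simp [h1]
  · have h2 := h i hi' (by omega)
    simp only [List.getD_eq_getElem?_getD] at h2
    simp [h1, h2]

/-- On a list of distinct variables the values are the first bits of the mask. -/
lemma map_valV {vs : List T} (hvs : vs.Nodup) (m : List Bool) (hl : vs.length ≤ m.length) :
    vs.map (valV vs m) = m.take vs.length := by
  apply List.ext_getElem
  · simp [hl]
  · intro i h1 h2
    have hi : i < vs.length := by simpa using h1
    have hi' : i < m.length := by omega
    simp only [List.getElem_map, List.getElem_take, valV]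
    rw [List.Nodup.idxOf_getElem hvs i hi]
    simp [hi']

lemma parL_okSupp {vs : List T} {m : List Bool} (hm : m.length = 5)
    (h : okSupp vs m = true) : parL m = parL (m.take vs.length) := by
  conv_lhs => rw [← List.take_append_drop vs.length m]
  rw [parL_append]
  have : parL (m.drop vs.length) = false := by
    have hall : ∀ x ∈ m.drop vs.length, x = false := by
      intro x hx
      obtain ⟨i, hi, hi'⟩ := List.getElem_of_mem hx
      have hi2 : i + vs.length < m.length := by
        simp only [List.length_drop] at hi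
        omega
      have := okSupp_getD h (i := i + vs.length) (by omega) (by omega)
      rw [List.getD_eq_getElem _ _ hi2] at this
      rw [← hi', List.getElem_drop]
      simpa [Nat.add_comm] using this
    generalize m.drop vs.length = l at hall
    induction l with
    | nil => rfl
    | cons a l ih =>
      simp only [parL, List.foldr_cons]
      have h1 := hall a (by simp)
      have h2 := ih (fun x hx => hall x (by simp [hx]))
      simp only [parL] at h2
      rw [h1, h2]
      rfl
  rw [this]
  simp

/-! ### The specification -/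

/-- The list data `D` describes the system `X`, the variables being named by `nm`. -/
structure Tab (X : XorSys) (nm : X.Var → T) (D : XD) : Prop where
  inj : Function.Injective nm
  len : D.length = Fintype.card X.Eqn
  nodup : ∀ e, (eqAt D (X.num e).val).1.Nodup
  le5 : ∀ e, (eqAt D (X.num e).val).1.length ≤ 5
  mem : ∀ e t, t ∈ (eqAt D (X.num e).val).1 ↔ ∃ v ∈ X.vars e, nm v = t
  rhs : ∀ e, X.rhs e = zb (eqAt D (X.num e).val).2

namespace Tab

variable {X : XorSys} {nm : X.Var → T} {D : XD} {c : ZMod 2} (hD : Tab X nm D)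

/-- The names of the variables of an equation. -/
def vsOf (X : XorSys) (D : XD) (e : X.Eqn) : List T := (eqAt D (X.num e).val).1

include hD

/-- The sum of the values over the variables of an equation is the parity of the mask. -/
lemma sum_vars (e : X.Eqn) (m : List Bool) (hm : m.length = 5)
    (hok : okSupp (vsOf X D e) m = true) (a : X.Var → ZMod 2)
    (ha : ∀ v ∈ X.vars e, a v = zb (valV (vsOf X D e) m (nm v))) :
    ∑ v ∈ X.vars e, a v = zb (parL m) := by
  have h1 : ∑ v ∈ X.vars e, a v = ∑ v ∈ X.vars e, zb (valV (vsOf X D e) m (nm v)) :=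
    Finset.sum_congr rfl ha
  have h2 : (X.vars e).image nm = (vsOf X D e).toFinset := by
    ext t
    simp only [Finset.mem_image, List.mem_toFinset]
    exact (hD.mem e t).symm
  have h3 : ∑ v ∈ X.vars e, zb (valV (vsOf X D e) m (nm v)) =
      ∑ t ∈ (X.vars e).image nm, zb (valV (vsOf X D e) m t) := by
    rw [Finset.sum_image (fun x _ y _ h => hD.inj h)]
  have hnd : (vsOf X D e).Nodup := hD.nodup e
  rw [h1, h3, h2, List.sum_toFinset _ hnd]
  have hl : (vsOf X D e).length ≤ 5 := hD.le5 e
  have h4 : (vsOf X D e).map (fun t => zb (valV (vsOf X D e) m t)) =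
      ((vsOf X D e).map (valV (vsOf X D e) m)).map zb := by
    simp
  rw [h4, map_valV hnd m (by omega), sum_map_zb, ← parL_okSupp hm hok]

open scoped Classical in
/-- The value of a name under a vertex. -/
noncomputable def bitOf (u : X.Vx c) (t : T) : Bool := decide (∃ v ∈ X.vars u.e, nm v = t ∧ u.a v = 1)

/-- The mask of a vertex. -/
noncomputable def maskOf (D : XD) (nm : X.Var → T) (u : X.Vx c) : List Bool :=
  (List.range 5).map fun i => (((vsOf X D u.e)[i]?).map (bitOf (nm := nm) u)).getD false

/-- The table form of a base vertex. -/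
noncomputable def fb (D : XD) (nm : X.Var → T) (u : X.Vx c) : BV := ((X.num u.e).val, maskOf D nm u)

omit hD in
lemma maskOf_length (u : X.Vx c) : (maskOf D nm u).length = 5 := by
  simp [maskOf]

omit hD in
lemma maskOf_getD (u : X.Vx c) {i : ℕ} (hi : i < 5) :
    (maskOf D nm u).getD i false = (((vsOf X D u.e)[i]?).map (bitOf (nm := nm) u)).getD false := by
  simp [maskOf, hi]

lemma bitOf_nm (u : X.Vx c) {v : X.Var} (hv : v ∈ X.vars u.e) :
    bitOf (nm := nm) u (nm v) = decide (u.a v = 1) := by
  unfold bitOf
  rw [Bool.eq_iff_iff, decide_eq_true_iff, decide_eq_true_iff]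
  constructor
  · rintro ⟨v', _, h2, h3⟩
    rw [← hD.inj h2]
    exact h3
  · intro h
    exact ⟨v, hv, rfl, h⟩

lemma valV_maskOf (u : X.Vx c) {v : X.Var} (hv : v ∈ X.vars u.e) :
    valV (vsOf X D u.e) (maskOf D nm u) (nm v) = decide (u.a v = 1) := by
  have hmem : nm v ∈ vsOf X D u.e := (hD.mem u.e (nm v)).2 ⟨v, hv, rfl⟩
  have hl : (vsOf X D u.e).length ≤ 5 := hD.le5 u.e
  have hlt := List.idxOf_lt_length_iff.2 hmem
  unfold valV
  rw [maskOf_getD u (by omega)]
  rw [List.getElem?_eq_getElem hlt, List.getElem_idxOf]
  simp only [Option.map_some, Option.getD_some]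
  exact hD.bitOf_nm u hv

omit hD in
lemma okSupp_maskOf (u : X.Vx c) : okSupp (vsOf X D u.e) (maskOf D nm u) = true := by
  apply okSupp_of
  intro i hi hv
  rw [maskOf_getD u hi, List.getElem?_eq_none hv]
  rfl

lemma parL_maskOf (u : X.Vx c) : zb (parL (maskOf D nm u)) = c * X.rhs u.e := by
  rw [← u.par]
  symm
  apply hD.sum_vars u.e _ (maskOf_length u) (okSupp_maskOf u)
  intro v hv
  rw [hD.valV_maskOf u hv, zb_decide]

lemma fb_inj : Function.Injective (fb D nm : X.Vx c → BV) := by
  rintro u u' h
  simp only [fb, Prod.mk.injEq] at h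
  obtain ⟨h1, h2⟩ := h
  have he : u.e = u'.e := X.num.injective (Fin.ext h1)
  apply XorSys.Vx.ext he
  funext v
  by_cases hv : v ∈ X.vars u.e
  · have hv' : v ∈ X.vars u'.e := he ▸ hv
    have e1 := hD.valV_maskOf u hv
    have e2 := hD.valV_maskOf u' hv'
    rw [← he, ← h2] at e2
    rw [← zb_decide (u.a v), ← zb_decide (u'.a v), ← e1, ← e2]
  · have hv' : v ∉ X.vars u'.e := he ▸ hv
    rw [u.supp v hv, u'.supp v hv']

open scoped Classical in
/-- The vertex of an acceptable mask. -/
lemma exists_of_ok (e : X.Eqn) (m : List Bool) (hm : m.length = 5)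
    (hok : okSupp (vsOf X D e) m = true) (hx : zb (parL m) = c * X.rhs e) :
    ∃ u : X.Vx c, fb D nm u = ((X.num e).val, m) := by
  let a : X.Var → ZMod 2 := fun v => if v ∈ X.vars e then zb (valV (vsOf X D e) m (nm v)) else 0
  have hsum : ∑ v ∈ X.vars e, a v = c * X.rhs e := by
    rw [← hx]
    apply hD.sum_vars e m hm hok
    intro v hv
    simp [a, hv]
  let u : X.Vx c := ⟨e, a, fun v hv => by simp [a, hv], hsum⟩
  refine ⟨u, ?_⟩
  have hl : (vsOf X D e).length ≤ 5 := hD.le5 e
  have hnd : (vsOf X D e).Nodup := hD.nodup e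
  have hmask : maskOf D nm u = m := by
    apply List.ext_getElem
    · rw [maskOf_length, hm]
    · intro i h1 h2
      have hi : i < 5 := by rw [hm] at h2; exact h2
      have h3 := maskOf_getD (D := D) (nm := nm) u hi
      rw [List.getD_eq_getElem _ _ h1] at h3
      rw [h3]
      show (((vsOf X D e)[i]?).map (bitOf (nm := nm) u)).getD false = _
      by_cases hiv : i < (vsOf X D e).length
      · rw [List.getElem?_eq_getElem hiv]
        simp only [Option.map_some, Option.getD_some]
        obtain ⟨v, hv, hnm⟩ := (hD.mem e _).1 (List.getElem_mem hiv)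
        rw [← hnm, hD.bitOf_nm u hv]
        have hav : u.a v = zb (valV (vsOf X D e) m (nm v)) := by
          show a v = _
          simp [a, hv]
        rw [hav, hnm]
        have hval : valV (vsOf X D e) m (vsOf X D e)[i] = m[i] := by
          unfold valV
          rw [List.Nodup.idxOf_getElem hnd i hiv, List.getD_eq_getElem _ _ h2]
        rw [hval]
        cases m[i] <;> decide
      · rw [List.getElem?_eq_none (by omega)]
        have h4 := okSupp_getD hok hi (by omega)
        rw [List.getD_eq_getElem _ _ h2] at h4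
        rw [h4]
        rfl
  show ((X.num e).val, maskOf D nm u) = _
  rw [hmask]

omit hD in
lemma mem_baseL (c' : Bool) (i : ℕ) (m : List Bool) :
    (i, m) ∈ baseL D c' ↔ i < D.length ∧ m ∈ masks ∧ okV D c' i m = true := by
  simp only [baseL, List.mem_flatMap, List.mem_range, List.mem_map, List.mem_filter,
    Prod.mk.injEq]
  constructor
  · rintro ⟨i', hi', m', ⟨h1, h2⟩, rfl, rfl⟩
    exact ⟨hi', h1, h2⟩
  · rintro ⟨h1, h2, h3⟩
    exact ⟨i, h1, m, ⟨h2, h3⟩, rfl, rfl⟩

omit hD in
lemma baseL_nodup (c' : Bool) : (baseL D c').Nodup := by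
  unfold baseL
  rw [List.nodup_flatMap]
  constructor
  · intro i _
    apply List.Nodup.map
    · intro m m' h
      simpa using h
    · exact masks_nodup.filter _
  · apply List.Pairwise.imp _ List.nodup_range
    intro i j hij
    rw [Function.onFun, List.disjoint_left]
    intro x hx hx'
    simp only [List.mem_map] at hx hx'
    obtain ⟨m, _, rfl⟩ := hx
    obtain ⟨m', _, h'⟩ := hx'
    exact hij (by simpa using (congrArg Prod.fst h').symm)

/-- `okV` for the list data of a system. -/
lemma okV_iff (e : X.Eqn) (m : List Bool) (c' : Bool) (hc : c = zb c') :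
    okV D c' (X.num e).val m = true ↔
      okSupp (vsOf X D e) m = true ∧ zb (parL m) = c * X.rhs e := by
  unfold okV
  rw [Bool.and_eq_true, beq_iff_eq, hc, hD.rhs e, ← zb_and]
  constructor
  · rintro ⟨h1, h2⟩
    exact ⟨h1, by rw [h2]⟩
  · rintro ⟨h1, h2⟩
    exact ⟨h1, zb_inj h2⟩

lemma fb_mem (c' : Bool) (hc : c = zb c') (u : X.Vx c) : fb D nm u ∈ baseL D c' := by
  unfold fb
  rw [mem_baseL]
  refine ⟨?_, mem_masks _ (maskOf_length u), ?_⟩
  · rw [hD.len]
    exact (X.num u.e).isLt
  · rw [hD.okV_iff u.e _ c' hc]
    exact ⟨okSupp_maskOf u, hD.parL_maskOf u⟩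

lemma baseL_range (c' : Bool) (hc : c = zb c') (x : BV) :
    x ∈ baseL D c' ↔ ∃ u : X.Vx c, fb D nm u = x := by
  constructor
  · obtain ⟨i, m⟩ := x
    intro h
    obtain ⟨h1, h2, h3⟩ := (mem_baseL c' i m).1 h
    rw [hD.len] at h1
    have he : (X.num (X.num.symm ⟨i, h1⟩)).val = i := by simp
    rw [← he] at h3
    obtain ⟨h4, h5⟩ := (hD.okV_iff _ m c' hc).1 h3
    have := hD.exists_of_ok (c := c) _ m (masks_length m h2) h4 h5
    rwa [he] at this
  · rintro ⟨u, rfl⟩
    exact hD.fb_mem c' hc u

lemma card_vx (c' : Bool) (hc : c = zb c') : (baseL D c').length = Fintype.card (X.Vx c) :=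
  length_eq_card _ (fb D nm) hD.fb_inj (hD.baseL_range c' hc) (baseL_nodup c')

lemma multT_eq (e : X.Eqn) : multT D (X.num e).val = X.mult e := by
  unfold multT XorSys.mult
  rw [hD.card_vx (c := 0) false (by decide)]

/-! The vertices. -/

/-- The table form of a vertex. -/
noncomputable def fv (D : XD) (nm : X.Var → T) : X.Vtx c → AV
  | Sum.inl u => Sum.inl (fb D nm u)
  | Sum.inr l => Sum.inr (fb D nm l.1, l.2.val)

lemma fv_inj : Function.Injective (fv D nm : X.Vtx c → AV) := by
  rintro (u | ⟨u, j⟩) (u' | ⟨u', j'⟩) h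
  · simp only [fv, Sum.inl.injEq] at h
    rw [hD.fb_inj h]
  · simp [fv] at h
  · simp [fv] at h
  · simp only [fv, Sum.inr.injEq, Prod.mk.injEq] at h
    obtain ⟨h1, h2⟩ := h
    have h3 := hD.fb_inj h1
    subst h3
    rw [Fin.ext h2]

omit hD in
lemma mem_leafL (c' : Bool) (u : BV) (j : ℕ) :
    (u, j) ∈ leafL D c' ↔ u ∈ baseL D c' ∧ j < multT D u.1 := by
  simp only [leafL, List.mem_flatMap, List.mem_map, List.mem_range, Prod.mk.injEq]
  constructor
  · rintro ⟨u', h1, j', h2, rfl, rfl⟩
    exact ⟨h1, h2⟩
  · rintro ⟨h1, h2⟩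
    exact ⟨u, h1, j, h2, rfl, rfl⟩

lemma allL_range (c' : Bool) (hc : c = zb c') (x : AV) :
    x ∈ allL D c' ↔ ∃ u : X.Vtx c, fv D nm u = x := by
  unfold allL
  rw [List.mem_append, List.mem_map, List.mem_map]
  constructor
  · rintro (⟨u, hu, rfl⟩ | ⟨⟨u, j⟩, hu, rfl⟩)
    · obtain ⟨u0, rfl⟩ := (hD.baseL_range c' hc u).1 hu
      exact ⟨Sum.inl u0, rfl⟩
    · obtain ⟨h1, h2⟩ := (mem_leafL c' u j).1 hu
      obtain ⟨u0, rfl⟩ := (hD.baseL_range c' hc u).1 h1
      have h3 : j < X.mult u0.e := by
        rw [← hD.multT_eq]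
        exact h2
      exact ⟨Sum.inr ⟨u0, ⟨j, h3⟩⟩, rfl⟩
  · rintro ⟨u | ⟨u, j⟩, rfl⟩
    · exact Or.inl ⟨_, hD.fb_mem c' hc u, rfl⟩
    · refine Or.inr ⟨(fb D nm u, j.val), ?_, rfl⟩
      rw [mem_leafL]
      refine ⟨hD.fb_mem c' hc u, ?_⟩
      show j.val < multT D (X.num u.e).val
      rw [hD.multT_eq]
      exact j.isLt

omit hD in
lemma allL_nodup (c' : Bool) : (allL D c').Nodup := by
  unfold allL
  rw [List.nodup_append]
  refine ⟨(baseL_nodup c').map Sum.inl_injective, ?_, ?_⟩
  · apply List.Nodup.map Sum.inr_injective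
    unfold leafL
    rw [List.nodup_flatMap]
    constructor
    · intro u _
      apply List.Nodup.map
      · intro j j' h
        simpa using h
      · exact List.nodup_range
    · apply List.Pairwise.imp _ (baseL_nodup c')
      intro u u' hu
      rw [Function.onFun, List.disjoint_left]
      intro x hx hx'
      simp only [List.mem_map] at hx hx'
      obtain ⟨j, _, rfl⟩ := hx
      obtain ⟨j', _, h'⟩ := hx'
      exact hu (by simpa using (congrArg Prod.fst h').symm)
  · intro a ha b hb hab
    simp only [List.mem_map] at ha hb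
    obtain ⟨u, _, rfl⟩ := ha
    obtain ⟨u', _, rfl⟩ := hb
    cases hab

/-- Adjacency in table form. -/
lemma baseAdj_iff (u u' : X.Vx c) :
    X.baseAdj u u' ↔ baseAdjB D (fb D nm u) (fb D nm u') = true := by
  unfold XorSys.baseAdj baseAdjB
  simp only [fb, Bool.and_eq_true, Bool.not_eq_true', List.all_eq_true,
    Bool.or_eq_true, beq_iff_eq]
  refine and_congr ?_ ?_
  · constructor
    · intro h
      exact decide_eq_false fun h' => h (X.num.injective (Fin.ext h'))
    · intro h h'
      exact of_decide_eq_false h (by rw [h'])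
  · constructor
    · intro h t ht
      by_cases ht' : t ∈ (eqAt D (X.num u'.e).val).1
      · right
        obtain ⟨v, hv, rfl⟩ := (hD.mem u.e t).1 ht
        obtain ⟨v', hv', hn⟩ := (hD.mem u'.e _).1 ht'
        have hvv := hD.inj hn
        subst hvv
        have e1 := hD.valV_maskOf u hv
        have e2 := hD.valV_maskOf u' hv'
        unfold vsOf at e1 e2
        rw [e1, e2, h _ hv hv']
      · left
        exact decide_eq_false ht'
    · intro h v hv hv'
      have ht : nm v ∈ (eqAt D (X.num u.e).val).1 := (hD.mem u.e _).2 ⟨v, hv, rfl⟩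
      have ht' : nm v ∈ (eqAt D (X.num u'.e).val).1 := (hD.mem u'.e _).2 ⟨v, hv', rfl⟩
      rcases h _ ht with h1 | h1
      · exact absurd ht' (of_decide_eq_false h1)
      · have e1 := hD.valV_maskOf u hv
        have e2 := hD.valV_maskOf u' hv'
        unfold vsOf at e1 e2
        rw [e1, e2] at h1
        rw [← zb_decide (u.a v), ← zb_decide (u'.a v), h1]

lemma adj_iff (x y : X.Vtx c) : (X.Gr c).Adj x y ↔ adjB D (fv D nm x) (fv D nm y) = true := by
  rcases x with u | l <;> rcases y with u' | l'
  · exact hD.baseAdj_iff u u'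
  · show l'.1 = u ↔ decide (fb D nm l'.1 = fb D nm u) = true
    rw [decide_eq_true_iff]
    exact ⟨fun h => by rw [h], fun h => hD.fb_inj h⟩
  · show l.1 = u' ↔ decide (fb D nm l.1 = fb D nm u') = true
    rw [decide_eq_true_iff]
    exact ⟨fun h => by rw [h], fun h => hD.fb_inj h⟩
  · show False ↔ false = true
    simp

/-- The main theorem of the tables: the word computed from the list data is the word of a pair of
graphs isomorphic to the two graphs of the system. -/
theorem spec (hne : ∀ e, (X.vars e).Nonempty) :
    ∃ (n : ℕ) (G H : SimpleGraph (Fin n)), encPair G H = encTable D ∧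
      (∀ t, WLEquiv t G H ↔ WLEquiv t (X.Gr 0) (X.Gr 1)) ∧ (Nonempty X.Eqn → 1 ≤ n) := by
  have h0 : (allL D false).length = Fintype.card (X.Vtx 0) :=
    length_eq_card _ (fv D nm) hD.fv_inj (hD.allL_range false (by decide)) (allL_nodup false)
  have h1 : (allL D true).length = Fintype.card (X.Vtx 0) := by
    rw [← X.card_vtx_eq hne]
    exact length_eq_card _ (fv D nm) hD.fv_inj (hD.allL_range true (by decide)) (allL_nodup true)
  obtain ⟨G, ⟨φ⟩, hG⟩ := graph_of_list (X.Gr 0) (allL D false) (fv D nm) (adjB D) hD.fv_inj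
    (hD.allL_range false (by decide)) (allL_nodup false) hD.adj_iff _ h0
  obtain ⟨H, ⟨ψ⟩, hH⟩ := graph_of_list (X.Gr 1) (allL D true) (fv D nm) (adjB D) hD.fv_inj
    (hD.allL_range true (by decide)) (allL_nodup true) hD.adj_iff _ h1
  refine ⟨_, G, H, ?_, fun t => wlEquiv_congr φ ψ t, ?_⟩
  · unfold encPair encTable bitsOf
    rw [hG, hH]
  · rintro ⟨e⟩
    have : Nonempty (X.Vtx 0) := ⟨Sum.inl ⟨e, fun _ => 0, fun _ _ => rfl, by simp⟩⟩
    exact Fintype.card_pos

end Tab

end Vale.Agent.Lib.P310.M
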